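import Vale.Agent.P195.FC

/- Dimension shifting, and the passage from exact evaluations to vanishing of Ext. -/

set_option linter.unusedVariables false

namespace Vale.Agent.P195

variable {k : Type} [Field k] [CharP k 2]
variable {R I A : Type} [Ring R] [AddCommGroup I] [Fintype A]
variable {X Y : Type} [AddCommGroup X] [Module k X] [AddCommGroup Y] [Module k Y]

structure Eqv (B : Rp k R X) (C : Cx k X) : Prop where
  mem : ∀ n r x, x ∈ C.E n → B.ρ r x ∈ C.E n
  comm : ∀ r x, C.d (B.ρ r x) = B.ρ r (C.d x)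

variable {B : Rp k R X} {C : Cx k X}

def Eqv.G (h : Eqv B C) (n : ℤ) : Rp k R X := B.sub (C.E n) (h.mem n)

def Eqv.Z (h : Eqv B C) (n : ℤ) : Rp k R X :=
  B.sub (C.E n ⊓ LinearMap.ker C.d) fun r x hx => ⟨h.mem n r x hx.1, by
    have : C.d x = 0 := hx.2
    change C.d _ = 0
    rw [h.comm, this, map_zero]⟩

theorem shift (F : FC R I A) (h : Eqv B C) (S : Rp k R Y) (aug : X →ₗ[k] Y) (t b : ℤ)
    (hU : ∀ y, y ∈ S.U) (ad : ∀ n x, x ∈ C.E n → aug (C.d x) = 0)
    (ha : ∀ n r x, x ∈ C.E n → C.d x = 0 → aug (B.ρ r x) = S.ρ r (aug x))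
    (h0 : ∀ n x, n ≠ t → x ∈ C.E n → aug x = 0)
    (hs : ∀ i n z, z ∈ C.E n → C.d z = 0 → aug z = 0 → B.ρ (F.e i) z = z →
      ∃ y ∈ C.E (n + 1), C.d y = z)
    (hs' : ∀ s, ∃ z ∈ C.E t, C.d z = 0 ∧ aug z = s) (hb : b < t) (hb' : ∀ x ∈ C.E b, x = 0)
    (ac : ∀ n a, (F.L (h.G n)).Ac a) (m : ℕ) :
    Le (F.L (h.Z (t + 1 + m))) (F.L S) (m + 2) := by
  let Zr : ℤ → Rp k R X := fun n => B.sub ((h.Z n).U ⊓ LinearMap.ker aug) fun r x hx =>
    ⟨(h.Z n).stab r x hx.1, by
      have : aug x = 0 := hx.2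
      change aug _ = 0
      rw [ha n r x hx.1.1 hx.1.2, this, map_zero]⟩
  have s1 : ∀ n, Le (F.L (h.Z (n + 1))) (F.L (Zr n)) 1 := by
    intro n
    refine (F.ses (f := LinearMap.id) (g := C.d) (W := h.G (n + 1)) (W' := h.Z (n + 1))
      (W'' := Zr n)
      ⟨fun x hx => hx.1, fun _ _ _ => rfl⟩
      ⟨fun x hx => ⟨⟨C.mem _ _ hx, C.dd x⟩, ad _ _ hx⟩, fun r x _ => h.comm r x⟩
      (fun _ _ h => h) (fun x hx => hx.2) (fun y hy h => ⟨y, ⟨hy, h⟩, rfl⟩)
      (fun i z hz e => hs i n z hz.1.1 hz.1.2 hz.2 e)).le (ac _)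
  have s2 : ∀ n, n ≠ t → Zr n = h.Z n := by
    intro n hn
    have : (h.Z n).U ⊓ LinearMap.ker aug = (h.Z n).U :=
      inf_eq_left.2 fun x hx => h0 n x hn hx.1
    simp only [Zr, Eqv.Z, Rp.sub] at this ⊢
    congr 1
  have s3 : ∀ j : ℕ, b + j ≤ t → ∀ a, (F.L (h.Z (b + j))).Ac a := by
    intro j
    induction j with
    | zero => exact fun _ => F.ac_bot _ fun x hx => hb' x (by simpa using hx.1)
    | succ j ih =>
      intro hj a
      push_cast at hj ⊢
      rw [← add_assoc]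
      refine (s1 _ a).1 ?_
      rw [s2 _ (by omega)]
      exact ih (by omega) _
  have s4 : ∀ a, (F.L (h.Z t)).Ac a := by
    obtain ⟨j, hj⟩ := Int.le.dest hb.le
    rw [← hj]
    exact s3 j hj.le
  have s5 : Le (F.L (Zr t)) (F.L S) 1 :=
    (F.ses (f := LinearMap.id) (g := aug) (W := h.Z t) (W' := Zr t) (W'' := S)
      ⟨fun x hx => hx.1, fun _ _ _ => rfl⟩
      ⟨fun x _ => hU _, fun r x hx => ha t r x hx.1 hx.2⟩ (fun _ _ h => h) (fun x hx => hx.2)
      (fun y hy h => ⟨y, ⟨hy, h⟩, rfl⟩) (fun i z _ _ => by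
        obtain ⟨y, h1, h2, h3⟩ := hs' z
        exact ⟨y, ⟨h1, h2⟩, h3⟩)).le s4
  induction m with
  | zero => simpa using (s1 t).trans s5
  | succ m ih =>
    have := s1 (t + 1 + m)
    rw [s2 _ (by omega)] at this
    have := this.trans ih
    push_cast
    rwa [← add_assoc, show (m : ℤ) + 1 + 2 = 1 + (m + 2) by ring]

section Alg

variable (k) (Λ : Type) [Ring Λ] [Algebra k Λ]

def regL : Rp k Λ Λ :=
  ⟨⊤, fun r => LinearMap.mulLeft k r, fun a b x => mul_assoc a b x, by ext; simp,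
    fun _ _ _ => trivial⟩

def regR : Rp k Λᵐᵒᵖ Λ :=
  ⟨⊤, fun r => LinearMap.mulRight k r.unop, fun a b x => (mul_assoc x b.unop a.unop).symm,
    by ext; simp, fun _ _ _ => trivial⟩

variable {k Λ}

theorem eqv_reg (F : FC Λ I A) : Eqv ((regL k Λ).pi I) (F.op.L (regR k Λ)) where
  mem := fun n r x hx i => ⟨trivial, by
    have : x i * F.e i = x i := (hx i).2.1
    change r * x i * F.e i = r * x i
    rw [mul_assoc, this], fun h => by
    change r * x i = 0
    rw [(hx i).2.2 h, mul_zero]⟩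
  comm := fun r x => by
    ext i
    change ∑ a, r * x _ * _ = r * ∑ a, x _ * _
    simp only [Finset.mul_sum, mul_assoc]

theorem ac_G (F F' : FC Λ I A) (h : ∀ a, (F.L (regL k Λ)).Ac a) (n a : ℤ) :
    (F.L ((eqv_reg (k := k) F').G n)).Ac a := by
  refine F.ac_retract (W' := (regL k Λ).pi I) (γ := LinearMap.id) (β := F'.op.pr (regR k Λ) n)
    ⟨fun _ _ _ _ => trivial, fun _ _ _ => rfl⟩
    ⟨fun x _ => F'.op.pr_mem (regR k Λ) n fun _ => trivial, fun r x _ => ?_⟩
    (fun _ x hx _ => (FC.pr_of_mem hx).symm) (F.ac_pi _ _ (h a))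
  ext i
  change (if _ then r * x i * _ else 0) = r * (if _ then x i * _ else 0)
  split_ifs <;> simp [mul_assoc]

variable (k) in
def GM (F : FC Λ I A) (n : ℤ) : Submodule Λ (I → Λ) where
  carrier := F.op.E (regR k Λ) n
  add_mem' := Submodule.add_mem _
  zero_mem' := Submodule.zero_mem _
  smul_mem' := fun r x hx => (eqv_reg F).mem n r x hx

variable (k) in
def dM (F : FC Λ I A) : (I → Λ) →ₗ[Λ] (I → Λ) where
  toFun := F.op.δ (regR k Λ)
  map_add' := map_add _
  map_smul' := fun r x => (eqv_reg F).comm r x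

variable (k) in
def prM (F : FC Λ I A) (n : ℤ) : (I → Λ) →ₗ[Λ] GM k F n where
  toFun := fun x => ⟨F.op.pr (regR k Λ) n x, F.op.pr_mem _ n fun _ => trivial⟩
  map_add' := fun x y => Subtype.ext (map_add _ x y)
  map_smul' := fun r x => by
    ext i
    change (if _ then r * x i * _ else 0) = r * (if _ then x i * _ else 0)
    split_ifs <;> simp [mul_assoc]

variable (k) in
def ZM (F : FC Λ I A) (n : ℤ) : Submodule Λ (I → Λ) := GM k F n ⊓ LinearMap.ker (dM k F)

theorem ZM_le (F : FC Λ I A) (n : ℤ) : ZM k F n ≤ GM k F n := inf_le_left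

variable [DecidableEq I]

theorem dM_single (F : FC Λ I A) (i : I) :
    dM k F (Pi.single i 1) = ∑ a, F.c a i • (Pi.single (i + F.v a) 1 : I → Λ) := by
  ext l
  rw [Finset.sum_apply]
  change ∑ a, (Pi.single i 1 : I → Λ) (l + -F.v a) * F.c a (l + -F.v a) = _
  refine Finset.sum_congr rfl fun a _ => ?_
  by_cases h : l = i + F.v a
  · subst h
    simp
  · have : l + -F.v a ≠ i := fun h' => h (by rw [← h']; abel)
    simp [h, this]

theorem GM_expand (F : FC Λ I A) {n : ℤ} {S : Finset I}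
    (hS : ∀ i, -F.deg i = n → F.e i ≠ 0 → i ∈ S) {x : I → Λ} (hx : x ∈ GM k F n) :
    x = ∑ i ∈ S, x i • (Pi.single i 1 : I → Λ) := by
  ext l
  rw [Finset.sum_apply]
  by_cases hl : l ∈ S
  · rw [Finset.sum_eq_single l (fun i _ h => by simp [h.symm]) (fun h => absurd hl h)]
    simp
  · rw [Finset.sum_eq_zero fun i hi => by
      have : l ≠ i := fun h => hl (h ▸ hi)
      simp [this]]
    by_contra h
    refine hl (hS l (by_contra fun h' => h ((hx l).2.2 h')) fun h' => h ?_)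
    have : x l * F.e l = x l := (hx l).2.1
    rw [← this, h', mul_zero]

theorem GM_proj (F : FC Λ I A) {n : ℤ} {S : Finset I}
    (hS : ∀ i, -F.deg i = n → F.e i ≠ 0 → i ∈ S) :
    Module.Projective Λ (GM k F n) ∧ Module.Finite Λ (GM k F n) := by
  let s : (S → Λ) →ₗ[Λ] GM k F n := prM k F n ∘ₗ
    ∑ i : S, (LinearMap.proj i : (S → Λ) →ₗ[Λ] Λ).smulRight (Pi.single (i : I) 1 : I → Λ)
  let r : GM k F n →ₗ[Λ] (S → Λ) :=
    LinearMap.pi fun i => (LinearMap.proj (i : I)) ∘ₗ (GM k F n).subtype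
  have e : s ∘ₗ r = LinearMap.id := by
    ext1 x
    apply Subtype.ext
    have h1 : (∑ i : S, (LinearMap.proj i : (S → Λ) →ₗ[Λ] Λ).smulRight
        (Pi.single (i : I) 1 : I → Λ)) (r x) = x := by
      rw [LinearMap.sum_apply, GM_expand F hS x.2, ← Finset.sum_coe_sort S]
      rfl
    change F.op.pr (regR k Λ) n _ = _
    rw [h1]
    exact FC.pr_of_mem x.2
  exact ⟨Module.Projective.of_split r s e,
    Module.Finite.of_surjective s fun x => ⟨r x, LinearMap.congr_fun e x⟩⟩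

theorem extend (F : FC Λ I A) (hS : ∀ n, ∃ S : Finset I, ∀ i, -F.deg i = n → F.e i ≠ 0 → i ∈ S)
    (hR : ∀ n, (F.op.L (regR k Λ)).Ac n) [Module Λ X] (W : Rp k Λ X) (U : Submodule Λ X)
    (hρ : ∀ r x, W.ρ r x = r • x) (hU : ∀ x, x ∈ W.U ↔ x ∈ U) (n : ℤ)
    (ac : (F.L W).Ac (-(n + 1))) (φ : ZM k F n →ₗ[Λ] U) :
    ∃ ψ : GM k F n →ₗ[Λ] U, ∀ x : ZM k F n, ψ ⟨x, x.2.1⟩ = φ x := by
  obtain ⟨S, hS1⟩ := hS n
  obtain ⟨S', hS2⟩ := hS (n + 1)
  let dZ : GM k F (n + 1) →ₗ[Λ] ZM k F n := LinearMap.codRestrict _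
    (dM k F ∘ₗ (GM k F (n + 1)).subtype) fun x =>
      ⟨(F.op.L (regR k Λ)).mem n x x.2, (F.op.L (regR k Λ)).dd x⟩
  let θ : (I → Λ) →ₗ[Λ] X := U.subtype ∘ₗ φ ∘ₗ dZ ∘ₗ prM k F (n + 1)
  have hw : (fun i => θ (Pi.single i 1)) ∈ F.E W (-(n + 1)) := by
    intro i
    refine ⟨(hU _).2 (φ _).2, ?_, fun h => ?_⟩
    · rw [hρ, ← map_smul]
      have : prM k F (n + 1) (F.e i • Pi.single i 1) = prM k F (n + 1) (Pi.single i 1) := by
        ext l
        change (if _ then (F.e i * (Pi.single i 1 : I → Λ) l) * F.e l else 0) =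
          (if _ then (Pi.single i 1 : I → Λ) l * F.e l else 0)
        by_cases hl : l = i
        · subst hl
          simp [F.idem]
        · simp [hl]
      simp only [θ, LinearMap.comp_apply, this]
    · have : prM k F (n + 1) (Pi.single i 1) = 0 := by
        ext l
        change (if -F.deg l = n + 1 then (Pi.single i 1 : I → Λ) l * F.e l else 0) = 0
        by_cases hl : l = i
        · subst hl
          rw [if_neg (by omega)]
        · simp [hl]
      simp only [θ, LinearMap.comp_apply, this, map_zero]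
  obtain ⟨w', hw', e⟩ := ac _ hw (by
    ext i
    change ∑ a, _ = 0
    simp only [hρ, ← map_smul, ← map_sum]
    rw [← dM_single (k := k)]
    have : dZ (prM k F (n + 1) (dM k F (Pi.single i 1))) = 0 := by
      apply Subtype.ext
      change F.op.δ _ (F.op.pr _ (n + 1) (F.op.δ _ _)) = 0
      rw [F.op.δ_pr, F.op.δδ, map_zero]
    simp only [θ, LinearMap.comp_apply, this, map_zero])
  let Φ : (I → Λ) →ₗ[Λ] X := ∑ i ∈ S, (LinearMap.proj i : (I → Λ) →ₗ[Λ] Λ).smulRight (w' i)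
  have hΦ : ∀ x, Φ x = ∑ i ∈ S, x i • w' i := fun x => by simp [Φ]
  have h1 : ∀ l, Φ (Pi.single l 1) = w' l := by
    intro l
    rw [hΦ]
    by_cases hl : l ∈ S
    · rw [Finset.sum_eq_single l (fun i _ h => by simp [h]) (fun h => absurd hl h)]
      simp
    · rw [Finset.sum_eq_zero fun i hi => by
        have : i ≠ l := fun h => hl (h ▸ hi)
        simp [this]]
      by_contra h
      refine hl (hS1 l (by_contra fun h' => h ((hw' l).2.2 (by omega)).symm) fun h' => h ?_)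
      rw [← (hw' l).2.1, h', W.zero, LinearMap.zero_apply]
  have h2 : ∀ x ∈ GM k F (n + 1), Φ (dM k F x) = θ x := by
    intro x hx
    rw [GM_expand F hS2 hx]
    simp only [map_sum, map_smul, dM_single, h1]
    refine Finset.sum_congr rfl fun i _ => ?_
    have := congrFun e i
    change ∑ a, _ = _ at this
    simp only [hρ] at this
    rw [this]
  refine ⟨LinearMap.codRestrict U (Φ ∘ₗ (GM k F n).subtype) fun x => ?_, fun x => ?_⟩
  · rw [LinearMap.comp_apply, hΦ]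
    exact U.sum_mem fun i _ => U.smul_mem _ ((hU _).1 (hw' i).1)
  · obtain ⟨y, hy, e1⟩ := hR n x x.2.1 x.2.2
    apply Subtype.ext
    change Φ x = _
    have e2 : x = dZ (prM k F (n + 1) y) := by
      apply Subtype.ext
      change _ = F.op.δ _ (F.op.pr _ (n + 1) y)
      rw [FC.pr_of_mem hy]
      exact e1.symm
    rw [← e1, e2]
    exact h2 y hy

open CategoryTheory Abelian in
theorem ext_zero (F : FC Λ I A)
    (hS : ∀ n, ∃ S : Finset I, ∀ i, -F.deg i = n → F.e i ≠ 0 → i ∈ S)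
    (hR : ∀ n, (F.op.L (regR k Λ)).Ac n) [Module Λ X] (W : Rp k Λ X) (U : Submodule Λ X)
    (hρ : ∀ r x, W.ρ r x = r • x) (hU : ∀ x, x ∈ W.U ↔ x ∈ U) (i : ℕ) (n : ℤ)
    (ac : ∀ a ≤ -(n + 2), (F.L W).Ac a)
    (x : Ext.{0} (ModuleCat.of Λ (ZM k F n)) (ModuleCat.of Λ U) (i + 1)) : x = 0 := by
  have key : ∀ n, ∃ (g : GM k F (n + 1) →ₗ[Λ] ZM k F n) (w : ModuleCat.ofHom (Submodule.inclusion
      (ZM_le (k := k) F (n + 1))) ≫ ModuleCat.ofHom g = 0), (ShortComplex.mk _ _ w).ShortExact := by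
    intro n
    refine ⟨LinearMap.codRestrict _ (dM k F ∘ₗ (GM k F (n + 1)).subtype) fun x =>
      ⟨(F.op.L (regR k Λ)).mem n x x.2, (F.op.L (regR k Λ)).dd x⟩, ?_, ?_⟩
    · ext1
      ext1 x
      exact Subtype.ext x.2.2
    · refine ModuleCat.shortComplex_shortExact _ ?_ (Submodule.inclusion_injective (ZM_le F _)) ?_
      · intro y
        constructor
        · intro h
          exact ⟨⟨y, y.2, congrArg Subtype.val h⟩, rfl⟩
        · rintro ⟨z, rfl⟩
          exact Subtype.ext z.2.2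
      · intro z
        obtain ⟨y, hy, e1⟩ := hR n z z.2.1 z.2.2
        exact ⟨⟨y, hy⟩, Subtype.ext e1⟩
  induction i generalizing n with
  | zero =>
    obtain ⟨g, w, hs⟩ := key n
    have : Module.Projective Λ (GM k F (n + 1)) := (GM_proj F (hS (n + 1)).choose_spec).1
    obtain ⟨x₁, rfl⟩ := Ext.contravariant_sequence_exact₃ hs _ x
      (Ext.eq_zero_of_projective _) (add_comm _ _)
    obtain ⟨φ, rfl⟩ := (Ext.mk₀_bijective _ _).2 x₁
    obtain ⟨ψ, hψ⟩ := extend F hS hR W U hρ hU (n + 1) (ac _ (by omega)) φ.hom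
    have : φ = (ShortComplex.mk _ _ w).f ≫ ModuleCat.ofHom ψ := by
      ext1
      ext1 z
      exact (hψ z).symm
    rw [this, ← Ext.mk₀_comp_mk₀, ← Ext.comp_assoc_of_second_deg_zero, hs.extClass_comp,
      Ext.zero_comp]
  | succ i ih =>
    obtain ⟨g, w, hs⟩ := key n
    have : Module.Projective Λ (GM k F (n + 1)) := (GM_proj F (hS (n + 1)).choose_spec).1
    obtain ⟨x₁, rfl⟩ := Ext.contravariant_sequence_exact₃ hs _ x
      (Ext.eq_zero_of_projective _) (add_comm _ _)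
    rw [ih (n + 1) (fun a ha => ac a (by omega)) x₁, Ext.comp_zero]

end Alg

end Vale.Agent.P195
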