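import Vale.Agent.P195.Split

/- The ten-dimensional algebra: endomorphisms of the quantum exterior algebra plus a cyclic module. -/

set_option linter.unusedVariables false
set_option linter.unusedSimpArgs false

namespace Vale.Agent.P195

variable {k : Type} [Field k]

@[ext] structure C0 (q : k) where
  e : k
  x : k
  y : k
  w : k
  p : k
  v : k
  i : k
  j : k
  f : k
  n : k

namespace C0

variable {q : k}

@[simps] instance : Zero (C0 q) := ⟨⟨0, 0, 0, 0, 0, 0, 0, 0, 0, 0⟩⟩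
@[simps] instance : One (C0 q) := ⟨⟨1, 0, 0, 0, 0, 0, 0, 0, 1, 0⟩⟩
@[simps] instance : Add (C0 q) := ⟨fun a b => ⟨a.e + b.e, a.x + b.x, a.y + b.y, a.w + b.w,
  a.p + b.p, a.v + b.v, a.i + b.i, a.j + b.j, a.f + b.f, a.n + b.n⟩⟩
@[simps] instance : Neg (C0 q) := ⟨fun a => ⟨-a.e, -a.x, -a.y, -a.w, -a.p, -a.v, -a.i, -a.j,
  -a.f, -a.n⟩⟩
@[simps] instance : SMul k (C0 q) := ⟨fun c a => ⟨c * a.e, c * a.x, c * a.y, c * a.w, c * a.p,
  c * a.v, c * a.i, c * a.j, c * a.f, c * a.n⟩⟩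
@[simps] instance : Mul (C0 q) := ⟨fun a b =>
  { e := a.e * b.e
    x := a.e * b.x + a.x * b.e + q * a.p * b.i
    y := a.e * b.y + a.y * b.e + a.p * b.i
    w := a.e * b.w + a.w * b.e + a.x * b.y + q * a.y * b.x + a.p * b.j + a.v * b.i
    p := a.e * b.p + a.p * b.f
    v := a.e * b.v + a.x * b.p + q ^ 2 * a.y * b.p + a.v * b.f + a.p * b.n
    i := a.i * b.e + a.f * b.i
    j := a.j * b.e + q * a.i * b.x + q * a.i * b.y + a.f * b.j + a.n * b.i
    f := a.f * b.f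
    n := a.f * b.n + a.n * b.f + q * (1 + q) * a.i * b.p }⟩

instance : Ring (C0 q) where
  add_assoc := fun a b c => by ext <;> simp [add_assoc]
  zero_add := fun a => by ext <;> simp
  add_zero := fun a => by ext <;> simp
  add_comm := fun a b => by ext <;> simp [add_comm]
  neg_add_cancel := fun a => by ext <;> simp
  nsmul := nsmulRec
  zsmul := zsmulRec
  left_distrib := fun a b c => by ext <;> simp <;> ring
  right_distrib := fun a b c => by ext <;> simp <;> ring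
  zero_mul := fun a => by ext <;> simp
  mul_zero := fun a => by ext <;> simp
  mul_assoc := fun a b c => by ext <;> simp <;> ring
  one_mul := fun a => by ext <;> simp
  mul_one := fun a => by ext <;> simp

instance : Module k (C0 q) where
  one_smul := fun a => by ext <;> simp
  mul_smul := fun a b c => by ext <;> simp [mul_assoc]
  smul_zero := fun a => by ext <;> simp
  smul_add := fun a b c => by ext <;> simp [mul_add]
  add_smul := fun a b c => by ext <;> simp [add_mul]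
  zero_smul := fun a => by ext <;> simp

instance : Algebra k (C0 q) :=
  Algebra.ofModule (fun r a b => by ext <;> simp <;> ring) (fun r a b => by ext <;> simp <;> ring)

def toFin : C0 q ≃ₗ[k] (Fin 10 → k) where
  toFun := fun a => ![a.e, a.x, a.y, a.w, a.p, a.v, a.i, a.j, a.f, a.n]
  invFun := fun u => ⟨u 0, u 1, u 2, u 3, u 4, u 5, u 6, u 7, u 8, u 9⟩
  map_add' := fun a b => by ext t; fin_cases t <;> rfl
  map_smul' := fun c a => by ext t; fin_cases t <;> rfl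
  left_inv := fun a => rfl
  right_inv := fun u => by ext t; fin_cases t <;> rfl

instance : FiniteDimensional k (C0 q) := toFin.symm.finiteDimensional

theorem trace_eq (φ : Module.End k (C0 q)) : LinearMap.trace k _ φ =
    (φ ⟨1, 0, 0, 0, 0, 0, 0, 0, 0, 0⟩).e + (φ ⟨0, 1, 0, 0, 0, 0, 0, 0, 0, 0⟩).x +
    (φ ⟨0, 0, 1, 0, 0, 0, 0, 0, 0, 0⟩).y + (φ ⟨0, 0, 0, 1, 0, 0, 0, 0, 0, 0⟩).w +
    (φ ⟨0, 0, 0, 0, 1, 0, 0, 0, 0, 0⟩).p + (φ ⟨0, 0, 0, 0, 0, 1, 0, 0, 0, 0⟩).v +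
    (φ ⟨0, 0, 0, 0, 0, 0, 1, 0, 0, 0⟩).i + (φ ⟨0, 0, 0, 0, 0, 0, 0, 1, 0, 0⟩).j +
    (φ ⟨0, 0, 0, 0, 0, 0, 0, 0, 1, 0⟩).f + (φ ⟨0, 0, 0, 0, 0, 0, 0, 0, 0, 1⟩).n := by
  rw [LinearMap.trace_eq_matrix_trace k (Module.Basis.ofEquivFun toFin), Matrix.trace]
  simp only [Matrix.diag, LinearMap.toMatrix_apply, Module.Basis.ofEquivFun_repr_apply,
    Module.Basis.coe_ofEquivFun, Fin.sum_univ_succ, Fin.sum_univ_zero]
  have h1 : ∀ u : Fin 10 → k, (toFin (q := q)).symm u =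
      ⟨u 0, u 1, u 2, u 3, u 4, u 5, u 6, u 7, u 8, u 9⟩ := fun _ => rfl
  have h2 : ∀ a : C0 q, toFin a = ![a.e, a.x, a.y, a.w, a.p, a.v, a.i, a.j, a.f, a.n] :=
    fun _ => rfl
  simp [h1, h2, Pi.single_apply, add_assoc]

def chi : C0 q →ₐ[k] k where
  toFun := fun a => a.f
  map_one' := rfl
  map_mul' := fun _ _ => rfl
  map_zero' := rfl
  map_add' := fun _ _ => rfl
  commutes' := fun r => by simp [Algebra.algebraMap_eq_smul_one]

@[simp] theorem chi_apply (a : C0 q) : chi a = a.f := rfl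

variable (q)

@[simps] def ee : C0 q := ⟨1, 0, 0, 0, 0, 0, 0, 0, 0, 0⟩
@[simps] def ff : C0 q := ⟨0, 0, 0, 0, 0, 0, 0, 0, 1, 0⟩
@[simps] def zz (l : k) : C0 q := ⟨0, 1, l, 0, 0, 0, 0, 0, 0, 0⟩
@[simps] def pp : C0 q := ⟨0, 0, 0, 0, 1, 0, 0, 0, 0, 0⟩
@[simps] def ii : C0 q := ⟨0, 0, 0, 0, 0, 0, 1, 0, 0, 0⟩
@[simps] def vv : C0 q := ⟨0, 0, 0, 0, 0, 1, 0, 0, 0, 0⟩
@[simps] def qx : C0 q := ⟨0, q, 0, 0, 0, 0, 0, 0, 0, 0⟩
@[simps] def qj : C0 q := ⟨0, 0, 0, 0, 0, 0, 0, q, 0, 0⟩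

def eP (n : ℤ) : C0 q := if n < 0 then ee q else if n = 0 then ff q else 0
def dP (n : ℤ) : C0 q := if n < -1 then zz q (q ^ n) else if n = -1 then pp q else 0
def eQ (n : ℤ) : C0 q := if -2 < n then ee q else if n = -2 then ff q else 0
def dQ (n : ℤ) : C0 q := if -2 < n then zz q (q ^ (n + 1)) else if n = -2 then ii q else 0
def uu (n : ℤ) : C0 q := if n = -2 then vv q else if n = -1 then qx q else if n = 0 then qj q else 0

@[simps] def gRz (l : k) : Module.End k (C0 q) where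
  toFun := fun a => ⟨a.x, 0, q⁻¹ * a.w, 0, 0, 0, (q * (1 + l))⁻¹ * a.j, 0, 0, 0⟩
  map_add' := fun a b => by ext <;> simp <;> ring
  map_smul' := fun c a => by ext <;> simp <;> ring

@[simps] def gRp : Module.End k (C0 q) where
  toFun := fun a => ⟨a.p, 0, (q ^ 2)⁻¹ * a.v, 0, 0, 0, (q * (1 + q))⁻¹ * a.n, 0, 0, 0⟩
  map_add' := fun a b => by ext <;> simp <;> ring
  map_smul' := fun c a => by ext <;> simp <;> ring

@[simps] def gRi : Module.End k (C0 q) where
  toFun := fun a => ⟨0, 0, 0, 0, q⁻¹ * a.x, a.w, 0, 0, a.i, a.j⟩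
  map_add' := fun a b => by ext <;> simp <;> ring
  map_smul' := fun c a => by ext <;> simp <;> ring

@[simps] def gLz (l : k) : Module.End k (C0 q) where
  toFun := fun a => ⟨a.x, 0, a.w, 0, (1 + l * q ^ 2)⁻¹ * a.v, 0, 0, 0, 0, 0⟩
  map_add' := fun a b => by ext <;> simp <;> ring
  map_smul' := fun c a => by ext <;> simp <;> ring

@[simps] def gLp : Module.End k (C0 q) where
  toFun := fun a => ⟨0, 0, 0, 0, 0, 0, q⁻¹ * a.x, a.w, a.p, a.v⟩
  map_add' := fun a b => by ext <;> simp <;> ring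
  map_smul' := fun c a => by ext <;> simp <;> ring

@[simps] def gLi : Module.End k (C0 q) where
  toFun := fun a => ⟨a.i, 0, q⁻¹ * a.j, 0, (q * (1 + q))⁻¹ * a.n, 0, 0, 0, 0, 0⟩
  map_add' := fun a b => by ext <;> simp <;> ring
  map_smul' := fun c a => by ext <;> simp <;> ring

@[simps] def prf : Module.End k (C0 q) where
  toFun := fun a => ⟨0, 0, 0, 0, 0, 0, 0, 0, a.f, 0⟩
  map_add' := fun a b => by ext <;> simp
  map_smul' := fun c a => by ext <;> simp

@[simps] def prj : Module.End k (C0 q) where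
  toFun := fun a => ⟨0, 0, 0, 0, 0, 0, 0, a.j, 0, 0⟩
  map_add' := fun a b => by ext <;> simp
  map_smul' := fun c a => by ext <;> simp

@[simps] def prv : Module.End k (C0 q) where
  toFun := fun a => ⟨0, 0, 0, 0, 0, a.v, 0, 0, 0, 0⟩
  map_add' := fun a b => by ext <;> simp
  map_smul' := fun c a => by ext <;> simp

@[simps] def jf : Module.End k (C0 q) where
  toFun := fun a => ⟨0, 0, 0, 0, 0, 0, 0, 0, q⁻¹ * a.j, 0⟩
  map_add' := fun a b => by ext <;> simp <;> ring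
  map_smul' := fun c a => by ext <;> simp <;> ring

@[simps] def vf : Module.End k (C0 q) where
  toFun := fun a => ⟨0, 0, 0, 0, 0, 0, 0, 0, a.v, 0⟩
  map_add' := fun a b => by ext <;> simp
  map_smul' := fun c a => by ext <;> simp

end C0

end Vale.Agent.P195
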