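import Vale.Agent.P195.Split

/- The interface: an algebra with a character, a resolution, a coresolution and a comparison map. -/

set_option linter.unusedVariables false
set_option linter.unusedSimpArgs false

namespace Vale.Agent.P195

open MulOpposite

abbrev NN := ℤ × ℤ

def vN : Fin 2 → NN := ![(1, 0), (0, 1)]

@[simp] theorem vN0 : vN 0 = (1, 0) := rfl
@[simp] theorem vN1 : vN 1 = (0, 1) := rfl

structure HN (C : Type) [Ring C] where
  e : NN → C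
  c : Fin 2 → NN → C
  idem : ∀ i, e i * e i = e i
  left : ∀ a i, e i * c a i = c a i
  right : ∀ a i, c a i * e (i + vN a) = c a i
  sq : ∀ a i, c a i * c a (i + vN a) = 0
  comm : ∀ a b i, c a i * c b (i + vN a) = c b i * c a (i + vN b)

def HN.fc {C : Type} [Ring C] (H : HN C) : FC C NN (Fin 2) where
  v := vN
  deg := AddMonoidHom.fst ℤ ℤ + AddMonoidHom.snd ℤ ℤ
  degv := fun a => by fin_cases a <;> rfl
  e := H.e
  c := H.c
  idem := H.idem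
  left := H.left
  right := H.right
  sq := H.sq
  comm := H.comm

variable {k : Type} [Field k]

def Cone {R X : Type} [Ring R] [AddCommGroup X] [Module k X] (S T : FC R NN (Fin 2)) (u : NN → R)
    (W : Rp k R X) : Prop :=
  ∀ a b : NN → X, (∀ n, W.ρ (S.e n) (a n) = a n) → (∀ n, W.ρ (T.e n) (b n) = b n) →
    S.δ W a = 0 → (∀ n, T.δ W b n + W.ρ (u n) (a n) = 0) →
      ∃ a' b' : NN → X, S.δ W a' = a ∧ ∀ n, T.δ W b' n + W.ρ (u n) (a' n) = b n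

variable (k) (C : Type) [Ring C] [Algebra k C]

abbrev EE := Module.End k C
abbrev DD := Module.Dual k C

def LL : C →ₐ[k] EE k C := Algebra.lmul k C

def LE : Rp k C (EE k C) :=
  ⟨⊤, fun c => LinearMap.mulLeft k (LL k C c), fun a b x => by simp [mul_assoc], by ext; simp,
    fun _ _ _ => trivial⟩

def RE : Rp k Cᵐᵒᵖ (EE k C) :=
  ⟨⊤, fun c => LinearMap.mulRight k (LL k C c.unop), fun a b x => by simp [mul_assoc],
    by ext; simp, fun _ _ _ => trivial⟩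

def LD : Rp k C (DD k C) :=
  ⟨⊤, fun c => (LinearMap.mulRight k c).dualMap, fun a b x => by ext; simp [mul_assoc],
    by ext; simp, fun _ _ _ => trivial⟩

def RD : Rp k Cᵐᵒᵖ (DD k C) :=
  ⟨⊤, fun c => (LinearMap.mulLeft k c.unop).dualMap, fun a b x => by ext; simp [mul_assoc],
    by ext; simp, fun _ _ _ => trivial⟩

structure CD where
  P : HN C
  Q : HN C
  u : NN → C
  χ : C →ₐ[k] k
  eu : ∀ n, P.e n * u n = u n
  ue : ∀ n, u n * Q.e n = u n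
  cu : ∀ a n, P.c a n * u (n + vN a) = u n * Q.c a n
  suppP : ∀ n, P.e n ≠ 0 → n.1 ≤ 0 ∧ n.2 ≤ 0
  suppQ : ∀ n, Q.e n ≠ 0 → -2 ≤ n.1 ∧ -2 ≤ n.2
  χP : ∀ n, χ (P.e n) = if n = 0 then 1 else 0
  χQ : ∀ n, χ (Q.e n) = if n = (-2, -2) then 1 else 0
  χcP : ∀ a n, χ (P.c a n) = 0
  χcQ : ∀ a n, χ (Q.c a n) = 0
  χu : ∀ n, χ (u n) = 0
  trL : ∀ c, LinearMap.trace k C (LL k C c) = 0
  cLC : Cone Q.fc P.fc u (regL k C)
  cLE : Cone Q.fc P.fc u (LE k C)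
  cLD : Cone Q.fc P.fc u (LD k C)
  cRC : Cone P.fc.op Q.fc.op (fun n => op (u n)) (regR k C)
  cRE : Cone P.fc.op Q.fc.op (fun n => op (u n)) (RE k C)
  bRC : ∀ a : NN → C, (∀ n, a n * P.e n = a n) → P.fc.op.δ (regR k C) a = 0 → χ (a 0) = 0 →
    ∃ a', P.fc.op.δ (regR k C) a' = a
  w0 : C
  bRD : ∀ z : NN → DD k C, (∀ n, (RD k C).ρ (op (P.e n)) (z n) = z n) →
    P.fc.op.δ (RD k C) z = 0 → z (-2, -2) w0 = 0 → ∃ z', P.fc.op.δ (RD k C) z' = z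
  dw0 : ∀ z : NN → DD k C, P.fc.op.δ (RD k C) z (-2, -2) w0 = 0
  cw0 : ∀ z : NN → DD k C, (∀ n, (RD k C).ρ (op (P.e n)) (z n) = z n) →
    P.fc.op.δ (RD k C) z = 0 → ∀ c, z (-2, -2) (w0 * c) = χ c * z (-2, -2) w0
  ψ0 : DD k C
  ψe : (RD k C).ρ (op (P.e (-2, -2))) ψ0 = ψ0
  ψd : P.fc.op.δ (RD k C) (Pi.single (-2, -2) ψ0) = 0
  ψw : ψ0 w0 = 1
  g : Module.End k (NN → EE k C)
  gc : ∀ (φ : EE k C) z n, g (fun m => φ * z m) n = φ * g z n
  bRE : ∀ z : NN → EE k C, (∀ n, (RE k C).ρ (op (P.e n)) (z n) = z n) →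
    P.fc.op.δ (RE k C) z = 0 → z (-2, -2) = 0 → P.fc.op.δ (RE k C) (g z) = z
  tr : ∑ i ∈ Finset.range 9, LinearMap.trace k C (g (P.fc.op.δ (RE k C)
    (Pi.single (-(i : ℤ), (i : ℤ) - 8) (LL k C (P.e (-(i : ℤ), (i : ℤ) - 8)))))
      (-(i : ℤ), (i : ℤ) - 8)) ≠ 0

end Vale.Agent.P195
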