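import Vale.Agent.P195.Per

/- Resolutions of the one-dimensional modules over the Borel part. -/

namespace Vale.Agent.P195

open Vale.Agent.P176 (PieceExact SE tri)

universe u

variable {K : Type u} [Field K]

theorem Obj.up1 {j : ℕ} (Z : Obj K j) {c : C7} {k : ℤ} {x : Z.X} (h : x ∈ Z.F c (k - 1)) :
    x ∈ Z.F c k := Z.mono' (by omega) h

theorem Obj.op1 {j : ℕ} (Z : Obj K j) {i : ℕ} (hi : i < j) (h1 : i = 0 ∨ i = 1 ∨ i = 6) {c : C7}
    {k : ℤ} {x : Z.X} (h : x ∈ Z.F c (k - 1)) : Z.op i x ∈ Z.F c k := by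
  have := Z.comp1 hi h1 h
  rwa [sub_add_cancel] at this

theorem Obj.op5 {j : ℕ} (Z : Obj K j) (hi : 5 < j) {c : C7}
    {k : ℤ} {x : Z.X} (h : x ∈ Z.F c (k - 1 - 1)) : Z.op 5 x ∈ Z.F c k := by
  have : Z.op 5 x ∈ Z.F c (k - 1 - 1 + 2) := Z.comp' hi (by omega) h
  rwa [show k - 1 - 1 + 2 = k by ring] at this

theorem RelD.re {X : Type u} [AddCommGroup X] [Module K X] {op : ℕ → X →ₗ[K] X} (R : RelD op)
    (x : X) : op 5 (op 3 x) = 0 := by rw [← R.pe x, R.rp]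

theorem TY.r {j : ℕ} {X : Type u} [AddCommGroup X] [Module K X] {Z : Obj K j}
    {ψ : Bool → X →ₗ[K] Z.X} (h : TY Z ψ) (w : X) : Z.op 5 (ψ true w) = 0 := by
  rw [← h.1, Z.relD.rp]

theorem TY.e {j : ℕ} {X : Type u} [AddCommGroup X] [Module K X] {Z : Obj K j}
    {ψ : Bool → X →ₗ[K] Z.X} (h : TY Z ψ) (w : X) : Z.op 3 (ψ true w) = 0 := by
  rw [← h.1, Z.relD.ep]

theorem TY.d {j : ℕ} {X : Type u} [AddCommGroup X] [Module K X] {Z : Obj K j}
    {ψ : Bool → X →ₗ[K] Z.X} (h : TY Z ψ) (w : X) : Z.op 2 (ψ false w) = 0 := by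
  rw [← Z.relD.dp, h.2, map_zero]

theorem TY.map {j : ℕ} (hj : 4 < j) {X : Type u} [AddCommGroup X] [Module K X] {Y Z : Obj K j}
    {ψ : Bool → X →ₗ[K] Y.X} (h : TY Y ψ) {f : Y.X →ₗ[K] Z.X} (hf : Hom Y Z f) :
    TY Z fun t => f ∘ₗ ψ t :=
  ⟨fun w => by simp only [LinearMap.comp_apply, ← hf.comm 4 hj, h.1],
    fun w => by simp only [LinearMap.comp_apply, ← hf.comm 4 hj, h.2, map_zero]⟩

theorem FC.map {j : ℕ} {X : Type u} [AddCommGroup X] [Module K X] {W : Fl K X} {Y Z : Obj K j} {s n : ℕ} {ψ : Bool → X →ₗ[K] Y.X}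
    (h : FC W Y s n ψ) {f : Y.X →ₗ[K] Z.X} (hf : Hom Y Z f) : FC W Z s n fun t => f ∘ₗ ψ t :=
  fun t ht c k w hw => hf.filt c k _ (h t ht c k w hw)

theorem prod_ext {Y Y' Z : Type u} [AddCommGroup Y] [Module K Y] [AddCommGroup Y'] [Module K Y']
    [AddCommGroup Z] [Module K Z] {φ ψ : Y × Y' →ₗ[K] Z}
    (h1 : ∀ y, (φ ∘ₗ LinearMap.inl K _ _) y = (ψ ∘ₗ LinearMap.inl K _ _) y)
    (h2 : ∀ y, (φ ∘ₗ LinearMap.inr K _ _) y = (ψ ∘ₗ LinearMap.inr K _ _) y) (x : Y × Y') :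
    φ x = ψ x :=
  LinearMap.congr_fun (LinearMap.prod_ext (LinearMap.ext h1) (LinearMap.ext h2)) x

variable {X : Type u} [AddCommGroup X] [Module K X] (μ : K) (W : Fl K X) (s n : ℕ)

noncomputable def PH : (Pw W.sft (s + 1) (n + 1)).X →ₗ[K] (Pw W s n).X :=
  plf W.sft (s + 1) (n + 1) (Pw W s n) fun t => ((Pw W s n).op 0 - μ • LinearMap.id) ∘ₗ pg W s n t

theorem PH_pg (t : Bool) (w : X) : PH μ W s n (pg W.sft (s + 1) (n + 1) t w) =
    (Pw W s n).op 0 (pg W s n t w) - μ • pg W s n t w := plf_pg _ _ _ _ _ _ _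

theorem PH_hom : Hom (Pw W.sft (s + 1) (n + 1)) (Pw W s n) (PH μ W s n) := by
  have h := pg_ty W s n
  have R := (Pw W s n).relD
  refine plf_hom ⟨fun w => by simp [R.c40, h.1], fun w => by simp [R.c40, h.2]⟩ ?_
  intro t ht c k w hw
  have := pg_fc W s n t (pr_succ ht) c _ w hw
  exact Submodule.sub_mem _ ((Pw W s n).op1 (by omega) (by omega) this)
    (Submodule.smul_mem _ _ ((Pw W s n).up1 this))

noncomputable abbrev Q1 : Obj K 6 := prodO (Pw W s n) (Pw W.sft (s + 1) n)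

noncomputable abbrev d1 : (Q1 W s (n + 1)).X →ₗ[K] (Q1 W s n).X :=
  cdm (dP W s n) (PH μ W s n) (dP W.sft (s + 1) n)

noncomputable abbrev a1 : (Q1 W s s).X →ₗ[K] (ℕ →₀ X) :=
  cw (fg (μ • LinearMap.id)) ∘ₗ aP W s ∘ₗ LinearMap.fst K _ _

theorem q1_rs : Rs (Q1 W s) (Em W μ) s (d1 μ W s) (a1 μ W s) := by
  refine Rs.cone (pw_rs W s) (pw_rs W.sft (s + 1)) (ses1 W μ) (PH_hom μ W s) (fun n => ?_) ?_
  · have h1 := dP_hom W s n
    have h2 := PH_hom μ W s n
    have R := (Pw W s n).relD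
    refine pw_ext (h1.comp (PH_hom μ W s (n + 1))) (h2.comp (dP_hom _ _ _)) ?_
    rintro (_ | _) w
    · simp [PH_pg, h1.comm, h2.comm, R.c20]
    · simp [PH_pg, h1.comm, h2.comm, R.c30, tau_succ, smul_sub, smul_comm μ]
  · have h1 := (pw_rs W s).ha
    refine pw_ext (h1.comp (PH_hom μ W s s)) ((ses1 W μ).hf.comp (pw_rs W.sft (s + 1)).ha) ?_
    rintro (_ | _) w
    · simp [PH_pg, h1.comm]
    · simp [PH_pg, h1.comm, hop, uinc, ff, Finsupp.single_sub]

noncomputable def PE : (Q1 W.sft (s + 1) (n + 1)).X →ₗ[K] (Q1 W s n).X :=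
  (plf W.sft (s + 1) (n + 1) (Q1 W s n) fun t =>
    (Q1 W s n).op 1 ∘ₗ LinearMap.inl K _ _ ∘ₗ pg W s n t).coprod
  (plf W.sft.sft (s + 1 + 1) (n + 1) (Q1 W s n) fun t =>
    (Q1 W s n).op 1 ∘ₗ LinearMap.inr K _ _ ∘ₗ pg W.sft (s + 1) n t +
      (Q1 W s n).op 5 ∘ₗ LinearMap.inl K _ _ ∘ₗ pg W s n (!t))

theorem PE_1 (t : Bool) (w : X) : PE W s n (pg W.sft (s + 1) (n + 1) t w, 0) =
    ((Pw W s n).op 1 (pg W s n t w), 0) := by
  rw [PE, LinearMap.coprod_apply, plf_pg]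
  simp

theorem PE_2 (t : Bool) (w : X) : PE W s n (0, pg W.sft.sft (s + 1 + 1) (n + 1) t w) =
    ((Pw W s n).op 5 (pg W s n (!t) w), (Pw W.sft (s + 1) n).op 1 (pg W.sft (s + 1) n t w)) := by
  rw [PE, LinearMap.coprod_apply, plf_pg]
  simp

theorem PE_hom : Hom (Q1 W.sft (s + 1) (n + 1)) (Q1 W s n) (PE W s n) := by
  have h := pg_ty W s n
  have h' := pg_ty W.sft (s + 1) n
  have R := (Pw W s n).relD
  have R' := (Pw W.sft (s + 1) n).relD
  refine Hom.coprod (plf_hom ⟨fun w => by simp [R.c41, h.1], fun w => by simp [R.c41, h.2]⟩ ?_)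
    (plf_hom ⟨fun w => by simp [R'.c41, h'.1, R.pr], fun w => by simp [R'.c41, h'.2, h.r]⟩ ?_)
  · intro t ht c k w hw
    exact (Q1 W s n).op1 (by omega) (by omega)
      (inl_hom.filt _ _ _ (pg_fc W s n t (pr_succ ht) c _ w hw))
  · intro t ht c k w hw
    exact Submodule.add_mem _ ((Q1 W s n).op1 (by omega) (by omega)
      (inr_hom.filt _ _ _ (pg_fc W.sft (s + 1) n t (pr_succ ht) c _ w hw)))
      ((Q1 W s n).op5 (by omega)
        (inl_hom.filt _ _ _ (pg_fc W s n (!t) (pr_flip (pr_succ ht)) c _ w hw)))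

variable {W s n} in
theorem q1_ext {Z : Obj K 6} {φ ψ : (Q1 W s n).X →ₗ[K] Z.X} (hφ : Hom (Q1 W s n) Z φ)
    (hψ : Hom (Q1 W s n) Z ψ) (h1 : ∀ t w, φ (pg W s n t w, 0) = ψ (pg W s n t w, 0))
    (h2 : ∀ t w, φ (0, pg W.sft (s + 1) n t w) = ψ (0, pg W.sft (s + 1) n t w))
    (x : (Q1 W s n).X) : φ x = ψ x :=
  prod_ext (pw_ext (hφ.comp inl_hom) (hψ.comp inl_hom) h1)
    (pw_ext (hφ.comp inr_hom) (hψ.comp inr_hom) h2) x

theorem PE_op1 (i : ℕ) (hi : i < 6) (x : (Pw W.sft (s + 1) (n + 1)).X) :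
    PE W s n ((Pw W.sft (s + 1) (n + 1)).op i x, 0) = (Q1 W s n).op i (PE W s n (x, 0)) :=
  ((PE_hom W s n).comp inl_hom).comm i hi x

theorem PE_op2 (i : ℕ) (hi : i < 6) (x : (Pw W.sft.sft (s + 1 + 1) (n + 1)).X) :
    PE W s n (0, (Pw W.sft.sft (s + 1 + 1) (n + 1)).op i x) = (Q1 W s n).op i (PE W s n (0, x)) :=
  ((PE_hom W s n).comp inr_hom).comm i hi x

theorem map_pair {Y Y' Z : Type u} [AddCommGroup Y] [Module K Y] [AddCommGroup Y'] [Module K Y']
    [AddCommGroup Z] [Module K Z] (φ : Y × Y' →ₗ[K] Z) (x : Y) (y : Y') :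
    φ (x, y) = (φ ∘ₗ LinearMap.inl K _ _) x + (φ ∘ₗ LinearMap.inr K _ _) y := by
  simp [← map_add]

theorem PE_chain (a : (Q1 W.sft (s + 1) (n + 2)).X) :
    d1 μ W s n (PE W s (n + 1) a) = PE W s n (d1 (μ + 2) W.sft (s + 1) (n + 1) a) := by
  have h1 := dP_hom W s n
  have h1' := dP_hom W.sft (s + 1) n
  have h2 := PH_hom μ W s n
  have h3 := (PE_hom W s n).comp inl_hom
  have h4 := (PE_hom W s n).comp inr_hom
  have e3 : ∀ t w, (PE W s n ∘ₗ LinearMap.inl K _ _) (pg W.sft (s + 1) (n + 1) t w) = _ :=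
    PE_1 W s n
  have e4 : ∀ t w, (PE W s n ∘ₗ LinearMap.inr K _ _) (pg W.sft.sft (s + 1 + 1) (n + 1) t w) = _ :=
    PE_2 W s n
  have R := (Pw W s n).relD
  have R' := (Pw W.sft (s + 1) n).relD
  have h := pg_ty W s n
  refine q1_ext (((q1_rs μ W s).hd n).comp (PE_hom W s (n + 1)))
    ((PE_hom W s n).comp ((q1_rs (μ + 2) W.sft (s + 1)).hd (n + 1))) ?_ ?_ a
  · rintro (_ | _) w <;>
    · rw [LinearMap.comp_apply, LinearMap.comp_apply, PE_1, cdm_apply, cdm_apply,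
        map_pair (PE W s n)]
      simp only [dP_x, dP_y, map_zero, add_zero, neg_zero, map_smul, h1.comm 1 (by omega),
        h3.comm 2 (by omega), h3.comm 3 (by omega), e3]
      simp [R.c21, R.c31, tau_succ]
  · rintro (_ | _) w <;>
    · rw [LinearMap.comp_apply, LinearMap.comp_apply, PE_2, cdm_apply, cdm_apply,
        map_pair (PE W s n)]
      simp only [dP_x, dP_y, map_zero, zero_add, map_smul, map_sub, map_neg, PH_pg,
        h1.comm 5 (by omega), h1'.comm 1 (by omega), h2.comm 1 (by omega), Bool.not_true,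
        Bool.not_false, h3.comm 0 (by omega), h4.comm 2 (by omega), h4.comm 3 (by omega), e3, e4]
      simp [R'.c21, R'.c31, tau_succ, R.dr, h.r, h.d, R.re, add_smul]
      try abel

theorem PE_aug (a : (Q1 W.sft (s + 1) (s + 1)).X) :
    a1 μ W s (PE W s s a) = ff (0 : Module.End K X) (a1 (μ + 2) W.sft (s + 1) a) := by
  have h1 := (pw_rs W s).ha
  refine q1_ext ((q1_rs μ W s).ha.comp (PE_hom W s s))
    ((ses2 W μ).hf.comp (q1_rs (μ + 2) W.sft (s + 1)).ha) ?_ ?_ a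
  · rintro (_ | _) w <;>
    · rw [LinearMap.comp_apply, LinearMap.comp_apply, PE_1]
      simp [h1.comm, hop, uinc, ff_zero, fg_single]
  · rintro (_ | _) w <;>
    · rw [LinearMap.comp_apply, LinearMap.comp_apply, PE_2]
      simp [h1.comm, hop]

noncomputable abbrev QQ : Obj K 6 := prodO (Q1 W s n) (Q1 W.sft (s + 1) n)

noncomputable abbrev dQ : (QQ W s (n + 1)).X →ₗ[K] (QQ W s n).X :=
  cdm (d1 μ W s n) (PE W s n) (d1 (μ + 2) W.sft (s + 1) n)

noncomputable abbrev aQ : (QQ W s s).X →ₗ[K] X :=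
  fg (0 : Module.End K X) ∘ₗ a1 μ W s ∘ₗ LinearMap.fst K _ _

theorem q_rs : Rs (QQ W s) (Km W μ) s (dQ μ W s) (aQ μ W s) :=
  Rs.cone (q1_rs μ W s) (q1_rs (μ + 2) W.sft (s + 1)) (ses2 W μ) (PE_hom W s) (PE_chain μ W s)
    (PE_aug μ W s)

/-- The induced resolution. -/
noncomputable def IQ : Obj K 7 := Ind (QQ W s n)

noncomputable def ji : (QQ W s n).X →ₗ[K] (IQ W s n).X := Finsupp.lsingle 0

theorem ji_hom : Hom (QQ W s n) (res (by omega) (IQ W s n)) (ji W s n) := inc_hom _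

noncomputable def j1 (t : Bool) : X →ₗ[K] (IQ W s n).X :=
  ji W s n ∘ₗ LinearMap.inl K _ _ ∘ₗ LinearMap.inl K _ _ ∘ₗ pg W s n t

noncomputable def jH (t : Bool) : X →ₗ[K] (IQ W s n).X :=
  ji W s n ∘ₗ LinearMap.inl K _ _ ∘ₗ LinearMap.inr K _ _ ∘ₗ pg W.sft (s + 1) n t

noncomputable def jE (t : Bool) : X →ₗ[K] (IQ W s n).X :=
  ji W s n ∘ₗ LinearMap.inr K _ _ ∘ₗ LinearMap.inl K _ _ ∘ₗ pg W.sft (s + 1) n t

noncomputable def jR (t : Bool) : X →ₗ[K] (IQ W s n).X :=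
  ji W s n ∘ₗ LinearMap.inr K _ _ ∘ₗ LinearMap.inr K _ _ ∘ₗ pg W.sft.sft (s + 1 + 1) n t

theorem j1_ty : TY (IQ W s n) (j1 W s n) :=
  (((pg_ty W s n).map (by omega) inl_hom).map (by omega) inl_hom).map (by omega) (ji_hom W s n)

theorem jH_ty : TY (IQ W s n) (jH W s n) :=
  (((pg_ty _ _ n).map (by omega) inr_hom).map (by omega) inl_hom).map (by omega) (ji_hom W s n)

theorem jE_ty : TY (IQ W s n) (jE W s n) :=
  (((pg_ty _ _ n).map (by omega) inl_hom).map (by omega) inr_hom).map (by omega) (ji_hom W s n)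

theorem jR_ty : TY (IQ W s n) (jR W s n) :=
  (((pg_ty _ _ n).map (by omega) inr_hom).map (by omega) inr_hom).map (by omega) (ji_hom W s n)

theorem j1_fc : FC W (IQ W s n) s n (j1 W s n) :=
  (((pg_fc W s n).map inl_hom).map inl_hom).map (ji_hom W s n)

theorem jH_fc : FC W.sft (IQ W s n) (s + 1) n (jH W s n) :=
  (((pg_fc _ _ n).map inr_hom).map inl_hom).map (ji_hom W s n)

theorem jE_fc : FC W.sft (IQ W s n) (s + 1) n (jE W s n) :=
  (((pg_fc _ _ n).map inl_hom).map inr_hom).map (ji_hom W s n)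

theorem jR_fc : FC W.sft.sft (IQ W s n) (s + 1 + 1) n (jR W s n) :=
  (((pg_fc _ _ n).map inr_hom).map inr_hom).map (ji_hom W s n)

noncomputable def dI : (IQ W s (n + 1)).X →ₗ[K] (IQ W s n).X := cw (dQ μ W s n)

noncomputable def aI : (IQ W s s).X →ₗ[K] (ℕ →₀ X) := cw (aQ μ W s)

theorem iq_rs : Rs (IQ W s) (Ind (Km W μ)) s (dI μ W s) (aI μ W s) := (q_rs μ W s).ind

theorem dI_ji (y : (QQ W s (n + 1)).X) :
    dI μ W s n (ji W s (n + 1) y) = ji W s n (dQ μ W s n y) := cw_single _ _ _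

theorem aI_ji (y : (QQ W s s).X) :
    aI μ W s (ji W s s y) = Finsupp.single 0 (aQ μ W s y) := cw_single _ _ _

/-- The internal part of the differential on a family of generators. -/
def DT {j : ℕ} (Z : Obj K j) (τ : K) (g : Bool → X →ₗ[K] Z.X) (t : Bool) (w : X) : Z.X :=
  if t then τ • Z.op 3 (g false w) else Z.op 2 (g true w)

theorem DT_true {j : ℕ} (Z : Obj K j) (τ : K) (g : Bool → X →ₗ[K] Z.X) (w : X) :
    DT Z τ g true w = τ • Z.op 3 (g false w) := rfl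

theorem DT_false {j : ℕ} (Z : Obj K j) (τ : K) (g : Bool → X →ₗ[K] Z.X) (w : X) :
    DT Z τ g false w = Z.op 2 (g true w) := rfl

theorem ji_op (i : ℕ) (hi : i < 6) (y : (QQ W s n).X) :
    (IQ W s n).op i (ji W s n y) = ji W s n ((QQ W s n).op i y) := ((ji_hom W s n).comm i hi y).symm

theorem dI_1 (t : Bool) (w : X) :
    dI μ W s n (j1 W s (n + 1) t w) = DT (IQ W s n) (tau K s n) (j1 W s n) t w := by
  refine (dI_ji μ W s n _).trans ?_
  cases t <;>
  · simp only [j1, LinearMap.comp_apply, DT_true, DT_false, ji_op W s n 2 (by omega),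
      ji_op W s n 3 (by omega), ← map_smul]
    congr 1
    simp [cdm_apply, Prod.mk_zero_zero, ← Prod.zero_eq_mk]

theorem dI_H (t : Bool) (w : X) :
    dI μ W s n (jH W s (n + 1) t w) = (IQ W s n).op 0 (j1 W s n t w) - μ • j1 W s n t w -
      DT (IQ W s n) (tau K (s + 1) n) (jH W s n) t w := by
  refine (dI_ji μ W s n _).trans ?_
  cases t <;>
  · simp only [j1, jH, LinearMap.comp_apply, DT_true, DT_false, ji_op W s n 2 (by omega),
      ji_op W s n 3 (by omega), ji_op W s n 0 (by omega), ← map_smul, ← map_sub]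
    congr 1
    simp [cdm_apply, PH_pg, ← Prod.zero_eq_mk]

theorem dI_E (t : Bool) (w : X) :
    dI μ W s n (jE W s (n + 1) t w) = (IQ W s n).op 1 (j1 W s n t w) -
      DT (IQ W s n) (tau K (s + 1) n) (jE W s n) t w := by
  refine (dI_ji μ W s n _).trans ?_
  cases t <;>
  · simp only [j1, jE, LinearMap.comp_apply, DT_true, DT_false, ji_op W s n 2 (by omega),
      ji_op W s n 3 (by omega), ji_op W s n 1 (by omega), ← map_smul, ← map_sub]
    congr 1
    simp [cdm_apply]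
    exact PE_1 W s n _ w

theorem dI_R (t : Bool) (w : X) :
    dI μ W s n (jR W s (n + 1) t w) = (IQ W s n).op 1 (jH W s n t w) +
      (IQ W s n).op 5 (j1 W s n (!t) w) -
      ((IQ W s n).op 0 (jE W s n t w) - (μ + 2) • jE W s n t w) +
      DT (IQ W s n) (tau K (s + 1 + 1) n) (jR W s n) t w := by
  refine (dI_ji μ W s n _).trans ?_
  cases t <;>
  · simp only [j1, jH, jE, jR, LinearMap.comp_apply, DT_true, DT_false,
      ji_op W s n 2 (by omega), ji_op W s n 3 (by omega), ji_op W s n 1 (by omega),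
      ji_op W s n 0 (by omega), ji_op W s n 5 (by omega), ← map_smul, ← map_sub, ← map_add]
    congr 1
    simp [cdm_apply, PH_pg]
    exact PE_2 W s n _ w

theorem aI_1x (w : X) : aI μ W s (j1 W s s true w) = Finsupp.single 0 w := by
  refine (aI_ji μ W s _).trans ?_
  simp [uinc, fg_single]

theorem aI_1y (w : X) : aI μ W s (j1 W s s false w) = 0 := by
  refine (aI_ji μ W s _).trans ?_
  simp

theorem aI_H (t : Bool) (w : X) : aI μ W s (jH W s s t w) = 0 := by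
  refine (aI_ji μ W s _).trans ?_
  simp

theorem aI_E (t : Bool) (w : X) : aI μ W s (jE W s s t w) = 0 := by
  refine (aI_ji μ W s _).trans ?_
  simp

theorem aI_R (t : Bool) (w : X) : aI μ W s (jR W s s t w) = 0 := by
  refine (aI_ji μ W s _).trans ?_
  simp

noncomputable def ilf (Z : Obj K 7) (ψ1 ψH ψE ψR : Bool → X →ₗ[K] Z.X) :
    (IQ W s n).X →ₗ[K] Z.X :=
  plift (Z.op 6) (((plf W s n (res (by omega) Z) ψ1).coprod
    (plf W.sft (s + 1) n (res (by omega) Z) ψH)).coprod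
    ((plf W.sft (s + 1) n (res (by omega) Z) ψE).coprod
    (plf W.sft.sft (s + 1 + 1) n (res (by omega) Z) ψR)))

variable (Z : Obj K 7) (ψ1 ψH ψE ψR : Bool → X →ₗ[K] Z.X)

theorem ilf_1 (t : Bool) (w : X) : ilf W s n Z ψ1 ψH ψE ψR (j1 W s n t w) = ψ1 t w := by
  refine (plift_zero _ _ _).trans ?_
  simp only [LinearMap.comp_apply, LinearMap.coprod_apply, LinearMap.inl_apply,
    LinearMap.inr_apply, map_zero, add_zero, zero_add]
  exact plf_pg W s n (res (by omega) Z) ψ1 t w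

theorem ilf_H (t : Bool) (w : X) : ilf W s n Z ψ1 ψH ψE ψR (jH W s n t w) = ψH t w := by
  refine (plift_zero _ _ _).trans ?_
  simp only [LinearMap.comp_apply, LinearMap.coprod_apply, LinearMap.inl_apply,
    LinearMap.inr_apply, map_zero, add_zero, zero_add]
  exact plf_pg _ _ n (res (by omega) Z) ψH t w

theorem ilf_E (t : Bool) (w : X) : ilf W s n Z ψ1 ψH ψE ψR (jE W s n t w) = ψE t w := by
  refine (plift_zero _ _ _).trans ?_
  simp only [LinearMap.comp_apply, LinearMap.coprod_apply, LinearMap.inl_apply,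
    LinearMap.inr_apply, map_zero, add_zero, zero_add]
  exact plf_pg _ _ n (res (by omega) Z) ψE t w

theorem ilf_R (t : Bool) (w : X) : ilf W s n Z ψ1 ψH ψE ψR (jR W s n t w) = ψR t w := by
  refine (plift_zero _ _ _).trans ?_
  simp only [LinearMap.comp_apply, LinearMap.coprod_apply, LinearMap.inl_apply,
    LinearMap.inr_apply, map_zero, add_zero, zero_add]
  exact plf_pg _ _ n (res (by omega) Z) ψR t w

variable {W s n Z ψ1 ψH ψE ψR}

theorem ilf_hom (t1 : TY Z ψ1) (tH : TY Z ψH) (tE : TY Z ψE) (tR : TY Z ψR) (f1 : FC W Z s n ψ1)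
    (fH : FC W.sft Z (s + 1) n ψH) (fE : FC W.sft Z (s + 1) n ψE)
    (fR : FC W.sft.sft Z (s + 1 + 1) n ψR) : Hom (IQ W s n) Z (ilf W s n Z ψ1 ψH ψE ψR) :=
  lift_hom (Y := QQ W s n) (((plf_hom (Z := res (by omega) Z) t1 f1).coprod
    (plf_hom (Z := res (by omega) Z) tH fH)).coprod
    ((plf_hom (Z := res (by omega) Z) tE fE).coprod (plf_hom (Z := res (by omega) Z) tR fR)))

theorem iq_ext {φ ψ : (IQ W s n).X →ₗ[K] Z.X} (hφ : Hom (IQ W s n) Z φ)
    (hψ : Hom (IQ W s n) Z ψ) (h1 : ∀ t w, φ (j1 W s n t w) = ψ (j1 W s n t w))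
    (hH : ∀ t w, φ (jH W s n t w) = ψ (jH W s n t w))
    (hE : ∀ t w, φ (jE W s n t w) = ψ (jE W s n t w))
    (hR : ∀ t w, φ (jR W s n t w) = ψ (jR W s n t w)) (x : (IQ W s n).X) : φ x = ψ x := by
  have a := (hφ.res (by omega : 6 ≤ 7)).comp (ji_hom W s n)
  have b := (hψ.res (by omega : 6 ≤ 7)).comp (ji_hom W s n)
  have key := prod_ext (q1_ext (a.comp inl_hom) (b.comp inl_hom) h1 hH)
    (q1_ext (a.comp inr_hom) (b.comp inr_hom) hE hR)
  exact ind_gen_top (Y := QQ W s n) (S := LinearMap.eqLocus φ ψ) (fun i hi x hx =>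
    (hφ.comm i hi x).trans ((congrArg (Z.op i) hx).trans (hψ.comm i hi x).symm)) key x

variable (s n) in
noncomputable def iqG {I : Type} (G : LG W.l0 I) :
    Gens (IQ W s n) (((I ⊕ I) ⊕ (I ⊕ I)) ⊕ ((I ⊕ I) ⊕ (I ⊕ I))) :=
  (((pwG s n G).prod (pwG (W := W.sft) (s + 1) n G.sft)).prod
    ((pwG (W := W.sft) (s + 1) n G.sft).prod (pwG (W := W.sft.sft) (s + 1 + 1) n G.sft.sft))).ind

theorem iqG_dg {I : Type} (G : LG W.l0 I) {b : ℕ} (h : ∀ i, G.dg i ≤ b) :
    ∀ i, (iqG s n G).dg i ≤ b + 2 := by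
  rintro (((i | i) | (i | i)) | ((i | i) | (i | i)))
  · exact (h i).trans (by omega)
  · exact (h i).trans (by omega)
  · exact (Nat.succ_le_succ (h i)).trans (by omega)
  · exact (Nat.succ_le_succ (h i)).trans (by omega)
  · exact (Nat.succ_le_succ (h i)).trans (by omega)
  · exact (Nat.succ_le_succ (h i)).trans (by omega)
  · exact Nat.succ_le_succ (Nat.succ_le_succ (h i))
  · exact Nat.succ_le_succ (Nat.succ_le_succ (h i))

theorem iqG_cases {I : Type} (G : LG W.l0 I) {P : (IQ W s n).X → Prop}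
    (h1 : ∀ t i, pr s n t → P (j1 W s n t (G.g i)))
    (hH : ∀ t i, pr (s + 1) n t → P (jH W s n t (G.g i)))
    (hE : ∀ t i, pr (s + 1) n t → P (jE W s n t (G.g i)))
    (hR : ∀ t i, pr (s + 1 + 1) n t → P (jR W s n t (G.g i))) :
    ∀ i, (iqG s n G).pres i → P ((iqG s n G).g i) := by
  rintro (((i | i) | (i | i)) | ((i | i) | (i | i))) hi
  · exact h1 true i hi.1
  · exact h1 false i hi.1
  · exact hH true i hi.1
  · exact hH false i hi.1
  · exact hE true i hi.1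
  · exact hE false i hi.1
  · exact hR true i hi.1
  · exact hR false i hi.1

end Vale.Agent.P195
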