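import Mathlib

/- Abstract complexes of vector spaces, formal complexes over a ring and their evaluations. -/

namespace Vale.Agent.P195

variable {k : Type} [Field k]

structure Cx (k X : Type) [Field k] [AddCommGroup X] [Module k X] where
  E : ℤ → Submodule k X
  d : X →ₗ[k] X
  mem : ∀ n x, x ∈ E (n + 1) → d x ∈ E n
  dd : ∀ x, d (d x) = 0

section Abstract

variable {X X' X'' T : Type} [AddCommGroup X] [Module k X] [AddCommGroup X'] [Module k X']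
  [AddCommGroup X''] [Module k X''] [AddCommGroup T] [Module k T]

def Cx.Ac (C : Cx k X) (n : ℤ) : Prop :=
  ∀ x ∈ C.E n, C.d x = 0 → ∃ y ∈ C.E (n + 1), C.d y = x

def Cx.Dim1 (C : Cx k X) (n : ℤ) : Prop :=
  ∀ x ∈ C.E n, ∀ y ∈ C.E n, C.d x = 0 → C.d y = 0 →
    ∃ a b : k, (a ≠ 0 ∨ b ≠ 0) ∧ ∃ z ∈ C.E (n + 1), C.d z = a • x + b • y

structure CMap (C : Cx k X) (C' : Cx k X') (f : X →ₗ[k] X') : Prop where
  mem : ∀ n x, x ∈ C.E n → f x ∈ C'.E n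
  comm : ∀ n x, x ∈ C.E n → f (C.d x) = C'.d (f x)

structure SES (C' : Cx k X') (C : Cx k X) (C'' : Cx k X'') (f : X' →ₗ[k] X)
    (g : X →ₗ[k] X'') : Prop where
  hf : CMap C' C f
  hg : CMap C C'' g
  inj : ∀ n x, x ∈ C'.E n → f x = 0 → x = 0
  gf : ∀ n x, x ∈ C'.E n → g (f x) = 0
  mid : ∀ n y, y ∈ C.E n → g y = 0 → ∃ x ∈ C'.E n, f x = y
  surj : ∀ n z, z ∈ C''.E n → ∃ y ∈ C.E n, g y = z

def Le (C' : Cx k X') (C : Cx k X) (s : ℤ) : Prop :=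
  ∀ a, (C.Ac (a + s) → C'.Ac a) ∧ (C.Dim1 (a + s) → C'.Dim1 a)

theorem Le.trans {C' : Cx k X'} {C : Cx k X} {C'' : Cx k X''} {s t : ℤ} (h1 : Le C' C s)
    (h2 : Le C C'' t) : Le C' C'' (s + t) := by
  intro a
  rw [← add_assoc]
  exact ⟨fun h => (h1 a).1 ((h2 _).1 h), fun h => (h1 a).2 ((h2 _).2 h)⟩

variable {C' : Cx k X'} {C : Cx k X} {C'' : Cx k X''} {f : X' →ₗ[k] X} {g : X →ₗ[k] X''}

theorem Cx.mem' (C : Cx k X) {n : ℤ} {x : X} (h : x ∈ C.E n) : C.d x ∈ C.E (n - 1) :=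
  C.mem _ _ (by rwa [sub_add_cancel])

theorem SES.key (h : SES C' C C'' f g) {n : ℤ} {x : X'} (hx : x ∈ C'.E n) {y : X}
    (hy : y ∈ C.E (n + 1)) (e : C.d y = f x) {z : X''} (hz : z ∈ C''.E (n + 1 + 1))
    (e' : C''.d z = g y) : ∃ x' ∈ C'.E (n + 1), C'.d x' = x := by
  obtain ⟨y', hy', rfl⟩ := h.surj _ z hz
  obtain ⟨x', hx', e2⟩ := h.mid _ (y - C.d y') (Submodule.sub_mem _ hy (C.mem _ _ hy'))
    (by rw [map_sub, h.hg.comm _ _ hy', e', sub_self])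
  refine ⟨x', hx', ?_⟩
  rw [← sub_eq_zero]
  refine h.inj n _ (Submodule.sub_mem _ (C'.mem _ _ hx') hx) ?_
  rw [map_sub, h.hf.comm _ _ hx', e2, map_sub, C.dd, sub_zero, e, sub_self]

theorem SES.le (h : SES C' C C'' f g) (hC : ∀ n, C.Ac n) : Le C' C'' 1 := by
  intro a
  have aux : ∀ x ∈ C'.E a, C'.d x = 0 → ∃ y ∈ C.E (a + 1), C.d y = f x ∧ C''.d (g y) = 0 := by
    intro x hx h0
    obtain ⟨y, hy, e⟩ := hC a (f x) (h.hf.mem _ _ hx) (by rw [← h.hf.comm _ _ hx, h0, map_zero])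
    exact ⟨y, hy, e, by rw [← h.hg.comm _ _ hy, e, h.gf _ _ hx]⟩
  constructor
  · intro h2 x hx h0
    obtain ⟨y, hy, e, e1⟩ := aux x hx h0
    obtain ⟨z, hz, e'⟩ := h2 (g y) (h.hg.mem _ _ hy) e1
    exact h.key hx hy e hz e'
  · intro h2 x hx x' hx' h0 h0'
    obtain ⟨y, hy, e, e1⟩ := aux x hx h0
    obtain ⟨y', hy', e', e1'⟩ := aux x' hx' h0'
    obtain ⟨α, β, hab, z, hz, e2⟩ := h2 (g y) (h.hg.mem _ _ hy) (g y') (h.hg.mem _ _ hy') e1 e1'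
    refine ⟨α, β, hab, h.key (y := α • y + β • y') (z := z) ?_ ?_ ?_ hz ?_⟩
    · exact Submodule.add_mem _ (Submodule.smul_mem _ _ hx) (Submodule.smul_mem _ _ hx')
    · exact Submodule.add_mem _ (Submodule.smul_mem _ _ hy) (Submodule.smul_mem _ _ hy')
    · simp [e, e']
    · simp [e2]

theorem SES.lift (h : SES C' C C'' f g) {n : ℤ} {y : X} (hy : y ∈ C.E n) {z : X''}
    (hz : z ∈ C''.E (n + 1)) (e : C''.d z = g y) :
    ∃ y' ∈ C.E (n + 1), ∃ x ∈ C'.E n, y = C.d y' + f x := by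
  obtain ⟨y', hy', rfl⟩ := h.surj _ z hz
  obtain ⟨x, hx, e2⟩ := h.mid _ (y - C.d y') (Submodule.sub_mem _ hy (C.mem _ _ hy'))
    (by rw [map_sub, h.hg.comm _ _ hy', e, sub_self])
  exact ⟨y', hy', x, hx, by rw [e2, add_sub_cancel]⟩

theorem SES.cyc (h : SES C' C C'' f g) {n : ℤ} {x : X'} (hx : x ∈ C'.E n)
    (h0 : C.d (f x) = 0) : C'.d x = 0 :=
  h.inj _ _ (C'.mem' hx) (by rw [h.hf.comm _ _ hx, h0])

theorem SES.ac2 (h : SES C' C C'' f g) {n : ℤ} (h1 : C'.Ac n) (h3 : C''.Ac n) : C.Ac n := by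
  intro y hy h0
  obtain ⟨z, hz, e⟩ := h3 (g y) (h.hg.mem _ _ hy) (by rw [← h.hg.comm _ _ hy, h0, map_zero])
  obtain ⟨y', hy', x, hx, e2⟩ := h.lift hy hz e
  have h5 : C.d (f x) = 0 := by
    have := congrArg C.d e2
    rwa [h0, map_add, C.dd, zero_add, eq_comm] at this
  obtain ⟨x', hx', e3⟩ := h1 x hx (h.cyc hx h5)
  refine ⟨y' + f x', Submodule.add_mem _ hy' (h.hf.mem _ _ hx'), ?_⟩
  rw [map_add, ← h.hf.comm _ _ hx', e3, ← e2]

/-- The cancellation of two one-dimensional classes through a nonzero connecting map. -/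
theorem SES.cancel (h : SES C' C C'' f g) {n : ℤ} {η : X} (hη : η ∈ C.E (n + 1)) {ρ : X'}
    (hρ : ρ ∈ C'.E n) (e : C.d η = f ρ) (hne : ∀ y ∈ C'.E (n + 1), C'.d y ≠ ρ)
    (h1 : C'.Dim1 n) (h2 : C''.Ac n) (h3 : C'.Ac (n + 1)) (h4 : C''.Dim1 (n + 1)) :
    C.Ac n ∧ C.Ac (n + 1) := by
  have hρ0 : C'.d ρ = 0 := h.cyc hρ (by rw [← e, C.dd])
  have hne' : ∀ (β : k), ∀ y ∈ C'.E (n + 1), C'.d y = β • ρ → β = 0 := by
    intro β y hy e1
    by_contra hβ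
    refine hne (β⁻¹ • y) (Submodule.smul_mem _ _ hy) ?_
    rw [map_smul, e1, smul_smul, inv_mul_cancel₀ hβ, one_smul]
  constructor
  · intro y hy h0
    obtain ⟨z, hz, e1⟩ := h2 (g y) (h.hg.mem _ _ hy) (by rw [← h.hg.comm _ _ hy, h0, map_zero])
    obtain ⟨y', hy', x, hx, e2⟩ := h.lift hy hz e1
    have h5 : C.d (f x) = 0 := by
      have := congrArg C.d e2
      rwa [h0, map_add, C.dd, zero_add, eq_comm] at this
    obtain ⟨α, β, hab, x', hx', e3⟩ := h1 x hx ρ hρ (h.cyc hx h5) hρ0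
    have hα : α ≠ 0 := by
      rintro rfl
      have := hne' β x' hx' (by simpa using e3)
      simp [this] at hab
    refine ⟨y' + α⁻¹ • (f x' - β • η), Submodule.add_mem _ hy' (Submodule.smul_mem _ _
      (Submodule.sub_mem _ (h.hf.mem _ _ hx') (Submodule.smul_mem _ _ hη))), ?_⟩
    rw [map_add, map_smul, map_sub, map_smul, ← h.hf.comm _ _ hx', e3, e, map_add, map_smul,
      map_smul, add_sub_cancel_right, smul_smul, inv_mul_cancel₀ hα, one_smul, ← e2]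
  · intro y hy h0
    obtain ⟨α, β, hab, z, hz, e1⟩ := h4 (g y) (h.hg.mem _ _ hy) (g η) (h.hg.mem _ _ hη)
      (by rw [← h.hg.comm _ _ hy, h0, map_zero]) (by rw [← h.hg.comm _ _ hη, e, h.gf _ _ hρ])
    obtain ⟨y', hy', x, hx, e2⟩ := h.lift (y := α • y + β • η)
      (Submodule.add_mem _ (Submodule.smul_mem _ _ hy) (Submodule.smul_mem _ _ hη)) hz
      (by simp [e1])
    have h5 : C'.d x = β • ρ := by
      rw [← sub_eq_zero]
      refine h.inj n _ (Submodule.sub_mem _ (C'.mem _ _ hx) (Submodule.smul_mem _ _ hρ)) ?_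
      have := congrArg C.d e2
      rw [map_add, map_add, map_smul, map_smul, h0, C.dd, e, smul_zero, zero_add, zero_add] at this
      rw [map_sub, h.hf.comm _ _ hx, map_smul, this, sub_self]
    have hβ := hne' β x hx h5
    subst hβ
    have hα : α ≠ 0 := by simpa using hab
    obtain ⟨x', hx', e3⟩ := h3 x hx (by simpa using h5)
    refine ⟨α⁻¹ • (y' + f x'), Submodule.smul_mem _ _
      (Submodule.add_mem _ hy' (h.hf.mem _ _ hx')), ?_⟩
    rw [map_smul, map_add, ← h.hf.comm _ _ hx', e3, ← e2, zero_smul, add_zero, smul_smul,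
      inv_mul_cancel₀ hα, one_smul]

/-- Stable retracts. -/
theorem le_of_retract {C : Cx k X} {C' : Cx k X'} {D : Cx k T} {f : X →ₗ[k] X'}
    {f' : X' →ₗ[k] X} {γ : X →ₗ[k] T} {β : T →ₗ[k] X} (hf : CMap C C' f) (hf' : CMap C' C f')
    (hγ : CMap C D γ) (hβ : CMap D C β) (e : ∀ n x, x ∈ C.E n → x = f' (f x) + β (γ x))
    (hD : ∀ n, D.Ac n) : Le C C' 0 := by
  intro a
  rw [add_zero]
  have aux : ∀ x ∈ C.E a, C.d x = 0 → ∀ y ∈ C'.E (a + 1), C'.d y = f x →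
      ∃ z ∈ C.E (a + 1), C.d z = x := by
    intro x hx h0 y hy e1
    obtain ⟨t, ht, e2⟩ := hD a (γ x) (hγ.mem _ _ hx) (by rw [← hγ.comm _ _ hx, h0, map_zero])
    refine ⟨f' y + β t, Submodule.add_mem _ (hf'.mem _ _ hy) (hβ.mem _ _ ht), ?_⟩
    rw [map_add, ← hf'.comm _ _ hy, ← hβ.comm _ _ ht, e1, e2, ← e a x hx]
  constructor
  · intro h x hx h0
    obtain ⟨y, hy, e1⟩ := h (f x) (hf.mem _ _ hx) (by rw [← hf.comm _ _ hx, h0, map_zero])
    exact aux x hx h0 y hy e1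
  · intro h x hx x' hx' h0 h0'
    obtain ⟨α, β', hab, y, hy, e1⟩ := h (f x) (hf.mem _ _ hx) (f x') (hf.mem _ _ hx')
      (by rw [← hf.comm _ _ hx, h0, map_zero]) (by rw [← hf.comm _ _ hx', h0', map_zero])
    refine ⟨α, β', hab, aux _ (Submodule.add_mem _ (Submodule.smul_mem _ _ hx)
      (Submodule.smul_mem _ _ hx')) (by simp [h0, h0']) y hy (by simp [e1])⟩

theorem ac_of_retract {C : Cx k X} {D : Cx k T} {γ : X →ₗ[k] T} {β : T →ₗ[k] X}
    (hγ : CMap C D γ) (hβ : CMap D C β) (e : ∀ n x, x ∈ C.E n → x = β (γ x)) {n : ℤ}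
    (hD : D.Ac n) : C.Ac n := by
  intro x hx h0
  obtain ⟨t, ht, e2⟩ := hD (γ x) (hγ.mem _ _ hx) (by rw [← hγ.comm _ _ hx, h0, map_zero])
  exact ⟨β t, hβ.mem _ _ ht, by rw [← hβ.comm _ _ ht, e2, ← e n x hx]⟩

end Abstract

end Vale.Agent.P195
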