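import Vale.Agent.P176.Ext

/- Homological bookkeeping: vanishing of Ext from resolutions and short exact sequences. -/

namespace Vale.Agent.P195

open CategoryTheory Abelian
open Vale.Agent.P176 (SE)

universe u

variable {A : Type u} [Ring A]

/-- Vanishing of `Ext M S i` for all `i` at least `k`. -/
def ZG (S M : ModuleCat.{u} A) (k : ℕ) : Prop := ∀ i, k ≤ i → ∀ x : Ext.{u} M S i, x = 0

variable {S M M1 M2 M3 : ModuleCat.{u} A} {k : ℕ}

theorem ZG.mono {l : ℕ} (h : ZG S M k) (hl : k ≤ l) : ZG S M l := fun i hi => h i (by omega)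

theorem se_of (f : M1 →ₗ[A] M2) (g : M2 →ₗ[A] M3) (h : Function.Exact f g)
    (hf : Function.Injective f) (hg : Function.Surjective g) : SE M1 M2 M3 := by
  refine ⟨ModuleCat.ofHom f, ModuleCat.ofHom g, ?_, ?_⟩
  · ext x
    exact h.apply_apply_eq_zero x
  · exact ModuleCat.shortComplex_shortExact _ h hf hg

theorem zg3 (h : SE M1 M2 M3) (h1 : ZG S M1 k) (h2 : ZG S M2 (k + 1)) : ZG S M3 (k + 1) := by
  obtain ⟨f, g, w, hS⟩ := h
  rintro (_ | i) hi x
  · omega
  · obtain ⟨x₁, rfl⟩ := Ext.contravariant_sequence_exact₃ hS _ x (h2 _ hi _) (add_comm _ _)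
    rw [h1 _ (by omega) x₁, Ext.comp_zero]

theorem zg3' (h : SE M1 M2 M3) (h1 : ZG S M1 0) (h2 : ZG S M2 0) : ZG S M3 0 :=
  fun i _ => h.ze3 (fun i => h1 i (by omega)) (fun i => h2 i (by omega)) i

theorem zg1 (h : SE M1 M2 M3) (h2 : ZG S M2 k) (h3 : ZG S M3 (k + 1)) : ZG S M1 k := by
  obtain ⟨f, g, w, hS⟩ := h
  intro i hi x
  obtain ⟨x₂, rfl⟩ := Ext.contravariant_sequence_exact₁ hS _ x (add_comm _ _) (h3 _ (by omega) _)
  rw [h2 _ hi x₂, Ext.comp_zero]

theorem zg_co (h : SE M1 M2 M3) (h2 : ZG M2 M (k + 1)) (h3 : ZG M3 M k) : ZG M1 M (k + 1) := by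
  obtain ⟨f, g, w, hS⟩ := h
  rintro (_ | i) hi x
  · omega
  · obtain ⟨x₃, rfl⟩ := Ext.covariant_sequence_exact₁ _ hS x (h2 _ hi _) rfl
    rw [h3 _ (by omega) x₃, Ext.zero_comp]

theorem zg_proj [Module.Projective A M] : ZG S M 1 := by
  have : Projective M := ModuleCat.projective_of_categoryTheory_projective M
  intro i hi x
  exact x.eq_zero_of_hasProjectiveDimensionLT 1 hi

theorem zg_hom (h : ZG S M 1) (h0 : ∀ θ : M →ₗ[A] S, θ = 0) : ZG S M 0 := by
  rintro (_ | i) _ x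
  · obtain ⟨f, rfl⟩ := (Ext.mk₀_bijective M S).2 x
    have : f = 0 := ModuleCat.hom_ext (h0 _)
    rw [this, Ext.mk₀_zero]
  · exact h _ (by omega) x

theorem zg_iso (f : M1 →ₗ[A] M2) (hf : Function.Bijective f) (h : ZG S M2 k) : ZG S M1 k := by
  intro i hi x
  let e := LinearEquiv.ofBijective f hf
  have h1 : ModuleCat.ofHom f ≫ ModuleCat.ofHom e.symm.toLinearMap = 𝟙 M1 := by
    ext y
    exact e.symm_apply_apply y
  have h2 := h i hi ((Ext.mk₀ (ModuleCat.ofHom e.symm.toLinearMap)).comp x (zero_add i))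
  have h3 := congrArg (fun y => (Ext.mk₀ (ModuleCat.ofHom f)).comp y (zero_add i)) h2
  simpa only [Ext.mk₀_comp_mk₀_assoc, h1, Ext.mk₀_id_comp, Ext.comp_zero] using h3

theorem zg_iso' (f : M1 →ₗ[A] M2) (hf : Function.Bijective f) (h : ZG M2 M k) : ZG M1 M k := by
  intro i hi x
  let e := LinearEquiv.ofBijective f hf
  have h1 : ModuleCat.ofHom f ≫ ModuleCat.ofHom e.symm.toLinearMap = 𝟙 M1 := by
    ext y
    exact e.symm_apply_apply y
  have h2 := h i hi (x.comp (Ext.mk₀ (ModuleCat.ofHom f)) (add_zero i))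
  have h3 := congrArg (fun y => y.comp (Ext.mk₀ (ModuleCat.ofHom e.symm.toLinearMap))
    (add_zero i)) h2
  simpa only [Ext.comp_assoc_of_third_deg_zero, Ext.mk₀_comp_mk₀, h1, Ext.comp_mk₀_id,
    Ext.zero_comp] using h3

theorem ext_one (f : M1 →ₗ[A] M2) (g : M2 →ₗ[A] M3) (h : Function.Exact f g)
    (hf : Function.Injective f) (hg : Function.Surjective g) (h2 : ZG S M2 1)
    (h1 : ∀ y : M1 →ₗ[A] S, ∃ θ : M2 →ₗ[A] S, y = θ ∘ₗ f) (x : Ext.{u} M3 S 1) : x = 0 := by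
  have w : (ModuleCat.ofHom f : M1 ⟶ M2) ≫ (ModuleCat.ofHom g : M2 ⟶ M3) = 0 := by
    ext x
    exact h.apply_apply_eq_zero x
  have hS : (ShortComplex.mk _ _ w).ShortExact := ModuleCat.shortComplex_shortExact _ h hf hg
  obtain ⟨x₁, rfl⟩ := Ext.contravariant_sequence_exact₃ hS _ x (h2 _ le_rfl _) (add_zero _)
  obtain ⟨y, rfl⟩ := (Ext.mk₀_bijective _ _).2 x₁
  obtain ⟨θ, hθ⟩ := h1 y.hom
  have h3 : y = (ShortComplex.mk _ _ w).f ≫ ModuleCat.ofHom θ := ModuleCat.hom_ext hθ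
  rw [h3, ← Ext.mk₀_comp_mk₀]
  exact hS.extClass_comp_assoc _

theorem ext_succ (h : SE M1 M2 M3) {i : ℕ} (h1 : ∀ x : Ext.{u} M1 S i, x = 0)
    (h2 : ∀ x : Ext.{u} M2 S (i + 1), x = 0) (x : Ext.{u} M3 S (i + 1)) : x = 0 := by
  obtain ⟨f, g, w, hS⟩ := h
  obtain ⟨x₁, rfl⟩ := Ext.contravariant_sequence_exact₃ hS _ x (h2 _) (add_comm _ _)
  rw [h1 x₁, Ext.comp_zero]

theorem ext_vanish_aux (S : ModuleCat.{u} A) (i : ℕ) : ∀ (M : ℕ → ModuleCat.{u} A)
    (d : ∀ n, M (n + 1) →ₗ[A] M n) (Y : ModuleCat.{u} A) (α : M 0 →ₗ[A] Y),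
    Function.Surjective α → Function.Exact (d 0) α → (∀ n, Function.Exact (d (n + 1)) (d n)) →
    (∀ n, ZG S (M n) 1) →
    (∀ n (θ : M (n + 1) →ₗ[A] S), θ ∘ₗ d (n + 1) = 0 → ∃ θ' : M n →ₗ[A] S, θ = θ' ∘ₗ d n) →
    ∀ x : Ext.{u} Y S (i + 1), x = 0 := by
  induction i with
  | zero =>
    intro M d Y α hα h0 hd hM he
    refine ext_one (M1 := ModuleCat.of A (LinearMap.ker α)) (LinearMap.ker α).subtype α
      (LinearMap.exact_subtype_ker_map α) (Submodule.injective_subtype _) hα (hM 0) fun y => ?_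
    let β : M 1 →ₗ[A] LinearMap.ker α := (d 0).codRestrict _ fun z => h0.apply_apply_eq_zero z
    obtain ⟨θ', h⟩ := he 0 (y ∘ₗ β) (LinearMap.ext fun z => by
      have : β (d 1 z) = 0 := Subtype.ext ((hd 0).apply_apply_eq_zero z)
      exact (congrArg y this).trans (map_zero y))
    refine ⟨θ', LinearMap.ext fun z => ?_⟩
    obtain ⟨w, hw⟩ := (h0 z.1).1 z.2
    have h3 : z = β w := Subtype.ext hw.symm
    rw [h3]
    exact LinearMap.congr_fun h w
  | succ i ih =>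
    intro M d Y α hα h0 hd hM he
    let β : M 1 →ₗ[A] LinearMap.ker α := (d 0).codRestrict _ fun z => h0.apply_apply_eq_zero z
    exact ext_succ (se_of (M1 := ModuleCat.of A (LinearMap.ker α)) (LinearMap.ker α).subtype α
      (LinearMap.exact_subtype_ker_map α) (Submodule.injective_subtype _) hα)
      (ih (fun n => M (n + 1)) (fun n => d (n + 1)) (ModuleCat.of A (LinearMap.ker α)) β
      (fun z => by
        obtain ⟨w, hw⟩ := (h0 z.1).1 z.2
        exact ⟨w, Subtype.ext hw⟩)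
      (fun z => by
        rw [← hd 0 z]
        exact Subtype.ext_iff)
      (fun n => hd (n + 1)) (fun n => hM (n + 1)) (fun n => he (n + 1))) (hM 0 _ (by omega))

theorem ext_vanish (M : ℕ → ModuleCat.{u} A) (d : ∀ n, M (n + 1) →ₗ[A] M n)
    {Y : ModuleCat.{u} A} (α : M 0 →ₗ[A] Y) (hα : Function.Surjective α)
    (h0 : Function.Exact (d 0) α) (hd : ∀ n, Function.Exact (d (n + 1)) (d n))
    (hM : ∀ n, ZG S (M n) 1)
    (he : ∀ n (θ : M (n + 1) →ₗ[A] S), θ ∘ₗ d (n + 1) = 0 → ∃ θ' : M n →ₗ[A] S, θ = θ' ∘ₗ d n) :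
    ZG S Y 1 := by
  rintro (_ | i) hi x
  · omega
  · exact ext_vanish_aux S i M d Y α hα h0 hd hM he x

/-- The kernel of multiplication by `a` is its image. -/
def PA (a : A) (M : Type u) [AddCommGroup M] [Module A M] : Prop :=
  ∀ m : M, a • m = 0 → ∃ m' : M, m = a • m'

theorem PA.se {a : A} (ha : a * a = 0) (h : SE M1 M2 M3) (h1 : PA a M1) (h2 : PA a M2) :
    PA a M3 := by
  obtain ⟨f, g, w, hS⟩ := h
  have hf : Function.Injective f.hom := (ModuleCat.mono_iff_injective f).1 hS.mono_f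
  have hg : Function.Surjective g.hom := (ModuleCat.epi_iff_surjective g).1 hS.epi_g
  have he : Function.Exact f.hom g.hom :=
    (ShortComplex.ShortExact.moduleCat_exact_iff_function_exact _).1 hS.exact
  intro m3 h3
  obtain ⟨m2, rfl⟩ := hg m3
  obtain ⟨m1, hm⟩ := (he (a • m2)).1 (by rw [map_smul, h3])
  obtain ⟨m1', rfl⟩ := h1 m1 (hf (by rw [map_smul, hm, smul_smul, ha, zero_smul, map_zero]))
  obtain ⟨m2', hm'⟩ := h2 (m2 - f.hom m1') (by rw [smul_sub, ← hm, map_smul, sub_self])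
  refine ⟨g.hom m2', ?_⟩
  rw [← map_smul, ← hm', map_sub, he.apply_apply_eq_zero, sub_zero]

theorem PA.proj {a : A} (h : PA a A) (M : Type u) [AddCommGroup M] [Module A M]
    [Module.Finite A M] [Module.Projective A M] : PA a M := by
  obtain ⟨n, f, hf⟩ := Module.Finite.exists_fin' A M
  obtain ⟨s, hs⟩ := Module.projective_lifting_property f LinearMap.id hf
  intro m hm
  choose b hb using fun i => h (s m i) (by
    have : (a • s m) i = 0 := by rw [← map_smul, hm, map_zero]; rfl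
    exact this)
  refine ⟨f b, ?_⟩
  rw [← map_smul, show a • b = s m from funext fun i => (hb i).symm]
  exact (LinearMap.congr_fun hs m).symm

end Vale.Agent.P195
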