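import Vale.Agent.P195.Cx

/- Formal multi-complexes over a ring and their evaluation on representations. -/

namespace Vale.Agent.P195

structure FC (R I A : Type) [Ring R] [AddCommGroup I] where
  v : A → I
  deg : I →+ ℤ
  degv : ∀ a, deg (v a) = 1
  e : I → R
  c : A → I → R
  idem : ∀ i, e i * e i = e i
  left : ∀ a i, e i * c a i = c a i
  right : ∀ a i, c a i * e (i + v a) = c a i
  sq : ∀ a i, c a i * c a (i + v a) = 0
  comm : ∀ a b i, c a i * c b (i + v a) = c b i * c a (i + v b)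

structure Rp (k R X : Type) [Field k] [Ring R] [AddCommGroup X] [Module k X] where
  U : Submodule k X
  ρ : R → Module.End k X
  mul : ∀ a b x, ρ (a * b) x = ρ a (ρ b x)
  zero : ρ 0 = 0
  stab : ∀ r x, x ∈ U → ρ r x ∈ U

variable {k : Type} [Field k]
variable {R R' I A : Type} [Ring R] [Ring R'] [AddCommGroup I] [Fintype A]
variable {X X' X'' Y : Type} [AddCommGroup X] [Module k X] [AddCommGroup X'] [Module k X']
  [AddCommGroup X''] [Module k X''] [AddCommGroup Y] [Module k Y]

variable (k) in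
theorem addself [CharP k 2] (x : X) : x + x = 0 := by
  rw [← two_smul k x]
  have : (2 : k) = 0 := CharTwo.two_eq_zero
  rw [this, zero_smul]

variable (k) in
theorem eq_of_add [CharP k 2] {x y : X} (h : x + y = 0) : x = y := by
  have := addself k y
  rw [← h] at this
  exact (add_right_cancel this).symm

def Rp.sub (W : Rp k R X) (U : Submodule k X) (h : ∀ r x, x ∈ U → W.ρ r x ∈ U) : Rp k R X :=
  ⟨U, W.ρ, W.mul, W.zero, h⟩

def Rp.comap (W : Rp k R X) (ι : R' → R) (hm : ∀ a b, ι (a * b) = ι a * ι b) (h0 : ι 0 = 0) :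
    Rp k R' X :=
  ⟨W.U, fun r => W.ρ (ι r), fun a b x => by rw [hm, W.mul], by rw [h0, W.zero],
    fun r => W.stab _⟩

def Rp.pi (W : Rp k R X) (J : Type) : Rp k R (J → X) where
  U := Submodule.pi Set.univ fun _ => W.U
  ρ := fun r => (W.ρ r).compLeft J
  mul := fun a b x => funext fun j => W.mul a b (x j)
  zero := by rw [W.zero]; rfl
  stab := fun r x hx j hj => W.stab r _ (hx j hj)

def FC.op (F : FC R I A) : FC Rᵐᵒᵖ I A where
  v := fun a => -F.v a
  deg := -F.deg
  degv := fun a => by simp [F.degv]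
  e := fun i => MulOpposite.op (F.e i)
  c := fun a i => MulOpposite.op (F.c a (i + -F.v a))
  idem := fun i => by rw [← MulOpposite.op_mul, F.idem]
  left := fun a i => by
    have := F.right a (i + -F.v a)
    rw [neg_add_cancel_right] at this
    rw [← MulOpposite.op_mul, this]
  right := fun a i => by rw [← MulOpposite.op_mul, F.left]
  sq := fun a i => by
    have := F.sq a (i + -F.v a + -F.v a)
    rw [neg_add_cancel_right] at this
    rw [← MulOpposite.op_mul, this, MulOpposite.op_zero]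
  comm := fun a b i => by
    have := F.comm b a (i + -F.v a + -F.v b)
    rw [neg_add_cancel_right, show i + -F.v a + -F.v b + F.v a = i + -F.v b by abel] at this
    rw [← MulOpposite.op_mul, ← MulOpposite.op_mul, this,
      show i + -F.v b + -F.v a = i + -F.v a + -F.v b by abel]

def FC.res (F : FC R I A) (p : I → Prop) [DecidablePred p]
    (hp : ∀ a b i, p i → p (i + F.v a + F.v b) → p (i + F.v a)) : FC R I A where
  v := F.v
  deg := F.deg
  degv := F.degv
  e := fun i => if p i then F.e i else 0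
  c := fun a i => if p i ∧ p (i + F.v a) then F.c a i else 0
  idem := fun i => by split_ifs <;> simp [F.idem]
  left := fun a i => by by_cases h1 : p i <;> by_cases h2 : p (i + F.v a) <;> simp [h1, h2, F.left]
  right := fun a i => by
    by_cases h1 : p i <;> by_cases h2 : p (i + F.v a) <;> simp [h1, h2, F.right]
  sq := fun a i => by split_ifs <;> simp [F.sq]
  comm := fun a b i => by
    have e : i + F.v b + F.v a = i + F.v a + F.v b := by abel
    by_cases h1 : p i
    · by_cases h2 : p (i + F.v a + F.v b)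
      · have h3 := hp a b i h1 h2
        have h4 := hp b a i h1 (e ▸ h2)
        simp [h1, h2, h3, h4, e, F.comm a b i]
      · simp [h2, e]
    · simp [h1]

def FC.δ (F : FC R I A) (W : Rp k R X) : (I → X) →ₗ[k] (I → X) where
  toFun := fun w i => ∑ a, W.ρ (F.c a i) (w (i + F.v a))
  map_add' := fun w w' => by ext i; simp [Finset.sum_add_distrib]
  map_smul' := fun c w => by ext i; simp [Finset.smul_sum]

theorem FC.δ_apply (F : FC R I A) (W : Rp k R X) (w : I → X) (i : I) :
    F.δ W w i = ∑ a, W.ρ (F.c a i) (w (i + F.v a)) := rfl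

def FC.E (F : FC R I A) (W : Rp k R X) (n : ℤ) : Submodule k (I → X) where
  carrier := {w | ∀ i, w i ∈ W.U ∧ W.ρ (F.e i) (w i) = w i ∧ (F.deg i ≠ n → w i = 0)}
  add_mem' := fun {a b} ha hb i => ⟨W.U.add_mem (ha i).1 (hb i).1,
    by simp [(ha i).2.1, (hb i).2.1], fun h => by simp [(ha i).2.2 h, (hb i).2.2 h]⟩
  zero_mem' := fun i => by simp
  smul_mem' := fun c a ha i => ⟨W.U.smul_mem _ (ha i).1, by simp [(ha i).2.1],
    fun h => by simp [(ha i).2.2 h]⟩

omit [Fintype A] in
theorem FC.mem_E {F : FC R I A} {W : Rp k R X} {n : ℤ} {w : I → X} : w ∈ F.E W n ↔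
    ∀ i, w i ∈ W.U ∧ W.ρ (F.e i) (w i) = w i ∧ (F.deg i ≠ n → w i = 0) := Iff.rfl

theorem FC.δ_lab (F : FC R I A) (W : Rp k R X) (w : I → X) (i : I) :
    W.ρ (F.e i) (F.δ W w i) = F.δ W w i := by
  simp only [FC.δ_apply, map_sum, ← W.mul, F.left]

theorem FC.δδ [CharP k 2] (F : FC R I A) (W : Rp k R X) (w : I → X) : F.δ W (F.δ W w) = 0 := by
  ext i
  simp only [FC.δ_apply, map_sum, ← W.mul, Pi.zero_apply]
  rw [← Finset.sum_product']
  refine Finset.sum_involution (fun p _ => p.swap) ?_ ?_ (fun _ _ => by simp) (fun _ _ => rfl)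
  · rintro ⟨a, b⟩ -
    simp only [Prod.fst_swap, Prod.snd_swap]
    rw [F.comm b a, add_right_comm i (F.v b)]
    exact addself k _
  · rintro ⟨a, b⟩ - h h2
    obtain rfl : b = a := congrArg Prod.fst h2
    simp [F.sq, W.zero] at h

def FC.L [CharP k 2] (F : FC R I A) (W : Rp k R X) : Cx k (I → X) where
  E := F.E W
  d := F.δ W
  mem := fun n w hw i => ⟨Submodule.sum_mem _ fun a _ => W.stab _ _ (hw _).1, F.δ_lab W w i,
    fun h => Finset.sum_eq_zero fun a _ => by
      rw [(hw _).2.2 (by rw [map_add, F.degv]; omega), map_zero]⟩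
  dd := F.δδ W

/-- Projection onto the labelled part of degree `n`. -/
def FC.pr (F : FC R I A) (W : Rp k R X) (n : ℤ) : (I → X) →ₗ[k] (I → X) where
  toFun := fun w i => if F.deg i = n then W.ρ (F.e i) (w i) else 0
  map_add' := fun w w' => by ext i; by_cases h : F.deg i = n <;> simp [h]
  map_smul' := fun c w => by ext i; by_cases h : F.deg i = n <;> simp [h]

omit [Fintype A] in
theorem FC.pr_apply (F : FC R I A) (W : Rp k R X) (n : ℤ) (w : I → X) (i : I) :
    F.pr W n w i = if F.deg i = n then W.ρ (F.e i) (w i) else 0 := rfl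

omit [Fintype A] in
theorem FC.pr_mem (F : FC R I A) (W : Rp k R X) (n : ℤ) {w : I → X} (h : ∀ i, w i ∈ W.U) :
    F.pr W n w ∈ F.E W n := by
  intro i
  by_cases hi : F.deg i = n
  · simp [FC.pr_apply, hi, W.stab _ _ (h i), ← W.mul, F.idem]
  · simp [FC.pr_apply, hi]

omit [Fintype A] in
theorem FC.pr_of_mem {F : FC R I A} {W : Rp k R X} {n : ℤ} {w : I → X} (h : w ∈ F.E W n) :
    F.pr W n w = w := by
  ext i
  by_cases hi : F.deg i = n
  · simp [FC.pr_apply, hi, (h i).2.1]
  · simp [FC.pr_apply, hi, (h i).2.2 hi]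

theorem FC.δ_pr (F : FC R I A) (W : Rp k R X) (n : ℤ) (w : I → X) :
    F.δ W (F.pr W (n + 1) w) = F.pr W n (F.δ W w) := by
  ext i
  rw [FC.pr_apply, F.δ_lab]
  by_cases hi : F.deg i = n
  · simp [FC.δ_apply, FC.pr_apply, hi, F.degv, ← W.mul, F.right]
  · simp [FC.δ_apply, FC.pr_apply, hi, F.degv]

theorem FC.fix (F : FC R I A) (W : Rp k R X) {n : ℤ} {w w' : I → X} (hw : w ∈ F.E W n)
    (h : ∀ i, w' i ∈ W.U) (e : F.δ W w' = w) : ∃ y ∈ F.E W (n + 1), F.δ W y = w :=
  ⟨_, F.pr_mem W (n + 1) h, by rw [F.δ_pr, e, FC.pr_of_mem hw]⟩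

structure RMap (W : Rp k R X) (W' : Rp k R X') (f : X →ₗ[k] X') : Prop where
  mem : ∀ x, x ∈ W.U → f x ∈ W'.U
  comm : ∀ r x, x ∈ W.U → f (W.ρ r x) = W'.ρ r (f x)

variable [CharP k 2]

theorem FC.ac_of (F : FC R I A) (W : Rp k R X)
    (h : ∀ w : I → X, (∀ i, w i ∈ W.U ∧ W.ρ (F.e i) (w i) = w i) → F.δ W w = 0 →
      ∃ w' : I → X, (∀ i, w' i ∈ W.U) ∧ F.δ W w' = w) (n : ℤ) : (F.L W).Ac n := by
  intro w hw h0
  obtain ⟨w', h1, h2⟩ := h w (fun i => ⟨(hw i).1, (hw i).2.1⟩) h0
  exact F.fix W hw h1 h2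

theorem RMap.cmap {W : Rp k R X} {W' : Rp k R X'} {f : X →ₗ[k] X'} (h : RMap W W' f)
    (F : FC R I A) : CMap (F.L W) (F.L W') (f.compLeft I) where
  mem := fun n w hw i => ⟨h.mem _ (hw i).1, by
    change W'.ρ _ (f (w i)) = f (w i)
    rw [← h.comm _ _ (hw i).1, (hw i).2.1], fun hi => by
    change f (w i) = 0
    rw [(hw i).2.2 hi, map_zero]⟩
  comm := fun n w hw => by
    ext i
    change f (F.δ W w i) = F.δ W' _ i
    simp only [FC.δ_apply, map_sum]
    exact Finset.sum_congr rfl fun a _ => h.comm _ _ (hw _).1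

omit [Fintype A] [CharP k 2] in
theorem FC.lift (F : FC R I A) {W : Rp k R X} {W' : Rp k R X'} {f : X →ₗ[k] X'}
    (hf : RMap W W' f) {n : ℤ} {w : I → X'} (hw : w ∈ F.E W' n)
    (h : ∀ i, ∃ x ∈ W.U, f x = w i) : ∃ x ∈ F.E W n, f.compLeft I x = w := by
  choose x hx e using h
  refine ⟨F.pr W n x, F.pr_mem W n hx, ?_⟩
  ext i
  change f (F.pr W n x i) = w i
  by_cases hi : F.deg i = n
  · simp [FC.pr_apply, hi, hf.comm _ _ (hx i), e, (hw i).2.1]
  · simp [FC.pr_apply, hi, (hw i).2.2 hi]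

theorem FC.ses (F : FC R I A) {W' : Rp k R X'} {W : Rp k R X} {W'' : Rp k R X''}
    {f : X' →ₗ[k] X} {g : X →ₗ[k] X''} (hf : RMap W' W f) (hg : RMap W W'' g)
    (inj : ∀ x, x ∈ W'.U → f x = 0 → x = 0) (gf : ∀ x, x ∈ W'.U → g (f x) = 0)
    (mid : ∀ y, y ∈ W.U → g y = 0 → ∃ x ∈ W'.U, f x = y)
    (surj : ∀ i z, z ∈ W''.U → W''.ρ (F.e i) z = z → ∃ y ∈ W.U, g y = z) :
    SES (F.L W') (F.L W) (F.L W'') (f.compLeft I) (g.compLeft I) where
  hf := hf.cmap F
  hg := hg.cmap F
  inj := fun n x hx h0 => funext fun i => inj _ (hx i).1 (congrFun h0 i)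
  gf := fun n x hx => funext fun i => gf _ (hx i).1
  mid := fun n y hy h0 => F.lift hf hy fun i => mid _ (hy i).1 (congrFun h0 i)
  surj := fun n z hz => F.lift hg hz fun i => surj i _ (hz i).1 (hz i).2.1

theorem FC.ac_retract (F : FC R I A) {W : Rp k R X} {W' : Rp k R X'} {γ : X →ₗ[k] X'}
    {β : X' →ₗ[k] X} (hγ : RMap W W' γ) (hβ : RMap W' W β)
    (e : ∀ i x, x ∈ W.U → W.ρ (F.e i) x = x → x = β (γ x)) {n : ℤ} (h : (F.L W').Ac n) :
    (F.L W).Ac n :=
  ac_of_retract (hγ.cmap F) (hβ.cmap F)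
    (fun _ x hx => funext fun i => e i _ (hx i).1 (hx i).2.1) h

theorem FC.le_retract (F : FC R I A) {W : Rp k R X} {W' : Rp k R X'} {T : Rp k R Y}
    {f : X →ₗ[k] X'} {f' : X' →ₗ[k] X} {γ : X →ₗ[k] Y} {β : Y →ₗ[k] X} (hf : RMap W W' f)
    (hf' : RMap W' W f') (hγ : RMap W T γ) (hβ : RMap T W β)
    (e : ∀ i x, x ∈ W.U → W.ρ (F.e i) x = x → x = f' (f x) + β (γ x))
    (h : ∀ n, (F.L T).Ac n) : Le (F.L W) (F.L W') 0 :=
  le_of_retract (hf.cmap F) (hf'.cmap F) (hγ.cmap F) (hβ.cmap F)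
    (fun _ x hx => funext fun i => e i _ (hx i).1 (hx i).2.1) h

theorem FC.ac_pi (F : FC R I A) (W : Rp k R X) (J : Type) {n : ℤ} (h : (F.L W).Ac n) :
    (F.L (W.pi J)).Ac n := by
  intro w hw h0
  have : ∀ j, ∃ y ∈ F.E W (n + 1), F.δ W y = fun i => w i j := fun j =>
    h _ (fun i => ⟨(hw i).1 j trivial, congrFun (hw i).2.1 j, fun hi => by
      rw [(hw i).2.2 hi]; rfl⟩) (by
        ext i
        have := congrFun (congrFun h0 i) j
        change (∑ a, (W.pi J).ρ (F.c a i) (w (i + F.v a))) j = 0 at this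
        rw [Finset.sum_apply] at this
        exact this)
  choose y hy e using this
  refine F.fix (W.pi J) hw (w' := fun i j => y j i) (fun i j _ => (hy j i).1) ?_
  ext i j
  rw [FC.δ_apply, Finset.sum_apply]
  exact congrFun (e j) i

theorem FC.ac_bot (F : FC R I A) (W : Rp k R X) (h : ∀ x ∈ W.U, x = 0) (n : ℤ) :
    (F.L W).Ac n := by
  intro w hw _
  refine ⟨0, Submodule.zero_mem _, ?_⟩
  rw [map_zero]
  exact (funext fun i => h _ (hw i).1).symm

def trunc (k : Type) [Field k] (X : Type) [AddCommGroup X] [Module k X] (p : I → Prop)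
    [DecidablePred p] : (I → X) →ₗ[k] (I → X) where
  toFun := fun w i => if p i then w i else 0
  map_add' := fun w w' => by ext i; by_cases h : p i <;> simp [h]
  map_smul' := fun c w => by ext i; by_cases h : p i <;> simp [h]

omit [CharP k 2] [AddCommGroup I] in
theorem trunc_apply (p : I → Prop) [DecidablePred p] (w : I → X) (i : I) :
    trunc k X p w i = if p i then w i else 0 := rfl

theorem FC.ses_res (F : FC R I A) (W : Rp k R X) (p q : I → Prop) [DecidablePred p]
    [DecidablePred q] (hq : ∀ i, q i ↔ ¬ p i) (hp : ∀ a i, p i → p (i + F.v a)) :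
    SES ((F.res q fun a b i _ h => (hq _).2 fun h' => (hq _).1 h (hp b _ h')).L W) (F.L W)
      ((F.res p fun a _ i h _ => hp a i h).L W) LinearMap.id (trunc k X p) := by
  have z : ∀ n w, w ∈ ((F.res q fun a b i _ h => (hq _).2 fun h' => (hq _).1 h (hp b _ h')).L
      W).E n → ∀ i, p i → w i = 0 := by
    intro n w hw i hi
    have := (hw i).2.1
    simp only [FC.res, hq, hi, not_true, if_false, W.zero, LinearMap.zero_apply] at this
    exact this.symm
  refine ⟨⟨fun n w hw i => ⟨(hw i).1, ?_, (hw i).2.2⟩, fun n w hw => ?_⟩,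
    ⟨fun n w hw i => ?_, fun n w hw => ?_⟩, fun n x _ h => h, fun n w hw => ?_,
    fun n w hw h0 => ⟨w, fun i => ⟨(hw i).1, ?_, (hw i).2.2⟩, rfl⟩, fun n w hw => ⟨w, fun i =>
      ⟨(hw i).1, ?_, (hw i).2.2⟩, ?_⟩⟩
  · by_cases hi : p i
    · simp [z n w hw i hi]
    · have := (hw i).2.1
      simpa [FC.res, hq, hi] using this
  · ext i
    change FC.δ _ W w i = F.δ W w i
    refine Finset.sum_congr rfl fun a _ => ?_
    by_cases h1 : p (i + F.v a)
    · simp [FC.res, z n w hw _ h1]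
    · have h2 : ¬ p i := fun h => h1 (hp a i h)
      simp [FC.res, hq, h1, h2]
  · by_cases hi : p i
    · simpa [trunc_apply, FC.res, hi] using hw i
    · simp [trunc_apply, hi]
  · ext i
    change trunc k X p (F.δ W w) i = FC.δ _ W _ i
    by_cases hi : p i
    · simp [trunc_apply, FC.δ_apply, FC.res, hi, hp _ i hi]
    · simp [trunc_apply, FC.δ_apply, FC.res, hi, W.zero]
  · ext i
    by_cases hi : p i
    · simp [trunc_apply, z n w hw i hi]
    · simp [trunc_apply, hi]
  · by_cases hi : p i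
    · have := congrFun h0 i
      simp only [trunc_apply, hi, if_true, Pi.zero_apply] at this
      simp [this]
    · simpa [FC.res, hq, hi] using (hw i).2.1
  · by_cases hi : p i
    · simpa [FC.res, hi] using (hw i).2.1
    · have := (hw i).2.1
      simp only [FC.res, hi, if_false, W.zero, LinearMap.zero_apply] at this
      simp [← this]
  · ext i
    by_cases hi : p i
    · simp [trunc_apply, hi]
    · have := (hw i).2.1
      simp only [FC.res, hi, if_false, W.zero, LinearMap.zero_apply] at this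
      simp [trunc_apply, hi, ← this]

end Vale.Agent.P195
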