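import Vale.Agent.P195.PartB

/- Third syzygy of the trivial module: rigid, orthogonal to the algebra, not projective. -/

namespace Vale.Agent.P195

open CategoryTheory Abelian
open Vale.Agent.P176 (PieceExact SE tri)

universe u

variable {K : Type u} [Field K]

theorem end_ex (v : JJ → (PP K).X) (hv : ∀ k : JJ, v k ∈ (PP K).F k.1 (k.2 : ℕ)) :
    ∃ a : AA K, ∀ k, (winPP a).val (gen k) = v k := by
  obtain ⟨φ, h⟩ := Win.ex (PP K) v hv
  exact ⟨winPP.symm φ, fun k => by rw [LinearEquiv.apply_symm_apply, h]⟩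

theorem smul_gen {Z : Obj K 9} (a : AA K) (ψ : Win Z) (k : JJ) :
    (a • ψ).val (gen k) = ψ.val ((winPP a).val (gen k)) := rfl

theorem aV_ex : ∃ a : AA K, ∀ (Z : Obj K 9) (ψ : Win Z) (k : JJ),
    (a • ψ).val (gen k) = Z.op 7 (ψ.val (gen (k.1 - 1, k.2))) := by
  obtain ⟨a, h⟩ := end_ex (fun k => (PP K).op 7 (gen (k.1 - 1, k.2))) fun k => by
    have := (PP K).compv (i := 7) (by omega) (by omega) (gen_mem (k.1 - 1, k.2))
    rwa [sub_add_cancel] at this
  exact ⟨a, fun Z ψ k => by rw [smul_gen, h, ψ.hom.comm 7 (by omega)]⟩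

theorem eJ_ex (j : ℕ) : ∃ a : AA K, ∀ (Z : Obj K 9) (ψ : Win Z) (k : JJ),
    (a • ψ).val (gen k) = if k.1.val ≤ j then ψ.val (gen k) else 0 := by
  obtain ⟨a, h⟩ := end_ex (K := K) (fun k => if k.1.val ≤ j then gen k else 0) fun k => by
    split_ifs
    · exact gen_mem k
    · exact Submodule.zero_mem _
  refine ⟨a, fun Z ψ k => ?_⟩
  rw [smul_gen, h]
  split_ifs
  · rfl
  · exact map_zero _

variable (K) in
noncomputable def aV : AA K := (aV_ex (K := K)).choose

variable (K) in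
noncomputable def eJ (j : ℕ) : AA K := (eJ_ex (K := K) j).choose

theorem aV_gen {Z : Obj K 9} (ψ : Win Z) (k : JJ) :
    (aV K • ψ).val (gen k) = Z.op 7 (ψ.val (gen (k.1 - 1, k.2))) := aV_ex.choose_spec Z ψ k

theorem eJ_gen (j : ℕ) {Z : Obj K 9} (ψ : Win Z) (k : JJ) :
    (eJ K j • ψ).val (gen k) = if k.1.val ≤ j then ψ.val (gen k) else 0 :=
  (eJ_ex j).choose_spec Z ψ k

theorem aV_sq : aV K * aV K = 0 := by
  apply winPP.injective
  rw [map_zero, ← mul_one (aV K * aV K), mul_assoc, ← smul_eq_mul, map_smul, ← smul_eq_mul,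
    map_smul]
  exact Win.eq_zero fun k => by rw [aV_gen, aV_gen, ((PP K).relV le_rfl).z77]

theorem pa_lam (Y : Obj K 7) : PA (aV K) (Win (Lam Y)) := by
  intro ψ h
  have h1 : ∀ k : JJ, (Lam Y).op 7 (ψ.val (gen k)) = 0 := fun k => by
    have := aV_gen ψ (k.1 + 1, k.2)
    rw [h, add_sub_cancel_right] at this
    exact this.symm
  obtain ⟨ψ', h2⟩ := Win.ex (Lam Y) (fun l => ((ψ.val (gen (l.1 + 1, l.2))).2.1, 0,
    (ψ.val (gen (l.1 + 1, l.2))).2.2.2, 0)) fun l => by
      have := ψ.gen_mem (l.1 + 1, l.2)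
      have e1 : _ ∈ Y.F (l.1 + 1 - 1) _ := this.2.1
      have e2 : _ ∈ Y.F (l.1 + 1 - 2) _ := this.2.2.2
      rw [add_sub_cancel_right] at e1
      rw [show l.1 + 1 - 2 = l.1 - 1 by ring] at e2
      exact ⟨e1, Submodule.zero_mem _, e2, Submodule.zero_mem _⟩
  refine ⟨ψ', Win.ext' fun k => ?_⟩
  rw [aV_gen, h2, sub_add_cancel]
  exact Prod.ext (congrArg (·.2.1) (h1 k)) (Prod.ext rfl (Prod.ext (congrArg (·.2.2.2) (h1 k)) rfl))

theorem pa_A : PA (aV K) (AA K) := by
  intro m hm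
  have h0 : PA (aV K) (Win (PP K)) := pa_lam (Ind (Fr (BB K) (BB K)))
  obtain ⟨m', h⟩ := h0 (winPP m) (by
    have := congrArg winPP hm
    rwa [map_smul, map_zero] at this)
  refine ⟨winPP.symm m', winPP.injective ?_⟩
  rw [map_smul, LinearEquiv.apply_symm_apply]
  exact h

theorem not_pa_X : ¬ PA (aV K) (Win (infl (XK K))) := by
  intro h
  have h0 : ∀ ψ : Win (infl (XK K)), aV K • ψ = 0 := fun ψ => Win.eq_zero fun k => by
    rw [aV_gen]
    rfl
  obtain ⟨ψ, h1⟩ := Win.pt (Z := infl (XK K)) (0, 0) mem0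
  obtain ⟨ψ', h2⟩ := h ψ (h0 ψ)
  rw [h2, h0] at h1
  exact zero_ne_one h1

theorem fr_zero (W : L0 K) {c : C7} (h : ∀ k, ∀ w ∈ W.F c k, w = 0) (k : ℤ)
    (x : (Ind (Fr W W)).X) (hx : x ∈ (Ind (Fr W W)).F c k) : x = 0 := by
  refine Finsupp.ext fun a => ?_
  have := hx a
  exact Prod.ext (Prod.ext (Finsupp.ext fun l => h _ _ (this.1.1 l))
    (Prod.ext (Subtype.ext (Finsupp.ext fun l => h _ _ (this.1.2.1 l)))
    (Finsupp.ext fun l => Finsupp.ext fun l' => h _ _ (this.1.2.2 l l'))))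
    (Prod.ext (Finsupp.ext fun l => h _ _ (this.2.1 l)) (Finsupp.ext fun l => h _ _ (this.2.2 l)))

theorem val_sub : ∀ c : C7, 2 < c.val → (c - 1).val + 1 = c.val ∧ (c - 2).val + 2 = c.val := by
  decide

variable (K) in
@[reducible] def BS (s j : ℕ) : L0 K :=
  bas K (Fin s × JJ) (fun i => i.2.1.val ≤ j) (fun i => i.2.1) fun i => i.2.2

theorem bs_zero (s j : ℕ) {c : C7} (hc : j < c.val) (k : ℤ)
    (x : (Ind (Fr (BS K s j) (BS K s j))).X) (hx : x ∈ (Ind (Fr (BS K s j) (BS K s j))).F c k) : x = 0 :=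
  fr_zero (BS K s j) (fun _ _ hw => funext fun i => hw i fun h => by
    have h1 : i.2.1.val ≤ j := h.1
    have h2 : c = i.2.1 := h.2.1
    rw [← h2] at h1
    omega) k x hx

theorem cover (s j : ℕ) {M : ModuleCat.{u} (AA K)} (m : Fin s → M) (hm : ∀ x : M, eJ K j • x = x) :
    ∃ θ : Win (FP (BS K s j)) →ₗ[AA K] M, ∀ t, m t ∈ LinearMap.range θ := by
  classical
  let G := basG (K := K) (Fin s × JJ) (fun i => i.2.1.val ≤ j) (fun i => i.2.1) fun i => i.2.2
  have h1 : ∀ t : Fin s, ∃ q, Hom (FP (BS K s j)) (PP K) q ∧ ∀ i : Fin s × JJ, i.2.1.val ≤ j →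
      q (ug (BS K s j) (G.g i)) = if i.1 = t then gen i.2 else 0 := by
    intro t
    obtain ⟨ψ, a, b⟩ := G.ex (PP K).l0 (fun i => if i.1 = t then gen i.2 else 0) fun i _ => by
      split_ifs
      · exact gen_mem i.2
      · exact Submodule.zero_mem _
    obtain ⟨q, c, d⟩ := FP_ex (BS K s j) (PP K) ψ a
    exact ⟨q, c, fun i hi => (d _).trans (b i hi)⟩
  choose q hq hq' using h1
  refine ⟨Fintype.linearCombination (AA K) m ∘ₗ
    LinearMap.pi fun t => winPP.symm.toLinearMap ∘ₗ wmap (hq t), fun t => ?_⟩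
  obtain ⟨ι, hι⟩ := Win.ex (FP (BS K s j))
    (fun k => if k.1.val ≤ j then ug (BS K s j) (G.g (t, k)) else 0) fun k => by
      split_ifs with h
      · exact ug_mem _ (G.mem (t, k) h)
      · exact Submodule.zero_mem _
  have h2 : ∀ t', winPP.symm (wmap (hq t') ι) = if t = t' then eJ K j else 0 := by
    intro t'
    rw [LinearEquiv.symm_apply_eq]
    refine Win.ext' fun k => ?_
    have e := eJ_gen j (winPP (1 : AA K)) k
    rw [← map_smul, smul_eq_mul, mul_one] at e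
    rw [wmap_gen, hι]
    by_cases h : k.1.val ≤ j
    · rw [if_pos h, hq' t' (t, k) h]
      split_ifs
      · rw [e, if_pos h]
        rfl
      · rw [map_zero]
        rfl
    · rw [if_neg h, map_zero]
      split_ifs
      · rw [e, if_neg h]
      · rw [map_zero]
        rfl
  refine ⟨ι, ?_⟩
  change ∑ t', winPP.symm (wmap (hq t') ι) • m t' = m t
  simp [h2, hm]

variable [CharZero K]

variable (K) in
noncomputable abbrev XX : ModuleCat.{u} (AA K) := WinM (infl (XK K))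

theorem step (j : ℕ) (hj : j ≤ 4) (M : ModuleCat.{u} (AA K)) [Module.Finite (AA K) M]
    (hm : ∀ x : M, eJ K j • x = x) : ∃ P N : ModuleCat.{u} (AA K), SE N P M ∧
      Module.Projective (AA K) P ∧ Module.Finite (AA K) N ∧ (∀ x : N, eJ K (j + 2) • x = x) ∧
      ZG P (XX K) 0 ∧ PA (aV K) P := by
  classical
  obtain ⟨s, m, hs⟩ := Module.Finite.exists_fin (R := AA K) (M := M)
  obtain ⟨θ, hθ⟩ := cover s j m hm
  have hsurj : Function.Surjective θ := by
    rw [← LinearMap.range_eq_top, eq_top_iff, ← hs, Submodule.span_le]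
    rintro _ ⟨t, rfl⟩
    exact hθ t
  let G := basG (K := K) (Fin s × JJ) (fun i => i.2.1.val ≤ j) (fun i => i.2.1) fun i => i.2.2
  have hspl : Spl (FP (BS K s j)) := (Gens.fr G G).ind.lam.spl (by
    rintro (i | i) <;> exact Nat.le_of_lt_succ i.2.2.2)
  refine ⟨WinM (FP (BS K s j)), ModuleCat.of _ (LinearMap.ker θ),
    se_of (M1 := ModuleCat.of _ (LinearMap.ker θ)) (LinearMap.ker θ).subtype θ
      (LinearMap.exact_subtype_ker_map θ) (Submodule.injective_subtype _) hsurj, hspl.proj, ?_,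
    fun x => Subtype.ext (Win.ext' fun k => ?_),
    zg_kt0 G0 (fun _ => rfl) (fr_de _ _).ind fun _ => bs_zero s j ?_, pa_lam _⟩
  · have := hspl.fin
    have := fin_AA (K := K)
    have : Module.Finite K (Win (FP (BS K s j))) := Module.Finite.trans (AA K) _
    have : IsNoetherian (AA K) (Win (FP (BS K s j))) := isNoetherian_of_tower K inferInstance
    infer_instance
  · change (eJ K (j + 2) • x.1).val (gen k) = _
    rw [eJ_gen]
    split_ifs with h
    · rfl
    · have h1 := x.1.gen_mem k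
      have h2 := val_sub k.1 (by omega)
      exact (Prod.ext (bs_zero s j (by omega) _ _ h1.1) (Prod.ext
        (bs_zero s j (by omega) _ _ h1.2.1) (Prod.ext (bs_zero s j (by omega) _ _ h1.2.2.1)
        (bs_zero s j (by omega) _ _ h1.2.2.2)))).symm
  · change j < ((0 : C7) - 2).val
    have : ((0 : C7) - 2).val = 5 := by decide
    omega

theorem main : ∃ M : ModuleCat.{u} (AA K), Module.Finite (AA K) M ∧ ZG M M 1 ∧
    ZG (ModuleCat.of (AA K) (AA K)) M 1 ∧ ¬ Module.Projective (AA K) M := by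
  have : FiniteDimensional K (Win (infl (XK K))) := win_finite fun _ _ => inferInstance
  have : Module.Finite (AA K) (XX K) :=
    Module.Finite.of_restrictScalars_finite K (AA K) (Win (infl (XK K)))
  obtain ⟨P0, N1, s1, p0, f1, e1, z0, a0⟩ := step 0 (by omega) (XX K) fun x =>
    Win.ext' fun k => by
      rw [eJ_gen]
      split_ifs with h
      · rfl
      · refine ((Win.gen_mem x k).2 fun h' => h ?_).symm
        rw [h'.1]
        decide
  obtain ⟨P1, N2, s2, p1, f2, e2, z1, a1⟩ := step 2 (by omega) N1 e1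
  obtain ⟨P2, N3, s3, p2, f3, -, z2, a2⟩ := step 4 (by omega) N2 e2
  have key : ∀ S, ZG S (XX K) 4 → ZG S N3 1 := fun S h =>
    zg1 s3 zg_proj (zg1 s2 (zg_proj.mono (by omega)) (zg1 s1 (zg_proj.mono (by omega)) h))
  refine ⟨N3, f3, key _ (zg_co s3 (z2.mono (by omega)) (zg_co s2 (z1.mono (by omega))
    (zg_co s1 (z0.mono (by omega)) zg_xx))), key _ (zg_iso' (M2 := WinM (PP K))
    winPP.toLinearMap winPP.bijective (zg_kt G0 (fun _ => rfl) (fr_de _ _).ind)), fun hp => ?_⟩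
  exact not_pa_X (PA.se aV_sq s1 (PA.se aV_sq s2 (PA.se aV_sq s3 (pa_A.proj N3) a2) a1) a0)

end Vale.Agent.P195
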