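import Vale.Agent.P195.Obj

/- Free objects at the lowest level. -/

namespace Vale.Agent.P195

open Vale.Agent.P176 (PieceExact tri)

universe u

variable {K : Type u} [Field K]

structure L0 (K : Type u) [Field K] where
  X : Type u
  [acg : AddCommGroup X]
  [md : Module K X]
  F : C7 → ℤ → Submodule K X
  mono : ∀ c n, F c n ≤ F c (n + 1)

attribute [instance] L0.acg L0.md

section Words

variable (K) (X : Type u) [AddCommGroup X] [Module K X]

noncomputable def fl (t : Bool) : (List Bool →₀ X) →ₗ[K] (List Bool →₀ X) :=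
  Finsupp.lmapDomain X K (List.cons t)

@[simp] theorem fl_single (t : Bool) (l : List Bool) (w : X) :
    fl K X t (Finsupp.single l w) = Finsupp.single (t :: l) w := by
  simp [fl]

theorem word_induction {P : (List Bool →₀ X) → Prop} (h0 : ∀ y, P (Finsupp.single [] y))
    (hs : ∀ t p, P p → P (fl K X t p)) (hadd : ∀ p q, P p → P q → P (p + q))
    (p : List Bool →₀ X) : P p := by
  induction p using Finsupp.induction_linear with
  | zero => simpa using h0 0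
  | add p q hp hq => exact hadd p q hp hq
  | single a y =>
    induction a with
    | nil => exact h0 y
    | cons t a ih => simpa using hs t _ ih

variable {K X} {Y : Type u} [AddCommGroup Y] [Module K Y]

def word (A B : Module.End K Y) : List Bool → Module.End K Y
  | [] => 1
  | t :: l => (if t then B else A) * word A B l

noncomputable def wlift (A B : Module.End K Y) (ψ : X →ₗ[K] Y) : (List Bool →₀ X) →ₗ[K] Y :=
  Finsupp.lsum K fun l => word A B l ∘ₗ ψ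

theorem wlift_single (A B : Module.End K Y) (ψ : X →ₗ[K] Y) (l : List Bool) (y : X) :
    wlift A B ψ (Finsupp.single l y) = word A B l (ψ y) := by
  simp [wlift]

@[simp] theorem wlift_nil (A B : Module.End K Y) (ψ : X →ₗ[K] Y) (y : X) :
    wlift A B ψ (Finsupp.single [] y) = ψ y := by
  simp [wlift_single, word]

@[simp] theorem wlift_h (A B : Module.End K Y) (ψ : X →ₗ[K] Y) (p : List Bool →₀ X) :
    wlift A B ψ (fl K X false p) = A (wlift A B ψ p) := by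
  induction p using Finsupp.induction_linear with
  | zero => simp
  | add p q hp hq => simp [hp, hq]
  | single a y => simp [wlift_single, word]

@[simp] theorem wlift_e (A B : Module.End K Y) (ψ : X →ₗ[K] Y) (p : List Bool →₀ X) :
    wlift A B ψ (fl K X true p) = B (wlift A B ψ p) := by
  induction p using Finsupp.induction_linear with
  | zero => simp
  | add p q hp hq => simp [hp, hq]
  | single a y => simp [wlift_single, word]

def frF (F : ℤ → Submodule K X) (n : ℤ) : Submodule K (List Bool →₀ X) :=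
  coefF fun l => F (n - l.length)

theorem single_mem_coef {ι : Type} {G : ι → Submodule K X} {a : ι} {y : X} (hy : y ∈ G a) :
    Finsupp.single a y ∈ coefF G := by
  classical
  intro b
  rw [Finsupp.single_apply]
  split_ifs with h
  · subst h
    exact hy
  · exact Submodule.zero_mem _

theorem nil_mem {F : ℤ → Submodule K X} {n : ℤ} {y : X} (hy : y ∈ F n) :
    Finsupp.single [] y ∈ frF F n := single_mem_coef (by simpa using hy)

theorem fl_mem {F : ℤ → Submodule K X} (t : Bool) (n : ℤ) (p : List Bool →₀ X)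
    (hp : p ∈ frF F n) : fl K X t p ∈ frF F (n + 1) := by
  refine finsupp_mem (S := (frF F (n + 1)).comap (fl K X t)) fun l => ?_
  rw [Submodule.mem_comap, fl_single]
  refine single_mem_coef ?_
  have : p l ∈ F (n - l.length) := hp l
  rwa [show n - l.length = n + 1 - (t :: l).length by simp] at this

theorem wlift_mem {F : ℤ → Submodule K X} {G : ℤ → Submodule K Y} {A B : Module.End K Y}
    (hA : ∀ n, ∀ x ∈ G n, A x ∈ G (n + 1)) (hB : ∀ n, ∀ x ∈ G n, B x ∈ G (n + 1))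
    {ψ : X →ₗ[K] Y} (hψ : ∀ n, ∀ x ∈ F n, ψ x ∈ G n) {n : ℤ} {p : List Bool →₀ X}
    (hp : p ∈ frF F n) : wlift A B ψ p ∈ G n := by
  have key : ∀ (l : List Bool) (m : ℤ) (y : Y), y ∈ G (m - l.length) → word A B l y ∈ G m := by
    intro l
    induction l with
    | nil => intro m y hy; simpa [word] using hy
    | cons t l ih =>
      intro m y hy
      have h1 := ih (m - 1) y (by
        rwa [show m - 1 - l.length = m - (t :: l).length by simp; ring])
      cases t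
      · simpa [word] using hA _ _ h1
      · simpa [word] using hB _ _ h1
  change Finsupp.sum p _ ∈ _
  exact Submodule.sum_mem _ fun l _ => key l n _ (hψ _ _ (hp l))

variable (K X) in
noncomputable def vv : (List Bool →₀ X) →ₗ[K] (List Bool →₀ X) :=
  fl K X false ∘ₗ fl K X true - fl K X true ∘ₗ fl K X false - (2 : K) • fl K X true

theorem vv_apply (p : List Bool →₀ X) : vv K X p =
    fl K X false (fl K X true p) - fl K X true (fl K X false p) - (2 : K) • fl K X true p := rfl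

theorem vv_mem {F : ℤ → Submodule K X} (mono : ∀ n, F n ≤ F (n + 1)) {n : ℤ}
    {p : List Bool →₀ X} (hp : p ∈ frF F n) : vv K X p ∈ frF F (n + 2) := by
  rw [show n + 2 = n + 1 + 1 by ring]
  refine Submodule.sub_mem _ (Submodule.sub_mem _ (fl_mem _ _ _ (fl_mem _ _ _ hp))
    (fl_mem _ _ _ (fl_mem _ _ _ hp))) (Submodule.smul_mem _ _ fun l => ?_)
  exact mono_of_step mono (by omega) (fl_mem true _ _ hp l)

noncomputable def eh (N : Module.End K X) : (ℕ →₀ X) →ₗ[K] (ℕ →₀ X) :=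
  cw N + wt fun b => 2 * (b : K)

theorem eh_sh (N : Module.End K X) (p : ℕ →₀ X) :
    eh N (sh K p) = sh K (eh N p) + (2 : K) • sh K p := by
  ext (_ | b)
  · simp [eh]
  · simp [eh]
    module

@[simp] theorem eh_single_zero (N : Module.End K X) (y : X) :
    eh N (Finsupp.single 0 y) = Finsupp.single 0 (N y) := by
  simp [eh]

theorem eh_mem {N : Module.End K X} {F : ℤ → Submodule K X} (mono : ∀ n, F n ≤ F (n + 1))
    (hN : ∀ n, ∀ x ∈ F n, N x ∈ F (n + 1)) (n : ℤ) (p : ℕ →₀ X) (hp : p ∈ indF F n) :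
    eh N p ∈ indF F (n + 1) := by
  intro a
  have h1 := hN _ _ (hp a)
  rw [show n - a + 1 = n + 1 - a by ring] at h1
  simp only [eh, LinearMap.add_apply, Finsupp.add_apply, cw_apply, wt_apply]
  exact Submodule.add_mem _ h1 (Submodule.smul_mem _ _ (mono_of_step mono (by omega) (hp a)))

theorem indF_mono {F : ℤ → Submodule K X} (mono : ∀ n, F n ≤ F (n + 1)) (n : ℤ) :
    indF F n ≤ indF F (n + 1) := fun _ hp a => mono_of_step mono (by omega) (hp a)

end Words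

/-- The honest module induced along `e` from a space with an action `N` of `h`. -/
@[reducible] noncomputable def Ee (W : L0 K) (N : Module.End K W.X)
    (hN : ∀ c n, ∀ x ∈ W.F c n, N x ∈ W.F c (n + 1)) : Obj K 6 :=
  hon (eh N) (sh K) (fun c => indF (W.F c)) (fun c => indF_mono (W.mono c))
    (fun c => eh_mem (W.mono c) (hN c)) (fun _ _ _ hp => sh_mem hp) (eh_sh N)

@[reducible] noncomputable def L0.ind (W : L0 K) : L0 K where
  X := ℕ →₀ W.X
  F := fun c => indF (W.F c)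
  mono := fun c => indF_mono (W.mono c)

@[reducible] noncomputable def UU (W : L0 K) : Obj K 6 :=
  Ee W.ind (sh K) fun _ _ _ hp => sh_mem hp

section U

variable (K) (X : Type u) [AddCommGroup X] [Module K X]

noncomputable def uinc : X →ₗ[K] (ℕ →₀ ℕ →₀ X) := Finsupp.lsingle 0 ∘ₗ Finsupp.lsingle 0

noncomputable def pU : (List Bool →₀ X) →ₗ[K] (ℕ →₀ ℕ →₀ X) :=
  wlift (eh (sh K)) (sh K) (uinc K X)

theorem pU_vv (p : List Bool →₀ X) : pU K X (vv K X p) = 0 := by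
  simp [vv_apply, pU, eh_sh]

/-- Normal forms, as words. -/
noncomputable def nfw : (ℕ →₀ ℕ →₀ X) →ₗ[K] (List Bool →₀ X) :=
  plift (fl K X true) (plift (fl K X false) (Finsupp.lsingle []))

theorem pU_nfw (u : ℕ →₀ ℕ →₀ X) : pU K X (nfw K X u) = u := by
  induction u using ind_induction K (X := ℕ →₀ X) with
  | hadd p q hp hq => simp only [map_add, hp, hq]
  | hs p hp => rw [nfw, plift_sh, pU, wlift_e]; exact congrArg _ hp
  | h0 q =>
    rw [nfw, plift_zero]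
    induction q using ind_induction K (X := X) with
    | hadd p q hp hq => simp only [map_add, hp, hq, Finsupp.single_add]
    | hs p hp =>
      rw [plift_sh, pU, wlift_h]
      exact (congrArg _ hp).trans (eh_single_zero _ _)
    | h0 w => simp [pU, uinc]

noncomputable abbrev II : Submodule K (List Bool →₀ X) := LinearMap.ker (pU K X)

noncomputable def flI (t : Bool) : II K X →ₗ[K] II K X :=
  (fl K X t).restrict fun p hp => by
    rw [LinearMap.mem_ker] at hp ⊢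
    cases t
    · rw [pU, wlift_h, ← pU, hp, map_zero]
    · rw [pU, wlift_e, ← pU, hp, map_zero]

@[simp] theorem flI_val (t : Bool) (p : II K X) : (flI K X t p).1 = fl K X t p.1 := rfl

noncomputable def vI : (List Bool →₀ X) →ₗ[K] II K X := (vv K X).codRestrict _ (pU_vv K X)

@[simp] theorem vI_val (p : List Bool →₀ X) : (vI K X p).1 = vv K X p := rfl

variable {K X}

theorem pU_mem {F : ℤ → Submodule K X} (mono : ∀ n, F n ≤ F (n + 1)) {n : ℤ}
    {p : List Bool →₀ X} (hp : p ∈ frF F n) : pU K X p ∈ indF (indF F) n :=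
  wlift_mem (eh_mem (indF_mono mono) fun _ _ h => sh_mem h) (fun _ _ h => sh_mem h)
    (fun _ _ h => single0_mem (single0_mem h)) hp

theorem nfw_mem {F : ℤ → Submodule K X} {n : ℤ} {u : ℕ →₀ ℕ →₀ X} (hu : u ∈ indF (indF F) n) :
    nfw K X u ∈ frF F n :=
  plift_mem (fl_mem true) (fun _ _ h => plift_mem (fl_mem false) (fun _ _ h => nil_mem h) h) hu

end U

section Fr

variable (K) (X1 X0 : Type u) [AddCommGroup X1] [Module K X1] [AddCommGroup X0] [Module K X0]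

abbrev FX := ((List Bool →₀ X1) × II K X0 × (ℕ →₀ ℕ →₀ X0)) ×
  ((List Bool →₀ X1) × (List Bool →₀ X0))

noncomputable def fop (i : ℕ) : FX K X1 X0 →ₗ[K] FX K X1 X0 where
  toFun := fun x =>
    if i = 0 then ((fl K X1 false x.1.1, flI K X0 false x.1.2.1, eh (sh K) x.1.2.2),
      (fl K X1 false x.2.1, fl K X0 false x.2.2))
    else if i = 1 then ((fl K X1 true x.1.1, flI K X0 true x.1.2.1, sh K x.1.2.2),
      (fl K X1 true x.2.1, fl K X0 true x.2.2))
    else if i = 2 then (0, (x.1.1, x.1.2.1.1))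
    else if i = 3 then ((0, 0, pU K X0 x.2.2), 0)
    else if i = 4 then (x.1, 0)
    else ((vv K X1 x.2.1, vI K X0 x.2.2, 0), 0)
  map_add' := fun x y => by split_ifs <;> simp
  map_smul' := fun a x => by split_ifs <;> simp

variable {K X1 X0}

theorem fop0 (x : FX K X1 X0) : fop K X1 X0 0 x =
    ((fl K X1 false x.1.1, flI K X0 false x.1.2.1, eh (sh K) x.1.2.2),
      (fl K X1 false x.2.1, fl K X0 false x.2.2)) := rfl
theorem fop1 (x : FX K X1 X0) : fop K X1 X0 1 x =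
    ((fl K X1 true x.1.1, flI K X0 true x.1.2.1, sh K x.1.2.2),
      (fl K X1 true x.2.1, fl K X0 true x.2.2)) := rfl
theorem fop2 (x : FX K X1 X0) : fop K X1 X0 2 x = (0, (x.1.1, x.1.2.1.1)) := rfl
theorem fop3 (x : FX K X1 X0) : fop K X1 X0 3 x = ((0, 0, pU K X0 x.2.2), 0) := rfl
theorem fop4 (x : FX K X1 X0) : fop K X1 X0 4 x = (x.1, 0) := rfl
theorem fop5 (x : FX K X1 X0) : fop K X1 X0 5 x = ((vv K X1 x.2.1, vI K X0 x.2.2, 0), 0) := rfl

theorem fop_rel : RelD (fop K X1 X0) where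
  c20 := fun x => by simp [fop0, fop2, Prod.ext_iff]
  c21 := fun x => by simp [fop1, fop2, Prod.ext_iff]
  c30 := fun x => by simp [fop0, fop3, pU, Prod.ext_iff]
  c31 := fun x => by simp [fop1, fop3, pU, Prod.ext_iff]
  c40 := fun x => by simp [fop0, fop4, Prod.ext_iff]
  c41 := fun x => by simp [fop1, fop4, Prod.ext_iff]
  pp := fun x => by simp [fop4]
  pd := fun x => by simp [fop4, fop2]
  dp := fun x => by simp [fop4, fop2]
  pe := fun x => by simp [fop4, fop3]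
  ep := fun x => by simp [fop4, fop3]
  pr := fun x => by simp [fop4, fop5]
  rp := fun x => by simp [fop4, fop5]
  de := fun x => by simp [fop2, fop3]
  ed := fun x => by
    have : pU K X0 x.1.2.1.1 = 0 := x.1.2.1.2
    simp [fop2, fop3, this]
  dr := fun x => by
    simp only [fop0, fop1, fop2, fop5]
    refine Prod.ext (Prod.ext ?_ (Prod.ext (Subtype.ext ?_) ?_)) (Prod.ext ?_ ?_) <;>
      simp [vv_apply, eh_sh]

noncomputable def fF (F1 : ℤ → Submodule K X1) (F0 : ℤ → Submodule K X0) (n : ℤ) : Submodule K (FX K X1 X0) :=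
  ((frF F1 n).prod (((frF F0 n).comap (II K X0).subtype).prod (indF (indF F0) n))).prod
    ((frF F1 n).prod (frF F0 n))

theorem frF_mono {F : ℤ → Submodule K X1} (mono : ∀ n, F n ≤ F (n + 1)) (n : ℤ) :
    frF F n ≤ frF F (n + 1) := fun _ hp a => mono_of_step mono (by omega) (hp a)

@[reducible] noncomputable def Fr (W1 W0 : L0 K) : Obj K 6 where
  X := FX K W1.X W0.X
  op := fop K W1.X W0.X
  F := fun c => fF (W1.F c) (W0.F c)
  mono := fun c n _ hx => ⟨⟨frF_mono (W1.mono c) n hx.1.1, frF_mono (W0.mono c) n hx.1.2.1,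
    indF_mono (indF_mono (W0.mono c)) n hx.1.2.2⟩, frF_mono (W1.mono c) n hx.2.1,
    frF_mono (W0.mono c) n hx.2.2⟩
  comp := fun i hi c n x hx => by
    rw [cs_lt (by omega), add_zero]
    interval_cases i
    · exact ⟨⟨fl_mem _ _ _ hx.1.1, fl_mem _ _ _ hx.1.2.1,
        eh_mem (indF_mono (W0.mono c)) (fun _ _ h => sh_mem h) _ _ hx.1.2.2⟩,
        fl_mem _ _ _ hx.2.1, fl_mem _ _ _ hx.2.2⟩
    · exact ⟨⟨fl_mem _ _ _ hx.1.1, fl_mem _ _ _ hx.1.2.1, sh_mem hx.1.2.2⟩,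
        fl_mem _ _ _ hx.2.1, fl_mem _ _ _ hx.2.2⟩
    · rw [show n + dg 2 = n from add_zero n]
      exact ⟨Submodule.zero_mem _, hx.1.1, hx.1.2.1⟩
    · rw [show n + dg 3 = n from add_zero n]
      exact ⟨⟨Submodule.zero_mem _, Submodule.zero_mem _, pU_mem (W0.mono c) hx.2.2⟩,
        Submodule.zero_mem _⟩
    · rw [show n + dg 4 = n from add_zero n]
      exact ⟨hx.1, Submodule.zero_mem _⟩
    · exact ⟨⟨vv_mem (W1.mono c) hx.2.1, vv_mem (W0.mono c) hx.2.2, Submodule.zero_mem _⟩,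
        Submodule.zero_mem _⟩
  relD := fop_rel
  relF := fun h => absurd h (by omega)
  relV := fun h => absurd h (by omega)

variable (K X1 X0)

noncomputable def incx : X1 →ₗ[K] FX K X1 X0 :=
  LinearMap.inl K _ _ ∘ₗ LinearMap.inl K _ _ ∘ₗ Finsupp.lsingle []

noncomputable def incy : X0 →ₗ[K] FX K X1 X0 :=
  LinearMap.inr K _ _ ∘ₗ LinearMap.inr K _ _ ∘ₗ Finsupp.lsingle []

variable {K X1 X0}

theorem incx_apply (w : X1) : incx K X1 X0 w = ((Finsupp.single [] w, 0), 0) := rfl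

theorem incy_apply (w : X0) : incy K X1 X0 w = (0, (0, Finsupp.single [] w)) := rfl

theorem incx_mem {W1 W0 : L0 K} {c : C7} {n : ℤ} {w : W1.X} (hw : w ∈ W1.F c n) :
    incx K W1.X W0.X w ∈ (Fr W1 W0).F c n :=
  ⟨⟨nil_mem hw, Submodule.zero_mem _⟩, Submodule.zero_mem _⟩

theorem incy_mem {W1 W0 : L0 K} {c : C7} {n : ℤ} {w : W0.X} (hw : w ∈ W0.F c n) :
    incy K W1.X W0.X w ∈ (Fr W1 W0).F c n :=
  ⟨Submodule.zero_mem _, Submodule.zero_mem _, nil_mem hw⟩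

theorem pi_incx (w : X1) : fop K X1 X0 4 (incx K X1 X0 w) = incx K X1 X0 w := rfl

theorem pi_incy (w : X0) : fop K X1 X0 4 (incy K X1 X0 w) = 0 := rfl

end Fr

section Lift

variable {X : Type u} [AddCommGroup X] [Module K X] (Y : Obj K 6) (ψ : X →ₗ[K] Y.X)

noncomputable def LL : (List Bool →₀ X) →ₗ[K] Y.X := wlift (Y.op 0) (Y.op 1) ψ

noncomputable def nf : (ℕ →₀ ℕ →₀ X) →ₗ[K] Y.X := plift (Y.op 1) (plift (Y.op 0) ψ)

def RR : ℕ → Module.End K Y.X
  | 0 => 0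
  | a + 1 => Y.op 1 * RR a + Y.op 5 * (show Module.End K Y.X from Y.op 1) ^ a

noncomputable def rho : (ℕ →₀ ℕ →₀ X) →ₗ[K] Y.X :=
  Finsupp.lsum K fun a => RR Y a ∘ₗ plift (Y.op 0) ψ

theorem rho_zero (q : ℕ →₀ X) : rho Y ψ (Finsupp.single 0 q) = 0 := by
  simp [rho, RR]

theorem rho_sh (p : ℕ →₀ ℕ →₀ X) : rho Y ψ (sh K p) = Y.op 1 (rho Y ψ p) + Y.op 5 (nf Y ψ p) := by
  induction p using Finsupp.induction_linear with
  | zero => simp
  | add p q hp hq =>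
    simp only [map_add, hp, hq]
    abel
  | single a y => simp [rho, RR, nf, plift_single]

theorem pi_rho (p : ℕ →₀ ℕ →₀ X) : Y.op 4 (rho Y ψ p) = rho Y ψ p := by
  induction p using ind_induction K (X := ℕ →₀ X) with
  | hadd p q hp hq => simp only [map_add, hp, hq]
  | hs p hp => rw [rho_sh, map_add, Y.relD.c41, hp, Y.relD.pr]
  | h0 q => rw [rho_zero, map_zero]

variable {ψ}

theorem pi_LL_zero (hψ : ∀ w, Y.op 4 (ψ w) = 0) (p : List Bool →₀ X) : Y.op 4 (LL Y ψ p) = 0 := by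
  unfold LL
  induction p using word_induction K X with
  | hadd p q hp hq => simp only [map_add, hp, hq, add_zero]
  | hs t p hp =>
    cases t
    · rw [wlift_h, Y.relD.c40, hp, map_zero]
    · rw [wlift_e, Y.relD.c41, hp, map_zero]
  | h0 w => rw [wlift_nil, hψ]

theorem pi_LL_id (hψ : ∀ w, Y.op 4 (ψ w) = ψ w) (p : List Bool →₀ X) :
    Y.op 4 (LL Y ψ p) = LL Y ψ p := by
  unfold LL
  induction p using word_induction K X with
  | hadd p q hp hq => simp only [map_add, hp, hq]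
  | hs t p hp =>
    cases t
    · rw [wlift_h, Y.relD.c40, hp]
    · rw [wlift_e, Y.relD.c41, hp]
  | h0 w => rw [wlift_nil, hψ]

theorem pi_nf (hψ : ∀ w, Y.op 4 (ψ w) = 0) (p : ℕ →₀ ℕ →₀ X) : Y.op 4 (nf Y ψ p) = 0 := by
  unfold nf
  induction p using ind_induction K (X := ℕ →₀ X) with
  | hadd p q hp hq => simp only [map_add, hp, hq, add_zero]
  | hs p hp => rw [plift_sh, Y.relD.c41, hp, map_zero]
  | h0 q =>
    rw [plift_zero]
    induction q using ind_induction K (X := X) with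
    | hadd p q hp hq => simp only [map_add, hp, hq, add_zero]
    | hs p hp => rw [plift_sh, Y.relD.c40, hp, map_zero]
    | h0 w => rw [plift_zero, hψ]

theorem h_nf (hψ : ∀ w, Y.op 4 (ψ w) = 0) (p : ℕ →₀ ℕ →₀ X) :
    Y.op 0 (nf Y ψ p) = nf Y ψ (eh (sh K) p) + Y.op 2 (rho Y ψ p) := by
  induction p using ind_induction K (X := ℕ →₀ X) with
  | hadd p q hp hq =>
    simp only [map_add, hp, hq]
    abel
  | hs p hp =>
    have h1 : Y.op 2 (nf Y ψ p) = 0 := by rw [← Y.relD.dp, pi_nf Y hψ, map_zero]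
    have h2 : ∀ p, nf Y ψ (sh K p) = Y.op 1 (nf Y ψ p) := fun p => plift_sh _ _ p
    rw [h2, Y.relD.dr, hp, h1, eh_sh, rho_sh]
    simp only [map_add, map_smul, h2, Y.relD.c21, map_zero]
    abel
  | h0 q => simp [rho_zero, nf]

variable (ψ)

noncomputable def AN : Module.End K ((ℕ →₀ ℕ →₀ X) × Y.X) :=
  (eh (X := ℕ →₀ X) (sh K) ∘ₗ LinearMap.fst K (ℕ →₀ ℕ →₀ X) Y.X).prod
    (Y.op 0 ∘ₗ LinearMap.snd K (ℕ →₀ ℕ →₀ X) Y.X + rho Y ψ ∘ₗ LinearMap.fst K (ℕ →₀ ℕ →₀ X) Y.X)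

noncomputable def PsT : (List Bool →₀ X) →ₗ[K] (ℕ →₀ ℕ →₀ X) × Y.X :=
  wlift (AN Y ψ) ((sh K).prodMap (Y.op 1)) ((uinc K X).prod 0)

theorem PsT_fst (p : List Bool →₀ X) : (PsT Y ψ p).1 = pU K X p := by
  unfold PsT pU
  induction p using word_induction K X with
  | hadd p q hp hq => simp only [map_add, Prod.fst_add, hp, hq]
  | hs t p hp =>
    cases t
    · rw [wlift_h, wlift_h, ← hp]
      rfl
    · rw [wlift_e, wlift_e, ← hp]
      rfl
  | h0 w => simp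

noncomputable def Ps : (List Bool →₀ X) →ₗ[K] Y.X := LinearMap.snd K _ _ ∘ₗ PsT Y ψ

theorem Ps_nil (w : X) : Ps Y ψ (Finsupp.single [] w) = 0 := by
  simp [Ps, PsT]

theorem Ps_h (p : List Bool →₀ X) :
    Ps Y ψ (fl K X false p) = Y.op 0 (Ps Y ψ p) + rho Y ψ (pU K X p) := by
  rw [← PsT_fst Y ψ, Ps, LinearMap.comp_apply, PsT, wlift_h]
  rfl

theorem Ps_e (p : List Bool →₀ X) : Ps Y ψ (fl K X true p) = Y.op 1 (Ps Y ψ p) := by
  rw [Ps, LinearMap.comp_apply, PsT, wlift_e]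
  rfl

theorem pi_Ps (p : List Bool →₀ X) : Y.op 4 (Ps Y ψ p) = Ps Y ψ p := by
  induction p using word_induction K X with
  | hadd p q hp hq => simp only [map_add, hp, hq]
  | hs t p hp =>
    cases t
    · rw [Ps_h, map_add, Y.relD.c40, hp, pi_rho]
    · rw [Ps_e, Y.relD.c41, hp]
  | h0 w => rw [Ps_nil, map_zero]

variable {ψ}

theorem d_Ps (hψ : ∀ w, Y.op 4 (ψ w) = 0) (p : List Bool →₀ X) :
    Y.op 2 (Ps Y ψ p) + nf Y ψ (pU K X p) = LL Y ψ p := by
  induction p using word_induction K X with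
  | hadd p q hp hq =>
    simp only [map_add, ← hp, ← hq]
    abel
  | hs t p hp =>
    cases t
    · rw [Ps_h, LL, wlift_h, ← LL, ← hp, pU, wlift_h, ← pU, map_add, map_add, h_nf Y hψ,
        Y.relD.c20]
      abel
    · rw [Ps_e, LL, wlift_e, ← LL, ← hp, pU, wlift_e, ← pU, map_add, Y.relD.c21, nf, plift_sh]
  | h0 w => simp [Ps_nil, nf, pU, LL, uinc]

theorem Ps_vv (hψ : ∀ w, Y.op 4 (ψ w) = 0) (p : List Bool →₀ X) :
    Ps Y ψ (vv K X p) = Y.op 5 (LL Y ψ p) := by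
  have h1 : Y.op 5 (Ps Y ψ p) = 0 := by rw [← pi_Ps, Y.relD.rp]
  have h2 : pU K X (fl K X true p) = sh K (pU K X p) := wlift_e _ _ _ _
  rw [vv_apply, map_sub, map_sub, map_smul, Ps_h, Ps_e, Ps_e, Ps_h, h2, rho_sh, Y.relD.dr, h1,
    ← d_Ps Y hψ]
  simp only [map_add, map_zero]
  abel

theorem LL_vv (p : List Bool →₀ X) : LL Y ψ (vv K X p) =
    Y.op 2 (Y.op 5 (LL Y ψ p)) + Y.op 5 (Y.op 2 (LL Y ψ p)) := by
  simp only [vv_apply, LL, map_sub, map_smul, wlift_h, wlift_e, Y.relD.dr]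
  abel

variable {F : ℤ → Submodule K X} {G : ℤ → Submodule K Y.X}

theorem Ps_mem (mono : ∀ n, F n ≤ F (n + 1)) (h0 : ∀ n, ∀ x ∈ G n, Y.op 0 x ∈ G (n + 1))
    (h1 : ∀ n, ∀ x ∈ G n, Y.op 1 x ∈ G (n + 1))
    (hr : ∀ n, ∀ p ∈ indF (indF F) n, rho Y ψ p ∈ G (n + 1)) {n : ℤ} {p : List Bool →₀ X}
    (hp : p ∈ frF F n) : Ps Y ψ p ∈ G n :=
  (wlift_mem (G := fun n => (indF (indF F) n).prod (G n))
    (fun n x hx => ⟨eh_mem (indF_mono mono) (fun _ _ h => sh_mem h) _ _ hx.1,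
      Submodule.add_mem _ (h0 _ _ hx.2) (hr _ _ hx.1)⟩)
    (fun n x hx => ⟨sh_mem hx.1, h1 _ _ hx.2⟩)
    (fun _ _ h => ⟨single0_mem (single0_mem h), Submodule.zero_mem _⟩) hp).2

theorem rho_mem {G' : ℤ → Submodule K Y.X} (h0 : ∀ n, ∀ x ∈ G' n, Y.op 0 x ∈ G' (n + 1))
    (h1 : ∀ n, ∀ x ∈ G' n, Y.op 1 x ∈ G' (n + 1))
    (h1' : ∀ n, ∀ x ∈ G n, Y.op 1 x ∈ G (n + 1))
    (h5 : ∀ n, ∀ x ∈ G' n, Y.op 5 x ∈ G (n + 2)) (hψ : ∀ n, ∀ x ∈ F n, ψ x ∈ G' n) (n : ℤ)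
    (p : ℕ →₀ ℕ →₀ X) (hp : p ∈ indF (indF F) n) : rho Y ψ p ∈ G (n + 1) := by
  have key : ∀ (a : ℕ) (m : ℤ) (y : Y.X), y ∈ G' (m - a) → RR Y a y ∈ G (m + 1) := by
    intro a
    induction a with
    | zero => intro m y _; exact Submodule.zero_mem _
    | succ a ih =>
      intro m y hy
      rw [show m - ((a + 1 : ℕ) : ℤ) = m - 1 - a by push_cast; ring] at hy
      have e1 := h1' _ _ (ih (m - 1) y hy)
      have e2 := h5 _ _ (pow_mem h1 a hy)
      rw [sub_add_cancel] at e1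
      rw [show m - 1 + 2 = m + 1 by ring] at e2
      exact Submodule.add_mem _ e1 e2
  change Finsupp.sum p _ ∈ _
  exact Submodule.sum_mem _ fun a _ => key a n _ (plift_mem h0 hψ (hp a))

end Lift

section FrLift

variable {X1 X0 : Type u} [AddCommGroup X1] [Module K X1] [AddCommGroup X0] [Module K X0]

noncomputable def flift (Y : Obj K 6) (ψ1 : X1 →ₗ[K] Y.X) (ψ0 : X0 →ₗ[K] Y.X) :
    FX K X1 X0 →ₗ[K] Y.X :=
  ((LL Y ψ1).coprod ((Ps Y ψ0 ∘ₗ (II K X0).subtype).coprod (Y.op 3 ∘ₗ nf Y ψ0))).coprod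
    ((Y.op 2 ∘ₗ LL Y ψ1).coprod (LL Y ψ0))

theorem flift_apply (Y : Obj K 6) (ψ1 : X1 →ₗ[K] Y.X) (ψ0 : X0 →ₗ[K] Y.X) (x : FX K X1 X0) :
    flift Y ψ1 ψ0 x = (LL Y ψ1 x.1.1 + (Ps Y ψ0 x.1.2.1.1 + Y.op 3 (nf Y ψ0 x.1.2.2))) +
      (Y.op 2 (LL Y ψ1 x.2.1) + LL Y ψ0 x.2.2) := rfl

@[simp] theorem flift_incx (Y : Obj K 6) (ψ1 : X1 →ₗ[K] Y.X) (ψ0 : X0 →ₗ[K] Y.X) (w : X1) :
    flift Y ψ1 ψ0 (incx K X1 X0 w) = ψ1 w := by
  simp [flift_apply, incx_apply, LL]

@[simp] theorem flift_incy (Y : Obj K 6) (ψ1 : X1 →ₗ[K] Y.X) (ψ0 : X0 →ₗ[K] Y.X) (w : X0) :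
    flift Y ψ1 ψ0 (incy K X1 X0 w) = ψ0 w := by
  simp [flift_apply, incy_apply, LL]

theorem flift_comm {Y : Obj K 6} {ψ1 : X1 →ₗ[K] Y.X} {ψ0 : X0 →ₗ[K] Y.X}
    (h1 : ∀ w, Y.op 4 (ψ1 w) = ψ1 w) (h0 : ∀ w, Y.op 4 (ψ0 w) = 0) (i : ℕ) (hi : i < 6)
    (x : FX K X1 X0) : flift Y ψ1 ψ0 (fop K X1 X0 i x) = Y.op i (flift Y ψ1 ψ0 x) := by
  have R := Y.relD
  have hI : pU K X0 x.1.2.1.1 = 0 := x.1.2.1.2
  have dd : ∀ y, Y.op 2 (Y.op 2 y) = 0 := fun y => by rw [← R.dp, R.pd, map_zero]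
  have ee : ∀ y, Y.op 3 (Y.op 3 y) = 0 := fun y => by rw [← R.pe y, R.ep]
  have re : ∀ y, Y.op 5 (Y.op 3 y) = 0 := fun y => by rw [← R.pe y, R.rp]
  have eL : ∀ p, Y.op 3 (LL Y ψ1 p) = 0 := fun p => by rw [← pi_LL_id Y h1, R.ep]
  have rL : ∀ p, Y.op 5 (LL Y ψ1 p) = 0 := fun p => by rw [← pi_LL_id Y h1, R.rp]
  have eP : ∀ p, Y.op 3 (Ps Y ψ0 p) = 0 := fun p => by rw [← pi_Ps, R.ep]
  have rP : ∀ p, Y.op 5 (Ps Y ψ0 p) = 0 := fun p => by rw [← pi_Ps, R.rp]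
  have dL : ∀ p, Y.op 2 (LL Y ψ0 p) = 0 := fun p => by rw [← R.dp, pi_LL_zero Y h0, map_zero]
  have Lh : ∀ p, LL Y ψ1 (fl K X1 false p) = Y.op 0 (LL Y ψ1 p) := wlift_h _ _ _
  have Le : ∀ p, LL Y ψ1 (fl K X1 true p) = Y.op 1 (LL Y ψ1 p) := wlift_e _ _ _
  have Lh' : ∀ p, LL Y ψ0 (fl K X0 false p) = Y.op 0 (LL Y ψ0 p) := wlift_h _ _ _
  have Le' : ∀ p, LL Y ψ0 (fl K X0 true p) = Y.op 1 (LL Y ψ0 p) := wlift_e _ _ _
  have ne : ∀ p, nf Y ψ0 (sh K p) = Y.op 1 (nf Y ψ0 p) := plift_sh _ _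
  interval_cases i
  · simp only [flift_apply, fop0, flI_val, Lh, Lh', Ps_h, hI, map_zero, add_zero, map_add,
      ← R.c30, h_nf Y h0, R.ed, R.c20]
  · simp only [flift_apply, fop1, flI_val, Le, Le', Ps_e, ne, map_add, R.c31, R.c21]
  · have := d_Ps Y h0 x.1.2.1.1
    rw [hI, map_zero, add_zero] at this
    simp [flift_apply, fop2, R.de, dd, dL, this]
  · simp [flift_apply, fop3, eL, eP, ee, R.ed, ← d_Ps Y h0]
  · simp [flift_apply, fop4, pi_LL_id Y h1, pi_Ps, R.pe, R.pd, pi_LL_zero Y h0]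
  · simp [flift_apply, fop5, rL, rP, re, LL_vv, Ps_vv Y h0]

theorem flift_hom {W1 W0 : L0 K} {Y : Obj K 6} {ψ1 : W1.X →ₗ[K] Y.X} {ψ0 : W0.X →ₗ[K] Y.X}
    (h1 : ∀ w, Y.op 4 (ψ1 w) = ψ1 w) (h0 : ∀ w, Y.op 4 (ψ0 w) = 0)
    (f1 : ∀ c n, ∀ w ∈ W1.F c n, ψ1 w ∈ Y.F c n) (f0 : ∀ c n, ∀ w ∈ W0.F c n, ψ0 w ∈ Y.F c n) :
    Hom (Fr W1 W0) Y (flift Y ψ1 ψ0) where
  comm := flift_comm h1 h0
  filt := fun c n x hx => by
    have c0 : ∀ n, ∀ x ∈ Y.F c n, Y.op 0 x ∈ Y.F c (n + 1) :=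
      fun n x hx => Y.comp1 (by omega) (by omega) hx
    have c1 : ∀ n, ∀ x ∈ Y.F c n, Y.op 1 x ∈ Y.F c (n + 1) :=
      fun n x hx => Y.comp1 (by omega) (by omega) hx
    have c5 : ∀ n, ∀ x ∈ Y.F c n, Y.op 5 x ∈ Y.F c (n + 2) :=
      fun n x hx => Y.comp' (i := 5) (by omega) (by omega) hx
    refine Submodule.add_mem _ (Submodule.add_mem _ (wlift_mem c0 c1 (f1 c) hx.1.1)
      (Submodule.add_mem _ (Ps_mem Y (W0.mono c) c0 c1 (rho_mem Y c0 c1 c1 c5 (f0 c)) hx.1.2.1)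
      (Y.comp0 (by omega) (by omega) (by omega)
        (plift_mem c1 (fun _ _ h => plift_mem c0 (f0 c) h) hx.1.2.2))))
      (Submodule.add_mem _ (Y.comp0 (by omega) (by omega) (by omega)
        (wlift_mem c0 c1 (f1 c) hx.2.1)) (wlift_mem c0 c1 (f0 c) hx.2.2))

theorem LL_incx (W1 W0 : L0 K) (a : List Bool →₀ W1.X) :
    LL (Fr W1 W0) (incx K W1.X W0.X) a = ((a, 0), 0) := by
  unfold LL
  induction a using word_induction K W1.X with
  | hadd p q hp hq => simp [hp, hq]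
  | hs t p hp =>
    cases t
    · rw [wlift_h, hp]
      simp [fop0, Prod.ext_iff]
    · rw [wlift_e, hp]
      simp [fop1, Prod.ext_iff]
  | h0 w => rw [wlift_nil, incx_apply]

theorem LL_incy (W1 W0 : L0 K) (a : List Bool →₀ W0.X) :
    LL (Fr W1 W0) (incy K W1.X W0.X) a = (0, (0, a)) := by
  unfold LL
  induction a using word_induction K W0.X with
  | hadd p q hp hq => simp [hp, hq]
  | hs t p hp =>
    cases t
    · rw [wlift_h, hp]
      simp [fop0, Prod.ext_iff]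
    · rw [wlift_e, hp]
      simp [fop1, Prod.ext_iff]
  | h0 w => rw [wlift_nil, incy_apply]

theorem fr_gen {W1 W0 : L0 K} {S : Submodule K (FX K W1.X W0.X)} (hS : Inv (Fr W1 W0) S) {c : C7}
    (h1 : ∀ n, W1.F c n ≤ S.comap (incx K W1.X W0.X))
    (h0 : ∀ n, W0.F c n ≤ S.comap (incy K W1.X W0.X)) (n : ℤ) : (Fr W1 W0).F c n ≤ S := by
  have c0 : ∀ _ : ℤ, ∀ x ∈ S, fop K W1.X W0.X 0 x ∈ S := fun _ => hS 0 (by omega)
  have c1 : ∀ _ : ℤ, ∀ x ∈ S, fop K W1.X W0.X 1 x ∈ S := fun _ => hS 1 (by omega)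
  have ha : ∀ a ∈ frF (W1.F c) n, (((a, 0), 0) : FX K W1.X W0.X) ∈ S := fun a ha => by
    rw [← LL_incx]
    exact wlift_mem (G := fun _ => S) c0 c1 h1 ha
  have hc : ∀ a ∈ frF (W0.F c) n, ((0, (0, a)) : FX K W1.X W0.X) ∈ S := fun a ha => by
    rw [← LL_incy]
    exact wlift_mem (G := fun _ => S) c0 c1 h0 ha
  intro x hx
  have e1 := ha _ hx.1.1
  have e2 := hS 2 (by omega) _ (ha _ hx.2.1)
  have e3 := hc _ hx.2.2
  have e4 := hS 3 (by omega) _ (hc _ (nfw_mem hx.1.2.2))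
  let T : Submodule K (FX K W1.X W0.X) :=
    S ⊓ LinearMap.ker (LinearMap.snd K _ _ ∘ₗ LinearMap.snd K _ _ ∘ₗ LinearMap.fst K _ _)
  have t0 : ∀ _ : ℤ, ∀ x ∈ T, fop K W1.X W0.X 0 x ∈ T := fun n x hx =>
    ⟨c0 n x hx.1, by
      have : x.1.2.2 = 0 := hx.2
      change eh (sh K) x.1.2.2 = 0
      rw [this, map_zero]⟩
  have t1 : ∀ _ : ℤ, ∀ x ∈ T, fop K W1.X W0.X 1 x ∈ T := fun n x hx =>
    ⟨c1 n x hx.1, by
      have : x.1.2.2 = 0 := hx.2
      change sh K x.1.2.2 = 0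
      rw [this, map_zero]⟩
  have e5 : Ps (Fr W1 W0) (incy K W1.X W0.X) x.1.2.1.1 ∈ T :=
    Ps_mem (G := fun _ => T) (Fr W1 W0) (W0.mono c) t0 t1
      (rho_mem (G := fun _ => T) (G' := fun _ => S) (Fr W1 W0) c0 c1 t1
        (fun _ y hy => ⟨hS 5 (by omega) y hy, rfl⟩) h0) hx.1.2.1
  have e6 := d_Ps (Fr W1 W0) (ψ := incy K W1.X W0.X) pi_incy x.1.2.1.1
  have e7 := pi_Ps (Fr W1 W0) (incy K W1.X W0.X) x.1.2.1.1
  have hI : pU K W0.X x.1.2.1.1 = 0 := x.1.2.1.2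
  rw [hI, map_zero, add_zero, LL_incy] at e6
  have e8 : Ps (Fr W1 W0) (incy K W1.X W0.X) x.1.2.1.1 = ((0, x.1.2.1, 0), 0) :=
    Prod.ext (Prod.ext (congrArg (·.2.1) e6) (Prod.ext (Subtype.ext (congrArg (·.2.2) e6)) e5.2))
      (congrArg (·.2) e7).symm
  have e9 := e5.1
  rw [e8] at e9
  have := S.add_mem (S.add_mem e1 (S.add_mem e9 e4)) (S.add_mem e2 e3)
  convert this using 1
  obtain ⟨⟨a, i, u⟩, b, c'⟩ := x
  simp [fop2, fop3, pU_nfw]

/-- Exactness of the degree zero operator `delta + eps` on the filtered pieces. -/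
def DE {j : ℕ} (Y : Obj K j) : Prop :=
  ∀ c n, Mid (Y.F c n) (Y.F c n) (Y.op 2 + Y.op 3) (Y.op 2 + Y.op 3)

theorem de_sq {j : ℕ} (Y : Obj K j) (x : Y.X) : (Y.op 2 + Y.op 3) ((Y.op 2 + Y.op 3) x) = 0 := by
  have R := Y.relD
  have dd : ∀ y, Y.op 2 (Y.op 2 y) = 0 := fun y => by rw [← R.dp, R.pd, map_zero]
  have ee : ∀ y, Y.op 3 (Y.op 3 y) = 0 := fun y => by rw [← R.pe y, R.ep]
  simp [dd, ee, R.de, R.ed]

theorem fr_de (W1 W0 : L0 K) : DE (Fr W1 W0) := by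
  refine fun c n => ⟨fun x _ => de_sq _ x, fun x hx h0 => ?_⟩
  have h1 : pU K W0.X x.2.2 = 0 := by simpa [fop2, fop3] using congrArg (·.1.2.2) h0
  have h2 : x.1.1 = 0 := by simpa [fop2, fop3] using congrArg (·.2.1) h0
  have h3 : x.1.2.1.1 = 0 := by simpa [fop2, fop3] using congrArg (·.2.2) h0
  refine ⟨((x.2.1, ⟨x.2.2, h1⟩, 0), (0, nfw K W0.X x.1.2.2)), ⟨⟨hx.2.1, hx.2.2,
    Submodule.zero_mem _⟩, Submodule.zero_mem _, nfw_mem hx.1.2.2⟩, ?_⟩
  obtain ⟨⟨a, i, u⟩, b, c'⟩ := x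
  dsimp only at h2 h3
  have h4 : i = 0 := Subtype.ext h3
  subst h2 h4
  simp [fop2, fop3, pU_nfw]

theorem DE.ind {Y : Obj K 6} (h : DE Y) : DE (Ind Y) := by
  intro c n
  have e : (Ind Y).op 2 + (Ind Y).op 3 = cw (Y.op 2 + Y.op 3) := by
    rw [Ind_op_lt Y (by omega), Ind_op_lt Y (by omega), iop_cw Y (by omega) (by omega),
      iop_cw Y (by omega) (by omega)]
    refine LinearMap.ext fun p => ?_
    ext b
    simp
  rw [e]
  exact Mid.coef fun a : ℕ => h c (n - a)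

end FrLift

end Vale.Agent.P195
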