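import Vale.Agent.P195.Kos

/- Tensoring with symmetric powers of the standard representation, and the Koszul complex. -/

namespace Vale.Agent.P195

open Vale.Agent.P176 (PieceExact tri)

universe u

variable {K : Type u} [Field K]

section Tn

variable (K) (X : Type u) [AddCommGroup X] [Module K X]

noncomputable def tex (m i : ℕ) : (ℕ →₀ X) →ₗ[K] (ℕ →₀ X) :=
  if i = 0 then wt (fun b => (m : K) - 2 * b)
  else if i = 1 then wt (fun b => (b : K) + 1) ∘ₗ dn K
  else if i = 6 then sh K ∘ₗ wt (fun b => (m : K) - b) else 0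

def dex (m i : ℕ) : (ℕ → X) →ₗ[K] (ℕ → X) :=
  LinearMap.pi fun b =>
    if i = 0 then ((m : K) - 2 * b) • LinearMap.proj b
    else if i = 1 then (b : K) • LinearMap.proj (b - 1)
    else if i = 6 then ((m : K) - b) • LinearMap.proj (b + 1) else 0

theorem dex_apply (m i : ℕ) (z : ℕ → X) (b : ℕ) :
    dex K X m i z b = if i = 0 then ((m : K) - 2 * b) • z b
      else if i = 1 then (b : K) • z (b - 1)
      else if i = 6 then ((m : K) - b) • z (b + 1) else 0 := by
  unfold dex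
  rw [LinearMap.pi_apply]
  split_ifs <;> rfl

variable {K X}

theorem tex_dex {Z : Type u} [AddCommGroup Z] [Module K Z] (χ : (ℕ →₀ X) →ₗ[K] Z) (m i b : ℕ)
    (y : X) : χ (tex K X m i (Finsupp.single b y)) =
      dex K Z m i (fun a => χ (Finsupp.single a y)) b := by
  rw [dex_apply]
  unfold tex
  split_ifs
  · simp [← map_smul]
  · rcases b with _ | b <;> simp [← map_smul]
  · simp [← map_smul]
  · simp

end Tn

variable (Y : Obj K 7)

def tnG (m : ℕ) (c : C7) (n : ℤ) (a : ℕ) : Submodule K Y.X :=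
  if a ≤ m then Y.F (c - m) n else ⊥

theorem tnG_le {m : ℕ} {c : C7} {n : ℤ} {a : ℕ} (h : a ≤ m) : tnG Y m c n a = Y.F (c - m) n :=
  if_pos h

theorem tnG_gt {m : ℕ} {c : C7} {n : ℤ} {a : ℕ} (h : m < a) : tnG Y m c n a = ⊥ :=
  if_neg (by omega)

theorem mem_tn {m : ℕ} {c : C7} {n : ℤ} {p : ℕ →₀ Y.X} :
    p ∈ coefF (tnG Y m c n) ↔ (∀ a, p a ∈ Y.F (c - m) n) ∧ ∀ a, m < a → p a = 0 := by
  constructor
  · intro h
    refine ⟨fun a => ?_, fun a ha => ?_⟩
    · have := h a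
      by_cases ha : a ≤ m
      · rwa [tnG_le Y ha] at this
      · rw [tnG_gt Y (by omega), Submodule.mem_bot] at this
        rw [this]
        exact Submodule.zero_mem _
    · have := h a
      rwa [tnG_gt Y ha, Submodule.mem_bot] at this
  · rintro ⟨h1, h2⟩ a
    by_cases ha : a ≤ m
    · rw [tnG_le Y ha]
      exact h1 a
    · rw [h2 a (by omega)]
      exact Submodule.zero_mem _

@[reducible] noncomputable def Tn (m : ℕ) : Obj K 7 where
  X := ℕ →₀ Y.X
  op := fun i => cw (Y.op i) + tex K Y.X m i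
  F := fun c n => coefF (tnG Y m c n)
  mono := fun c n p hp => by
    rw [mem_tn] at hp ⊢
    exact ⟨fun a => Y.mono _ _ (hp.1 a), hp.2⟩
  comp := fun i hi c n p hp => by
    rw [cs_lt hi, add_zero]
    rw [mem_tn] at hp ⊢
    have h0 := dg_nonneg i
    have h1 : ∀ a, p a ∈ Y.F (c - m) (n + dg i) := fun a => Y.mono' (by omega) (hp.1 a)
    refine ⟨fun a => Submodule.add_mem _ (by rw [cw_apply]; exact Y.comp' hi hi (hp.1 a)) ?_,
      fun a ha => ?_⟩
    · unfold tex
      split_ifs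
      · rw [wt_apply]
        exact Submodule.smul_mem _ _ (h1 a)
      · rw [LinearMap.comp_apply, wt_apply, dn_apply]
        exact Submodule.smul_mem _ _ (h1 _)
      · rcases a with _ | a
        · rw [LinearMap.comp_apply, sh_apply_zero]
          exact Submodule.zero_mem _
        · rw [LinearMap.comp_apply, sh_apply_succ, wt_apply]
          exact Submodule.smul_mem _ _ (h1 _)
      · exact Submodule.zero_mem _
    · unfold tex
      split_ifs
      · simp [hp.2 a ha]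
      · simp [hp.2 a ha, hp.2 (a + 1) (by omega)]
      · obtain ⟨a, rfl⟩ : ∃ b, a = b + 1 := ⟨a - 1, by omega⟩
        by_cases h : a = m
        · subst h
          simp [hp.2 _ ha]
        · simp [hp.2 _ ha, hp.2 a (by omega)]
      · simp [hp.2 a ha]
  relD := by
    have h := Y.relD
    constructor <;> intro p <;> ext b <;>
    · simp [tex, h.c20, h.c21, h.c30, h.c31, h.c40, h.c41, h.pp, h.pd, h.dp,
        h.pe, h.ep, h.pr, h.rp, h.de, h.ed, h.dr]
      try module
  relF := fun _ => by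
    have h := (Y.relF le_rfl).expand
    refine RelF'.contract ?_
    constructor <;> intro p <;> ext (_ | b) <;>
    · simp [tex, h.f0, h.f1, h.f2, h.f3, h.f4, h.f5]
      try module
  relV := fun h => absurd h (by omega)

@[reducible] def Td (m : ℕ) : Obj K 7 where
  X := ℕ → Y.X
  op := fun i => (Y.op i).compLeft ℕ - dex K Y.X m i
  F := fun c n => Submodule.pi Set.univ fun _ => Y.F (c + m) n
  mono := fun c n p hp a ha => Y.mono _ _ (hp a ha)
  comp := fun i hi c n p hp a _ => by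
    rw [cs_lt hi, add_zero]
    have h0 := dg_nonneg i
    have h1 : ∀ a, p a ∈ Y.F (c + m) (n + dg i) := fun a => Y.mono' (by omega) (hp a trivial)
    refine Submodule.sub_mem _ (Y.comp' hi hi (hp a trivial)) ?_
    rw [dex_apply]
    split_ifs
    · exact Submodule.smul_mem _ _ (h1 _)
    · exact Submodule.smul_mem _ _ (h1 _)
    · exact Submodule.smul_mem _ _ (h1 _)
    · exact Submodule.zero_mem _
  relD := by
    have h := Y.relD
    constructor <;> intro p <;> ext (_ | b) <;>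
    · simp [dex_apply, h.c20, h.c21, h.c30, h.c31, h.c40, h.c41, h.pp, h.pd, h.dp,
        h.pe, h.ep, h.pr, h.rp, h.de, h.ed, h.dr]
      try module
  relF := fun _ => by
    have h := (Y.relF le_rfl).expand
    refine RelF'.contract ?_
    constructor <;> intro p <;> ext (_ | b) <;>
    · simp [dex_apply, h.f0, h.f1, h.f2, h.f3, h.f4, h.f5]
      try module
  relV := fun h => absurd h (by omega)

theorem Td_op_apply (m i : ℕ) (z : ℕ → Y.X) (b : ℕ) :
    (Td Y m).op i z b = Y.op i (z b) - dex K Y.X m i z b := rfl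

theorem Tn_op_single (m i b : ℕ) (y : Y.X) :
    (Tn Y m).op i (Finsupp.single b y) =
      Finsupp.single b (Y.op i y) + tex K Y.X m i (Finsupp.single b y) := by
  simp

theorem tn_single_mem {m a : ℕ} (ha : a ≤ m) {c : C7} {n : ℤ} {y : Y.X} (hy : y ∈ Y.F c n) :
    Finsupp.single a y ∈ (Tn Y m).F (c + m) n := by
  rw [mem_tn, add_sub_cancel_right]
  refine ⟨fun b => ?_, fun b hb => Finsupp.single_eq_of_ne (by omega)⟩
  rw [Finsupp.single_apply]
  split_ifs
  · exact hy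
  · exact Submodule.zero_mem _

variable {Y}

noncomputable def tlift {Z : Type u} [AddCommGroup Z] [Module K Z] (ψ : Y.X →ₗ[K] (ℕ → Z)) :
    (ℕ →₀ Y.X) →ₗ[K] Z := Finsupp.lsum K fun a => LinearMap.proj a ∘ₗ ψ

@[simp] theorem tlift_single {Z : Type u} [AddCommGroup Z] [Module K Z] (ψ : Y.X →ₗ[K] (ℕ → Z))
    (a : ℕ) (y : Y.X) : tlift ψ (Finsupp.single a y) = ψ y a := by
  simp [tlift]

theorem tlift_hom {Z : Obj K 7} {m : ℕ} {ψ : Y.X →ₗ[K] (ℕ → Z.X)} (h : Hom Y (Td Z m) ψ) :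
    Hom (Tn Y m) Z (tlift ψ) where
  comm := fun i hi p => by
    induction p using Finsupp.induction_linear with
    | zero => simp only [map_zero]
    | add p q hp hq => simp only [map_add, hp, hq]
    | single a y =>
      rw [Tn_op_single, map_add, tex_dex, tlift_single, tlift_single, h.comm i hi, Td_op_apply]
      simp
  filt := fun c n p hp => by
    rw [mem_tn] at hp
    change Finsupp.sum p _ ∈ _
    refine Submodule.sum_mem _ fun a _ => ?_
    have := h.filt _ _ _ (hp.1 a) a trivial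
    rwa [sub_add_cancel] at this

noncomputable def tadj {Z : Type u} [AddCommGroup Z] [Module K Z] (χ : (ℕ →₀ Y.X) →ₗ[K] Z) :
    Y.X →ₗ[K] (ℕ → Z) := LinearMap.pi fun a => χ ∘ₗ Finsupp.lsingle a

theorem tadj_apply {Z : Type u} [AddCommGroup Z] [Module K Z] (χ : (ℕ →₀ Y.X) →ₗ[K] Z)
    (y : Y.X) (a : ℕ) : tadj χ y a = χ (Finsupp.single a y) := rfl

theorem tadj_comm {Z : Obj K 7} {m : ℕ} {χ : (ℕ →₀ Y.X) →ₗ[K] Z.X} (h : Hom (Tn Y m) Z χ)
    (i : ℕ) (hi : i < 7) (y : Y.X) : tadj χ (Y.op i y) = (Td Z m).op i (tadj χ y) := by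
  funext a
  have := h.comm i hi (Finsupp.single a y)
  rw [Tn_op_single, map_add, tex_dex] at this
  rw [Td_op_apply, tadj_apply, tadj_apply, ← this]
  exact (add_sub_cancel_right _ _).symm

def tnS (m : ℕ) (S : Submodule K (ℕ →₀ Y.X)) : Submodule K Y.X where
  carrier := {y | ∀ a ≤ m, Finsupp.single a y ∈ S}
  add_mem' := fun hp hq a ha => by
    rw [Finsupp.single_add]
    exact S.add_mem (hp a ha) (hq a ha)
  zero_mem' := fun a _ => by simp
  smul_mem' := fun c y hy a ha => by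
    rw [← Finsupp.smul_single]
    exact S.smul_mem c (hy a ha)

theorem tnS_inv {m : ℕ} {S : Submodule K (ℕ →₀ Y.X)} (hS : Inv (Tn Y m) S) : Inv Y (tnS m S) := by
  intro i hi y hy a ha
  have h1 := hS i hi _ (hy a ha)
  rw [Tn_op_single] at h1
  have h2 : tex K Y.X m i (Finsupp.single a y) ∈ S := by
    unfold tex
    split_ifs
    · rw [wt_single, ← Finsupp.smul_single]
      exact S.smul_mem _ (hy a ha)
    · rcases a with _ | a
      · simp
      · rw [LinearMap.comp_apply, dn_single_succ, wt_single, ← Finsupp.smul_single]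
        exact S.smul_mem _ (hy a (by omega))
    · rw [LinearMap.comp_apply, wt_single, sh_single]
      by_cases h : a = m
      · subst h
        simp
      · rw [← Finsupp.smul_single]
        exact S.smul_mem _ (hy _ (by omega))
    · simp
  simpa using S.sub_mem h1 h2

theorem tn_gen {m : ℕ} {S : Submodule K (ℕ →₀ Y.X)} (h : ∀ c n, Y.F c n ≤ tnS m S) (c : C7)
    (n : ℤ) : (Tn Y m).F c n ≤ S := by
  intro p hp
  rw [mem_tn] at hp
  refine finsupp_mem fun a => ?_
  by_cases ha : a ≤ m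
  · exact h _ _ (hp.1 a) a ha
  · rw [hp.2 a (by omega)]
    simp

theorem tmap_hom {Z : Obj K 7} {f : Y.X →ₗ[K] Z.X} (h : Hom Y Z f) (m : ℕ) :
    Hom (Tn Y m) (Tn Z m) (cw f) where
  comm := fun i hi p => by
    ext a
    simp only [LinearMap.add_apply, Finsupp.add_apply, cw_apply, map_add, h.comm i hi]
    congr 1
    unfold tex
    split_ifs
    · simp
    · simp
    · rcases a with _ | a <;> simp
    · simp
  filt := fun c n p hp => by
    rw [mem_tn] at hp ⊢
    exact ⟨fun a => by rw [cw_apply]; exact h.filt _ _ _ (hp.1 a),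
      fun a ha => by rw [cw_apply, hp.2 a ha, map_zero]⟩

theorem Mid.tn {Y' : Obj K 7} {X3 : Type u} [AddCommGroup X3] [Module K X3]
    {f : Y.X →ₗ[K] Y'.X} {g : Y'.X →ₗ[K] X3} {n : ℤ} (h : ∀ c, Mid (Y.F c n) (Y'.F c n) f g)
    (m : ℕ) (c : C7) : Mid ((Tn Y m).F c n) ((Tn Y' m).F c n) (cw f) (cw g) := by
  refine Mid.coef fun a => ?_
  by_cases ha : a ≤ m
  · rw [tnG_le _ ha, tnG_le _ ha]
    exact h _
  · rw [tnG_gt _ (by omega), tnG_gt _ (by omega)]
    exact ⟨fun x hx => by simp_all, fun y hy _ => ⟨0, Submodule.zero_mem _, by simp_all⟩⟩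

theorem Onto.tn {Y' : Obj K 7} {f : Y.X →ₗ[K] Y'.X} {n : ℤ}
    (h : ∀ c, Onto (Y.F c n) (Y'.F c n) f) (m : ℕ) (c : C7) :
    Onto ((Tn Y m).F c n) ((Tn Y' m).F c n) (cw f) := by
  refine Onto.coef fun a => ?_
  by_cases ha : a ≤ m
  · rw [tnG_le _ ha, tnG_le _ ha]
    exact h _
  · rw [tnG_gt _ (by omega), tnG_gt _ (by omega)]
    exact fun y hy => ⟨0, Submodule.zero_mem _, by simp_all⟩

section Koszul

variable (K) (X : Type u) [AddCommGroup X] [Module K X]

noncomputable def p1 (m : ℕ) : (ℕ →₀ X) →ₗ[K] (ℕ →₀ X) := wt fun b => (m : K) + 1 - b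

noncomputable def p2 : (ℕ →₀ X) →ₗ[K] (ℕ →₀ X) := wt (fun b => (b : K) + 1) ∘ₗ dn K

@[simp] theorem p1_apply (m : ℕ) (p : ℕ →₀ X) (b : ℕ) :
    p1 K X m p b = ((m : K) + 1 - b) • p b := by
  simp [p1]

@[simp] theorem p2_apply (p : ℕ →₀ X) (b : ℕ) : p2 K X p b = ((b : K) + 1) • p (b + 1) := by
  simp [p2]

noncomputable def kd (m : ℕ) : Q4 (ℕ →₀ X) →ₗ[K] Q4 (ℕ →₀ X) where
  toFun := fun w => (0, p1 K X m w.1, p2 K X w.1, p2 K X w.2.1 - p1 K X m w.2.2.1)
  map_add' := fun w w' => by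
    simp only [Prod.fst_add, Prod.snd_add, map_add, Prod.mk_add_mk, Prod.mk.injEq, add_zero,
      true_and]
    abel
  map_smul' := fun a w => by simp [smul_sub]

theorem kd_apply (m : ℕ) (w : Q4 (ℕ →₀ X)) :
    kd K X m w = (0, p1 K X m w.1, p2 K X w.1, p2 K X w.2.1 - p1 K X m w.2.2.1) := rfl

end Koszul

variable (Y)

theorem p1_mem {m : ℕ} {c : C7} {n : ℤ} {p : ℕ →₀ Y.X} (hp : p ∈ (Tn Y (m + 1)).F c n) :
    p1 K Y.X m p ∈ (Tn Y m).F (c - 1) n := by
  rw [mem_tn] at hp ⊢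
  rw [show c - 1 - (m : C7) = c - ((m + 1 : ℕ) : C7) by push_cast; ring]
  refine ⟨fun a => by rw [p1_apply]; exact Submodule.smul_mem _ _ (hp.1 a), fun a ha => ?_⟩
  by_cases h : a = m + 1
  · subst h
    simp
  · simp [hp.2 a (by omega)]

theorem p2_mem {m : ℕ} {c : C7} {n : ℤ} {p : ℕ →₀ Y.X} (hp : p ∈ (Tn Y (m + 1)).F c n) :
    p2 K Y.X p ∈ (Tn Y m).F (c - 1) n := by
  rw [mem_tn] at hp ⊢
  rw [show c - 1 - (m : C7) = c - ((m + 1 : ℕ) : C7) by push_cast; ring]
  exact ⟨fun a => by rw [p2_apply]; exact Submodule.smul_mem _ _ (hp.1 _),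
    fun a ha => by simp [hp.2 (a + 1) (by omega)]⟩

theorem id_mem {m : ℕ} {c : C7} {n : ℤ} {p : ℕ →₀ Y.X} (hp : p ∈ (Tn Y m).F (c - 1) n) :
    p ∈ (Tn Y (m + 1)).F c n := by
  rw [mem_tn] at hp ⊢
  rw [show c - 1 - (m : C7) = c - ((m + 1 : ℕ) : C7) by push_cast; ring] at hp
  exact ⟨hp.1, fun a ha => hp.2 a (by omega)⟩

theorem sh_mem' {m : ℕ} {c : C7} {n : ℤ} {p : ℕ →₀ Y.X} (hp : p ∈ (Tn Y m).F (c - 1) n) :
    sh K p ∈ (Tn Y (m + 1)).F c n := by
  rw [mem_tn] at hp ⊢
  rw [show c - 1 - (m : C7) = c - ((m + 1 : ℕ) : C7) by push_cast; ring] at hp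
  refine ⟨?_, ?_⟩
  · rintro (_ | a)
    · simp
    · simpa using hp.1 a
  · rintro (_ | a) ha
    · simp
    · simpa using hp.2 a (by omega)

theorem kd_hom (m : ℕ) : Hom (Lam (Tn Y (m + 1))) (Lam (Tn Y m)) (kd K Y.X m) where
  comm := fun i hi w => by
    change kd K Y.X m (lamOp (Tn Y (m + 1)) i w) = lamOp (Tn Y m) i _
    by_cases h7 : i < 7
    · rw [lamOp_lt _ h7, lamOp_lt _ h7, lop_apply, kd_apply, kd_apply, lop_apply]
      refine Prod.ext (by simp) (Prod.ext ?_ (Prod.ext ?_ ?_)) <;> ext (_ | b) <;>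
      · interval_cases i <;>
        · simp [tex, va, vb, vc, vd]
          try module
    · obtain rfl | rfl : i = 7 ∨ i = 8 := by omega
      · simp [lamOp_7, v1_apply, kd_apply]
      · simp [lamOp_8, v2_apply, kd_apply]
  filt := fun c n w hw => by
    refine ⟨Submodule.zero_mem _, p1_mem Y hw.1, p2_mem Y hw.1, ?_⟩
    rw [show c - 2 = c - 1 - 1 by ring]
    exact Submodule.sub_mem _ (p2_mem Y hw.2.1) (p1_mem Y hw.2.2.1)

theorem t0_hom : Hom Y (Tn Y 0) (Finsupp.lsingle 0) where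
  comm := fun i hi y => by
    rw [Finsupp.lsingle_apply, Finsupp.lsingle_apply, Tn_op_single]
    unfold tex
    split_ifs <;> simp
  filt := fun c n y hy => by
    have := tn_single_mem Y (m := 0) (a := 0) le_rfl hy
    simpa using this

theorem t0_onto (c : C7) (n : ℤ) : Onto (Y.F c n) ((Tn Y 0).F c n) (Finsupp.lsingle 0) := by
  intro p hp
  rw [mem_tn] at hp
  refine ⟨p 0, by simpa using hp.1 0, ?_⟩
  ext (_ | a)
  · simp
  · simp [hp.2 (a + 1) (by omega)]

theorem kd_kd (m : ℕ) (w : Q4 (ℕ →₀ Y.X)) : kd K Y.X m (kd K Y.X (m + 1) w) = 0 := by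
  rw [kd_apply, kd_apply]
  refine Prod.ext rfl (Prod.ext (by simp) (Prod.ext (by simp) ?_))
  ext b
  simp
  module

variable [CharZero K]

theorem kos_solve (m : ℕ) (c : C7) (n : ℤ) (w : Q4 (ℕ →₀ Y.X)) (hw : w ∈ lamF (Tn Y m) c n)
    (h1 : w.1 = 0) (h2 : ∀ i : ℕ, ((i : K) + 1) • w.2.1 (i + 1) = ((m : K) - i) • w.2.2.1 i) :
    ∃ w' ∈ lamF (Tn Y (m + 1)) c n, kd K Y.X m w' = w := by
  have e1 : (m : K) + 1 ≠ 0 := Nat.cast_add_one_ne_zero m
  have e2 : (m : K) + 2 ≠ 0 := by exact_mod_cast (by omega : m + 2 ≠ 0)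
  have ht : w.2.2.2 ∈ (Tn Y m).F (c - 1 - 1) n := by
    rw [show c - 1 - 1 = c - 2 by ring]
    exact hw.2.2.2
  obtain ⟨α, hα⟩ : ∃ α : K, α * ((m : K) + 1) = 1 := ⟨_, inv_mul_cancel₀ e1⟩
  obtain ⟨β, hβ⟩ : ∃ β : K, β * ((m : K) + 2) = 1 := ⟨_, inv_mul_cancel₀ e2⟩
  refine ⟨(α • (w.2.1 + sh K w.2.2.1), β • sh K w.2.2.2, -(β • w.2.2.2), 0),
    ⟨Submodule.smul_mem _ _ (Submodule.add_mem _
      (id_mem Y hw.2.1) (sh_mem' Y hw.2.2.1)), Submodule.smul_mem _ _ (sh_mem' Y ht),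
      Submodule.neg_mem _ (Submodule.smul_mem _ _ (id_mem Y ht)), Submodule.zero_mem _⟩, ?_⟩
  rw [kd_apply]
  refine Prod.ext h1.symm (Prod.ext ?_ (Prod.ext ?_ ?_))
  · ext (_ | b)
    · simp only [p1_apply, Finsupp.smul_apply, Finsupp.add_apply, sh_apply_zero]
      push_cast
      linear_combination (norm := module) hα • w.2.1 0
    · have := h2 b
      simp only [p1_apply, Finsupp.smul_apply, Finsupp.add_apply, sh_apply_succ]
      push_cast
      linear_combination (norm := module) (-α) • this + hα • w.2.1 (b + 1)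
  · ext b
    have := h2 b
    simp only [p2_apply, Finsupp.smul_apply, Finsupp.add_apply, sh_apply_succ]
    linear_combination (norm := module) α • this + hα • w.2.2.1 b
  · ext b
    simp only [p1_apply, p2_apply, Finsupp.smul_apply, Finsupp.sub_apply, Finsupp.neg_apply,
      sh_apply_succ]
    linear_combination (norm := module) hβ • w.2.2.2 b

theorem kos_mid (m : ℕ) (c : C7) (n : ℤ) :
    Mid (lamF (Tn Y (m + 2)) c n) (lamF (Tn Y (m + 1)) c n) (kd K Y.X (m + 1)) (kd K Y.X m) := by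
  refine ⟨fun w _ => kd_kd Y m w, fun w hw h0 => kos_solve Y (m + 1) c n w hw ?_ fun i => ?_⟩
  · have e1 : (m : K) + 1 ≠ 0 := Nat.cast_add_one_ne_zero m
    have h1 : p1 K Y.X m w.1 = 0 := congrArg (·.2.1) h0
    have h2 : p2 K Y.X w.1 = 0 := congrArg (·.2.2.1) h0
    ext (_ | b)
    · have := DFunLike.congr_fun h1 0
      simpa [e1] using this
    · have := DFunLike.congr_fun h2 b
      simpa [Nat.cast_add_one_ne_zero b] using this
  · have h3 : p2 K Y.X w.2.1 - p1 K Y.X m w.2.2.1 = 0 := congrArg (·.2.2.2) h0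
    have := DFunLike.congr_fun h3 i
    simp only [Finsupp.sub_apply, p1_apply, p2_apply, Finsupp.zero_apply, sub_eq_zero] at this
    push_cast
    exact this

theorem kos_mid0 (c : C7) (n : ℤ) :
    Mid (lamF (Tn Y 1) c n) (lamF (Tn Y 0) c n) (kd K Y.X 0) (LinearMap.fst K _ _) := by
  refine ⟨fun w _ => rfl, fun w hw h0 => kos_solve Y 0 c n w hw h0 fun i => ?_⟩
  rw [((mem_tn Y).1 hw.2.1).2 (i + 1) (by omega)]
  rcases i with _ | i
  · simp
  · rw [((mem_tn Y).1 hw.2.2.1).2 (i + 1) (by omega)]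
    simp

end Vale.Agent.P195
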