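import Vale.Agent.P195.Free
import Vale.Agent.P195.Sym

/- Objects that are free on a family of generators. -/

namespace Vale.Agent.P195

open Vale.Agent.P176 (PieceExact tri)

universe u

variable {K : Type u} [Field K]

@[reducible] def Obj.l0 {j : ℕ} (Y : Obj K j) : L0 K where
  X := Y.X
  F := Y.F
  mono := Y.mono

theorem L0.mono' (W : L0 K) {c : C7} {m n : ℤ} (h : m ≤ n) : W.F c m ≤ W.F c n :=
  mono_of_step (W.mono c) h

structure LG (W : L0 K) (I : Type) where
  pres : I → Prop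
  cp : I → C7
  dg : I → ℕ
  g : I → W.X
  mem : ∀ i, pres i → g i ∈ W.F (cp i) (dg i)
  ex : ∀ (V : L0 K) (z : I → V.X), (∀ i, pres i → z i ∈ V.F (cp i) (dg i)) →
    ∃ ψ : W.X →ₗ[K] V.X, (∀ c n, ∀ w ∈ W.F c n, ψ w ∈ V.F c n) ∧ ∀ i, pres i → ψ (g i) = z i
  gen : ∀ S : Submodule K W.X, (∀ i, pres i → g i ∈ S) → ∀ c n, W.F c n ≤ S

def basF (J : Type) (pres : J → Prop) (cp : J → C7) (dg : J → ℕ) (c : C7) (n : ℤ) :
    Submodule K (J → K) where
  carrier := {w | ∀ j, ¬ (pres j ∧ c = cp j ∧ (dg j : ℤ) ≤ n) → w j = 0}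
  add_mem' := fun ha hb j hj => by simp [ha j hj, hb j hj]
  zero_mem' := fun _ _ => rfl
  smul_mem' := fun a w hw j hj => by simp [hw j hj]

variable (K) in
@[reducible] def bas (J : Type) (pres : J → Prop) (cp : J → C7) (dg : J → ℕ) : L0 K where
  X := J → K
  F := basF J pres cp dg
  mono := fun _ _ _ hw j hj => hw j fun h => hj ⟨h.1, h.2.1, by omega⟩

noncomputable def basG (J : Type) [Fintype J] [DecidableEq J] (pres : J → Prop) (cp : J → C7)
    (dg : J → ℕ) : LG (bas K J pres cp dg) J where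
  pres := pres
  cp := cp
  dg := dg
  g := fun j => Pi.single j 1
  mem := fun j hj i hi => Pi.single_eq_of_ne (by rintro rfl; exact hi ⟨hj, rfl, le_rfl⟩) _
  ex := fun V z hz => by
    refine ⟨Fintype.linearCombination K z, fun c n w hw => ?_, fun i _ => ?_⟩
    · change ∑ j, w j • z j ∈ _
      refine Submodule.sum_mem _ fun j _ => ?_
      by_cases hj : pres j ∧ c = cp j ∧ (dg j : ℤ) ≤ n
      · obtain ⟨h1, rfl, h3⟩ := hj
        exact Submodule.smul_mem _ _ (V.mono' h3 (hz j h1))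
      · rw [hw j hj, zero_smul]
        exact Submodule.zero_mem _
    · exact (Fintype.linearCombination_apply_single K z i 1).trans (one_smul _ _)
  gen := fun S hS c n w hw => by
    rw [pi_eq_sum_univ' w]
    refine Submodule.sum_mem _ fun j _ => ?_
    by_cases hj : pres j ∧ c = cp j ∧ (dg j : ℤ) ≤ n
    · exact S.smul_mem _ (hS j hj.1)
    · rw [hw j hj, zero_smul]
      exact Submodule.zero_mem _

def condF {X : Type u} [AddCommGroup X] [Module K X] (P : Prop) (S : Submodule K X) :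
    Submodule K X where
  carrier := {x | x ∈ S ∧ (¬ P → x = 0)}
  add_mem' := fun ha hb => ⟨S.add_mem ha.1 hb.1, fun h => by rw [ha.2 h, hb.2 h, add_zero]⟩
  zero_mem' := ⟨S.zero_mem, fun _ => rfl⟩
  smul_mem' := fun a w hw => ⟨S.smul_mem a hw.1, fun h => by rw [hw.2 h, smul_zero]⟩

theorem condF_pos {X : Type u} [AddCommGroup X] [Module K X] {P : Prop} (h : P)
    (S : Submodule K X) : condF P S = S :=
  Submodule.ext fun _ => ⟨fun hx => hx.1, fun hx => ⟨hx, fun h' => absurd h h'⟩⟩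

theorem condF_neg {X : Type u} [AddCommGroup X] [Module K X] {P : Prop} (h : ¬ P)
    (S : Submodule K X) : condF P S = ⊥ :=
  Submodule.ext fun _ => ⟨fun hx => hx.2 h, fun hx => by
    rw [Submodule.mem_bot] at hx
    rw [hx]
    exact Submodule.zero_mem _⟩

@[reducible] def L0.cond (W : L0 K) (P : Prop) : L0 K where
  X := W.X
  F := fun c n => condF P (W.F c n)
  mono := fun c n _ hw => ⟨W.mono c n hw.1, hw.2⟩

@[reducible] def L0.sft (W : L0 K) : L0 K where
  X := W.X
  F := fun c n => W.F c (n - 1)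
  mono := fun _ _ => W.mono' (by omega)

def LG.cond {W : L0 K} {I : Type} (G : LG W I) (P : Prop) : LG (W.cond P) I where
  pres := fun i => P ∧ G.pres i
  cp := G.cp
  dg := G.dg
  g := G.g
  mem := fun i hi => ⟨G.mem i hi.2, fun h => absurd hi.1 h⟩
  ex := fun V z hz => by
    by_cases h : P
    · obtain ⟨ψ, h1, h2⟩ := G.ex V z fun i hi => hz i ⟨h, hi⟩
      exact ⟨ψ, fun c n w hw => h1 c n w hw.1, fun i hi => h2 i hi.2⟩
    · exact ⟨0, fun _ _ _ _ => Submodule.zero_mem _, fun i hi => absurd hi.1 h⟩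
  gen := fun S hS c n w hw => by
    by_cases h : P
    · exact G.gen S (fun i hi => hS i ⟨h, hi⟩) c n hw.1
    · rw [hw.2 h]
      exact S.zero_mem

def LG.sft {W : L0 K} {I : Type} (G : LG W I) : LG W.sft I where
  pres := G.pres
  cp := G.cp
  dg := fun i => G.dg i + 1
  g := G.g
  mem := fun i hi => by
    have := G.mem i hi
    change _ ∈ W.F _ _
    rwa [show ((G.dg i + 1 : ℕ) : ℤ) - 1 = G.dg i by push_cast; ring]
  ex := fun V z hz => by
    obtain ⟨ψ, h1, h2⟩ := G.ex ⟨V.X, fun c n => V.F c (n + 1), fun _ _ => V.mono _ _⟩ z hz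
    refine ⟨ψ, fun c n w hw => ?_, h2⟩
    have := h1 c _ w hw
    change _ ∈ V.F _ _ at this
    rwa [sub_add_cancel] at this
  gen := fun S hS c _ => G.gen S hS c _

variable (K) in
/-- The one-dimensional space in copy zero and degrees at least zero. -/
@[reducible] def one : L0 K where
  X := K
  F := fun c n => condF (c = 0 ∧ 0 ≤ n) ⊤
  mono := fun _ _ _ hw => ⟨trivial, fun h => hw.2 fun h' => h ⟨h'.1, by omega⟩⟩

def oneG : LG (one K) Unit where
  pres := fun _ => True
  cp := fun _ => 0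
  dg := fun _ => 0
  g := fun _ => 1
  mem := fun _ _ => ⟨trivial, fun h => absurd ⟨rfl, le_rfl⟩ h⟩
  ex := fun V z hz => by
    refine ⟨LinearMap.toSpanSingleton K _ (z ()), fun c n w hw => ?_, fun i _ => by simp⟩
    by_cases h : c = 0 ∧ 0 ≤ n
    · obtain ⟨rfl, h⟩ := h
      exact Submodule.smul_mem _ _ (V.mono' h (hz () trivial))
    · rw [hw.2 h, map_zero]
      exact Submodule.zero_mem _
  gen := fun S hS c n w _ => by simpa using S.smul_mem w (hS () trivial)

structure Gens {j : ℕ} (Y : Obj K j) (I : Type) where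
  pres : I → Prop
  cp : I → C7
  dg : I → ℕ
  sg : I → Bool
  g : I → Y.X
  mem : ∀ i, pres i → g i ∈ Y.F (cp i) (dg i)
  typ : ∀ i, Y.op 4 (g i) = if sg i then g i else 0
  ex : ∀ (Z : Obj K j) (z : I → Z.X), (∀ i, pres i → z i ∈ Z.F (cp i) (dg i)) →
    (∀ i, Z.op 4 (z i) = if sg i then z i else 0) →
    ∃ φ : Y.X →ₗ[K] Z.X, Hom Y Z φ ∧ ∀ i, pres i → φ (g i) = z i
  gen : ∀ S : Submodule K Y.X, Inv Y S → (∀ i, pres i → g i ∈ S) → ∀ c n, Y.F c n ≤ S

theorem Gens.uniq {j : ℕ} {Y Z : Obj K j} {I : Type} (G : Gens Y I) {φ : Y.X →ₗ[K] Z.X}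
    (h : Hom Y Z φ) (h0 : ∀ i, G.pres i → φ (G.g i) = 0) {c : C7} {n : ℤ} {x : Y.X}
    (hx : x ∈ Y.F c n) : φ x = 0 :=
  G.gen (Submodule.comap φ ⊥) ((Inv.bot Z).comap h) h0 c n hx

noncomputable def Gens.fr {W1 W0 : L0 K} {I1 I0 : Type} (G1 : LG W1 I1) (G0 : LG W0 I0) :
    Gens (Fr W1 W0) (I1 ⊕ I0) where
  pres := Sum.elim G1.pres G0.pres
  cp := Sum.elim G1.cp G0.cp
  dg := Sum.elim G1.dg G0.dg
  sg := Sum.elim (fun _ => true) fun _ => false
  g := Sum.elim (fun i => incx K W1.X W0.X (G1.g i)) fun i => incy K W1.X W0.X (G0.g i)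
  mem := by
    rintro (i | i) hi
    · exact incx_mem (G1.mem i hi)
    · exact incy_mem (G0.mem i hi)
  typ := by rintro (i | i) <;> rfl
  ex := fun Z z hz ht => by
    obtain ⟨ψ1, a1, b1⟩ := G1.ex Z.l0 (fun i => z (Sum.inl i)) fun i hi => hz (Sum.inl i) hi
    obtain ⟨ψ0, a0, b0⟩ := G0.ex Z.l0 (fun i => z (Sum.inr i)) fun i hi => hz (Sum.inr i) hi
    refine ⟨flift Z (Z.op 4 ∘ₗ ψ1) (ψ0 - Z.op 4 ∘ₗ ψ0), flift_hom (fun w => Z.relD.pp _)
      (fun w => by simp [Z.relD.pp]) (fun c n w hw => Z.comp0 (by omega) (by omega) (by omega)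
        (a1 c n w hw)) (fun c n w hw => Submodule.sub_mem _ (a0 c n w hw)
          (Z.comp0 (by omega) (by omega) (by omega) (a0 c n w hw))), ?_⟩
    rintro (i | i) hi
    · refine (flift_incx _ _ _ _).trans ?_
      rw [LinearMap.comp_apply, b1 i hi]
      exact ht (Sum.inl i)
    · refine (flift_incy _ _ _ _).trans ?_
      rw [LinearMap.sub_apply, LinearMap.comp_apply, b0 i hi, ht (Sum.inr i)]
      exact sub_zero _
  gen := fun S hS h c n => fr_gen hS (G1.gen _ (fun i hi => h (Sum.inl i) hi) c)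
    (G0.gen _ (fun i hi => h (Sum.inr i) hi) c) n

def Gens.prod {j : ℕ} {Y Y' : Obj K j} {I I' : Type} (G : Gens Y I) (G' : Gens Y' I') :
    Gens (prodO Y Y') (I ⊕ I') where
  pres := Sum.elim G.pres G'.pres
  cp := Sum.elim G.cp G'.cp
  dg := Sum.elim G.dg G'.dg
  sg := Sum.elim G.sg G'.sg
  g := Sum.elim (fun i => (G.g i, 0)) fun i => (0, G'.g i)
  mem := by
    rintro (i | i) hi
    · exact ⟨G.mem i hi, Submodule.zero_mem _⟩
    · exact ⟨Submodule.zero_mem _, G'.mem i hi⟩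
  typ := by
    rintro (i | i)
    · change (Y.op 4 (G.g i), Y'.op 4 0) = if G.sg i then (G.g i, 0) else 0
      rw [G.typ, map_zero]
      split_ifs <;> rfl
    · change (Y.op 4 0, Y'.op 4 (G'.g i)) = if G'.sg i then (0, G'.g i) else 0
      rw [G'.typ, map_zero]
      split_ifs <;> rfl
  ex := fun Z z hz ht => by
    obtain ⟨ψ1, a1, b1⟩ := G.ex Z (fun i => z (Sum.inl i)) (fun i hi => hz (Sum.inl i) hi)
      fun i => ht (Sum.inl i)
    obtain ⟨ψ0, a0, b0⟩ := G'.ex Z (fun i => z (Sum.inr i)) (fun i hi => hz (Sum.inr i) hi)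
      fun i => ht (Sum.inr i)
    refine ⟨_, a1.coprod a0, ?_⟩
    rintro (i | i) hi
    · change ψ1 (G.g i) + ψ0 0 = _
      rw [b1 i hi, map_zero, add_zero]
    · change ψ1 0 + ψ0 (G'.g i) = _
      rw [b0 i hi, map_zero, zero_add]
  gen := fun S hS h c n x hx => by
    have h1 := G.gen _ (hS.comap inl_hom) (fun i hi => h (Sum.inl i) hi) c n hx.1
    have h2 := G'.gen _ (hS.comap inr_hom) (fun i hi => h (Sum.inr i) hi) c n hx.2
    simpa using S.add_mem h1 h2

noncomputable def Gens.ind {Y : Obj K 6} {I : Type} (G : Gens Y I) : Gens (Ind Y) I where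
  pres := G.pres
  cp := G.cp
  dg := G.dg
  sg := G.sg
  g := fun i => Finsupp.single 0 (G.g i)
  mem := fun i hi => single0_mem (G.mem i hi)
  typ := fun i => by
    rw [Ind_op_lt Y (by omega), iop_single_zero, G.typ]
    split_ifs <;> simp
  ex := fun Z z hz ht => by
    obtain ⟨ψ, a, b⟩ := G.ex (res (by omega) Z) z hz ht
    exact ⟨_, lift_hom a, fun i hi => (plift_zero _ _ _).trans (b i hi)⟩
  gen := fun S hS h c n => ind_gen hS (G.gen _ (Inv.comap (inc_hom Y)
    fun i hi => hS i (by omega)) h c) n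

noncomputable def Gens.tn {Y : Obj K 7} {I : Type} (G : Gens Y I) (m : ℕ) :
    Gens (Tn Y m) (I × Fin (m + 1)) where
  pres := fun i => G.pres i.1
  cp := fun i => G.cp i.1 + m
  dg := fun i => G.dg i.1
  sg := fun i => G.sg i.1
  g := fun i => Finsupp.single i.2 (G.g i.1)
  mem := fun i hi => tn_single_mem Y (by omega) (G.mem i.1 hi)
  typ := fun i => by
    rw [Tn_op_single, G.typ]
    split_ifs <;> simp [tex]
  ex := fun Z z hz ht => by
    obtain ⟨ψ, a, b⟩ := G.ex (Td Z m) (fun i b => if h : b < m + 1 then z (i, ⟨b, h⟩) else 0)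
      (fun i hi b _ => by
        dsimp only
        split_ifs with h
        · exact hz (i, ⟨b, h⟩) hi
        · exact Submodule.zero_mem _)
      (fun i => by
        funext b
        rw [Td_op_apply, dex_apply]
        by_cases h : b < m + 1
        · rw [dif_pos h, ht]
          by_cases h' : G.sg i <;> simp [h', h] <;> rfl
        · by_cases h' : G.sg i <;> simp [h', h] <;> rfl)
    refine ⟨_, tlift_hom a, fun i hi => ?_⟩
    rw [tlift_single, b i.1 hi]
    exact dif_pos i.2.2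
  gen := fun S hS h c n => tn_gen (G.gen _ (tnS_inv hS)
    fun i hi a ha => h (i, ⟨a, by omega⟩) hi) c n

def Gens.lam {Y : Obj K 7} {I : Type} (G : Gens Y I) : Gens (Lam Y) I where
  pres := G.pres
  cp := G.cp
  dg := G.dg
  sg := G.sg
  g := fun i => linc Y (G.g i)
  mem := fun i hi => (linc_hom Y).filt _ _ _ (G.mem i hi)
  typ := fun i => by
    have := (linc_hom Y).comm 4 (by omega) (G.g i)
    rw [← this, G.typ]
    split_ifs <;> simp
  ex := fun Z z hz ht => by
    obtain ⟨ψ, a, b⟩ := G.ex (res (by omega) Z) z hz ht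
    exact ⟨_, llift_hom a, fun i hi => (llift_linc _ _ _).trans (b i hi)⟩
  gen := fun S hS h c n => lam_gen hS (G.gen _ (Inv.comap (linc_hom Y)
    fun i hi => hS i (by omega)) h) c n

end Vale.Agent.P195
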