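import Vale.Agent.P195.PD0
import Vale.Agent.P195.CD

/- The tensor square of the ten-dimensional algebra satisfies the interface. -/

set_option linter.unusedVariables false
set_option linter.unusedSimpArgs false
set_option linter.unusedSectionVars false

namespace Vale.Agent.P195

open MulOpposite TensorProduct

variable {k : Type} [Field k]

section Match

variable {R R' O X : Type} [Ring R] [Ring R'] [Ring O] [AddCommGroup X] [Module k X] [Module R' X]
  {η : ℤ}

structure Match (S : FC R NN (Fin 2)) (W : Rp k R X) (H : HalfP η O)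
    (φ ψ : O →+* Module.End R' X) : Prop where
  v0 : S.v 0 = (η, 0)
  v1 : S.v 1 = (0, η)
  e : ∀ n x, W.ρ (S.e n) x = φ (H.e n.1) (ψ (H.e n.2) x)
  c0 : ∀ n x, W.ρ (S.c 0 n) x = φ (H.d n.1) (ψ (H.e n.2) x)
  c1 : ∀ n x, W.ρ (S.c 1 n) x = φ (H.e n.1) (ψ (H.d n.2) x)

variable {S T : FC R NN (Fin 2)} {W : Rp k R X} {φ ψ : O →+* Module.End R' X} (pd : PD η O)
  (hc : ∀ a b, φ a * ψ b = ψ b * φ a) (h2 : ∀ x : X, x + x = 0)

theorem Match.dS (m : Match S W pd.S φ ψ) (a : NN → X) : (pd.two φ ψ hc h2).S.d • a = S.δ W a := by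
  ext n
  simp [PD.two, Split.tensor, Half.tensor, PD.to, HalfP.to, sop_apply, FC.δ_apply, m.v0, m.v1,
    m.c0, m.c1]

theorem Match.dT (m : Match T W pd.T φ ψ) (a : NN → X) : (pd.two φ ψ hc h2).T.d • a = T.δ W a := by
  ext n
  simp [PD.two, Split.tensor, Half.tensor, PD.to, HalfP.to, sop_apply, FC.δ_apply, m.v0, m.v1,
    m.c0, m.c1]

theorem Match.eS (m : Match S W pd.S φ ψ) {a : NN → X} (h : ∀ n, W.ρ (S.e n) (a n) = a n) :
    (pd.two φ ψ hc h2).S.e • a = a := by
  ext n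
  simpa [PD.two, Split.tensor, Half.tensor, PD.to, HalfP.to, sop_apply, m.e] using h n

theorem Match.eT (m : Match T W pd.T φ ψ) {a : NN → X} (h : ∀ n, W.ρ (T.e n) (a n) = a n) :
    (pd.two φ ψ hc h2).T.e • a = a := by
  ext n
  simpa [PD.two, Split.tensor, Half.tensor, PD.to, HalfP.to, sop_apply, m.e] using h n

include hc h2 in
theorem cone_of_match (mS : Match S W pd.S φ ψ) (mT : Match T W pd.T φ ψ) {u : NN → R}
    (hu : ∀ n x, W.ρ (u n) x = φ (pd.u n.1) (ψ (pd.u n.2) x)) : Cone S T u W := by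
  have eu : ∀ (a : NN → X) n, ((pd.two φ ψ hc h2).u • a) n = W.ρ (u n) (a n) := fun a n => by
    simp [PD.two, Split.tensor, PD.to, sop_apply, hu]
  intro a b ha hb h1 h3
  obtain ⟨a', b', e1, e2⟩ := (pd.two φ ψ hc h2).cone (V := NN → X) (fun x => funext fun n => h2 _)
    (mS.eS pd hc h2 ha) (mT.eT pd hc h2 hb) (by rw [mS.dS, h1])
    (funext fun n => by rw [Pi.add_apply, mT.dT, eu, h3, Pi.zero_apply])
  refine ⟨a', b', by rw [← mS.dS pd hc h2, e1], fun n => ?_⟩
  rw [← mT.dT pd hc h2, ← eu, ← Pi.add_apply, e2]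

theorem Match.hom (m : Match S W pd.S φ ψ) {a : NN → X} (h : ∀ n, W.ρ (S.e n) (a n) = a n)
    (h0 : S.δ W a = 0) (n : NN) : S.δ W ((pd.two φ ψ hc h2).S.g a) n =
      a n + φ (pd.S.p n.1) (ψ (pd.S.p n.2) (a n)) := by
  have := congrArg (· • a) (pd.two φ ψ hc h2).S.h
  simp only [add_smul, mul_smul, m.dS, h0, m.eS pd hc h2 h, smul_zero, add_zero] at this
  have e := congrFun this n
  simpa [PD.two, Split.tensor, Half.tensor, PD.to, HalfP.to, sop_apply] using e

end Match

variable {q : k}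

def CC (q : k) : Type := C0 q ⊗[k] C0 q

noncomputable instance : Ring (CC q) := inferInstanceAs (Ring (C0 q ⊗[k] C0 q))
noncomputable instance : Algebra k (CC q) := inferInstanceAs (Algebra k (C0 q ⊗[k] C0 q))
instance : FiniteDimensional k (CC q) := inferInstanceAs (FiniteDimensional k (C0 q ⊗[k] C0 q))

def tm (a b : C0 q) : CC q := a ⊗ₜ[k] b

@[simp] theorem tm_mul (a b c d : C0 q) : tm a b * tm c d = tm (a * c) (b * d) :=
  Algebra.TensorProduct.tmul_mul_tmul a c b d
@[simp] theorem tm_zero (a : C0 q) : tm a 0 = 0 := TensorProduct.tmul_zero _ a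
@[simp] theorem zero_tm (a : C0 q) : tm 0 a = 0 := TensorProduct.zero_tmul _ a
theorem tm_smul (r s : k) (a b : C0 q) : tm (r • a) (s • b) = (r * s) • tm a b :=
  TensorProduct.smul_tmul_smul r s a b

theorem CC.ind {P : CC q → Prop} (c : CC q) (h0 : P 0) (h1 : ∀ a b, P (tm a b))
    (h2 : ∀ a b, P a → P b → P (a + b)) : P c :=
  TensorProduct.induction_on (motive := P) c h0 h1 h2

theorem CC.hom_ext {X : Type} [AddCommGroup X] [Module k X] {f g : CC q →ₗ[k] X}
    (h : ∀ a b, f (tm a b) = g (tm a b)) : f = g :=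
  LinearMap.ext fun c => c.ind (P := fun c => f c = g c) (by simp) h
    fun a b ha hb => by simp only [map_add, ha, hb]

open C0

noncomputable def T1 : Module.End k (C0 q) →+* EE k (CC q) :=
  (Module.End.rTensorAlgHom k (C0 q) (C0 q)).toRingHom

noncomputable def T2 : Module.End k (C0 q) →+* EE k (CC q) :=
  (Module.End.lTensorAlgHom k (C0 q) (C0 q)).toRingHom

@[simp] theorem T1_tmul (f : Module.End k (C0 q)) (a b : C0 q) : T1 f (tm a b) = tm (f a) b := rfl
@[simp] theorem T2_tmul (f : Module.End k (C0 q)) (a b : C0 q) : T2 f (tm a b) = tm a (f b) := rfl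

theorem T21 (f g : Module.End k (C0 q)) : T2 g * T1 f = T1 f * T2 g :=
  CC.hom_ext fun a b => by simp

theorem TT_mul (f g f' g' : Module.End k (C0 q)) :
    T1 f * T2 g * (T1 f' * T2 g') = T1 (f * f') * T2 (g * g') :=
  CC.hom_ext fun a b => by simp

theorem trace_TT (f g : Module.End k (C0 q)) : LinearMap.trace k _ (T1 f * T2 g) =
    LinearMap.trace k _ f * LinearMap.trace k _ g := by
  have : T1 f * T2 g = TensorProduct.map f g := CC.hom_ext fun a b => rfl
  rw [this]
  exact LinearMap.trace_tensorProduct' f g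

theorem LL_tmul (a b : C0 q) : LL k (CC q) (tm a b) = T1 (Lm a) * T2 (Lm b) :=
  CC.hom_ext fun a b => by simp [LL]

theorem RR_tmul (a b : C0 q) : LinearMap.mulRight k (tm a b) = T1 (Rm a) * T2 (Rm b) :=
  CC.hom_ext fun a b => by simp

noncomputable def mkH (e d : ℤ → C0 q) (h1 : ∀ n, e n * e n = e n) (h2 : ∀ n, e n * d n = d n)
    (h3 : ∀ n, d n * e (n + 1) = d n) (h4 : ∀ n, d n * d (n + 1) = 0) : HN (CC q) where
  e := fun n => tm (e n.1) (e n.2)
  c := ![fun n => tm (d n.1) (e n.2), fun n => tm (e n.1) (d n.2)]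
  idem := fun n => by simp [h1]
  left := fun a n => by fin_cases a <;> simp [h1, h2]
  right := fun a n => by fin_cases a <;> simp [h1, h3]
  sq := fun a n => by fin_cases a <;> simp [h4]
  comm := fun a b n => by fin_cases a <;> fin_cases b <;> simp [h1, h2, h3]

variable [CharP k 2] (hq : Gen q)

noncomputable def HP : HN (CC q) := mkH (eP q) (dP q) eP_idem eP_dP dP_eP (dP_dP hq.ne)
noncomputable def HQ : HN (CC q) := mkH (eQ q) (dQ q) eQ_idem eQ_dQ dQ_eQ (dQ_dQ hq.ne)

section Four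

variable {R' X : Type} [Ring R'] [AddCommGroup X] [Module k X] [Module R' X]

omit [CharP k 2] in
theorem hc1 (θ : EE k (CC q) →+* Module.End R' X) (a b : Module.End k (C0 q)) :
    θ.comp T1 a * θ.comp T2 b = θ.comp T2 b * θ.comp T1 a := by
  simp only [RingHom.comp_apply, ← map_mul, T21]

omit [CharP k 2] in
theorem hc2 (θ : (EE k (CC q))ᵐᵒᵖ →+* Module.End R' X) (a b : (Module.End k (C0 q))ᵐᵒᵖ) :
    θ.comp (RingHom.op T1) a * θ.comp (RingHom.op T2) b =
      θ.comp (RingHom.op T2) b * θ.comp (RingHom.op T1) a := by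
  simp only [RingHom.comp_apply, ← map_mul, RingHom.op_apply_apply, ← op_mul, T21]

theorem coneLL (W : Rp k (CC q) X) (θ : EE k (CC q) →+* Module.End R' X)
    (h : ∀ c x, W.ρ c x = θ (LL k _ c) x) :
    Cone (HQ hq).fc (HP hq).fc (fun n => tm (uu q n.1) (uu q n.2)) W := by
  have h' : ∀ a b x, W.ρ (tm a b) x = θ.comp T1 (Lm a) (θ.comp T2 (Lm b) x) := fun a b x => by
    rw [h, LL_tmul, map_mul]; rfl
  exact cone_of_match (pdL hq) (hc1 θ) (addself k)
    ⟨rfl, rfl, fun n x => h' _ _ x, fun n x => h' _ _ x, fun n x => h' _ _ x⟩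
    ⟨rfl, rfl, fun n x => h' _ _ x, fun n x => h' _ _ x, fun n x => h' _ _ x⟩ fun n x => h' _ _ x

theorem coneLR (W : Rp k (CC q) X) (θ : (EE k (CC q))ᵐᵒᵖ →+* Module.End R' X)
    (h : ∀ c x, W.ρ c x = θ (op (LinearMap.mulRight k c)) x) :
    Cone (HQ hq).fc (HP hq).fc (fun n => tm (uu q n.1) (uu q n.2)) W := by
  have h' : ∀ a b x, W.ρ (tm a b) x = θ.comp (RingHom.op T1) (op (Rm a))
      (θ.comp (RingHom.op T2) (op (Rm b)) x) := fun a b x => by
    rw [h, RR_tmul, ← T21, op_mul, map_mul]; rfl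
  refine cone_of_match (pdR hq).opp (hc2 θ) (addself k)
    ⟨rfl, rfl, fun n x => h' _ _ x, fun n x => ?_, fun n x => ?_⟩
    ⟨rfl, rfl, fun n x => h' _ _ x, fun n x => ?_, fun n x => ?_⟩ fun n x => h' _ _ x
  all_goals
    refine (h' _ _ x).trans ?_
    simp [PD.opp, HalfP.opp, pdR, hQR, hPR]

theorem matchRR (W : Rp k (CC q)ᵐᵒᵖ X) (θ : EE k (CC q) →+* Module.End R' X)
    (h : ∀ c x, W.ρ (op c) x = θ (LinearMap.mulRight k c) x) :
    Match (HP hq).fc.op W (pdR hq).S (θ.comp T1) (θ.comp T2) ∧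
      Cone (HP hq).fc.op (HQ hq).fc.op (fun n => op (tm (uu q n.1) (uu q n.2))) W := by
  have h' : ∀ a b x, W.ρ (op (tm a b)) x = θ.comp T1 (Rm a) (θ.comp T2 (Rm b) x) := fun a b x => by
    rw [h, RR_tmul, map_mul]; rfl
  have m : Match (HP hq).fc.op W (pdR hq).S (θ.comp T1) (θ.comp T2) := by
    refine ⟨rfl, rfl, fun n x => h' _ _ x, fun n x => ?_, fun n x => ?_⟩
    all_goals
      refine (h' _ _ x).trans ?_
      simp [pdR, hQR, hPR, HN.fc]
  refine ⟨m, cone_of_match (pdR hq) (hc1 θ) (addself k) m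
    ⟨rfl, rfl, fun n x => h' _ _ x, fun n x => ?_, fun n x => ?_⟩ fun n x => h' _ _ x⟩
  all_goals
    refine (h' _ _ x).trans ?_
    simp [pdR, hQR, hPR, HN.fc]

theorem matchRL (W : Rp k (CC q)ᵐᵒᵖ X) (θ : (EE k (CC q))ᵐᵒᵖ →+* Module.End R' X)
    (h : ∀ c x, W.ρ (op c) x = θ (op (LL k _ c)) x) :
    Match (HP hq).fc.op W (pdL hq).opp.S (θ.comp (RingHom.op T1)) (θ.comp (RingHom.op T2)) ∧
      Cone (HP hq).fc.op (HQ hq).fc.op (fun n => op (tm (uu q n.1) (uu q n.2))) W := by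
  have h' : ∀ a b x, W.ρ (op (tm a b)) x = θ.comp (RingHom.op T1) (op (Lm a))
      (θ.comp (RingHom.op T2) (op (Lm b)) x) := fun a b x => by
    rw [h, LL_tmul, ← T21, op_mul, map_mul]; rfl
  have m : Match (HP hq).fc.op W (pdL hq).opp.S (θ.comp (RingHom.op T1))
      (θ.comp (RingHom.op T2)) := by
    refine ⟨rfl, rfl, fun n x => h' _ _ x, fun n x => ?_, fun n x => ?_⟩
    all_goals
      refine (h' _ _ x).trans ?_
      simp [PD.opp, HalfP.opp, pdL, hQL, hPL, HN.fc]
  refine ⟨m, cone_of_match (pdL hq).opp (hc2 θ) (addself k) m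
    ⟨rfl, rfl, fun n x => h' _ _ x, fun n x => ?_, fun n x => ?_⟩ fun n x => h' _ _ x⟩
  all_goals
    refine (h' _ _ x).trans ?_
    simp [PD.opp, HalfP.opp, pdL, hQL, hPL, HN.fc]

end Four

omit [CharP k 2] in
def θD (k C : Type) [Field k] [Ring C] [Algebra k C] : (EE k C)ᵐᵒᵖ →+* Module.End k (DD k C) where
  toFun := fun f => f.unop.dualMap
  map_one' := rfl
  map_mul' := fun _ _ => rfl
  map_zero' := by ext; simp
  map_add' := fun _ _ => by ext; simp

omit [CharP k 2] in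
def θE (k C : Type) [Field k] [Ring C] [Algebra k C] :
    (EE k C)ᵐᵒᵖ →+* Module.End k (EE k C) where
  toFun := fun f => LinearMap.mulRight k f.unop
  map_one' := by ext; simp
  map_mul' := fun _ _ => by ext; simp
  map_zero' := by ext; simp
  map_add' := fun _ _ => by ext; simp

noncomputable def chiC : CC q →ₐ[k] k := Algebra.TensorProduct.productMap chi chi

omit [CharP k 2] in
@[simp] theorem chiC_tmul (a b : C0 q) : chiC (tm a b) = a.f * b.f := rfl

omit [CharP k 2] in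
theorem prf_eq : T1 (prf q) * T2 (prf q) = chiC.toLinearMap.smulRight (tm (ff q) (ff q)) := by
  refine CC.hom_ext fun a b => ?_
  have : ∀ a, prf q a = a.f • ff q := fun a => by ext <;> simp
  simp [this, tm_smul]

def cov (q : k) : C0 q →ₗ[k] k where
  toFun := fun a => a.v
  map_add' := fun _ _ => rfl
  map_smul' := fun _ _ => rfl

noncomputable def ψv (q : k) : DD k (CC q) :=
  LinearMap.mul' k k ∘ₗ TensorProduct.map (cov q) (cov q)

omit [CharP k 2] in
@[simp] theorem ψv_tmul (a b : C0 q) : ψv q (tm a b) = a.v * b.v := rfl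

omit [CharP k 2] in
theorem prv_eq : T1 (prv q) * T2 (prv q) = (ψv q).smulRight (tm (vv q) (vv q)) := by
  refine CC.hom_ext fun a b => ?_
  have : ∀ a, prv q a = a.v • vv q := fun a => by ext <;> simp
  simp [this, tm_smul]

omit [CharP k 2] in
theorem ψv_w0 (c : CC q) : ψv q ((tm (vv q) (vv q)) * c) = chiC c := by
  refine c.ind (P := fun c => ψv q (tm (vv q) (vv q) * c) = chiC c) (by simp) (fun a b => by simp)
    fun a b ha hb => by simp only [mul_add, map_add, ha, hb]

theorem homD (z : NN → DD k (CC q)) (h : ∀ n, (RD k _).ρ (op ((HP hq).e n)) (z n) = z n)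
    (h0 : (HP hq).fc.op.δ (RD k _) z = 0) : ∃ y, ∀ n, (HP hq).fc.op.δ (RD k _) y n =
      z n + if n = (-2, -2) then z n (tm (vv q) (vv q)) • ψv q else 0 := by
  refine ⟨_, fun n => ((matchRL hq (RD k _) (θD k _) fun _ _ => rfl).1.hom _ (hc2 _) (addself k)
    h h0 n).trans ?_⟩
  congr 1
  change (z n ∘ₗ T2 (if n.2 = -2 then prv q else 0)) ∘ₗ T1 (if n.1 = -2 then prv q else 0) = _
  rw [LinearMap.comp_assoc, ← Module.End.mul_eq_comp, T21]
  by_cases h1 : n = (-2, -2)
  · subst h1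
    simp only [if_true, prv_eq]
    refine LinearMap.ext fun y => ?_
    simp [mul_comm]
  · rw [if_neg h1]
    by_cases h2 : n.1 = -2
    · rw [if_neg (fun h3 : n.2 = -2 => h1 (Prod.ext h2 h3))]
      simp
    · simp [h2]

theorem dw0' (z : NN → DD k (CC q)) (c : CC q) :
    (HP hq).fc.op.δ (RD k _) z (-2, -2) ((tm (vv q) (vv q)) * c) = 0 := by
  have e : dP q (-3) * vv q = 0 := by ext <;> simp [dP]
  simp [FC.δ_apply, RD, FC.op, HN.fc, HP, mkH, ← mul_assoc, e]

noncomputable def gE : Module.End k (NN → EE k (CC q)) :=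
  ((pdL hq).opp.two (R := k) (W := EE k (CC q)) ((θE k _).comp (RingHom.op T1))
    ((θE k _).comp (RingHom.op T2)) (hc2 (θE k _)) (addself k)).S.g

theorem gE_apply (z : NN → EE k (CC q)) (n : NN) : gE hq z n =
    z (n + (1, 0)) * (T1 (gPL q (n.1 + 1)) * T2 (Lm (eP q n.2))) +
    z (n + (0, 1)) * (T1 (if n.1 = -2 then prv q else 0) * T2 (gPL q (n.2 + 1))) := by
  simp [gE, PD.two, Split.tensor, Half.tensor, PD.to, HalfP.to, sop_apply, θE, PD.opp, HalfP.opp,
    pdL, hPL, mul_assoc, T21]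

theorem trace_term (n : NN) : LinearMap.trace k _ (gE hq ((HP hq).fc.op.δ (RE k _)
    (Pi.single n (LL k _ ((HP hq).e n)))) n) =
    LinearMap.trace k _ (Lm (eP q n.1) * (if n.1 = -2 then prv q else 0)) *
      LinearMap.trace k _ (Lm (dP q n.2) * gPL q (n.2 + 1)) := by
  have e1 : (HP hq).fc.op.δ (RE k _) (Pi.single n (LL k _ ((HP hq).e n))) (n + (1, 0)) =
      LL k _ (tm (dP q n.1) (eP q n.2)) := by
    have : n + (1, 0) + -((0, 1) : NN) ≠ n := fun h => by
      have := congrArg Prod.fst h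
      simp at this
    simp only [FC.δ_apply, RE, FC.op, HN.fc, Fin.sum_univ_two, vN0, vN1, add_neg_cancel_right]
    simp only [Pi.single_eq_of_ne this, map_zero, add_zero, Pi.single_eq_same,
      LinearMap.mulRight_apply, unop_op, ← map_mul, (HP hq).left]
    rfl
  have e2 : (HP hq).fc.op.δ (RE k _) (Pi.single n (LL k _ ((HP hq).e n))) (n + (0, 1)) =
      LL k _ (tm (eP q n.1) (dP q n.2)) := by
    have : n + (0, 1) + -((1, 0) : NN) ≠ n := fun h => by
      have := congrArg Prod.fst h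
      simp at this
    simp only [FC.δ_apply, RE, FC.op, HN.fc, Fin.sum_univ_two, vN0, vN1, add_neg_cancel_right]
    simp only [Pi.single_eq_of_ne this, map_zero, zero_add, Pi.single_eq_same,
      LinearMap.mulRight_apply, unop_op, ← map_mul, (HP hq).left]
    rfl
  rw [gE_apply, e1, e2, LL_tmul, LL_tmul, TT_mul, TT_mul, map_add, trace_TT, trace_TT, Lm_mul, trace_Lm, mul_zero, zero_add]

theorem f_bRC : ∀ a : NN → CC q, (∀ n, a n * (HP hq).e n = a n) →
    (HP hq).fc.op.δ (regR k _) a = 0 → chiC (a 0) = 0 → ∃ a', (HP hq).fc.op.δ (regR k _) a' = a :=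
  fun a h h0 h1 => by
  have m := (matchRR hq (regR k (CC q)) (RingHom.id (EE k (CC q))) fun _ _ => rfl).1
  refine ⟨_, funext fun n => (m.hom (pdR hq) (hc1 _) (addself k) h h0 n).trans ?_⟩
  simp only [RingHom.comp_apply, RingHom.id_apply, pdR, hPR]
  rw [← Module.End.mul_apply]
  by_cases h2 : n = 0
  · subst h2
    simp [prf_eq, h1]
  · by_cases h3 : n.1 = 0
    · rw [if_neg (fun h4 : n.2 = 0 => h2 (Prod.ext h3 h4))]
      simp
    · simp [h3]

theorem f_psid : (HP hq).fc.op.δ (RD k _) (Pi.single (-2, -2) (ψv q)) = 0 := by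
  have e : ∀ a : C0 q, (dP q (-2) * a).v = 0 := fun a => by
    have := hq.ne
    simp [dP, zpow_ofNat]
    field_simp
    grind
  funext n
  rw [FC.δ_apply]
  refine Finset.sum_eq_zero fun a _ => ?_
  change (Pi.single (-2, -2) (ψv q) : NN → DD k (CC q)) (n + -vN a) ∘ₗ
    LinearMap.mulLeft k ((HP hq).c a (n + -vN a)) = 0
  by_cases h : n + -vN a = (-2, -2)
  · rw [h]
    refine CC.hom_ext fun x y => ?_
    fin_cases a <;> simp [HP, mkH, e]
  · simp [h]

theorem f_bRE : ∀ z : NN → EE k (CC q), (∀ n, (RE k _).ρ (op ((HP hq).e n)) (z n) = z n) →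
    (HP hq).fc.op.δ (RE k _) z = 0 → z (-2, -2) = 0 → (HP hq).fc.op.δ (RE k _) (gE hq z) = z :=
  fun z h h0 h1 => by
  refine funext fun n => ((matchRL hq (RE k _) (θE k _) fun _ _ => rfl).1.hom _ (hc2 _)
    (addself k) h h0 n).trans ?_
  change z n + z n * T2 (if n.2 = -2 then prv q else 0) * T1 (if n.1 = -2 then prv q else 0) = _
  by_cases h2 : n = (-2, -2)
  · simp [h2, h1]
  · by_cases h3 : n.1 = -2
    · rw [if_neg (fun h4 : n.2 = -2 => h2 (Prod.ext h3 h4))]
      simp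
    · simp [h3]

theorem f_tr : ∑ i ∈ Finset.range 9, LinearMap.trace k _ (gE hq ((HP hq).fc.op.δ (RE k _)
    (Pi.single (-(i : ℤ), (i : ℤ) - 8) (LL k _ ((HP hq).e (-(i : ℤ), (i : ℤ) - 8)))))
      (-(i : ℤ), (i : ℤ) - 8)) ≠ 0 := by
  simp only [trace_term]
  rw [Finset.sum_eq_single 2 (fun i _ hi => by rw [if_neg (by omega)]; simp) (by simp)]
  have h0 := hq.ne
  have h1 := hq.pow (-4) (by norm_num)
  have h2 : 1 + (q ^ 6)⁻¹ * q ^ 2 ≠ 0 := by
    convert h1 using 2
    simp [zpow_ofNat]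
    field_simp
  simp [trace_eq, eP, dP, gPL, zpow_ofNat]
  have h3 : (1 + (q ^ 6)⁻¹ * q ^ 2)⁻¹ + q ^ 2 * (q ^ 6)⁻¹ * (1 + (q ^ 6)⁻¹ * q ^ 2)⁻¹ = 1 := by
    linear_combination mul_inv_cancel₀ h2
  rw [h3, CharTwo.add_self_eq_zero, zero_add]
  exact one_ne_zero

noncomputable def cd : CD k (CC q) where
  P := HP hq
  Q := HQ hq
  u := fun n => tm (uu q n.1) (uu q n.2)
  χ := chiC
  eu := fun n => by simp [HP, mkH, eP_uu]
  ue := fun n => by simp [HQ, mkH, uu_eQ]
  cu := fun a n => by fin_cases a <;> simp [HP, HQ, mkH, eP_uu, uu_eQ, dP_uu hq.ne]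
  suppP := fun n h => by
    by_contra h'
    refine h ?_
    rcases not_and_or.1 h' with h1 | h1 <;> simp [HP, mkH, eP_gt (not_le.1 h1)]
  suppQ := fun n h => by
    by_contra h'
    refine h ?_
    rcases not_and_or.1 h' with h1 | h1 <;> simp [HQ, mkH, eQ_lt (not_le.1 h1)]
  χP := fun n => by
    simp only [HP, mkH, chiC_tmul, eP, Prod.ext_iff, Prod.fst_zero, Prod.snd_zero]
    split_ifs <;> first | omega | simp_all
  χQ := fun n => by
    simp only [HQ, mkH, chiC_tmul, eQ, Prod.ext_iff]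
    split_ifs <;> first | omega | simp_all
  χcP := fun a n => by
    have : ∀ n, (dP q n).f = 0 := fun n => by unfold dP; split_ifs <;> rfl
    fin_cases a <;> simp [HP, mkH, this]
  χcQ := fun a n => by
    have : ∀ n, (dQ q n).f = 0 := fun n => by unfold dQ; split_ifs <;> rfl
    fin_cases a <;> simp [HQ, mkH, this]
  χu := fun n => by
    have : ∀ n, (uu q n).f = 0 := fun n => by unfold uu; split_ifs <;> rfl
    simp [this]
  trL := fun c => by
    refine c.ind (P := fun c => LinearMap.trace k _ (LL k _ c) = 0) (by simp) (fun a b => ?_)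
      fun a b ha hb => ?_
    · rw [LL_tmul, trace_TT, trace_Lm, zero_mul]
    · rw [map_add, map_add, ha, hb, add_zero]
  cLC := coneLL hq _ (RingHom.id _) fun _ _ => rfl
  cLE := coneLL hq _ (Algebra.lmul k _).toRingHom fun _ _ => rfl
  cLD := coneLR hq _ (θD k _) fun _ _ => rfl
  cRC := (matchRR hq _ (RingHom.id _) fun _ _ => rfl).2
  cRE := (matchRL hq _ (θE k _) fun _ _ => rfl).2
  bRC := f_bRC hq
  w0 := tm (vv q) (vv q)
  bRD := fun z h h0 h1 => by
    obtain ⟨y, hy⟩ := homD hq z h h0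
    refine ⟨y, funext fun n => ?_⟩
    rw [hy]
    split_ifs with h2
    · simp [h2, h1]
    · simp
  dw0 := fun z => by simpa using dw0' hq z 1
  cw0 := fun z h h0 c => by
    obtain ⟨y, hy⟩ := homD hq z h h0
    have := dw0' hq y c
    rw [hy, if_pos rfl, LinearMap.add_apply, LinearMap.smul_apply, ψv_w0, smul_eq_mul,
      mul_comm] at this
    exact eq_of_add k this
  ψ0 := ψv q
  ψe := by
    refine CC.hom_ext fun a b => ?_
    simp [RD, HP, mkH, eP]
  ψd := f_psid hq
  ψw := by simp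
  g := gE hq
  gc := fun φ z n => by simp only [gE_apply, mul_add, mul_assoc]
  bRE := f_bRE hq
  tr := f_tr hq

end Vale.Agent.P195
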