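import Vale.Agent.P195.Obj

/- The exterior algebra direction: inflation, free extension, symmetric powers, Koszul complex. -/

namespace Vale.Agent.P195

open Vale.Agent.P176 (PieceExact tri)

universe u

variable {K : Type u} [Field K]

structure RelF' {X : Type u} [AddCommGroup X] [Module K X] (op : ℕ → X →ₗ[K] X) : Prop where
  f0 : ∀ x, op 0 (op 6 x) = op 6 (op 0 x) - (2 : K) • op 6 x
  f1 : ∀ x, op 1 (op 6 x) = op 6 (op 1 x) + op 0 x
  f2 : ∀ x, op 2 (op 6 x) = op 6 (op 2 x)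
  f3 : ∀ x, op 3 (op 6 x) = op 6 (op 3 x)
  f4 : ∀ x, op 4 (op 6 x) = op 6 (op 4 x)
  f5 : ∀ x, op 5 (op 6 x) = op 6 (op 5 x) + op 3 x

theorem RelF.expand {X : Type u} [AddCommGroup X] [Module K X] {op : ℕ → X →ₗ[K] X}
    (h : RelF op) : RelF' op where
  f0 := fun x => by simpa [cf, df, lw, sub_eq_add_neg] using h 0 (by omega) x
  f1 := fun x => by simpa [cf, df, lw] using h 1 (by omega) x
  f2 := fun x => by simpa [cf, df, lw] using h 2 (by omega) x
  f3 := fun x => by simpa [cf, df, lw] using h 3 (by omega) x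
  f4 := fun x => by simpa [cf, df, lw] using h 4 (by omega) x
  f5 := fun x => by simpa [cf, df, lw] using h 5 (by omega) x

theorem RelF'.contract {X : Type u} [AddCommGroup X] [Module K X] {op : ℕ → X →ₗ[K] X}
    (h : RelF' op) : RelF op := by
  intro i hi x
  interval_cases i
  · simpa [cf, df, lw, sub_eq_add_neg] using h.f0 x
  · simpa [cf, df, lw] using h.f1 x
  · simpa [cf, df, lw] using h.f2 x
  · simpa [cf, df, lw] using h.f3 x
  · simpa [cf, df, lw] using h.f4 x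
  · simpa [cf, df, lw] using h.f5 x

variable (Y : Obj K 7)

@[reducible] def cshift (t : C7) : Obj K 7 where
  X := Y.X
  op := Y.op
  F := fun c => Y.F (c - t)
  mono := fun _ n => Y.mono _ n
  comp := fun i hi c n x hx => by
    rw [cs_lt hi, add_zero]
    exact Y.comp' hi hi hx
  relD := Y.relD
  relF := Y.relF
  relV := fun h => absurd h (by omega)

@[reducible] def infl : Obj K 9 where
  X := Y.X
  op := fun i => if i < 7 then Y.op i else 0
  F := Y.F
  mono := Y.mono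
  comp := fun i _ c n x hx => by
    split_ifs with h
    · exact Y.comp i h c n x hx
    · exact Submodule.zero_mem _
  relD := by
    have h := Y.relD
    exact ⟨h.c20, h.c21, h.c30, h.c31, h.c40, h.c41, h.pp, h.pd, h.dp, h.pe, h.ep, h.pr, h.rp,
      h.de, h.ed, h.dr⟩
  relF := fun _ => by
    have h := (Y.relF le_rfl).expand
    exact RelF'.contract ⟨h.f0, h.f1, h.f2, h.f3, h.f4, h.f5⟩
  relV := fun _ => ⟨fun i _ x => by simp, fun i _ x => by simp, fun x => by simp,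
    fun x => by simp, fun x => by simp⟩

theorem infl_op {i : ℕ} (hi : i < 7) : (infl Y).op i = Y.op i := if_pos hi

theorem infl_op' {i : ℕ} (hi : 7 ≤ i) : (infl Y).op i = 0 := if_neg (by omega)

theorem Hom.infl {Y Z : Obj K 7} {f : Y.X →ₗ[K] Z.X} (h : Hom Y Z f) :
    Hom (infl Y) (infl Z) f where
  comm := fun i _ x => by
    by_cases hi : i < 7
    · rw [infl_op _ hi, infl_op _ hi, h.comm i hi]
    · rw [infl_op' _ (by omega), infl_op' _ (by omega)]
      simp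
  filt := h.filt

abbrev Q4 (X : Type u) := X × X × X × X

def lop (i : ℕ) : Q4 Y.X →ₗ[K] Q4 Y.X where
  toFun := fun w => (Y.op i w.1, Y.op i w.2.1 + va K i • w.2.1 + vb K i • w.2.2.1,
    Y.op i w.2.2.1 + vc K i • w.2.1 + vd K i • w.2.2.1, Y.op i w.2.2.2)
  map_add' := fun w w' => by
    simp only [Prod.fst_add, Prod.snd_add, map_add, Prod.mk_add_mk, Prod.mk.injEq, smul_add]
    refine ⟨trivial, ?_, ?_, trivial⟩ <;> abel
  map_smul' := fun a w => by
    simp only [Prod.smul_fst, Prod.smul_snd, map_smul, Prod.smul_mk, RingHom.id_apply,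
      Prod.mk.injEq]
    refine ⟨trivial, ?_, ?_, trivial⟩ <;> module

variable (K) in
def v1 (X : Type u) [AddCommGroup X] [Module K X] : Q4 X →ₗ[K] Q4 X where
  toFun := fun w => (0, w.1, 0, w.2.2.1)
  map_add' := fun w w' => by simp
  map_smul' := fun a w => by simp

variable (K) in
def v2 (X : Type u) [AddCommGroup X] [Module K X] : Q4 X →ₗ[K] Q4 X where
  toFun := fun w => (0, 0, w.1, -w.2.1)
  map_add' := fun w w' => by simp [add_comm]
  map_smul' := fun a w => by simp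

theorem lop_apply (i : ℕ) (w : Q4 Y.X) :
    lop Y i w = (Y.op i w.1, Y.op i w.2.1 + va K i • w.2.1 + vb K i • w.2.2.1,
      Y.op i w.2.2.1 + vc K i • w.2.1 + vd K i • w.2.2.1, Y.op i w.2.2.2) := rfl

theorem v1_apply {X : Type u} [AddCommGroup X] [Module K X] (w : Q4 X) :
    v1 K X w = (0, w.1, 0, w.2.2.1) := rfl

theorem v2_apply {X : Type u} [AddCommGroup X] [Module K X] (w : Q4 X) :
    v2 K X w = (0, 0, w.1, -w.2.1) := rfl

def lamF (c : C7) (n : ℤ) : Submodule K (Q4 Y.X) :=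
  (Y.F c n).prod ((Y.F (c - 1) n).prod ((Y.F (c - 1) n).prod (Y.F (c - 2) n)))

def lamOp (i : ℕ) : Q4 Y.X →ₗ[K] Q4 Y.X :=
  if i < 7 then lop Y i else if i = 7 then v1 K Y.X else v2 K Y.X

theorem lamOp_lt {i : ℕ} (hi : i < 7) : lamOp Y i = lop Y i := if_pos hi

theorem lamOp_7 : lamOp Y 7 = v1 K Y.X := rfl

theorem lamOp_8 : lamOp Y 8 = v2 K Y.X := rfl

theorem va_vd (i : ℕ) : va K i + vd K i = 0 := by
  unfold va vd
  split_ifs <;> simp

@[reducible] def Lam : Obj K 9 where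
  X := Q4 Y.X
  op := lamOp Y
  F := lamF Y
  mono := fun c n _ hw => ⟨Y.mono _ _ hw.1, Y.mono _ _ hw.2.1, Y.mono _ _ hw.2.2.1,
    Y.mono _ _ hw.2.2.2⟩
  comp := fun i hi c n w hw => by
    by_cases h : i < 7
    · rw [lamOp_lt Y h, cs_lt h, add_zero]
      have h0 := dg_nonneg i
      have h1 : w.2.1 ∈ Y.F (c - 1) (n + dg i) := Y.mono' (by omega) hw.2.1
      have h2 : w.2.2.1 ∈ Y.F (c - 1) (n + dg i) := Y.mono' (by omega) hw.2.2.1
      exact ⟨Y.comp' h h hw.1, Submodule.add_mem _ (Submodule.add_mem _ (Y.comp' h h hw.2.1)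
        (Submodule.smul_mem _ _ h1)) (Submodule.smul_mem _ _ h2),
        Submodule.add_mem _ (Submodule.add_mem _ (Y.comp' h h hw.2.2.1)
        (Submodule.smul_mem _ _ h1)) (Submodule.smul_mem _ _ h2), Y.comp' h h hw.2.2.2⟩
    · have e1 : c + 1 - 1 = c := by ring
      have e2 : c + 1 - 2 = c - 1 := by ring
      obtain rfl | rfl : i = 7 ∨ i = 8 := by omega
      · change w.1 ∈ _ ∧ w.2.1 ∈ _ ∧ w.2.2.1 ∈ _ ∧ w.2.2.2 ∈ _ at hw
        change (0 : Y.X) ∈ _ ∧ w.1 ∈ Y.F (c + 1 - 1) (n + 0) ∧ (0 : Y.X) ∈ _ ∧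
          w.2.2.1 ∈ Y.F (c + 1 - 2) (n + 0)
        rw [e1, e2, add_zero]
        exact ⟨Submodule.zero_mem _, hw.1, Submodule.zero_mem _, hw.2.2.1⟩
      · change w.1 ∈ _ ∧ w.2.1 ∈ _ ∧ w.2.2.1 ∈ _ ∧ w.2.2.2 ∈ _ at hw
        change (0 : Y.X) ∈ _ ∧ (0 : Y.X) ∈ _ ∧ w.1 ∈ Y.F (c + 1 - 1) (n + 0) ∧
          -w.2.1 ∈ Y.F (c + 1 - 2) (n + 0)
        rw [e1, e2, add_zero]
        exact ⟨Submodule.zero_mem _, Submodule.zero_mem _, hw.1, Submodule.neg_mem _ hw.2.1⟩
  relD := by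
    have h := Y.relD
    constructor <;> intro w <;>
    · simp [lamOp, lop_apply, va, vb, vc, vd, h.c20, h.c21, h.c30, h.c31, h.c40, h.c41, h.pp, h.pd,
        h.dp, h.pe, h.ep, h.pr, h.rp, h.de, h.ed, h.dr]
      try (constructor <;> module)
  relF := fun _ => by
    have h := (Y.relF le_rfl).expand
    refine RelF'.contract ?_
    constructor <;> intro w <;>
    · simp [lamOp, lop_apply, va, vb, vc, vd, h.f0, h.f1, h.f2, h.f3, h.f4, h.f5]
      try (first | (constructor <;> module) | module)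
  relV := fun _ => by
    refine ⟨fun i hi w => ?_, fun i hi w => ?_, fun w => ?_, fun w => ?_, fun w => ?_⟩
    · have := va_vd (K := K) i
      rw [lamOp_lt Y hi, lamOp_7, lamOp_8]
      simp only [lop_apply, v1_apply, v2_apply, map_zero, smul_zero, add_zero, zero_add,
        Prod.smul_mk, Prod.mk_add_mk, Prod.mk.injEq, true_and]
      linear_combination (norm := module) (-this) • w.2.2.1
    · have := va_vd (K := K) i
      rw [lamOp_lt Y hi, lamOp_7, lamOp_8]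
      simp only [lop_apply, v1_apply, v2_apply, map_zero, smul_zero, add_zero, zero_add,
        Prod.smul_mk, Prod.mk_add_mk, Prod.mk.injEq, true_and, map_neg]
      linear_combination (norm := module) this • w.2.1
    · simp [lamOp_7, v1_apply]
    · simp [lamOp_8, v2_apply]
    · simp [lamOp_7, lamOp_8, v1_apply, v2_apply]

def linc : Y.X →ₗ[K] Q4 Y.X := LinearMap.inl K _ _

theorem linc_apply (y : Y.X) : linc Y y = (y, 0, 0, 0) := rfl

theorem linc_hom : Hom Y (res (by omega) (Lam Y)) (linc Y) where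
  comm := fun i hi y => by
    change _ = lamOp Y i _
    simp [lamOp_lt Y hi, lop_apply, linc_apply]
  filt := fun c n y hy => ⟨hy, Submodule.zero_mem _, Submodule.zero_mem _, Submodule.zero_mem _⟩

def soc : Y.X →ₗ[K] Q4 Y.X := LinearMap.inr K _ _ ∘ₗ LinearMap.inr K _ _ ∘ₗ LinearMap.inr K _ _

theorem soc_apply (y : Y.X) : soc Y y = (0, 0, 0, y) := rfl

theorem soc_hom : Hom (infl (cshift Y 2)) (Lam Y) (soc Y) where
  comm := fun i hi y => by
    change _ = lamOp Y i _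
    by_cases h : i < 7
    · rw [infl_op _ h]
      simp [lamOp_lt Y h, lop_apply, soc_apply]
    · rw [infl_op' _ (by omega)]
      obtain rfl | rfl : i = 7 ∨ i = 8 := by omega
      · simp [lamOp_7, v1_apply, soc_apply]
      · simp [lamOp_8, v2_apply, soc_apply]
  filt := fun c n y hy => ⟨Submodule.zero_mem _, Submodule.zero_mem _, Submodule.zero_mem _, hy⟩

theorem lfst_hom : Hom (Lam Y) (infl Y) (LinearMap.fst K _ _) where
  comm := fun i hi w => by
    change _ = (infl Y).op i w.1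
    change (lamOp Y i w).1 = _
    by_cases h : i < 7
    · rw [infl_op _ h, lamOp_lt Y h]
      rfl
    · rw [infl_op' _ (by omega)]
      obtain rfl | rfl : i = 7 ∨ i = 8 := by omega
      · rfl
      · rfl
  filt := fun c n w hw => hw.1

variable {Y}

def llift (Z : Obj K 9) (ψ : Y.X →ₗ[K] Z.X) : Q4 Y.X →ₗ[K] Z.X :=
  ψ.coprod ((Z.op 7 ∘ₗ ψ).coprod ((Z.op 8 ∘ₗ ψ).coprod (Z.op 7 ∘ₗ Z.op 8 ∘ₗ ψ)))

theorem llift_apply (Z : Obj K 9) (ψ : Y.X →ₗ[K] Z.X) (w : Q4 Y.X) :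
    llift Z ψ w = ψ w.1 + (Z.op 7 (ψ w.2.1) + (Z.op 8 (ψ w.2.2.1) +
      Z.op 7 (Z.op 8 (ψ w.2.2.2)))) := rfl

theorem llift_linc (Z : Obj K 9) (ψ : Y.X →ₗ[K] Z.X) (y : Y.X) : llift Z ψ (linc Y y) = ψ y := by
  simp [llift_apply, linc_apply]

theorem llift_hom {Z : Obj K 9} {ψ : Y.X →ₗ[K] Z.X} (h : Hom Y (res (by omega) Z) ψ) :
    Hom (Lam Y) Z (llift Z ψ) where
  comm := fun i hi w => by
    have hv := Z.relV le_rfl
    change llift Z ψ (lamOp Y i w) = _
    by_cases h7 : i < 7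
    · have := va_vd (K := K) i
      rw [lamOp_lt Y h7]
      simp only [llift_apply, lop_apply, map_add, map_smul, h.comm i h7, hv.r7 i h7, hv.r8 i h7,
        hv.z77, hv.z88, smul_zero, add_zero]
      linear_combination (norm := module) (-this) • Z.op 7 (Z.op 8 (ψ w.2.2.2))
    · obtain rfl | rfl : i = 7 ∨ i = 8 := by omega
      · simp [lamOp_7, llift_apply, v1_apply, hv.z77]
      · simp [lamOp_8, llift_apply, v2_apply, hv.z88, hv.z87]
  filt := fun c n w hw => by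
    have h1 := Z.compv (i := 7) (by omega) (by omega) (h.filt _ _ _ hw.2.1)
    have h2 := Z.compv (i := 8) (by omega) (by omega) (h.filt _ _ _ hw.2.2.1)
    have h3 := Z.compv (i := 7) (by omega) (by omega)
      (Z.compv (i := 8) (by omega) (by omega) (h.filt _ _ _ hw.2.2.2))
    rw [sub_add_cancel] at h1 h2
    rw [show c - 2 + 1 + 1 = c by ring] at h3
    exact Submodule.add_mem _ (h.filt _ _ _ hw.1) (Submodule.add_mem _ h1
      (Submodule.add_mem _ h2 h3))

theorem lam_gen {S : Submodule K (Q4 Y.X)} (hS : Inv (Lam Y) S)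
    (h : ∀ c n, Y.F c n ≤ S.comap (linc Y)) (c : C7) (n : ℤ) : (Lam Y).F c n ≤ S := by
  intro w hw
  have h0 : linc Y w.1 ∈ S := h _ _ hw.1
  have h1 := hS 7 (by omega) _ (h _ _ hw.2.1)
  have h2 := hS 8 (by omega) _ (h _ _ hw.2.2.1)
  have h3 := hS 7 (by omega) _ (hS 8 (by omega) _ (h _ _ hw.2.2.2))
  have := S.add_mem h0 (S.add_mem h1 (S.add_mem h2 h3))
  convert this using 1
  obtain ⟨a, b, c, d⟩ := w
  simp [lamOp_7, lamOp_8, v1_apply, v2_apply, linc_apply]

def q4map {X X' : Type u} [AddCommGroup X] [Module K X] [AddCommGroup X'] [Module K X']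
    (f : X →ₗ[K] X') : Q4 X →ₗ[K] Q4 X' := f.prodMap (f.prodMap (f.prodMap f))

theorem q4map_apply {X X' : Type u} [AddCommGroup X] [Module K X] [AddCommGroup X'] [Module K X']
    (f : X →ₗ[K] X') (w : Q4 X) : q4map f w = (f w.1, f w.2.1, f w.2.2.1, f w.2.2.2) := rfl

theorem lmap_hom {Z : Obj K 7} {f : Y.X →ₗ[K] Z.X} (h : Hom Y Z f) :
    Hom (Lam Y) (Lam Z) (q4map f) where
  comm := fun i hi w => by
    change q4map f (lamOp Y i w) = lamOp Z i _
    by_cases h7 : i < 7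
    · simp [lamOp_lt _ h7, lop_apply, q4map_apply, h.comm i h7]
    · obtain rfl | rfl : i = 7 ∨ i = 8 := by omega
      · simp [lamOp_7, v1_apply, q4map_apply]
      · simp [lamOp_8, v2_apply, q4map_apply]
  filt := fun c n w hw => ⟨h.filt _ _ _ hw.1, h.filt _ _ _ hw.2.1, h.filt _ _ _ hw.2.2.1,
    h.filt _ _ _ hw.2.2.2⟩

theorem Mid.lam {Y' : Obj K 7} {X3 : Type u} [AddCommGroup X3] [Module K X3]
    {f : Y.X →ₗ[K] Y'.X} {g : Y'.X →ₗ[K] X3} {n : ℤ} (h : ∀ c, Mid (Y.F c n) (Y'.F c n) f g)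
    (c : C7) : Mid (lamF Y c n) (lamF Y' c n) (q4map f) (q4map g) := by
  refine ⟨fun w hw => ?_, fun w hw h0 => ?_⟩
  · rw [q4map_apply, q4map_apply, (h _).1 _ hw.1, (h _).1 _ hw.2.1, (h _).1 _ hw.2.2.1,
      (h _).1 _ hw.2.2.2]
    rfl
  · obtain ⟨a1, h1, e1⟩ := (h _).2 _ hw.1 (congrArg (·.1) h0)
    obtain ⟨a2, h2, e2⟩ := (h _).2 _ hw.2.1 (congrArg (·.2.1) h0)
    obtain ⟨a3, h3, e3⟩ := (h _).2 _ hw.2.2.1 (congrArg (·.2.2.1) h0)
    obtain ⟨a4, h4, e4⟩ := (h _).2 _ hw.2.2.2 (congrArg (·.2.2.2) h0)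
    exact ⟨(a1, a2, a3, a4), ⟨h1, h2, h3, h4⟩, by rw [q4map_apply, e1, e2, e3, e4]⟩

theorem Onto.lam {Y' : Obj K 7} {f : Y.X →ₗ[K] Y'.X} {n : ℤ}
    (h : ∀ c, Onto (Y.F c n) (Y'.F c n) f) (c : C7) :
    Onto (lamF Y c n) (lamF Y' c n) (q4map f) := by
  intro w hw
  obtain ⟨a1, h1, e1⟩ := h _ _ hw.1
  obtain ⟨a2, h2, e2⟩ := h _ _ hw.2.1
  obtain ⟨a3, h3, e3⟩ := h _ _ hw.2.2.1
  obtain ⟨a4, h4, e4⟩ := h _ _ hw.2.2.2
  exact ⟨(a1, a2, a3, a4), ⟨h1, h2, h3, h4⟩, by rw [q4map_apply, e1, e2, e3, e4]⟩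

end Vale.Agent.P195
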