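import Vale.Agent.P195.Tel

/- Exactness of the left evaluations on the regular module, and the evaluations on the simples. -/

set_option linter.unusedVariables false
set_option linter.unusedSimpArgs false
set_option linter.unusedSectionVars false
set_option linter.unnecessarySeqFocus false
set_option linter.unusedTactic false
set_option linter.unreachableTactic false

namespace Vale.Agent.P195

open MulOpposite Lam

variable {k : Type} [Field k] [CharP k 2]

section Gen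

variable {R R' I A X X' : Type} [Ring R] [Ring R'] [AddCommGroup I] [Fintype A] [AddCommGroup X]
  [Module k X] [AddCommGroup X'] [Module k X']

theorem L_congr {F : FC R I A} {F' : FC R' I A} {W : Rp k R X} {W' : Rp k R' X} (hv : F.v = F'.v)
    (hd : F.deg = F'.deg) (hU : W.U = W'.U) (he : ∀ i, W.ρ (F.e i) = W'.ρ (F'.e i))
    (hc : ∀ a i, W.ρ (F.c a i) = W'.ρ (F'.c a i)) : F.L W = F'.L W' := by
  have h1 : F.E W = F'.E W' := by
    ext n w
    simp only [FC.mem_E, hd, hU, he]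
  have h2 : F.δ W = F'.δ W' := by
    ext w i
    simp only [FC.δ_apply, hv, hc]
  simp only [FC.L, h1, h2]

def Rp.prod (W : Rp k R X) (W' : Rp k R X') : Rp k R (X × X') where
  U := W.U.prod W'.U
  ρ := fun r => (W.ρ r).prodMap (W'.ρ r)
  mul := fun a b x => Prod.ext (W.mul a b _) (W'.mul a b _)
  zero := by rw [W.zero, W'.zero]; ext <;> simp
  stab := fun r x hx => ⟨W.stab r _ hx.1, W'.stab r _ hx.2⟩

theorem FC.ac_prod (F : FC R I A) {W : Rp k R X} {W' : Rp k R X'} {n : ℤ} (h : (F.L W).Ac n)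
    (h' : (F.L W').Ac n) : (F.L (W.prod W')).Ac n :=
  (F.ses (W' := W) (W := W.prod W') (W'' := W') (f := LinearMap.inl k X X')
    (g := LinearMap.snd k X X') ⟨fun x hx => ⟨hx, W'.U.zero_mem⟩, fun r x _ => by simp [Rp.prod]⟩
    ⟨fun x hx => hx.2, fun _ _ _ => rfl⟩ (fun x _ h => congrArg Prod.fst h) (fun _ _ => rfl)
    (fun y hy h => ⟨y.1, hy.1, Prod.ext rfl h.symm⟩)
    (fun _ z hz _ => ⟨(0, z), ⟨W.U.zero_mem, hz⟩, rfl⟩)).ac2 h h'

end Gen

variable {C : Type} [Ring C] [Algebra k C] [FiniteDimensional k C] (cd : CD k C) {H : k}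
  (hH : H ≠ 0)

theorem mC_mul (a b : C) : mC cd H (a * b) = mC cd H a * mC cd H b := by apply ext1 <;> simp

@[simp] theorem mC_zero : mC cd H 0 = 0 := rfl

theorem t_le (a : Fin 4) (i : Ix) : (i + vI a).1 ≤ i.1 := by fin_cases a <;> simp

theorem j_le (a : Fin 4) (i : Ix) : (i + vI a).2.1 ≤ i.2.1 := by fin_cases a <;> simp

def KF : FC (Lam cd H) Ix (Fin 4) :=
  (ZZ cd hH).res (fun i => i.1 ≤ 1) fun a _ i h _ => (t_le a i).trans h

def NF : FC (Lam cd H) Ix (Fin 4) :=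
  (ZZ cd hH).res (fun i => 1 < i.1) fun a b i _ h => h.trans_le (t_le b _)

variable {X : Type} [AddCommGroup X] [Module k X]

def cmp (W : Rp k (Lam cd H) X) : Rp k C X := W.comap (mC cd H) (mC_mul cd) rfl

theorem NF_eq (W : Rp k (Lam cd H) X) : (NF cd hH).L W = cd.PC.L (cmp cd W) := by
  refine L_congr rfl rfl rfl (fun ⟨t, j, n⟩ => ?_) fun a ⟨t, j, n⟩ => ?_
  · refine congrArg W.ρ ?_
    by_cases h : 1 < t
    · simp [NF, FC.res, ZZ, ze, sel, h, h.ne', (show t ≠ 0 by omega), CD.PC]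
    · simp [NF, FC.res, h, CD.PC, CD.pe, (show t ≠ 2 by omega)]
  · refine congrArg W.ρ ?_
    by_cases h : 1 < t
    · have h2 : ¬ (1 < t + -1) ∨ (t ≠ 2) := by omega
      fin_cases a <;>
        simp [NF, FC.res, ZZ, zc, zu, c3, sel, h, h.ne', (show t ≠ 0 by omega), CD.PC]
      omega
    · fin_cases a <;> simp [NF, FC.res, h, CD.PC, CD.pc, CD.pu, (show t ≠ 2 by omega)]

theorem ses_main (W : Rp k (Lam cd H) X) : SES (cd.PC.L (cmp cd W)) ((ZZ cd hH).L W)
    ((KF cd hH).L W) LinearMap.id (trunc k X fun i : Ix => i.1 ≤ 1) := by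
  rw [← NF_eq cd hH]
  exact (ZZ cd hH).ses_res W (fun i => i.1 ≤ 1) (fun i => 1 < i.1) (fun i => by omega)
    fun a i h => (t_le a i).trans h

theorem ac_N (n : ℤ) : (cd.PC.L (cmp cd (regL k (Lam cd H)))).Ac n := by
  let γ : Lam cd H →ₗ[k] (Fin 3 → C) × (Fin 2 → KT k C) :=
    { toFun := fun z => (![z.c, z.t0, z.t1], ![z.κ0, z.κ1])
      map_add' := fun a b => Prod.ext (by ext t; fin_cases t <;> rfl)
        (by ext t; fin_cases t <;> rfl)
      map_smul' := fun a b => Prod.ext (by ext t; fin_cases t <;> rfl)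
        (by ext t; fin_cases t <;> rfl) }
  let β : (Fin 3 → C) × (Fin 2 → KT k C) →ₗ[k] Lam cd H :=
    { toFun := fun z => ⟨0, 0, 0, 0, z.1 0, 0, 0, 0, 0, z.1 1, z.1 2, z.2 0, z.2 1⟩
      map_add' := fun a b => by apply ext1 <;> simp
      map_smul' := fun a b => by apply ext1 <;> simp }
  refine cd.PC.ac_retract (W := cmp cd (regL k (Lam cd H))) (W' := ((regL k C).pi (Fin 3)).prod ((LK k C).pi (Fin 2))) (γ := γ)
    (β := β) ⟨fun _ _ => ⟨fun _ _ => trivial, fun _ _ => trivial⟩, fun r x _ => ?_⟩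
    ⟨fun _ _ => trivial, fun r x _ => ?_⟩ (fun i x _ h => ?_)
    (cd.PC.ac_prod (cd.PC.ac_pi _ _ (ac_PC cd (regL k C) (fun _ => trivial) cd.cLC n))
      (cd.PC.ac_pi _ _ (ac_LK cd n)))
  · refine Prod.ext ?_ ?_ <;> ext t <;> fin_cases t <;>
      simp [γ, cmp, Rp.comap, regL, Rp.prod, Rp.pi, LK]
  · apply ext1 <;> simp [β, cmp, Rp.comap, regL, Rp.prod, Rp.pi, LK]
  · rw [← h]
    apply ext1 <;> simp [β, γ, cmp, Rp.comap, regL]

theorem KF_e (t j : ℤ) (n : NN) : (KF cd hH).e (t, j, n) =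
    if t = 0 then mL cd H ((cd.F j).e n) 0 else if t = 1 then mR cd H ((cd.F j).e n) 0 else 0 := by
  rcases tcs t with rfl | rfl | rfl | ⟨h0, h1, h2⟩ <;> simp [KF, FC.res, ZZ, ze, sel, CD.pe, *]

theorem KF_δ (W : Rp k (Lam cd H) X) (w : Ix → X) (t j : ℤ) (n : NN) :
    (KF cd hH).δ W w (t, j, n) =
      if t = 0 then W.ρ (mL cd H ((cd.F j).c 0 n) 0) (w (0, j, n + vN 0)) +
        W.ρ (mL cd H ((cd.F j).c 1 n) 0) (w (0, j, n + vN 1)) +
        W.ρ (mL cd H 0 (cd.σ j n)) (w (0, j + -1, n))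
      else if t = 1 then W.ρ (mR cd H ((cd.F j).c 0 n) 0) (w (1, j, n + vN 0)) +
        W.ρ (mR cd H ((cd.F j).c 1 n) 0) (w (1, j, n + vN 1)) +
        W.ρ (mR cd H 0 (cd.σ j n)) (w (1, j + -1, n)) +
        W.ρ (mP cd H ((cd.F j).e n) (H ^ j • (cd.F j).e n)) (w (0, j, n))
      else 0 := by
  rw [FC.δ_apply, Fin.sum_univ_four]
  rcases tcs t with rfl | rfl | rfl | ⟨h0, h1, h2⟩ <;>
    simp [KF, FC.res, ZZ, zc, zu, c3, sel, CD.pc, CD.pu, W.zero, -vN0, -vN1, *]

theorem ac_K (n : ℤ) : ((KF cd hH).L (regL k (Lam cd H))).Ac n := by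
  refine FC.ac_of _ _ (fun w hw h0 => ?_) n
  have lab0 : ∀ j n, mL cd H ((cd.F j).e n) 0 * w (0, j, n) = w (0, j, n) := fun j n => by
    simpa [KF_e, regL] using (hw (0, j, n)).2
  have lab1 : ∀ j n, mR cd H ((cd.F j).e n) 0 * w (1, j, n) = w (1, j, n) := fun j n => by
    simpa [KF_e, regL] using (hw (1, j, n)).2
  have eq0 := fun j n => (KF_δ cd hH _ w 0 j n).symm.trans (congrFun h0 (0, j, n))
  have eq1 := fun j n => (KF_δ cd hH _ w 1 j n).symm.trans (congrFun h0 (1, j, n))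
  simp only [regL, LinearMap.mulLeft_apply, if_true, one_ne_zero, if_false, Pi.zero_apply]
    at eq0 eq1
  obtain ⟨l0, l1, hl0, hl1⟩ := telL cd (regL k C) cd.cLC one_ne_zero
    (fun j n => (w (0, j, n)).l0) (fun j n => (w (0, j, n)).l1)
    (fun j n => by simpa [regL] using congrArg Lam.l0 (lab0 j n))
    (fun j n => by simpa [regL] using congrArg Lam.l1 (lab0 j n))
    (fun j n => by simpa [regL, HN.δ_apply, -vN0, -vN1] using congrArg Lam.l0 (eq0 j n))
    (fun j n => by simpa [regL, HN.δ_apply, -vN0, -vN1] using congrArg Lam.l1 (eq0 j n))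
  obtain ⟨r0, r1, hr0, hr1⟩ := telL cd (regL k C) cd.cLC one_ne_zero
    (fun j n => (w (1, j, n)).r0) (fun j n => (w (1, j, n)).r1)
    (fun j n => by simpa [regL] using congrArg Lam.r0 (lab1 j n))
    (fun j n => by simpa [regL] using congrArg Lam.r1 (lab1 j n))
    (fun j n => by simpa [regL, HN.δ_apply, -vN0, -vN1] using congrArg Lam.r0 (eq1 j n))
    (fun j n => by simpa [regL, HN.δ_apply, -vN0, -vN1] using congrArg Lam.r1 (eq1 j n))
  simp only [regL, HN.δ_apply, LinearMap.mulLeft_apply, one_smul] at hl0 hl1 hr0 hr1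
  have ce : ∀ (j : ℤ) (a : Fin 2) (n : NN) (x : C),
      (cd.F j).c a n * ((cd.F j).e (n + vN a) * x) = (cd.F j).c a n * x := fun j a n x => by
    rw [← mul_assoc, HN.right]
  have se : ∀ (j : ℤ) (n : NN) (x : C),
      cd.σ j n * ((cd.F (j + -1)).e n * x) = cd.σ j n * x := fun j n x => by
    rw [← mul_assoc, cd.σ_e]
  have ee : ∀ (j : ℤ) (n : NN) (x : C),
      (cd.F j).e n * ((cd.F j).e n * x) = (cd.F j).e n * x := fun j n x => by
    rw [← mul_assoc, HN.idem]
  have ew0 : ∀ j n, (cd.F j).e n * (w (0, j, n)).l0 = (w (0, j, n)).l0 := fun j n => by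
    simpa using congrArg Lam.l0 (lab0 j n)
  have ew1 : ∀ j n, (cd.F j).e n * (w (0, j, n)).l1 = (w (0, j, n)).l1 := fun j n => by
    simpa using congrArg Lam.l1 (lab0 j n)
  have hz : ∀ j : ℤ, H * H ^ (j + -1) = H ^ j := fun j => by
    rw [mul_comm, ← zpow_add_one₀ hH, neg_add_cancel_right]
  obtain ⟨p0, p1, hp0, hp1⟩ := telL cd (regL k C) cd.cLC one_ne_zero
    (fun j n => (w (1, j, n)).p0 + (cd.F j).e n * l0 j n)
    (fun j n => (w (1, j, n)).p1 + (cd.F j).e n * l1 j n)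
    (fun j n => by simpa [regL, mul_add, ee] using congrArg Lam.p0 (lab1 j n))
    (fun j n => by simpa [regL, mul_add, ee] using congrArg Lam.p1 (lab1 j n))
    (fun j n => by
      have := congrArg Lam.p0 (eq1 j n)
      simp [regL, HN.δ_apply, -vN0, -vN1, mul_add, ce, ew0] at this ⊢
      linear_combination (norm := abel) this + hl0 j n)
    (fun j n => by
      have := congrArg Lam.p1 (eq1 j n)
      simp [regL, HN.δ_apply, -vN0, -vN1, mul_add, ce, se, ew1] at this ⊢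
      linear_combination (norm := abel) this + hl1 j n)
  obtain ⟨q0, q1, hq0, hq1⟩ := telL cd (regL k C) cd.cLC hH
    (fun j n => (w (1, j, n)).q0 + H ^ j • ((cd.F j).e n * l0 j n))
    (fun j n => (w (1, j, n)).q1 + H ^ j • ((cd.F j).e n * l1 j n))
    (fun j n => by simpa [regL, mul_add, ee] using congrArg Lam.q0 (lab1 j n))
    (fun j n => by simpa [regL, mul_add, ee] using congrArg Lam.q1 (lab1 j n))
    (fun j n => by
      have := congrArg Lam.q0 (eq1 j n)
      simp [regL, HN.δ_apply, -vN0, -vN1, mul_add, ce, ew0] at this ⊢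
      linear_combination (norm := module) this + H ^ j • hl0 j n)
    (fun j n => by
      have := congrArg Lam.q1 (eq1 j n)
      simp [regL, HN.δ_apply, -vN0, -vN1, mul_add, ce, se, ew1, smul_smul, hz] at this ⊢
      linear_combination (norm := module) this + H ^ j • hl1 j n)
  simp only [regL, HN.δ_apply, LinearMap.mulLeft_apply, one_smul] at hp0 hp1 hq0 hq1
  refine ⟨fun i => if i.1 = 0 then mL cd H (l0 i.2.1 i.2.2) (l1 i.2.1 i.2.2) else
    ⟨0, 0, r0 i.2.1 i.2.2, r1 i.2.1 i.2.2, 0, p0 i.2.1 i.2.2, p1 i.2.1 i.2.2, q0 i.2.1 i.2.2,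
      q1 i.2.1 i.2.2, 0, 0, 0, 0⟩, fun _ => trivial, funext fun ⟨t, j, n⟩ => ?_⟩
  rw [KF_δ]
  by_cases h0 : t = 0
  · subst h0
    rw [← lab0]
    apply ext1 <;> simp [regL, -vN0, -vN1, hl0, hl1, ew0, ew1]
  by_cases h1 : t = 1
  · subst h1
    have := lab1 j n
    apply ext1 <;> simp [regL, -vN0, -vN1, hr0, hr1, hp0, hp1, hq0, hq1, add_assoc _ _ (_ : C),
      addself k] <;> (rw [← this]; simp)
  · have := (hw (t, j, n)).2
    simp only [KF_e, h0, h1, if_false, regL] at this ⊢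
    simpa using this

theorem ac_Z (n : ℤ) : ((ZZ cd hH).L (regL k (Lam cd H))).Ac n :=
  (ses_main cd hH _).ac2 (ac_N cd n) (ac_K cd hH n)

end Vale.Agent.P195
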