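import Vale.Agent.P195.CD

/- The triangular algebra with three vertices. -/

set_option linter.unusedVariables false
set_option linter.unusedSimpArgs false
set_option linter.unusedSectionVars false
set_option linter.unnecessarySeqFocus false
set_option linter.unusedTactic false
set_option linter.unreachableTactic false

namespace Vale.Agent.P195

open MulOpposite

variable {k : Type} [Field k] {C : Type} [Ring C] [Algebra k C] [FiniteDimensional k C]

variable (k C) in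
def KK : Submodule k (EE k C) where
  carrier := {φ | ∀ c, LinearMap.trace k C (φ * LL k C c) = 0}
  add_mem' := fun {a b} ha hb c => by rw [add_mul, map_add, ha c, hb c, add_zero]
  zero_mem' := fun c => by simp
  smul_mem' := fun r a ha c => by rw [smul_mul_assoc, map_smul, ha c, smul_zero]

variable (k C) in
def KT : Type := KK k C

instance : AddCommGroup (KT k C) := inferInstanceAs (AddCommGroup (KK k C))
instance : Module k (KT k C) := inferInstanceAs (Module k (KK k C))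
instance : FiniteDimensional k (KT k C) := inferInstanceAs (FiniteDimensional k (KK k C))

def val : KT k C →ₗ[k] EE k C := (KK k C).subtype

theorem KT.ext {a b : KT k C} (h : val a = val b) : a = b := Subtype.ext h

theorem val_tr (a : KT k C) (c : C) : LinearMap.trace k C (val a * LL k C c) = 0 := a.2 c

def KT.mk (φ : EE k C) (h : ∀ c, LinearMap.trace k C (φ * LL k C c) = 0) : KT k C := ⟨φ, h⟩

@[simp] theorem val_mk (φ : EE k C) (h : ∀ c, LinearMap.trace k C (φ * LL k C c) = 0) :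
    val (KT.mk φ h) = φ := rfl

def lm (c : C) : KT k C →ₗ[k] KT k C where
  toFun := fun κ => KT.mk (LL k C c * val κ) fun y => by
    rw [mul_assoc, LinearMap.trace_mul_comm, mul_assoc, ← map_mul]
    exact val_tr κ _
  map_add' := fun a b => KT.ext (by simp [mul_add])
  map_smul' := fun r a => KT.ext (by simp)

def rm (c : C) : KT k C →ₗ[k] KT k C where
  toFun := fun κ => KT.mk (val κ * LL k C c) fun y => by
    rw [mul_assoc, ← map_mul]
    exact val_tr κ _
  map_add' := fun a b => KT.ext (by simp [add_mul])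
  map_smul' := fun r a => KT.ext (by simp)

def emb (cd : CD k C) : C →ₗ[k] KT k C where
  toFun := fun c => KT.mk (LL k C c) fun y => by rw [← map_mul, cd.trL]
  map_add' := fun a b => KT.ext (by simp)
  map_smul' := fun r a => KT.ext (by simp)

@[simp] theorem val_lm (c : C) (κ : KT k C) : val (lm c κ) = LL k C c * val κ := rfl
@[simp] theorem val_rm (c : C) (κ : KT k C) : val (rm c κ) = val κ * LL k C c := rfl
@[simp] theorem val_emb (cd : CD k C) (c : C) : val (emb cd c) = LL k C c := rfl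
@[simp] theorem lm_zero (κ : KT k C) : lm (0 : C) κ = 0 := KT.ext (by simp)
@[simp] theorem rm_zero (κ : KT k C) : rm (0 : C) κ = 0 := KT.ext (by simp)
@[simp] theorem lm_emb (cd : CD k C) (a b : C) : lm a (emb cd b) = emb cd (a * b) :=
  KT.ext (by simp)
@[simp] theorem rm_emb (cd : CD k C) (a b : C) : rm a (emb cd b) = emb cd (b * a) :=
  KT.ext (by simp)
theorem lm_rm (a b : C) (κ : KT k C) : lm a (rm b κ) = rm b (lm a κ) :=
  KT.ext (by simp [mul_assoc])

variable (k C) in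
def LK : Rp k C (KT k C) :=
  ⟨⊤, lm, fun a b x => KT.ext (by simp [mul_assoc]), LinearMap.ext lm_zero, fun _ _ _ => trivial⟩

variable (k C) in
def RK : Rp k Cᵐᵒᵖ (KT k C) :=
  ⟨⊤, fun c => rm c.unop, fun a b x => KT.ext (by simp [mul_assoc]), LinearMap.ext rm_zero,
    fun _ _ _ => trivial⟩

structure Lam (cd : CD k C) (H : k) where
  l0 : C
  l1 : C
  r0 : C
  r1 : C
  c : C
  p0 : C
  p1 : C
  q0 : C
  q1 : C
  t0 : C
  t1 : C
  κ0 : KT k C
  κ1 : KT k C

namespace Lam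

variable {cd : CD k C} {H : k}

theorem ext1 {a b : Lam cd H} (h1 : a.l0 = b.l0) (h2 : a.l1 = b.l1) (h3 : a.r0 = b.r0)
    (h4 : a.r1 = b.r1) (h5 : a.c = b.c) (h6 : a.p0 = b.p0) (h7 : a.p1 = b.p1) (h8 : a.q0 = b.q0)
    (h9 : a.q1 = b.q1) (h10 : a.t0 = b.t0) (h11 : a.t1 = b.t1) (h12 : a.κ0 = b.κ0)
    (h13 : a.κ1 = b.κ1) : a = b := by
  cases a; cases b; simp_all

theorem ext2 {a b : Lam cd H} (h1 : a.l0 = b.l0) (h2 : a.l1 = b.l1) (h3 : a.r0 = b.r0)
    (h4 : a.r1 = b.r1) (h5 : a.c = b.c) (h6 : a.p0 = b.p0) (h7 : a.p1 = b.p1) (h8 : a.q0 = b.q0)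
    (h9 : a.q1 = b.q1) (h10 : a.t0 = b.t0) (h11 : a.t1 = b.t1)
    (h12 : val a.κ0 = val b.κ0) (h13 : val a.κ1 = val b.κ1) : a = b :=
  ext1 h1 h2 h3 h4 h5 h6 h7 h8 h9 h10 h11 (KT.ext h12) (KT.ext h13)

@[simps] instance : Zero (Lam cd H) := ⟨⟨0, 0, 0, 0, 0, 0, 0, 0, 0, 0, 0, 0, 0⟩⟩
@[simps] instance : One (Lam cd H) := ⟨⟨1, 0, 1, 0, 1, 0, 0, 0, 0, 0, 0, 0, 0⟩⟩
@[simps] instance : Add (Lam cd H) := ⟨fun a b => ⟨a.l0 + b.l0, a.l1 + b.l1, a.r0 + b.r0,
  a.r1 + b.r1, a.c + b.c, a.p0 + b.p0, a.p1 + b.p1, a.q0 + b.q0, a.q1 + b.q1, a.t0 + b.t0,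
  a.t1 + b.t1, a.κ0 + b.κ0, a.κ1 + b.κ1⟩⟩
@[simps] instance : Neg (Lam cd H) := ⟨fun a => ⟨-a.l0, -a.l1, -a.r0, -a.r1, -a.c, -a.p0, -a.p1,
  -a.q0, -a.q1, -a.t0, -a.t1, -a.κ0, -a.κ1⟩⟩
@[simps] instance : SMul k (Lam cd H) := ⟨fun s a => ⟨s • a.l0, s • a.l1, s • a.r0, s • a.r1,
  s • a.c, s • a.p0, s • a.p1, s • a.q0, s • a.q1, s • a.t0, s • a.t1, s • a.κ0, s • a.κ1⟩⟩
@[simps] instance : Mul (Lam cd H) := ⟨fun a b =>
  { l0 := a.l0 * b.l0
    l1 := a.l0 * b.l1 + a.l1 * b.l0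
    r0 := a.r0 * b.r0
    r1 := a.r0 * b.r1 + a.r1 * b.r0
    c := a.c * b.c
    p0 := a.r0 * b.p0 + a.p0 * b.l0
    p1 := a.r0 * b.p1 + a.r1 * b.p0 + a.p0 * b.l1 + a.p1 * b.l0
    q0 := a.r0 * b.q0 + a.q0 * b.l0
    q1 := a.r0 * b.q1 + H • (a.r1 * b.q0) + a.q0 * b.l1 + a.q1 * b.l0
    t0 := a.c * b.t0 + a.t0 * b.r0
    t1 := a.c * b.t1 + a.t0 * b.r1 + a.t1 * b.r0
    κ0 := lm a.c b.κ0 + rm b.l0 a.κ0 + emb cd (a.t0 * b.p0 + a.t0 * b.q0)
    κ1 := lm a.c b.κ1 + rm b.l1 a.κ0 + rm b.l0 a.κ1 +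
      emb cd (a.t0 * b.p1 + a.t1 * b.p0 + a.t0 * b.q1 + H • (a.t1 * b.q0)) }⟩

instance : Ring (Lam cd H) where
  add_assoc := fun a b c => by apply ext1 <;> simp [add_assoc]
  zero_add := fun a => by apply ext1 <;> simp
  add_zero := fun a => by apply ext1 <;> simp
  add_comm := fun a b => by apply ext1 <;> simp [add_comm]
  neg_add_cancel := fun a => by apply ext1 <;> simp
  nsmul := nsmulRec
  zsmul := zsmulRec
  left_distrib := fun a b c => by apply ext2 <;> simp [mul_add, add_mul] <;> abel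
  right_distrib := fun a b c => by apply ext2 <;> simp [mul_add, add_mul] <;> abel
  zero_mul := fun a => by apply ext2 <;> simp
  mul_zero := fun a => by apply ext2 <;> simp
  mul_assoc := fun a b c => by apply ext2 <;> simp [mul_add, add_mul, mul_assoc] <;> abel
  one_mul := fun a => by apply ext2 <;> simp
  mul_one := fun a => by apply ext2 <;> simp

instance : Module k (Lam cd H) where
  one_smul := fun a => by apply ext1 <;> simp
  mul_smul := fun a b c => by apply ext1 <;> simp [mul_smul]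
  smul_zero := fun a => by apply ext1 <;> simp
  smul_add := fun a b c => by apply ext1 <;> simp
  add_smul := fun a b c => by apply ext1 <;> simp [add_smul]
  zero_smul := fun a => by apply ext1 <;> simp

instance : Algebra k (Lam cd H) :=
  Algebra.ofModule (fun r a b => by apply ext2 <;> simp [smul_comm r H])
    (fun r a b => by apply ext2 <;> simp [smul_comm r H])

instance : FiniteDimensional k (Lam cd H) := by
  let f : Lam cd H →ₗ[k] (Fin 11 → C) × KT k C × KT k C :=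
    { toFun := fun a => (![a.l0, a.l1, a.r0, a.r1, a.c, a.p0, a.p1, a.q0, a.q1, a.t0, a.t1],
        a.κ0, a.κ1)
      map_add' := fun a b => Prod.ext (by ext t; fin_cases t <;> rfl) rfl
      map_smul' := fun s a => Prod.ext (by ext t; fin_cases t <;> rfl) rfl }
  refine Module.Finite.of_injective f fun a b h => ?_
  have h1 := congrFun (congrArg Prod.fst h)
  exact ext1 (h1 0) (h1 1) (h1 2) (h1 3) (h1 4) (h1 5) (h1 6) (h1 7) (h1 8) (h1 9) (h1 10)
    (congrArg (·.2.1) h) (congrArg (·.2.2) h)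

variable (cd H)

@[simps] def mL (a b : C) : Lam cd H := ⟨a, b, 0, 0, 0, 0, 0, 0, 0, 0, 0, 0, 0⟩
@[simps] def mR (a b : C) : Lam cd H := ⟨0, 0, a, b, 0, 0, 0, 0, 0, 0, 0, 0, 0⟩
@[simps] def mC (a : C) : Lam cd H := ⟨0, 0, 0, 0, a, 0, 0, 0, 0, 0, 0, 0, 0⟩
@[simps] def mP (a b : C) : Lam cd H := ⟨0, 0, 0, 0, 0, a, 0, b, 0, 0, 0, 0, 0⟩
@[simps] def mT (a b : C) : Lam cd H := ⟨0, 0, 0, 0, 0, 0, 0, 0, 0, a, b, 0, 0⟩
@[simps] def mK (a b : KT k C) : Lam cd H := ⟨0, 0, 0, 0, 0, 0, 0, 0, 0, 0, 0, a, b⟩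

end Lam

end Vale.Agent.P195
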