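import Vale.Agent.P195.Trace
import Vale.Agent.P195.Inst

/- The module of cycles in degree seven has no extensions with itself or the algebra. -/

set_option linter.unusedVariables false
set_option linter.unusedSimpArgs false
set_option linter.unusedSectionVars false

namespace Vale.Agent.P195

open MulOpposite Lam CategoryTheory Abelian

section

variable {k Λ I A : Type} [Field k] [CharP k 2] [Ring Λ] [Algebra k Λ] [AddCommGroup I] [Fintype A]

variable (k) in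
def cover (F : FC Λ I A) (n : ℤ) : GM k F (n + 1) →ₗ[Λ] ZM k F n :=
  LinearMap.codRestrict _ (dM k F ∘ₗ (GM k F (n + 1)).subtype) fun x =>
    ⟨(F.op.L (regR k Λ)).mem n x x.2, (F.op.L (regR k Λ)).dd x⟩

theorem cover_surj {F : FC Λ I A} {n : ℤ} (h : (F.op.L (regR k Λ)).Ac n) :
    Function.Surjective (cover k F n) := fun z => by
  obtain ⟨y, hy, e⟩ := h z z.2.1 z.2.2
  exact ⟨⟨y, hy⟩, Subtype.ext e⟩

theorem split_of_proj {F : FC Λ I A} {n : ℤ} (h : (F.op.L (regR k Λ)).Ac n)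
    (hp : Module.Projective Λ (ZM k F n)) : ∃ γ : (I → Λ) →ₗ[k] (I → Λ),
      ∀ x ∈ ((eqv_reg (k := k) F).Z n).U, γ x ∈ F.op.E (regR k Λ) (n + 1) ∧
        (∀ r : Λ, γ (r • x) = r • γ x) ∧ F.op.δ (regR k Λ) (γ x) = x := by
  obtain ⟨s, hs⟩ := Module.projective_lifting_property (cover k F n) LinearMap.id (cover_surj h)
  let s' : ((eqv_reg (k := k) F).Z n).U →ₗ[k] (I → Λ) :=
    { toFun := fun x => (s ⟨x, x.2⟩ : I → Λ)
      map_add' := fun x y => congrArg Subtype.val (s.map_add ⟨x, x.2⟩ ⟨y, y.2⟩)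
      map_smul' := fun c x => by
        have := congrArg Subtype.val (s.map_smul (algebraMap k _ c) ⟨x, x.2⟩)
        simp only [algebraMap_smul] at this
        exact this }
  obtain ⟨γ, hγ⟩ := LinearMap.exists_extend s'
  have e : ∀ x (hx : x ∈ ((eqv_reg (k := k) F).Z n).U), γ x = s ⟨x, hx⟩ := fun x hx =>
    LinearMap.congr_fun hγ ⟨x, hx⟩
  refine ⟨γ, fun x hx => ⟨by rw [e x hx]; exact (s _).2, fun r => ?_, ?_⟩⟩
  · rw [e x hx, e (r • x) (((eqv_reg (k := k) F).Z n).stab r x hx)]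
    exact congrArg Subtype.val (s.map_smul r ⟨x, hx⟩)
  · rw [e x hx]
    exact congrArg Subtype.val (LinearMap.congr_fun hs ⟨x, hx⟩)

end

section

variable {k : Type} [Field k] [CharP k 2]
variable {C : Type} [Ring C] [Algebra k C] [FiniteDimensional k C] (cd : CD k C) {H : k}
  (hH : H ≠ 0)

theorem ac_M (hH2 : ∀ j : ℤ, j ≠ 0 → 1 + H ^ j ≠ 0) (a : ℤ) (ha : a ≤ -(7 + 2)) :
    ((ZZ cd hH).L (MZ cd hH)).Ac a := by
  have h := (ses_main cd hH (MZ cd hH)).cancel (n := -10) (eta0_mem cd hH) (rho_mem cd hH) rfl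
    (rho_ne cd hH) ((le_N cd hH _).2 (Sχ_dim cd)) ((le_K cd hH _).1 (St_ac cd hH hH2 (by omega)))
    ((le_N cd hH _).1 (Sχ_ac cd (by omega) (by omega))) ((le_K cd hH _).2 (St_dim cd hH hH2))
  by_cases h1 : a = -10
  · exact h1 ▸ h.1
  by_cases h2 : a = -10 + 1
  · exact h2 ▸ h.2
  exact (ses_main cd hH (MZ cd hH)).ac2 ((le_N cd hH _).1 (Sχ_ac cd (by omega) (by omega)))
    ((le_K cd hH _).1 (St_ac cd hH hH2 (by omega)))

theorem M_fin : Module.Finite (Lam cd H) (ZM k (ZZ cd hH) 7) :=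
  have := (GM_proj (k := k) (ZZ cd hH) (ZZ_fin cd hH (7 + 1)).choose_spec).2
  Module.Finite.of_surjective _ (cover_surj (ac_R cd hH 7))

theorem M_not_proj : ¬ Module.Projective (Lam cd H) (ZM k (ZZ cd hH) 7) := by
  intro hp
  obtain ⟨γ, hγ⟩ := split_of_proj (ac_R cd hH 7) hp
  have ac : (cd.PC.L (cmp cd (MZ cd hH))).Ac (-10) :=
    cd.PC.ac_retract (W := cmp cd (MZ cd hH))
      (W' := cmp cd ((eqv_reg (k := k) (ZZ cd hH)).G (7 + 1))) (γ := γ) (β := dZ cd hH)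
      ⟨fun x hx => (hγ x hx).1, fun r x hx => (hγ x hx).2.1 (mC cd H r)⟩
      ⟨fun x hx => ⟨((ZZ cd hH).op.L (regR k _)).mem 7 x hx, ((ZZ cd hH).op.L (regR k _)).dd x⟩,
        fun r x _ => (eqv_reg (k := k) (ZZ cd hH)).comm _ x⟩
      (fun i x hx _ => (hγ x hx).2.2.symm) (ac_T cd hH _ _)
  obtain ⟨y, hy, e1⟩ := ac _ (rho_mem cd hH) ((ses_main cd hH (MZ cd hH)).cyc (rho_mem cd hH)
    (((ZZ cd hH).L (MZ cd hH)).dd _))
  exact rho_ne cd hH y hy e1

theorem ext_MM (hH2 : ∀ j : ℤ, j ≠ 0 → 1 + H ^ j ≠ 0) (i : ℕ)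
    (x : Ext.{0} (ModuleCat.of (Lam cd H) (ZM k (ZZ cd hH) 7))
      (ModuleCat.of (Lam cd H) (ZM k (ZZ cd hH) 7)) (i + 1)) : x = 0 :=
  ext_zero (ZZ cd hH) (ZZ_fin cd hH) (ac_R cd hH) (MZ cd hH) _ (fun _ _ => rfl) (fun _ => Iff.rfl)
    i 7 (ac_M cd hH hH2) x

theorem ext_ML (i : ℕ) (x : Ext.{0} (ModuleCat.of (Lam cd H) (ZM k (ZZ cd hH) 7))
      (ModuleCat.of (Lam cd H) (Lam cd H)) (i + 1)) : x = 0 := by
  let e : ModuleCat.of (Lam cd H) (⊤ : Submodule (Lam cd H) (Lam cd H)) ≅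
    ModuleCat.of (Lam cd H) (Lam cd H) := Submodule.topEquiv.toModuleIso
  have h := ext_zero (ZZ cd hH) (ZZ_fin cd hH) (ac_R cd hH) (regL k _) ⊤ (fun _ _ => rfl)
    (fun _ => Iff.rfl) i 7 (fun a _ => ac_Z cd hH a) (x.comp (Ext.mk₀ e.inv) (add_zero _))
  rw [← x.comp_mk₀_id, ← e.inv_hom_id, ← Ext.mk₀_comp_mk₀, ← Ext.comp_assoc_of_second_deg_zero, h,
    Ext.zero_comp]

end

theorem gen_X : C0.Gen (RatFunc.X : RatFunc (ZMod 2)) := by
  have h : ∀ n : ℕ, n ≠ 0 → 1 + (RatFunc.X : RatFunc (ZMod 2)) ^ n ≠ 0 := fun n hn h0 => by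
    have : (1 + Polynomial.X ^ n : Polynomial (ZMod 2)) = 0 := by
      apply RatFunc.algebraMap_injective (ZMod 2)
      simpa using h0
    have := congrArg (Polynomial.eval 0) this
    simp [hn] at this
  refine ⟨RatFunc.X_ne_zero, fun n hn => ?_⟩
  obtain ⟨m, rfl | rfl⟩ := n.eq_nat_or_neg
  · simpa using h m (by omega)
  · intro h0
    refine h m (by omega) ?_
    have h1 : (RatFunc.X : RatFunc (ZMod 2)) ^ m ≠ 0 := pow_ne_zero _ RatFunc.X_ne_zero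
    rw [zpow_neg, zpow_natCast] at h0
    rw [add_comm, ← mul_inv_cancel₀ h1, ← mul_one_add, h0, mul_zero]

end Vale.Agent.P195
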