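import Vale.Agent.P195.Raw

/- Filtered modules with operators h, e, delta, eps, pi, r (indices 0 to 5), f (6), v1, v2 (7, 8). -/

namespace Vale.Agent.P195

open Vale.Agent.P176 (PieceExact tri)

universe u

abbrev C7 := ZMod 7

def dg (i : ℕ) : ℤ := if i = 0 ∨ i = 1 ∨ i = 6 then 1 else if i = 5 then 2 else 0
def cs (i : ℕ) : C7 := if i = 7 ∨ i = 8 then 1 else 0
def lw (i : ℕ) : ℕ := if i = 5 then 3 else 0

variable (K : Type u) [Field K]

def cf (i : ℕ) : K := if i = 0 then -2 else 0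
def df (i : ℕ) : K := if i = 1 ∨ i = 5 then 1 else 0
def va (i : ℕ) : K := if i = 0 then 1 else 0
def vb (i : ℕ) : K := if i = 1 then 1 else 0
def vc (i : ℕ) : K := if i = 6 then 1 else 0
def vd (i : ℕ) : K := if i = 0 then -1 else 0

variable {K}

structure RelD {X : Type u} [AddCommGroup X] [Module K X] (op : ℕ → X →ₗ[K] X) : Prop where
  c20 : ∀ x, op 2 (op 0 x) = op 0 (op 2 x)
  c21 : ∀ x, op 2 (op 1 x) = op 1 (op 2 x)
  c30 : ∀ x, op 3 (op 0 x) = op 0 (op 3 x)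
  c31 : ∀ x, op 3 (op 1 x) = op 1 (op 3 x)
  c40 : ∀ x, op 4 (op 0 x) = op 0 (op 4 x)
  c41 : ∀ x, op 4 (op 1 x) = op 1 (op 4 x)
  pp : ∀ x, op 4 (op 4 x) = op 4 x
  pd : ∀ x, op 4 (op 2 x) = 0
  dp : ∀ x, op 2 (op 4 x) = op 2 x
  pe : ∀ x, op 4 (op 3 x) = op 3 x
  ep : ∀ x, op 3 (op 4 x) = 0
  pr : ∀ x, op 4 (op 5 x) = op 5 x
  rp : ∀ x, op 5 (op 4 x) = 0
  de : ∀ x, op 2 (op 3 x) = 0
  ed : ∀ x, op 3 (op 2 x) = 0
  dr : ∀ x, op 0 (op 1 x) = op 1 (op 0 x) + (2 : K) • op 1 x + (op 2 (op 5 x) + op 5 (op 2 x))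

def RelF {X : Type u} [AddCommGroup X] [Module K X] (op : ℕ → X →ₗ[K] X) : Prop :=
  ∀ i < 6, ∀ x, op i (op 6 x) = op 6 (op i x) + cf K i • op 6 x + df K i • op (lw i) x

structure RelV {X : Type u} [AddCommGroup X] [Module K X] (op : ℕ → X →ₗ[K] X) : Prop where
  r7 : ∀ i < 7, ∀ x, op i (op 7 x) = op 7 (op i x) + va K i • op 7 x + vc K i • op 8 x
  r8 : ∀ i < 7, ∀ x, op i (op 8 x) = op 8 (op i x) + vb K i • op 7 x + vd K i • op 8 x
  z77 : ∀ x, op 7 (op 7 x) = 0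
  z88 : ∀ x, op 8 (op 8 x) = 0
  z87 : ∀ x, op 8 (op 7 x) = - op 7 (op 8 x)

structure Obj (K : Type u) [Field K] (j : ℕ) where
  X : Type u
  [acg : AddCommGroup X]
  [md : Module K X]
  op : ℕ → X →ₗ[K] X
  F : C7 → ℤ → Submodule K X
  mono : ∀ c n, F c n ≤ F c (n + 1)
  comp : ∀ i < j, ∀ c n, ∀ x ∈ F c n, op i x ∈ F (c + cs i) (n + dg i)
  relD : RelD op
  relF : 7 ≤ j → RelF op
  relV : 9 ≤ j → RelV op

attribute [instance] Obj.acg Obj.md

theorem Obj.mono' {j : ℕ} (Y : Obj K j) {c : C7} {m n : ℤ} (h : m ≤ n) : Y.F c m ≤ Y.F c n :=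
  mono_of_step (Y.mono c) h

theorem cs_lt {i : ℕ} (hi : i < 7) : cs i = 0 := if_neg (by omega)

theorem lw_lt (i : ℕ) : lw i < 6 := by
  unfold lw
  split_ifs <;> omega

theorem dg_nonneg (i : ℕ) : 0 ≤ dg i := by
  unfold dg
  split_ifs <;> omega

theorem Obj.comp' {j : ℕ} (Y : Obj K j) {i : ℕ} (hi : i < j) (hi' : i < 7) {c : C7} {n : ℤ}
    {x : Y.X} (hx : x ∈ Y.F c n) : Y.op i x ∈ Y.F c (n + dg i) := by
  have := Y.comp i hi c n x hx
  rwa [cs_lt hi', add_zero] at this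

theorem Obj.comp0 {j : ℕ} (Y : Obj K j) {i : ℕ} (hi : i < j) (h2 : 2 ≤ i) (h5 : i < 5) {c : C7}
    {n : ℤ} {x : Y.X} (hx : x ∈ Y.F c n) : Y.op i x ∈ Y.F c n := by
  have := Y.comp' hi (by omega) hx
  rwa [show dg i = 0 by unfold dg; rw [if_neg (by omega), if_neg (by omega)], add_zero] at this

theorem Obj.comp1 {j : ℕ} (Y : Obj K j) {i : ℕ} (hi : i < j) (h : i = 0 ∨ i = 1 ∨ i = 6) {c : C7}
    {n : ℤ} {x : Y.X} (hx : x ∈ Y.F c n) : Y.op i x ∈ Y.F c (n + 1) := by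
  have := Y.comp' hi (by omega) hx
  rwa [show dg i = 1 from if_pos h] at this

theorem Obj.compv {j : ℕ} (Y : Obj K j) {i : ℕ} (hi : i < j) (h : i = 7 ∨ i = 8) {c : C7}
    {n : ℤ} {x : Y.X} (hx : x ∈ Y.F c n) : Y.op i x ∈ Y.F (c + 1) n := by
  have := Y.comp i hi c n x hx
  rwa [show cs i = 1 from if_pos h, show dg i = 0 by
    unfold dg; rw [if_neg (by omega), if_neg (by omega)], add_zero] at this

structure Hom {j : ℕ} (Y Z : Obj K j) (f : Y.X →ₗ[K] Z.X) : Prop where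
  comm : ∀ i < j, ∀ x, f (Y.op i x) = Z.op i (f x)
  filt : ∀ c n, ∀ x ∈ Y.F c n, f x ∈ Z.F c n

theorem Hom.id {j : ℕ} (Y : Obj K j) : Hom Y Y LinearMap.id :=
  ⟨fun _ _ _ => rfl, fun _ _ _ h => h⟩

theorem Hom.comp {j : ℕ} {Y Z W : Obj K j} {f : Y.X →ₗ[K] Z.X} {g : Z.X →ₗ[K] W.X}
    (hg : Hom Z W g) (hf : Hom Y Z f) : Hom Y W (g ∘ₗ f) :=
  ⟨fun i hi x => by simp only [LinearMap.comp_apply, hf.comm i hi, hg.comm i hi],
    fun c n x hx => hg.filt c n _ (hf.filt c n x hx)⟩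

def HomS {j : ℕ} (Y Z : Obj K j) : Submodule K (Y.X →ₗ[K] Z.X) where
  carrier := {f | Hom Y Z f}
  add_mem' := fun {f g} hf hg =>
    ⟨fun i hi x => by simp [hf.comm i hi, hg.comm i hi],
      fun c n x hx => Submodule.add_mem _ (hf.filt c n x hx) (hg.filt c n x hx)⟩
  zero_mem' := ⟨fun i hi x => by simp, fun c n x hx => Submodule.zero_mem _⟩
  smul_mem' := fun a f hf =>
    ⟨fun i hi x => by simp [hf.comm i hi],
      fun c n x hx => Submodule.smul_mem _ a (hf.filt c n x hx)⟩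

theorem Hom.add {j : ℕ} {Y Z : Obj K j} {f g : Y.X →ₗ[K] Z.X} (hf : Hom Y Z f) (hg : Hom Y Z g) :
    Hom Y Z (f + g) := (HomS Y Z).add_mem hf hg

theorem Hom.sub {j : ℕ} {Y Z : Obj K j} {f g : Y.X →ₗ[K] Z.X} (hf : Hom Y Z f) (hg : Hom Y Z g) :
    Hom Y Z (f - g) := (HomS Y Z).sub_mem hf hg

theorem Hom.neg {j : ℕ} {Y Z : Obj K j} {f : Y.X →ₗ[K] Z.X} (hf : Hom Y Z f) :
    Hom Y Z (-f) := (HomS Y Z).neg_mem hf

theorem Hom.zero {j : ℕ} (Y Z : Obj K j) : Hom Y Z 0 := (HomS Y Z).zero_mem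

/-- Invariant subspaces. -/
def Inv {j : ℕ} (Y : Obj K j) (S : Submodule K Y.X) : Prop := ∀ i < j, ∀ x ∈ S, Y.op i x ∈ S

theorem Inv.comap {j : ℕ} {Y Z : Obj K j} {f : Y.X →ₗ[K] Z.X} (hf : Hom Y Z f)
    {S : Submodule K Z.X} (hS : Inv Z S) : Inv Y (S.comap f) := fun i hi x hx => by
  rw [Submodule.mem_comap, hf.comm i hi]
  exact hS i hi _ hx

theorem Inv.bot {j : ℕ} (Y : Obj K j) : Inv Y ⊥ := fun i _ x hx => by
  rw [Submodule.mem_bot] at hx ⊢
  rw [hx, map_zero]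

@[reducible] def res {j j' : ℕ} (h : j ≤ j') (Y : Obj K j') : Obj K j where
  X := Y.X
  op := Y.op
  F := Y.F
  mono := Y.mono
  comp := fun i hi => Y.comp i (by omega)
  relD := Y.relD
  relF := fun h' => Y.relF (by omega)
  relV := fun h' => Y.relV (by omega)

theorem Hom.res {j j' : ℕ} (h : j ≤ j') {Y Z : Obj K j'} {f : Y.X →ₗ[K] Z.X} (hf : Hom Y Z f) :
    Hom (res h Y) (res h Z) f := ⟨fun i hi => hf.comm i (by omega), hf.filt⟩

@[reducible] def prodO {j : ℕ} (Y Z : Obj K j) : Obj K j where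
  X := Y.X × Z.X
  op := fun i => (Y.op i).prodMap (Z.op i)
  F := fun c n => (Y.F c n).prod (Z.F c n)
  mono := fun c n _ hx => ⟨Y.mono c n hx.1, Z.mono c n hx.2⟩
  comp := fun i hi c n _ hx => ⟨Y.comp i hi c n _ hx.1, Z.comp i hi c n _ hx.2⟩
  relD := by
    have h1 := Y.relD
    have h2 := Z.relD
    constructor <;> intro x
    · exact Prod.ext (h1.c20 _) (h2.c20 _)
    · exact Prod.ext (h1.c21 _) (h2.c21 _)
    · exact Prod.ext (h1.c30 _) (h2.c30 _)
    · exact Prod.ext (h1.c31 _) (h2.c31 _)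
    · exact Prod.ext (h1.c40 _) (h2.c40 _)
    · exact Prod.ext (h1.c41 _) (h2.c41 _)
    · exact Prod.ext (h1.pp _) (h2.pp _)
    · exact Prod.ext (h1.pd _) (h2.pd _)
    · exact Prod.ext (h1.dp _) (h2.dp _)
    · exact Prod.ext (h1.pe _) (h2.pe _)
    · exact Prod.ext (h1.ep _) (h2.ep _)
    · exact Prod.ext (h1.pr _) (h2.pr _)
    · exact Prod.ext (h1.rp _) (h2.rp _)
    · exact Prod.ext (h1.de _) (h2.de _)
    · exact Prod.ext (h1.ed _) (h2.ed _)
    · exact Prod.ext (h1.dr _) (h2.dr _)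
  relF := fun h i hi x => Prod.ext (Y.relF h i hi _) (Z.relF h i hi _)
  relV := fun h =>
    ⟨fun i hi x => Prod.ext ((Y.relV h).r7 i hi _) ((Z.relV h).r7 i hi _),
      fun i hi x => Prod.ext ((Y.relV h).r8 i hi _) ((Z.relV h).r8 i hi _),
      fun x => Prod.ext ((Y.relV h).z77 _) ((Z.relV h).z77 _),
      fun x => Prod.ext ((Y.relV h).z88 _) ((Z.relV h).z88 _),
      fun x => Prod.ext ((Y.relV h).z87 _) ((Z.relV h).z87 _)⟩

section Prod

variable {j : ℕ} {Y Z W : Obj K j}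

theorem fst_hom : Hom (prodO Y Z) Y (LinearMap.fst K _ _) :=
  ⟨fun _ _ _ => rfl, fun _ _ _ h => h.1⟩

theorem snd_hom : Hom (prodO Y Z) Z (LinearMap.snd K _ _) :=
  ⟨fun _ _ _ => rfl, fun _ _ _ h => h.2⟩

theorem inl_hom : Hom Y (prodO Y Z) (LinearMap.inl K _ _) :=
  ⟨fun _ _ _ => by simp, fun _ _ _ h => ⟨h, Submodule.zero_mem _⟩⟩

theorem inr_hom : Hom Z (prodO Y Z) (LinearMap.inr K _ _) :=
  ⟨fun _ _ _ => by simp, fun _ _ _ h => ⟨Submodule.zero_mem _, h⟩⟩

theorem Hom.coprod {f : Y.X →ₗ[K] W.X} {g : Z.X →ₗ[K] W.X} (hf : Hom Y W f) (hg : Hom Z W g) :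
    Hom (prodO Y Z) W (f.coprod g) :=
  ⟨fun i hi x => by simp [hf.comm i hi, hg.comm i hi],
    fun c n x hx => Submodule.add_mem _ (hf.filt c n _ hx.1) (hg.filt c n _ hx.2)⟩

theorem Hom.prod {f : W.X →ₗ[K] Y.X} {g : W.X →ₗ[K] Z.X} (hf : Hom W Y f) (hg : Hom W Z g) :
    Hom W (prodO Y Z) (f.prod g) :=
  ⟨fun i hi x => Prod.ext (hf.comm i hi x) (hg.comm i hi x),
    fun c n _ hx => ⟨hf.filt c n _ hx, hg.filt c n _ hx⟩⟩

end Prod

/-- Operators of an honest module over the Borel subalgebra. -/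
def hop {X : Type u} [AddCommGroup X] [Module K X] (h e : X →ₗ[K] X) (i : ℕ) : X →ₗ[K] X :=
  if i = 0 then h else if i = 1 then e else if i = 4 then LinearMap.id else 0

@[reducible] def hon {X : Type u} [AddCommGroup X] [Module K X] (h e : X →ₗ[K] X)
    (F : C7 → ℤ → Submodule K X) (mono : ∀ c n, F c n ≤ F c (n + 1))
    (hh : ∀ c n, ∀ x ∈ F c n, h x ∈ F c (n + 1)) (he : ∀ c n, ∀ x ∈ F c n, e x ∈ F c (n + 1))
    (rel : ∀ x, h (e x) = e (h x) + (2 : K) • e x) : Obj K 6 where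
  X := X
  op := hop h e
  F := F
  mono := mono
  comp := fun i hi c n x hx => by
    rw [cs_lt (by omega), add_zero]
    interval_cases i
    · exact hh c n x hx
    · exact he c n x hx
    · exact Submodule.zero_mem _
    · exact Submodule.zero_mem _
    · simpa [hop, dg] using hx
    · exact Submodule.zero_mem _
  relD := by constructor <;> intro x <;> simp [hop, rel]
  relF := fun h => absurd h (by omega)
  relV := fun h => absurd h (by omega)

theorem hon_hom {X Y : Type u} [AddCommGroup X] [Module K X] [AddCommGroup Y] [Module K Y]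
    {h e : X →ₗ[K] X} {h' e' : Y →ₗ[K] Y} {f : X →ₗ[K] Y} (h0 : ∀ x, f (h x) = h' (f x))
    (h1 : ∀ x, f (e x) = e' (f x)) (i : ℕ) (x : X) : f (hop h e i x) = hop h' e' i (f x) := by
  unfold hop
  split_ifs <;> simp [h0, h1]

section Ind

variable (Y : Obj K 6)

noncomputable def iop (i : ℕ) : (ℕ →₀ Y.X) →ₗ[K] (ℕ →₀ Y.X) :=
  cw (Y.op i) + wt (fun b => (b : K) * cf K i) +
    df K i • ((wt (fun b => (b : K) + 1) ∘ₗ cw (Y.op (lw i)) +
      wt (fun b => cf K (lw i) * tri (b + 1))) ∘ₗ dn K)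

theorem iop_apply (i : ℕ) (p : ℕ →₀ Y.X) (b : ℕ) :
    iop Y i p b = Y.op i (p b) + ((b : K) * cf K i) • p b +
      df K i • (((b : K) + 1) • Y.op (lw i) (p (b + 1)) +
        (cf K (lw i) * tri (b + 1)) • p (b + 1)) := by
  simp [iop]

@[simp] theorem iop_single_zero (i : ℕ) (y : Y.X) :
    iop Y i (Finsupp.single 0 y) = Finsupp.single 0 (Y.op i y) := by
  simp [iop]

theorem df_lw (i : ℕ) : df K (lw i) = 0 := by
  unfold df lw
  split_ifs <;> simp_all

theorem iop_sh (i : ℕ) (p : ℕ →₀ Y.X) :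
    iop Y i (sh K p) =
      sh K (iop Y i p) + cf K i • sh K p + df K i • iop Y (lw i) p := by
  ext b
  rcases b with _ | b
  · simp [iop_apply, df_lw, tri]
  · simp only [iop_apply, sh_apply_succ, Finsupp.add_apply, Finsupp.smul_apply, df_lw, tri,
      Finset.sum_range_succ]
    push_cast
    module

theorem iop_cw {i : ℕ} (h2 : 2 ≤ i) (h5 : i < 5) : iop Y i = cw (Y.op i) := by
  refine LinearMap.ext fun p => ?_
  ext b
  interval_cases i <;> simp [iop_apply, cf, df]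

@[reducible] noncomputable def Ind : Obj K 7 where
  X := ℕ →₀ Y.X
  op := fun i => if i = 6 then sh K else iop Y i
  F := fun c => indF (Y.F c)
  mono := fun c n p hp a => Y.mono' (by omega) (hp a)
  comp := fun i hi c n p hp => by
    rw [cs_lt hi, add_zero]
    split_ifs with h
    · subst h
      exact sh_mem hp
    · intro b
      rw [iop_apply]
      have h1 := Y.comp' (i := i) (by omega) hi (hp b)
      have h0 := dg_nonneg i
      refine Submodule.add_mem _ (Submodule.add_mem _ (Y.mono' (by omega) h1)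
        (Submodule.smul_mem _ _ (Y.mono' (by omega) (hp b)))) ?_
      have h2 := Y.comp' (i := lw i) (lw_lt i) ((lw_lt i).trans (by omega)) (hp (b + 1))
      have h3 : dg (lw i) ≤ 1 := by
        unfold dg lw
        split_ifs <;> omega
      exact Submodule.smul_mem _ _ (Submodule.add_mem _
        (Submodule.smul_mem _ _ (Y.mono' (by push_cast; omega) h2))
        (Submodule.smul_mem _ _ (Y.mono' (by push_cast; omega) (hp (b + 1)))))
  relD := by
    have h := Y.relD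
    constructor <;> intro p <;> ext b <;>
    · simp [iop_apply, cf, df, lw, h.c20, h.c21, h.c30, h.c31, h.c40, h.c41, h.pp, h.pd, h.dp,
        h.pe, h.ep, h.pr, h.rp, h.de, h.ed, h.dr]
      try module
  relF := fun _ i hi p => by
    dsimp only
    rw [if_neg (by omega : ¬ i = 6), if_pos rfl,
      if_neg (lw_lt i).ne]
    exact iop_sh Y i p
  relV := fun h => absurd h (by omega)

theorem Ind_op_top : (Ind Y).op 6 = sh K := rfl

theorem Ind_op_lt {i : ℕ} (hi : i < 6) : (Ind Y).op i = iop Y i := if_neg (by omega)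

theorem inc_hom : Hom Y (res (by omega) (Ind Y)) (Finsupp.lsingle 0) where
  comm := fun i hi x => by
    change _ = (Ind Y).op i _
    rw [Ind_op_lt Y hi]
    exact (iop_single_zero Y i x).symm
  filt := fun c n x hx => single0_mem hx

variable {Y}

theorem lift_hom {Z : Obj K 7} {ψ : Y.X →ₗ[K] Z.X} (h : Hom Y (res (by omega) Z) ψ) :
    Hom (Ind Y) Z (plift (Z.op 6) ψ) where
  comm := fun i hi p => by
    by_cases hij : i = 6
    · subst hij
      rw [Ind_op_top]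
      exact plift_sh _ ψ p
    · have hi' : i < 6 := by omega
      rw [Ind_op_lt Y hi']
      have key : ∀ i < 6, (∀ p, df K i • plift (Z.op 6) ψ (iop Y (lw i) p) =
          df K i • Z.op (lw i) (plift (Z.op 6) ψ p)) →
          ∀ p, plift (Z.op 6) ψ (iop Y i p) = Z.op i (plift (Z.op 6) ψ p) := by
        intro i hi h0 p
        induction p using ind_induction K (X := Y.X) with
        | h0 y => rw [iop_single_zero, plift_zero, plift_zero, h.comm i hi]
        | hadd p q hp hq => simp only [map_add, hp, hq]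
        | hs p hp =>
          rw [iop_sh, plift_sh, Z.relF le_rfl i hi]
          simp only [map_add, map_smul, plift_sh, hp, h0]
      refine key i hi' (fun p => ?_) p
      rw [key (lw i) (lw_lt i) (fun p => by simp [df_lw])]
  filt := fun c n p hp =>
    plift_mem (fun n x hx => Z.comp1 (by omega) (by omega) hx) (h.filt c) hp

theorem ind_gen {S : Submodule K (ℕ →₀ Y.X)} (hS : Inv (Ind Y) S) {c : C7}
    (h : ∀ n, Y.F c n ≤ S.comap (Finsupp.lsingle 0)) (n : ℤ) : (Ind Y).F c n ≤ S := by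
  intro p hp
  refine finsupp_mem fun a => ?_
  have key : ∀ y, Finsupp.single 0 y ∈ S → Finsupp.single a y ∈ S := by
    intro y hy
    induction a with
    | zero => exact hy
    | succ a ih =>
      have := hS 6 (by omega) _ ih
      rwa [Ind_op_top, sh_single] at this
  exact key _ (h _ (hp a))

theorem imap_hom {Z : Obj K 6} {f : Y.X →ₗ[K] Z.X} (h : Hom Y Z f) :
    Hom (Ind Y) (Ind Z) (cw f) where
  comm := fun i hi p => by
    by_cases hij : i = 6
    · subst hij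
      rw [Ind_op_top, Ind_op_top]
      ext (_ | a) <;> simp
    · have hi' : i < 6 := by omega
      rw [Ind_op_lt Y hi', Ind_op_lt Z hi']
      ext a
      simp only [cw_apply, iop_apply, map_add, map_smul, h.comm i hi',
        h.comm (lw i) (lw_lt i)]
  filt := fun c n p hp a => by
    rw [cw_apply]
    exact h.filt _ _ _ (hp a)

end Ind

end Vale.Agent.P195
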