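import Vale.Agent.P195.C0

/- The two complexes over the ten-dimensional algebra and their homotopy data. -/

set_option linter.unusedVariables false
set_option linter.unusedSimpArgs false
set_option linter.unnecessarySeqFocus false
set_option linter.unusedTactic false
set_option linter.unreachableTactic false

namespace Vale.Agent.P195.C0

variable {k : Type} [Field k] {q : k}

theorem eP_lt {n : ℤ} (h : n < 0) : eP q n = ee q := if_pos h
theorem eP_eq : eP q 0 = ff q := rfl
theorem eP_gt {n : ℤ} (h : 0 < n) : eP q n = 0 := by rw [eP, if_neg (by omega), if_neg (by omega)]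
theorem dP_lt {n : ℤ} (h : n < -1) : dP q n = zz q (q ^ n) := if_pos h
theorem dP_eq : dP q (-1) = pp q := rfl
theorem dP_gt {n : ℤ} (h : -1 < n) : dP q n = 0 := by rw [dP, if_neg (by omega), if_neg (by omega)]
theorem eQ_gt {n : ℤ} (h : -2 < n) : eQ q n = ee q := if_pos h
theorem eQ_eq : eQ q (-2) = ff q := rfl
theorem eQ_lt {n : ℤ} (h : n < -2) : eQ q n = 0 := by rw [eQ, if_neg (by omega), if_neg (by omega)]
theorem dQ_gt {n : ℤ} (h : -2 < n) : dQ q n = zz q (q ^ (n + 1)) := if_pos h
theorem dQ_eq : dQ q (-2) = ii q := rfl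
theorem dQ_lt {n : ℤ} (h : n < -2) : dQ q n = 0 := by rw [dQ, if_neg (by omega), if_neg (by omega)]
theorem uu_lt {n : ℤ} (h : n < -2) : uu q n = 0 := by
  rw [uu, if_neg (by omega), if_neg (by omega), if_neg (by omega)]
theorem uu_gt {n : ℤ} (h : 0 < n) : uu q n = 0 := by
  rw [uu, if_neg (by omega), if_neg (by omega), if_neg (by omega)]
theorem uu_2 : uu q (-2) = vv q := rfl
theorem uu_1 : uu q (-1) = qx q := rfl
theorem uu_0 : uu q 0 = qj q := rfl

theorem cs (n : ℤ) : n < -3 ∨ n = -3 ∨ n = -2 ∨ n = -1 ∨ n = 0 ∨ n = 1 ∨ 1 < n := by omega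

theorem eP_idem (n : ℤ) : eP q n * eP q n = eP q n := by
  unfold eP; split_ifs <;> ext <;> simp
theorem eQ_idem (n : ℤ) : eQ q n * eQ q n = eQ q n := by
  unfold eQ; split_ifs <;> ext <;> simp
theorem eP_dP (n : ℤ) : eP q n * dP q n = dP q n := by
  unfold eP dP; split_ifs <;> first | omega | (ext <;> simp)
theorem eQ_dQ (n : ℤ) : eQ q n * dQ q n = dQ q n := by
  unfold eQ dQ; split_ifs <;> first | omega | (ext <;> simp)
theorem dP_eP (n : ℤ) : dP q n * eP q (n + 1) = dP q n := by
  unfold eP dP; split_ifs <;> first | omega | (ext <;> simp)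
theorem dQ_eQ (n : ℤ) : dQ q n * eQ q (n + 1) = dQ q n := by
  unfold eQ dQ; split_ifs <;> first | omega | (ext <;> simp)
theorem eP_uu (n : ℤ) : eP q n * uu q n = uu q n := by
  unfold eP uu; split_ifs <;> first | omega | (ext <;> simp)
theorem uu_eQ (n : ℤ) : uu q n * eQ q n = uu q n := by
  unfold eQ uu; split_ifs <;> first | omega | (ext <;> simp)

variable [CharP k 2]

theorem zz_zz (l : k) : zz q l * zz q (l * q) = 0 := by
  ext <;> simp
  rw [mul_comm, CharTwo.add_self_eq_zero]

theorem dP_dP (hq : q ≠ 0) (n : ℤ) : dP q n * dP q (n + 1) = 0 := by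
  rcases lt_trichotomy n (-2) with h | rfl | h
  · rw [dP_lt (by omega), dP_lt (by omega), zpow_add_one₀ hq, zz_zz]
  · rw [dP_lt (by omega), show (-2 : ℤ) + 1 = -1 from rfl, dP_eq]
    ext <;> simp [zpow_ofNat]
    rw [mul_inv_cancel₀ (pow_ne_zero 2 hq), CharTwo.add_self_eq_zero]
  · rw [dP_gt (show -1 < n + 1 by omega), mul_zero]

theorem dQ_dQ (hq : q ≠ 0) (n : ℤ) : dQ q n * dQ q (n + 1) = 0 := by
  rcases lt_trichotomy n (-2) with h | rfl | h
  · rw [dQ_lt h, zero_mul]
  · rw [dQ_eq, dQ_gt (by omega)]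
    ext <;> simp
    exact CharTwo.add_self_eq_zero _
  · rw [dQ_gt h, dQ_gt (by omega), zpow_add_one₀ hq (n + 1), zz_zz]

omit [CharP k 2] in
theorem dP_uu (hq : q ≠ 0) (n : ℤ) : dP q n * uu q (n + 1) = uu q n * dQ q n := by
  rcases cs n with h | rfl | rfl | rfl | rfl | rfl | h
  · rw [uu_lt (show n + 1 < -2 by omega), uu_lt (show n < -2 by omega), mul_zero, zero_mul]
  · ext <;> simp [dP, uu, dQ]
  · ext <;> simp [dP, uu, dQ, zpow_ofNat]
    field_simp
  · ext <;> simp [dP, uu, dQ]
  · ext <;> simp [dP, uu, dQ]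
  · ext <;> simp [dP, uu, dQ]
  · rw [uu_gt (show 0 < n + 1 by omega), uu_gt (show 0 < n by omega), mul_zero, zero_mul]

abbrev Lm (c : C0 q) : Module.End k (C0 q) := LinearMap.mulLeft k c
abbrev Rm (c : C0 q) : Module.End k (C0 q) := LinearMap.mulRight k c

theorem hR (hq : q ≠ 0) {l : k} (h1 : 1 + l ≠ 0) (h2 : 1 + l * q ≠ 0) :
    Rm (zz q l) * gRz q l + gRz q (l * q) * Rm (zz q (l * q)) = Rm (ee q) := by
  ext a <;> simp <;> field_simp <;> grind

theorem hL (hq : q ≠ 0) {l : k} (h1 : 1 + l * q ^ 2 ≠ 0) (h2 : 1 + l * q * q ^ 2 ≠ 0) :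
    Lm (zz q (l * q)) * gLz q (l * q) + gLz q l * Lm (zz q l) = Lm (ee q) := by
  ext a <;> simp <;> field_simp <;> grind

variable (q)

def gPR (n : ℤ) : Module.End k (C0 q) :=
  if n < -1 then gRz q (q ^ n) else if n = -1 then gRp q else 0
def gQR (n : ℤ) : Module.End k (C0 q) :=
  if -2 < n then gRz q (q ^ (n + 1)) else if n = -2 then gRi q else 0
def gPL (n : ℤ) : Module.End k (C0 q) :=
  if n < 0 then gLz q (q ^ (n + -1)) else if n = 0 then gLp q else 0
def gQL (n : ℤ) : Module.End k (C0 q) :=
  if -1 < n then gLz q (q ^ n) else if n = -1 then gLi q else 0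

variable {q}

structure Gen (q : k) : Prop where
  ne : q ≠ 0
  pow : ∀ n : ℤ, n ≠ 0 → 1 + q ^ n ≠ 0

omit [CharP k 2] in
theorem Rm_mul (a b : C0 q) : Rm a * Rm b = Rm (b * a) := by
  ext1 c
  exact mul_assoc c b a

omit [CharP k 2] in
theorem Lm_mul (a b : C0 q) : Lm a * Lm b = Lm (a * b) := by
  ext1 c
  exact (mul_assoc a b c).symm

omit [CharP k 2] in
theorem Gen.facts (hq : Gen q) : 1 + q ≠ 0 ∧ 1 + q ^ 2 ≠ 0 ∧ q + 1 ≠ 0 ∧ q ^ 2 + 1 ≠ 0 ∧
    1 + q ^ 3 ≠ 0 ∧ q ^ 3 + 1 ≠ 0 := by
  have h1 := hq.pow 1 one_ne_zero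
  have h2 := hq.pow 2 two_ne_zero
  have h3 := hq.pow 3 (by norm_num)
  simp only [zpow_ofNat, pow_one] at h1 h2 h3
  exact ⟨h1, h2, by rwa [add_comm], by rwa [add_comm], h3, by rwa [add_comm]⟩

def hPR (hq : Gen q) : HalfP (-1) (Module.End k (C0 q)) where
  e := fun n => Rm (eP q n)
  d := fun n => Rm (dP q (n + -1))
  g := gPR q
  p := fun n => if n = 0 then prf q else 0
  ee := fun n => by rw [Rm_mul, eP_idem]
  ed := fun n => by
    have := dP_eP (q := q) (n + -1)
    rw [neg_add_cancel_right] at this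
    rw [Rm_mul, this]
  de := fun n => by rw [Rm_mul, eP_dP]
  eg := fun n => by unfold eP gPR; split_ifs <;> first | omega | (ext <;> simp)
  ge := fun n => by unfold eP gPR; split_ifs <;> first | omega | (ext <;> simp)
  ep := fun n => by unfold eP; split_ifs <;> first | omega | (ext <;> simp)
  pe := fun n => by unfold eP; split_ifs <;> first | omega | (ext <;> simp)
  dp := fun n => by unfold dP; split_ifs <;> first | omega | (ext <;> simp)
  pd := fun n => by unfold dP; split_ifs <;> first | omega | (ext <;> simp)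
  h := fun n => by
    have h0 := hq.ne
    obtain ⟨h1, h2, h3, h4, h5, h6⟩ := hq.facts
    rw [neg_neg, add_neg_cancel_right]
    by_cases h : n < -1
    · have e : q ^ n = q ^ (n + -1) * q := by rw [← zpow_add_one₀ h0, neg_add_cancel_right]
      rw [dP_lt h, dP_lt (by omega), gPR, gPR, if_pos h, if_pos (by omega), eP_lt (by omega),
        if_neg (by omega), add_zero, e]
      exact hR h0 (hq.pow _ (by omega)) (e ▸ hq.pow _ (by omega))
    · rcases cs n with h | rfl | rfl | rfl | rfl | rfl | h
      · omega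
      · omega
      · omega
      · ext <;> simp [dP, gPR, eP, zpow_ofNat] <;> field_simp <;> grind
      · ext <;> simp [dP, gPR, eP, zpow_ofNat] <;> field_simp <;> grind
      · ext <;> simp [dP, gPR, eP, zpow_ofNat]
      · rw [dP_gt (by omega), dP_gt (by omega), eP_gt (by omega), if_neg (by omega)]
        ext <;> simp

def hQR (hq : Gen q) : HalfP (-1) (Module.End k (C0 q)) where
  e := fun n => Rm (eQ q n)
  d := fun n => Rm (dQ q (n + -1))
  g := gQR q
  p := fun n => if n = 0 then prj q else 0
  ee := fun n => by rw [Rm_mul, eQ_idem]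
  ed := fun n => by
    have := dQ_eQ (q := q) (n + -1)
    rw [neg_add_cancel_right] at this
    rw [Rm_mul, this]
  de := fun n => by rw [Rm_mul, eQ_dQ]
  eg := fun n => by unfold eQ gQR; split_ifs <;> first | omega | (ext <;> simp)
  ge := fun n => by unfold eQ gQR; split_ifs <;> first | omega | (ext <;> simp)
  ep := fun n => by unfold eQ; split_ifs <;> first | omega | (ext <;> simp)
  pe := fun n => by unfold eQ; split_ifs <;> first | omega | (ext <;> simp)
  dp := fun n => by unfold dQ; split_ifs <;> first | omega | (ext <;> simp)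
  pd := fun n => by
    by_cases h : n = 0
    · subst h
      ext <;> simp [dQ]
      grind
    · simp [h]
  h := fun n => by
    have h0 := hq.ne
    obtain ⟨h1, h2, h3, h4, h5, h6⟩ := hq.facts
    rw [neg_neg, add_neg_cancel_right]
    by_cases h : 0 < n
    · rw [dQ_gt (by omega), dQ_gt (by omega), gQR, gQR, if_pos (by omega), if_pos (by omega),
        eQ_gt (by omega), if_neg (by omega), add_zero, neg_add_cancel_right, zpow_add_one₀ h0]
      exact hR h0 (hq.pow _ (by omega)) (zpow_add_one₀ h0 n ▸ hq.pow _ (by omega))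
    · rcases cs n with h | rfl | rfl | rfl | rfl | rfl | h
      · rw [dQ_lt (by omega), dQ_lt (by omega), eQ_lt (by omega), if_neg (by omega)]
        ext <;> simp
      · ext <;> simp [dQ, gQR, eQ, zpow_ofNat]
      · ext <;> simp [dQ, gQR, eQ, zpow_ofNat] <;> field_simp <;> grind
      · ext <;> simp [dQ, gQR, eQ, zpow_ofNat] <;> field_simp <;> grind
      · ext <;> simp [dQ, gQR, eQ, zpow_ofNat] <;> field_simp <;> grind
      · omega
      · omega

def pdR (hq : Gen q) : PD (-1) (Module.End k (C0 q)) where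
  S := hPR hq
  T := hQR hq
  u := fun n => Rm (uu q n)
  w := fun n => if n = 0 then jf q else 0
  ue := fun n => by simp only [hPR]; rw [Rm_mul, eP_uu]
  eu := fun n => by simp only [hQR]; rw [Rm_mul, uu_eQ]
  ud := fun n => by
    simp only [hPR, hQR]
    rw [Rm_mul, Rm_mul, ← dP_uu hq.ne, neg_add_cancel_right]
  wp := fun n => by simp only [hQR]; split_ifs <;> ext <;> simp
  pw := fun n => by simp only [hPR]; split_ifs <;> ext <;> simp
  wu := fun n => by
    have := hq.ne
    simp only [hPR]
    split_ifs with h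
    · subst h
      ext <;> simp [uu]
      field_simp
    · simp
  uw := fun n => by
    have := hq.ne
    simp only [hQR]
    split_ifs with h
    · subst h
      ext <;> simp [uu]
      field_simp
    · simp

def hPL (hq : Gen q) : HalfP 1 (Module.End k (C0 q)) where
  e := fun n => Lm (eP q n)
  d := fun n => Lm (dP q n)
  g := gPL q
  p := fun n => if n = -2 then prv q else 0
  ee := fun n => by rw [Lm_mul, eP_idem]
  ed := fun n => by rw [Lm_mul, eP_dP]
  de := fun n => by rw [Lm_mul, dP_eP]
  eg := fun n => by unfold eP gPL; split_ifs <;> first | omega | (ext <;> simp)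
  ge := fun n => by unfold eP gPL; split_ifs <;> first | omega | (ext <;> simp)
  ep := fun n => by unfold eP; split_ifs <;> first | omega | (ext <;> simp)
  pe := fun n => by unfold eP; split_ifs <;> first | omega | (ext <;> simp)
  dp := fun n => by unfold dP; split_ifs <;> first | omega | (ext <;> simp)
  pd := fun n => by
    have := hq.ne
    by_cases h : n = -2
    · subst h
      ext <;> simp [dP, zpow_ofNat]
      field_simp
      grind
    · simp [h]
  h := fun n => by
    have h0 := hq.ne
    obtain ⟨h1, h2, h3, h4, h5, h6⟩ := hq.facts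
    by_cases h : n < -2
    · have e : q ^ n = q ^ (n + -1) * q := by rw [← zpow_add_one₀ h0, neg_add_cancel_right]
      have e1 : q ^ (n + -1) * q ^ 2 = q ^ (n + 1) := by
        rw [← zpow_natCast, ← zpow_add₀ h0]; congr 1; omega
      have e2 : q ^ n * q ^ 2 = q ^ (n + 2) := by
        rw [← zpow_natCast, ← zpow_add₀ h0]; rfl
      rw [dP_lt (by omega), dP_lt (by omega), gPL, gPL, if_pos (by omega), if_pos (by omega),
        eP_lt (by omega), if_neg (by omega), add_zero, add_neg_cancel_right, e]
      exact hL h0 (e1 ▸ hq.pow _ (by omega)) (e ▸ e2 ▸ hq.pow _ (by omega))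
    · rcases cs n with h | rfl | rfl | rfl | rfl | rfl | h
      · omega
      · omega
      · ext <;> simp [dP, gPL, eP, zpow_ofNat] <;> field_simp <;> grind
      · ext <;> simp [dP, gPL, eP, zpow_ofNat] <;> field_simp <;> grind
      · ext <;> simp [dP, gPL, eP, zpow_ofNat] <;> field_simp <;> grind
      · ext <;> simp [dP, gPL, eP, zpow_ofNat]
      · rw [dP_gt (by omega), dP_gt (by omega), eP_gt (by omega), if_neg (by omega)]
        ext <;> simp

def hQL (hq : Gen q) : HalfP 1 (Module.End k (C0 q)) where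
  e := fun n => Lm (eQ q n)
  d := fun n => Lm (dQ q n)
  g := gQL q
  p := fun n => if n = -2 then prf q else 0
  ee := fun n => by rw [Lm_mul, eQ_idem]
  ed := fun n => by rw [Lm_mul, eQ_dQ]
  de := fun n => by rw [Lm_mul, dQ_eQ]
  eg := fun n => by unfold eQ gQL; split_ifs <;> first | omega | (ext <;> simp)
  ge := fun n => by unfold eQ gQL; split_ifs <;> first | omega | (ext <;> simp)
  ep := fun n => by unfold eQ; split_ifs <;> first | omega | (ext <;> simp)
  pe := fun n => by unfold eQ; split_ifs <;> first | omega | (ext <;> simp)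
  dp := fun n => by unfold dQ; split_ifs <;> first | omega | (ext <;> simp)
  pd := fun n => by unfold dQ; split_ifs <;> first | omega | (ext <;> simp)
  h := fun n => by
    have h0 := hq.ne
    obtain ⟨h1, h2, h3, h4, h5, h6⟩ := hq.facts
    by_cases h : -1 < n
    · have e1 : q ^ n * q ^ 2 = q ^ (n + 2) := by
        rw [← zpow_natCast, ← zpow_add₀ h0]; rfl
      have e2 : q ^ n * q * q ^ 2 = q ^ (n + 3) := by
        rw [← zpow_add_one₀ h0, ← zpow_natCast, ← zpow_add₀ h0]; congr 1; omega
      rw [dQ_gt (by omega), dQ_gt (by omega), gQL, gQL, if_pos (by omega), if_pos (by omega),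
        eQ_gt (by omega), if_neg (by omega), add_zero, neg_add_cancel_right, zpow_add_one₀ h0]
      exact hL h0 (e1 ▸ hq.pow _ (by omega)) (e2 ▸ hq.pow _ (by omega))
    · rcases cs n with h | rfl | rfl | rfl | rfl | rfl | h
      · rw [dQ_lt (by omega), dQ_lt (by omega), eQ_lt (by omega), if_neg (by omega)]
        ext <;> simp
      · ext <;> simp [dQ, gQL, eQ, zpow_ofNat]
      · ext <;> simp [dQ, gQL, eQ, zpow_ofNat] <;> field_simp <;> grind
      · ext <;> simp [dQ, gQL, eQ, zpow_ofNat] <;> field_simp <;> grind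
      · omega
      · omega
      · omega

def pdL (hq : Gen q) : PD 1 (Module.End k (C0 q)) where
  S := hQL hq
  T := hPL hq
  u := fun n => Lm (uu q n)
  w := fun n => if n = -2 then vf q else 0
  ue := fun n => by simp only [hQL]; rw [Lm_mul, uu_eQ]
  eu := fun n => by simp only [hPL]; rw [Lm_mul, eP_uu]
  ud := fun n => by simp only [hPL, hQL]; rw [Lm_mul, Lm_mul, dP_uu hq.ne]
  wp := fun n => by simp only [hPL]; split_ifs <;> ext <;> simp
  pw := fun n => by simp only [hQL]; split_ifs <;> ext <;> simp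
  wu := fun n => by
    simp only [hQL]
    split_ifs with h
    · subst h
      ext <;> simp [uu]
    · simp
  uw := fun n => by
    simp only [hPL]
    split_ifs with h
    · subst h
      ext <;> simp [uu]
    · simp

theorem trace_Lm (c : C0 q) : LinearMap.trace k _ (Lm c) = 0 := by
  rw [trace_eq]
  simp
  grind

end Vale.Agent.P195.C0
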