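import Vale.Agent.P195.Tot

/- Vanishing of Ext from the trivial module to free modules in high degrees. -/

namespace Vale.Agent.P195

open Vale.Agent.P176 (PieceExact SE tri)

universe u

variable {K : Type u} [Field K]

def l4 (Y : Obj K 7) : Q4 Y.X →ₗ[K] Y.X :=
  LinearMap.snd K _ _ ∘ₗ LinearMap.snd K _ _ ∘ₗ LinearMap.snd K _ _

theorem l4_apply (Y : Obj K 7) (w : Q4 Y.X) : l4 Y w = w.2.2.2 := rfl

theorem l4_hom (Y : Obj K 7) : Hom (res (by omega) (Lam Y)) (cshift Y 2) (l4 Y) where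
  comm := fun i hi w => by
    change l4 Y (lamOp Y i w) = _
    rw [lamOp_lt Y hi]
    rfl
  filt := fun _ _ _ hw => hw.2.2.2

def coind (M : Obj K 9) {Z : Obj K 7} (χ : M.X →ₗ[K] Z.X) : M.X →ₗ[K] Q4 Z.X :=
  (χ ∘ₗ M.op 7 ∘ₗ M.op 8).prod ((-(χ ∘ₗ M.op 8)).prod ((χ ∘ₗ M.op 7).prod χ))

theorem coind_apply (M : Obj K 9) {Z : Obj K 7} (χ : M.X →ₗ[K] Z.X) (x : M.X) :
    coind M χ x = (χ (M.op 7 (M.op 8 x)), -χ (M.op 8 x), χ (M.op 7 x), χ x) := rfl

theorem coind_hom {M : Obj K 9} {Z : Obj K 7} {χ : M.X →ₗ[K] Z.X}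
    (h : Hom (res (by omega) M) (cshift Z 2) χ) : Hom M (Lam Z) (coind M χ) where
  comm := fun i hi x => by
    have hv := M.relV le_rfl
    change _ = lamOp Z i _
    by_cases h7 : i < 7
    · have e := va_vd (K := K) i
      have e0 : ∀ x, χ (M.op i x) = Z.op i (χ x) := h.comm i h7
      rw [lamOp_lt Z h7, coind_apply, coind_apply, lop_apply]
      simp only [map_neg, ← e0, hv.r7 i h7, hv.r8 i h7, map_add, map_smul, hv.z77, hv.z88,
        map_zero, smul_zero, add_zero, Prod.mk.injEq, and_true]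
      refine ⟨?_, ?_, ?_⟩
      · linear_combination (norm := module) (-e) • χ (M.op 7 (M.op 8 x))
      · linear_combination (norm := module) e • χ (M.op 8 x)
      · linear_combination (norm := module) (-e) • χ (M.op 7 x)
    · obtain rfl | rfl : i = 7 ∨ i = 8 := by omega
      · simp [lamOp_7, v1_apply, coind_apply, hv.z87, hv.z77]
      · simp [lamOp_8, v2_apply, coind_apply, hv.z88]
  filt := fun c n x hx => by
    have h1 := h.filt _ _ _ (M.compv (i := 7) (by omega) (by omega) hx)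
    have h2 := h.filt _ _ _ (M.compv (i := 8) (by omega) (by omega) hx)
    have h3 := h.filt _ _ _ (M.compv (i := 7) (by omega) (by omega)
      (M.compv (i := 8) (by omega) (by omega) hx))
    change _ ∈ Z.F (c + 1 - 2) n at h1 h2
    change _ ∈ Z.F (c + 1 + 1 - 2) n at h3
    rw [show c + 1 - 2 = c - 1 by ring] at h1 h2
    rw [show c + 1 + 1 - 2 = c by ring] at h3
    exact ⟨h3, Submodule.neg_mem _ h2, h1, h.filt _ _ _ hx⟩

theorem lam_zero {M : Obj K 9} {Z : Obj K 7} {θ : M.X →ₗ[K] Q4 Z.X} (h : Hom M (Lam Z) θ)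
    (h0 : ∀ x, InW M x → (θ x).2.2.2 = 0) {x : M.X} (hx : InW M x) : θ x = 0 := by
  have h1 := h0 _ (hx.v (i := 7) (by omega))
  have h2 := h0 _ (hx.v (i := 8) (by omega))
  have h3 := h0 _ ((hx.v (i := 8) (by omega)).v (i := 7) (by omega))
  rw [h.comm 7 (by omega)] at h1 h3
  rw [h.comm 8 (by omega)] at h2 h3
  exact Prod.ext h3 (Prod.ext (neg_eq_zero.1 h2) (Prod.ext h1 (h0 x hx)))

section KS

variable (K) (X : Type u) [AddCommGroup X] [Module K X]

noncomputable def ks (m : ℕ) : Q4 (ℕ →₀ X) →ₗ[K] Q4 (ℕ →₀ X) where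
  toFun := fun w => (((m : K) + 1)⁻¹ • (w.2.1 + sh K w.2.2.1), ((m : K) + 2)⁻¹ • sh K w.2.2.2,
    -(((m : K) + 2)⁻¹ • w.2.2.2), 0)
  map_add' := fun w w' => by
    simp only [Prod.fst_add, Prod.snd_add, map_add, Prod.mk_add_mk, Prod.mk.injEq, add_zero,
      and_true, smul_add]
    refine ⟨?_, trivial, ?_⟩ <;> abel
  map_smul' := fun a w => by
    simp only [Prod.smul_fst, Prod.smul_snd, map_smul, Prod.smul_mk, RingHom.id_apply,
      Prod.mk.injEq, smul_zero, and_true]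
    refine ⟨?_, ?_, ?_⟩ <;> module

theorem ks_apply (m : ℕ) (w : Q4 (ℕ →₀ X)) : ks K X m w =
    (((m : K) + 1)⁻¹ • (w.2.1 + sh K w.2.2.1), ((m : K) + 2)⁻¹ • sh K w.2.2.2,
      -(((m : K) + 2)⁻¹ • w.2.2.2), 0) := rfl

theorem ks_id [CharZero K] (m : ℕ) (w : Q4 (ℕ →₀ X)) :
    ks K X m (kd K X m w) + kd K X (m + 1) (ks K X (m + 1) w) = w := by
  have e1 : (m : K) + 1 ≠ 0 := Nat.cast_add_one_ne_zero m
  have e2 : (m : K) + 2 ≠ 0 := by exact_mod_cast (by omega : m + 2 ≠ 0)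
  have e3 : (m : K) + 3 ≠ 0 := by exact_mod_cast (by omega : m + 3 ≠ 0)
  have h1 := inv_mul_cancel₀ e1
  have h2 := inv_mul_cancel₀ e2
  have h3 := inv_mul_cancel₀ e3
  rw [kd_apply, ks_apply, ks_apply, kd_apply]
  push_cast
  rw [show (m : K) + 1 + 1 = m + 2 by ring, show (m : K) + 1 + 2 = m + 3 by ring]
  generalize ((m : K) + 1)⁻¹ = α at *
  generalize ((m : K) + 2)⁻¹ = β at *
  generalize ((m : K) + 3)⁻¹ = γ at *
  refine Prod.ext ?_ (Prod.ext ?_ (Prod.ext ?_ ?_)) <;> ext (_ | b) <;>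
    simp only [Prod.fst_add, Prod.snd_add, Finsupp.add_apply, Finsupp.smul_apply, p1_apply,
      p2_apply, sh_apply_zero, sh_apply_succ, Finsupp.sub_apply, Finsupp.neg_apply,
      Finsupp.zero_apply] <;> push_cast
  · linear_combination (norm := module) h1 • w.1 0
  · linear_combination (norm := module) h1 • w.1 (b + 1)
  · linear_combination (norm := module) h2 • w.2.1 0
  · linear_combination (norm := module) h2 • w.2.1 (b + 1)
  · linear_combination (norm := module) h2 • w.2.2.1 0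
  · linear_combination (norm := module) h2 • w.2.2.1 (b + 1)
  · linear_combination (norm := module) h3 • w.2.2.2 0
  · linear_combination (norm := module) h3 • w.2.2.2 (b + 1)

theorem texA (m i : ℕ) (hi : i < 7) (b c : ℕ →₀ X) : tex K X (m + 1) i (b + sh K c) =
    tex K X m i b + va K i • b + vb K i • c + sh K (tex K X m i c + vc K i • b + vd K i • c) := by
  ext (_ | _ | a) <;>
  · interval_cases i <;>
    · simp [tex, va, vb, vc, vd]
      try module

theorem texB (m i : ℕ) (hi : i < 7) (t : ℕ →₀ X) : tex K X (m + 1) i (sh K t) =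
    sh K (tex K X m i t) - va K i • sh K t + vb K i • t := by
  ext (_ | _ | a) <;>
  · interval_cases i <;>
    · simp [tex, va, vb, vc, vd]
      try module

theorem texC (m i : ℕ) (hi : i < 7) (t : ℕ →₀ X) : tex K X (m + 1) i t =
    tex K X m i t + vc K i • sh K t - vd K i • t := by
  ext (_ | _ | a) <;>
  · interval_cases i <;>
    · simp [tex, va, vb, vc, vd]
      try module

end KS

theorem ks_hom (Y : Obj K 7) (m : ℕ) : Hom (res (by omega : 7 ≤ 9) (Lam (Tn Y m)))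
    (res (by omega) (Lam (Tn Y (m + 1)))) (ks K Y.X m) where
  comm := fun i hi w => by
    change ks K Y.X m (lamOp (Tn Y m) i w) = lamOp (Tn Y (m + 1)) i _
    rw [lamOp_lt _ hi, lamOp_lt _ hi, lop_apply, ks_apply, ks_apply, lop_apply]
    generalize ((m : K) + 1)⁻¹ = α
    generalize ((m : K) + 2)⁻¹ = β
    refine Prod.ext ?_ (Prod.ext ?_ (Prod.ext ?_ (by simp)))
    · simp only [LinearMap.add_apply, map_smul, texA K Y.X m i hi]
      simp only [map_add, map_smul, cw_sh]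
      module
    · simp only [LinearMap.add_apply, map_smul, texB K Y.X m i hi, map_add, cw_sh]
      module
    · simp only [LinearMap.add_apply, map_smul, map_neg, texC K Y.X m i hi, map_add, cw_sh]
      module
  filt := fun c n w hw => by
    have ht : w.2.2.2 ∈ (Tn Y m).F (c - 1 - 1) n := by
      rw [show c - 1 - 1 = c - 2 by ring]
      exact hw.2.2.2
    exact ⟨Submodule.smul_mem _ _ (Submodule.add_mem _
      (id_mem Y hw.2.1) (sh_mem' Y hw.2.2.1)), Submodule.smul_mem _ _ (sh_mem' Y ht),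
      Submodule.neg_mem _ (Submodule.smul_mem _ _ (id_mem Y ht)), Submodule.zero_mem _⟩

variable [CharZero K]

theorem kos_rs (Y : Obj K 7) : Rs (fun m => Lam (Tn Y m)) (infl (Tn Y 0)) 0 (kd K Y.X)
    (LinearMap.fst K _ _) where
  hd := kd_hom Y
  ha := lfst_hom _
  mid := fun m _ => kos_mid Y m
  mid0 := kos_mid0 Y
  onto := fun _ _ y hy =>
    ⟨(y, 0), ⟨hy, Submodule.zero_mem _, Submodule.zero_mem _, Submodule.zero_mem _⟩, rfl⟩
  low := fun _ h => absurd h (by omega)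

omit [CharZero K] in
theorem t0_bij (Y : Obj K 7) : Function.Bijective (wmap (t0_hom Y).infl) :=
  ⟨win_inj _ fun _ _ _ _ h => Finsupp.single_eq_zero.1 h, win_surj _ (t0_onto Y)⟩

theorem zg_infl {Y : Obj K 7} {I : Type} [Fintype I] (G : Gens Y I) (hb : ∀ i, G.dg i ≤ 3)
    (Z : Obj K 7) : ZG (WinM (Lam Z)) (WinM (infl Y)) 1 := by
  refine zg_iso (M2 := WinM (infl (Tn Y 0))) _ (t0_bij Y) ((kos_rs Y).zgs
    (fun m => ((G.tn m).lam).spl fun i => hb i.1) fun m φ hφ h0 => ?_)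
  have h1 := coind_hom (((l4_hom Z).comp (hφ.res (by omega))).comp (ks_hom Y m))
  refine ⟨_, h1, fun x hx => ?_⟩
  rw [← sub_eq_zero]
  refine lam_zero (hφ.sub (h1.comp (kd_hom Y m))) (fun x hx => ?_) hx
  have h2 := h0 (ks K Y.X (m + 1) x) (InW.map (ks_hom Y (m + 1)) hx)
  have h3 := congrArg φ (ks_id K Y.X m x)
  rw [map_add, h2, add_zero] at h3
  change (φ x).2.2.2 - (φ (ks K Y.X m (kd K Y.X m x))).2.2.2 = 0
  rw [h3, sub_self]

omit [CharZero K] in
theorem infl_rep {Y Z : Obj K 7} (hs : Spl (Lam Y)) (θ : Win (infl Y) →ₗ[AA K] Win (Lam Z)) :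
    ∃ (χ : Y.X →ₗ[K] Z.X) (hχ : Hom Y (cshift Z 2) χ), θ = wmap ((soc_hom Z).comp hχ.infl) := by
  obtain ⟨φ, hφ, h⟩ := hs.rep (θ ∘ₗ wmap (lfst_hom Y))
  have hχ := (l4_hom Z).comp ((hφ.res (by omega : 7 ≤ 9)).comp (linc_hom Y))
  refine ⟨_, hχ, LinearMap.ext fun ψ => ?_⟩
  obtain ⟨ψ, rfl⟩ := win_surj (lfst_hom Y) (fun _ _ y hy =>
    ⟨(y, 0), ⟨hy, Submodule.zero_mem _, Submodule.zero_mem _, Submodule.zero_mem _⟩, rfl⟩) ψ
  have h0 : ∀ x, InW (Lam Y) x → x.1 = 0 → φ x = 0 := by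
    rintro x ⟨k, hk⟩ hx
    obtain ⟨ρ, hρ⟩ := Win.ex (Lam Y) (fun l => if l = k then x else 0) fun l => by
      split_ifs with h
      · rw [h]
        exact hk
      · exact Submodule.zero_mem _
    have e : wmap (lfst_hom Y) ρ = 0 := Win.eq_zero fun l => by
      rw [wmap_gen, hρ]
      split_ifs
      · exact hx
      · rfl
    have e2 := LinearMap.congr_fun h ρ
    rw [LinearMap.comp_apply, e, map_zero] at e2
    have e3 := LinearMap.congr_fun (congrArg Win.val e2) (gen k)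
    rw [wmap_gen, hρ, if_pos rfl] at e3
    exact e3.symm
  have h1 : ∀ x, InW (Lam Y) x → (φ x).2.2.2 - (φ (linc Y x.1)).2.2.2 = 0 := by
    rintro x ⟨k, hk⟩
    have := h0 (x - linc Y x.1) ⟨k, Submodule.sub_mem _ hk ((linc_hom Y).filt _ _ _ hk.1)⟩
      (sub_self _)
    rw [map_sub] at this
    exact congrArg (·.2.2.2) this
  refine (LinearMap.congr_fun h ψ).trans (Win.ext' fun k => ?_)
  rw [← sub_eq_zero]
  exact lam_zero (hφ.sub (((soc_hom Z).comp hχ.infl).comp (lfst_hom Y))) h1 (ψ.inw k)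

omit [CharZero K] in
theorem pr_uniq {s n : ℕ} {t t' : Bool} (h : pr s n t) (h' : pr s n t') : t = t' := by
  unfold pr at *
  cases t <;> cases t' <;> simp at * <;> omega

variable {X : Type u} [AddCommGroup X] [Module K X] {W : Fl K X} {I : Type} [Fintype I]

omit [CharZero K] [Fintype I] in
theorem pwG_dg (G : LG W.l0 I) (hb : ∀ i, G.dg i ≤ 3) (s n : ℕ) : ∀ i, (pwG s n G).dg i ≤ 3 := by
  rintro (i | i) <;> exact hb i

omit [CharZero K] [Fintype I] in
theorem pwG_cases (G : LG W.l0 I) {s n : ℕ} {P : (Pw W s n).X → Prop}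
    (h1 : ∀ t i, pr s n t → G.pres i → P (pg W s n t (G.g i))) :
    ∀ i, (pwG s n G).pres i → P ((pwG s n G).g i) := by
  rintro (i | i) hi
  · exact h1 true i hi.1 hi.2
  · exact h1 false i hi.1 hi.2

omit [CharZero K] [Fintype I] in
theorem he_pw (G : LG W.l0 I) (hb : ∀ i, G.dg i ≤ 3) {Z : Obj K 6} (hZ : DE Z) (n : ℕ)
    {χ : (Pw W 0 (n + 1)).X →ₗ[K] Z.X} (hχ : Hom (Pw W 0 (n + 1)) Z χ)
    (h0 : ∀ x, InW (Pw W 0 (n + 2)) x → χ (dP W 0 (n + 1) x) = 0) :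
    ∃ χ', Hom (Pw W 0 n) Z χ' ∧ ∀ t i, pr 0 (n + 1) t → G.pres i →
      χ (pg W 0 (n + 1) t (G.g i)) = χ' (dP W 0 n (pg W 0 (n + 1) t (G.g i))) := by
  have R := Z.relD
  have ty := (pg_ty W 0 (n + 1)).map (by omega) hχ
  have e4 : ∀ n, tau K 0 n = 1 := fun n => if_pos (Nat.zero_le n)
  obtain ⟨t, ht⟩ : ∃ t, pr 0 (n + 1) t := by
    by_cases h : (n + 1) % 2 = 0
    · exact ⟨true, by simpa [pr] using h⟩
    · exact ⟨false, by simpa [pr] using h⟩
  have h1 : ∀ i, ∃ z, G.pres i → z ∈ Z.F (G.cp i) (G.dg i) ∧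
      (Z.op 2 + Z.op 3) z = χ (pg W 0 (n + 1) t (G.g i)) := by
    intro i
    by_cases hi : G.pres i
    · have hx : InW (Pw W 0 (n + 2)) (pg W 0 (n + 2) (!t) (G.g i)) :=
        ⟨(G.cp i, ⟨G.dg i, Nat.lt_succ_of_le (hb i)⟩), pg_fc W 0 (n + 2) _ (by
          unfold pr at *
          cases t <;> simp at * <;> omega) _ _ _ (G.mem i hi)⟩
      have h2 := h0 _ hx
      obtain ⟨z, hz, e⟩ := (hZ _ _).2 _ (hχ.filt _ _ _ (pg_fc W 0 (n + 1) t ht _ _ _ (G.mem i hi)))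
        (by
          cases t
          · rw [Bool.not_false, dP_x, e4, one_smul, hχ.comm 3 (by omega)] at h2
            rw [LinearMap.add_apply, h2, add_zero]
            exact ty.d _
          · rw [Bool.not_true, dP_y, hχ.comm 2 (by omega)] at h2
            rw [LinearMap.add_apply, h2, zero_add]
            exact ty.e _)
      exact ⟨z, fun _ => ⟨hz, e⟩⟩
    · exact ⟨0, fun h => absurd h hi⟩
  choose z hz using h1
  obtain ⟨ψ, h2, h3⟩ := G.ex Z.l0 z fun i hi => (hz i hi).1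
  have h4 : Hom (Pw W 0 n) Z (plf W 0 n Z fun t => if t then Z.op 4 ∘ₗ ψ else ψ - Z.op 4 ∘ₗ ψ) := by
    refine plf_hom ⟨fun w => R.pp _, fun w => by simp [R.pp]⟩ ?_
    rintro (_ | _) _ c k w hw
    · exact Submodule.sub_mem _ (h2 c k w hw)
        (Z.comp0 (by omega) (by omega) (by omega) (h2 c k w hw))
    · exact Z.comp0 (by omega) (by omega) (by omega) (h2 c k w hw)
  refine ⟨_, h4, fun t' i ht' hi => ?_⟩
  obtain rfl := pr_uniq ht ht'
  have h5 := (hz i hi).2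
  have h6 := congrArg (Z.op 4) h5
  rw [LinearMap.add_apply] at h5
  rw [LinearMap.add_apply, map_add, R.pd, R.pe, zero_add] at h6
  cases t
  · rw [dP_y, h4.comm 2 (by omega), plf_pg, ← h5, h6.trans (ty.2 _), add_zero]
    simp [R.dp, h3 i hi]
  · rw [dP_x, e4, one_smul, h4.comm 3 (by omega), plf_pg]
    refine (h6.trans (ty.1 _)).symm.trans ?_
    simp [R.ep, h3 i hi]

omit [CharZero K] [Fintype I] in
theorem InW.ind {Y : Obj K 6} {x : Y.X} (h : InW Y x) : InW (Ind Y) (Finsupp.single 0 x) :=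
  InW.map (inc_hom Y) h

omit [CharZero K] in
theorem Gens.eq_inw {j : ℕ} {Y Z : Obj K j} {I : Type} (G : Gens Y I) {φ ψ : Y.X →ₗ[K] Z.X}
    (hφ : Hom Y Z φ) (hψ : Hom Y Z ψ) (h0 : ∀ i, G.pres i → φ (G.g i) = ψ (G.g i)) {x : Y.X}
    (hx : InW Y x) : φ x = ψ x := by
  obtain ⟨k, hk⟩ := hx
  rw [← sub_eq_zero]
  exact G.uniq (hφ.sub hψ) (fun i hi => by rw [LinearMap.sub_apply, h0 i hi, sub_self]) hk

theorem zg_uu (G : LG W.l0 I) (hb : ∀ i, G.dg i ≤ 3) {Z : Obj K 7} (hZ : DE Z) :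
    ZG (WinM (Lam Z)) (WinM (infl (Ind (UU W.l0)))) 1 := by
  have hr := (pw_rs W 0).ind.infl
  refine hr.zg (fun n => zg_infl (pwG 0 n G).ind (pwG_dg G hb 0 n) Z) fun n θ h0 => ?_
  obtain ⟨χ, hχ, rfl⟩ := infl_rep ((pwG 0 (n + 1) G).ind.lam.spl (pwG_dg G hb 0 _)) θ
  obtain ⟨χ', h1, h2⟩ := he_pw G hb (Z := res (by omega) (cshift Z 2)) (fun c k => hZ _ k) n
    ((hχ.res (by omega : 6 ≤ 7)).comp (inc_hom _)) fun x hx => by
      have := wmap_zero_inw (hr.hd (n + 1)) _ h0 hx.ind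
      rw [cw_single] at this
      exact congrArg (·.2.2.2) this
  have h3 := lift_hom h1
  refine ⟨wmap ((soc_hom Z).comp h3.infl), LinearMap.ext fun ψ => Win.ext' fun k => ?_⟩
  refine congrArg (soc Z) ((pwG 0 (n + 1) G).ind.eq_inw hχ
    (h3.comp (imap_hom (dP_hom W 0 n))) ?_ (ψ.inw k))
  refine pwG_cases G (P := fun x => χ (Finsupp.single 0 x) =
    plift (Z.op 6) χ' (cw (dP W 0 n) (Finsupp.single 0 x))) fun t i ht hi => ?_
  rw [cw_single, plift_zero]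
  exact h2 t i ht hi

theorem zg_uu0 (G : LG W.l0 I) (hb : ∀ i, G.dg i ≤ 3) {Z : Obj K 7} (hZ : DE Z)
    (h5 : ∀ i k, ∀ z ∈ Z.F (G.cp i - 2) k, z = 0) :
    ZG (WinM (Lam Z)) (WinM (infl (Ind (UU W.l0)))) 0 := by
  refine zg_hom (zg_uu G hb hZ) ((pw_rs W 0).ind.infl.hom0 (S := WinM (Lam Z)) fun θ _ => ?_)
  obtain ⟨χ, hχ, rfl⟩ := infl_rep ((pwG 0 0 G).ind.lam.spl (pwG_dg G hb 0 _)) θ
  refine LinearMap.ext fun ψ => Win.eq_zero fun k => ?_
  have := (pwG 0 0 G).ind.eq_inw hχ (Hom.zero _ _) (fun i hi => by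
    have := hχ.filt _ _ _ ((pwG 0 0 G).ind.mem i hi)
    rcases i with i | i <;> exact h5 i _ _ this) (ψ.inw k)
  exact (congrArg (soc Z) this).trans (map_zero _)

omit [CharZero K] [Fintype I] in
theorem chain3 (P : ℕ → ModuleCat.{u} (AA K) → Prop)
    (hP : ∀ {M1 M2 M3} j, SE M1 M2 M3 → P j M1 → P j M2 → P (j + 1) M3)
    (h0 : P 0 (WinM (infl (Ind (UU W.l0))))) (h1 : P 0 (WinM (infl (Ind (UU W.sft.l0)))))
    (h2 : P 0 (WinM (infl (Ind (UU W.sft.sft.l0)))))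
    (h3 : P 0 (WinM (infl (Ind (UU W.sft.sft.sft.l0))))) : P 3 (WinM (infl (Kt W))) :=
  hP 2 (ses3 W).infl.se
    (hP 1 (ses2 W.sft (-2)).ind.infl.se (hP 0 (ses1 W.sft.sft _).ind.infl.se h3 h2)
      (hP 0 (ses1 W.sft _).ind.infl.se h2 h1))
    (hP 1 (ses2 W 0).ind.infl.se (hP 0 (ses1 W.sft _).ind.infl.se h2 h1)
      (hP 0 (ses1 W _).ind.infl.se h1 h0))

theorem zg_kt (G : LG W.l0 I) (hb : ∀ i, G.dg i = 0) {Z : Obj K 7} (hZ : DE Z) :
    ZG (WinM (Lam Z)) (WinM (infl (Kt W))) 4 :=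
  chain3 (fun j M => ZG (WinM (Lam Z)) M (j + 1))
    (fun _ h h1 h2 => zg3 h h1 (h2.mono (by omega)))
    (zg_uu G (fun i => by have := hb i; omega) hZ)
    (zg_uu (W := W.sft) G.sft (fun i => by have := hb i; change G.dg i + 1 ≤ 3; omega) hZ)
    (zg_uu (W := W.sft.sft) G.sft.sft
      (fun i => by have := hb i; change G.dg i + 1 + 1 ≤ 3; omega) hZ)
    (zg_uu (W := W.sft.sft.sft) G.sft.sft.sft
      (fun i => by have := hb i; change G.dg i + 1 + 1 + 1 ≤ 3; omega) hZ)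

theorem zg_kt0 (G : LG W.l0 I) (hb : ∀ i, G.dg i = 0) {Z : Obj K 7} (hZ : DE Z)
    (h5 : ∀ i k, ∀ z ∈ Z.F (G.cp i - 2) k, z = 0) : ZG (WinM (Lam Z)) (WinM (infl (Kt W))) 0 :=
  chain3 (fun _ M => ZG (WinM (Lam Z)) M 0)
    (fun _ h h1 h2 => zg3' h h1 h2)
    (zg_uu0 G (fun i => by have := hb i; omega) hZ h5)
    (zg_uu0 (W := W.sft) G.sft (fun i => by have := hb i; change G.dg i + 1 ≤ 3; omega) hZ h5)
    (zg_uu0 (W := W.sft.sft) G.sft.sft
      (fun i => by have := hb i; change G.dg i + 1 + 1 ≤ 3; omega) hZ h5)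
    (zg_uu0 (W := W.sft.sft.sft) G.sft.sft.sft
      (fun i => by have := hb i; change G.dg i + 1 + 1 + 1 ≤ 3; omega) hZ h5)

end Vale.Agent.P195
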