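import Vale.Agent.P195.PartA

/- Vanishing of the self-extensions of the trivial module. -/

namespace Vale.Agent.P195

open CategoryTheory Abelian
open Vale.Agent.P176 (PieceExact SE tri)

universe u

variable {K : Type u} [Field K]

variable (K) in
def W0 : Fl K K := ⟨(one K).F, (one K).mono⟩

def G0 : LG (W0 K).l0 Unit := oneG

variable (K) in
abbrev XK : Obj K 7 := Kt (W0 K)

variable (K) in
abbrev MM (m : ℕ) : Obj K 7 := Td (XK K) m

theorem MM0 (m : ℕ) (z : ℕ → K) (b : ℕ) : (MM K m).op 0 z b = -(((m : K) - 2 * b) * z b) := by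
  rw [Td_op_apply, dex_apply]
  simp [hop]

theorem MM1 (m : ℕ) (z : ℕ → K) (b : ℕ) : (MM K m).op 1 z b = -((b : K) * z (b - 1)) := by
  rw [Td_op_apply, dex_apply]
  simp [hop]

theorem MM6 (m : ℕ) (z : ℕ → K) (b : ℕ) : (MM K m).op 6 z b = -(((m : K) - b) * z (b + 1)) := by
  rw [Td_op_apply, dex_apply]
  simp [hop]

theorem MM2 (m : ℕ) (z : ℕ → K) : (MM K m).op 2 z = 0 := by
  funext b
  rw [Td_op_apply, dex_apply]
  simp [hop]
  rfl

theorem MM3 (m : ℕ) (z : ℕ → K) : (MM K m).op 3 z = 0 := by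
  funext b
  rw [Td_op_apply, dex_apply]
  simp [hop]
  rfl

theorem MM5 (m : ℕ) (z : ℕ → K) : (MM K m).op 5 z = 0 := by
  funext b
  rw [Td_op_apply, dex_apply]
  simp [hop]
  rfl

theorem MM4 (m : ℕ) (z : ℕ → K) : (MM K m).op 4 z = z := by
  funext b
  rw [Td_op_apply, dex_apply]
  simp [hop]

def Sup (W : Fl K K) : Prop := ∀ c k, ∀ w ∈ W.F c k, ¬ (c = 0 ∧ 0 ≤ k) → w = 0

theorem sup0 : Sup (W0 K) := fun _ _ _ hw => hw.2

theorem Sup.sft {W : Fl K K} (h : Sup W) : Sup W.sft :=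
  fun c k w hw h' => h c (k - 1) w hw fun h'' => h' ⟨h''.1, by omega⟩

theorem fc_td {m : ℕ} (hm : (m : C7) = 0) {W : Fl K K} (h : Sup W) (s n : ℕ)
    (ψ : Bool → K →ₗ[K] (MM K m).X) : FC W (MM K m) s n ψ := by
  intro t _ c k w hw
  by_cases h' : c = 0 ∧ 0 ≤ k
  · exact fun b _ => ⟨trivial, fun h'' => absurd ⟨by rw [h'.1, hm, add_zero], h'.2⟩ h''⟩
  · rw [h c k w hw h', map_zero]
    exact Submodule.zero_mem _

def xv (m : ℕ) (a : ℕ → K) (t : Bool) : K →ₗ[K] (MM K m).X :=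
  if t then LinearMap.toSpanSingleton K _ a else 0

theorem xv_true (m : ℕ) (a : ℕ → K) : xv m a true 1 = a := one_smul K a

theorem xv_false (m : ℕ) (a : ℕ → K) (w : K) : xv m a false w = 0 := rfl

theorem xv_ty (m : ℕ) (a : ℕ → K) : TY (MM K m) (xv m a) :=
  ⟨fun _ => MM4 m _, fun _ => MM4 m _⟩

noncomputable def xl (m : ℕ) (W : Fl K K) (s n : ℕ) (a1 ah ae ar : ℕ → K) :
    (IQ W s n).X →ₗ[K] (MM K m).X :=
  ilf W s n (MM K m) (xv m a1) (xv m ah) (xv m ae) (xv m ar)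

theorem xl_hom {m : ℕ} (hm : (m : C7) = 0) {W : Fl K K} (h : Sup W) (s n : ℕ)
    (a1 ah ae ar : ℕ → K) : Hom (IQ W s n) (MM K m) (xl m W s n a1 ah ae ar) :=
  ilf_hom (xv_ty _ _) (xv_ty _ _) (xv_ty _ _) (xv_ty _ _) (fc_td hm h _ _ _)
    (fc_td hm h.sft _ _ _) (fc_td hm h.sft _ _ _) (fc_td hm h.sft.sft _ _ _)

/-- Commutation with the operators. -/
def Cm (Y : Obj K 7) (m : ℕ) (χ : Y.X →ₗ[K] (MM K m).X) : Prop :=
  ∀ i < 7, ∀ y, χ (Y.op i y) = (MM K m).op i (χ y)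

section Cm

variable {Y : Obj K 7} {m : ℕ} {χ : Y.X →ₗ[K] (MM K m).X}

theorem Cm.y (h : Cm Y m χ) {g : Bool → K →ₗ[K] Y.X} (hg : TY Y g) (w : K) (b : ℕ) :
    χ (g false w) b = 0 := by
  rw [← MM4 m (χ _), ← h 4 (by omega), hg.2, map_zero]
  rfl

theorem Cm.dt (h : Cm Y m χ) (τ : K) (g : Bool → K →ₗ[K] Y.X) (t : Bool) (w : K) :
    χ (DT Y τ g t w) = 0 := by
  cases t
  · rw [DT_false, h 2 (by omega), MM2]
  · rw [DT_true, map_smul, h 3 (by omega), MM3, smul_zero]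

theorem Cm.comp {Y' : Obj K 7} {f : Y'.X →ₗ[K] Y.X} (h : Cm Y m χ) (hf : Hom Y' Y f) :
    Cm Y' m (χ ∘ₗ f) := fun i hi y => by
  rw [LinearMap.comp_apply, hf.comm i hi, h i hi]
  rfl

end Cm

section CmI

variable {W : Fl K K} {s n m : ℕ} {χ : (IQ W s n).X →ₗ[K] (MM K m).X} (h : Cm (IQ W s n) m χ)
  (μ : K) (t : Bool) (w : K) (b : ℕ)

include h

theorem Cm.d1 : χ (dI μ W s n (j1 W s (n + 1) t w)) b = 0 := by
  rw [dI_1, h.dt]
  rfl

theorem Cm.dH : χ (dI μ W s n (jH W s (n + 1) t w)) b =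
    -(((m : K) - 2 * b + μ) * χ (j1 W s n t w) b) := by
  rw [dI_H, map_sub, map_sub, h.dt, sub_zero, map_smul, h 0 (by omega), Pi.sub_apply, MM0,
    Pi.smul_apply, smul_eq_mul]
  ring

theorem Cm.dE : χ (dI μ W s n (jE W s (n + 1) t w)) b = -((b : K) * χ (j1 W s n t w) (b - 1)) := by
  rw [dI_E, map_sub, h.dt, sub_zero, h 1 (by omega), MM1]

theorem Cm.dR : χ (dI μ W s n (jR W s (n + 1) t w)) b = -((b : K) * χ (jH W s n t w) (b - 1)) +
    ((m : K) - 2 * b + μ + 2) * χ (jE W s n t w) b := by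
  rw [dI_R, map_add, map_sub, map_add, map_sub, h.dt, add_zero, map_smul, h 0 (by omega),
    h 1 (by omega), h 5 (by omega), MM5, add_zero, Pi.sub_apply, Pi.sub_apply, MM0, MM1,
    Pi.smul_apply, smul_eq_mul]
  ring

end CmI

theorem Hom.to_infl {Y Z : Obj K 7} {f : Y.X →ₗ[K] Z.X} (h : Hom Y Z f) :
    Hom Y (P195.res (by omega) (P195.infl Z)) f :=
  ⟨fun i hi x => (h.comm i hi x).trans (LinearMap.congr_fun (infl_op Z hi).symm _), h.filt⟩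

theorem Hom.of_infl {Y Z : Obj K 7} {f : Y.X →ₗ[K] Z.X}
    (h : Hom Y (P195.res (by omega) (P195.infl Z)) f) : Hom Y Z f :=
  ⟨fun i hi x => (h.comm i hi x).trans (LinearMap.congr_fun (infl_op Z hi) _), h.filt⟩

/-- The cochain attached to a morphism. -/
noncomputable def coch {Y : Obj K 7} (m : ℕ) (φ : (Lam (Tn Y m)).X →ₗ[K] K) :
    Y.X →ₗ[K] (MM K m).X := tadj (φ ∘ₗ linc (Tn Y m))

theorem coch_cm {Y : Obj K 7} {m : ℕ} {φ : (Lam (Tn Y m)).X →ₗ[K] K}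
    (h : Hom (Lam (Tn Y m)) (infl (XK K)) φ) : Cm Y m (coch m φ) :=
  tadj_comm (Z := XK K) ((h.res (by omega : 7 ≤ 9)).comp (linc_hom _)).of_infl

theorem coch_zero {Y Y' : Obj K 7} {m : ℕ} {φ : (Lam (Tn Y m)).X →ₗ[K] K} {d : Y'.X →ₗ[K] Y.X}
    (h : ∀ x, InW (Lam (Tn Y' m)) x → φ (q4map (cw d) x) = 0) {y : Y'.X} (hy : InW Y' y)
    {b : ℕ} (hb : b ≤ m) : coch m φ (d y) b = 0 := by
  obtain ⟨k, hk⟩ := hy
  have := h (linc (Tn Y' m) (Finsupp.single b y)) ⟨(k.1 + m, k.2),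
    (linc_hom (Tn Y' m)).filt _ _ _ (tn_single_mem Y' hb hk)⟩
  rw [linc_apply, q4map_apply] at this
  simp only [cw_single, map_zero] at this
  exact this

theorem he_td {Y1 Y0 : Obj K 7} {I : Type} (G : Gens Y1 I) (hc : ∀ i, G.cp i = 0) {m : ℕ}
    {d : Y1.X →ₗ[K] Y0.X} (hd : Hom Y1 Y0 d) {φ : (Lam (Tn Y1 m)).X →ₗ[K] K}
    (h : Hom (Lam (Tn Y1 m)) (infl (XK K)) φ)
    (H : (m : C7) = 0 → ∃ χ : Y0.X →ₗ[K] (MM K m).X, Hom Y0 (MM K m) χ ∧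
      ∀ i, G.pres i → ∀ b ≤ m, coch m φ (G.g i) b = χ (d (G.g i)) b) :
    ∃ φ' : (Lam (Tn Y0 m)).X →ₗ[K] K, Hom (Lam (Tn Y0 m)) (infl (XK K)) φ' ∧
      ∀ x, InW (Lam (Tn Y1 m)) x → φ x = φ' (q4map (cw d) x) := by
  by_cases hm : (m : C7) = 0
  · obtain ⟨χ, h1, h2⟩ := H hm
    have h3 := llift_hom (Z := infl (XK K)) (tlift_hom h1).to_infl
    refine ⟨_, h3, fun x hx => (G.tn m).lam.eq_inw h (h3.comp (lmap_hom (tmap_hom hd m)))
      (fun i hi => (h2 i.1 hi i.2 (by omega)).trans ?_) hx⟩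
    change _ = llift (Y := Tn Y0 m) (infl (XK K)) (tlift χ) (q4map (cw d)
      (linc (Tn Y1 m) (Finsupp.single (i.2 : ℕ) (G.g i.1))))
    rw [linc_apply, q4map_apply]
    simp only [cw_single, map_zero]
    exact ((llift_linc (Y := Tn Y0 m) (infl (XK K)) (tlift χ) _).trans
      (tlift_single χ _ _)).symm
  · refine ⟨0, Hom.zero _ _, fun x hx => (G.tn m).lam.eq_inw h (Hom.zero _ _) (fun i hi => ?_) hx⟩
    refine (h.filt _ _ _ ((G.tn m).lam.mem i hi)).2 fun h' => hm ?_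
    have e : G.cp i.1 + m = 0 := h'.1
    rwa [hc, zero_add] at e

theorem hom_td {Y : Obj K 7} {I : Type} (G : Gens Y I) {m : ℕ} {φ : (Lam (Tn Y m)).X →ₗ[K] K}
    (h : Hom (Lam (Tn Y m)) (infl (XK K)) φ)
    (H : ∀ i, G.pres i → ∀ b ≤ m, coch m φ (G.g i) b = 0) (x : (Lam (Tn Y m)).X)
    (hx : InW (Lam (Tn Y m)) x) : φ x = 0 :=
  (G.tn m).lam.eq_inw h (Hom.zero _ _) (fun i hi => H i.1 hi i.2 (by omega)) hx

theorem iqG_cp {W : Fl K K} {s n : ℕ} (G : LG W.l0 Unit) (h : G.cp () = 0) :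
    ∀ i, (iqG s n G).cp i = 0 := by
  rintro (((i | i) | (i | i)) | ((i | i) | (i | i))) <;> exact h

theorem FC.inw {j : ℕ} {W : Fl K K} {Z : Obj K j} {s n : ℕ} {ψ : Bool → K →ₗ[K] Z.X}
    (h : FC W Z s n ψ) {t : Bool} (ht : pr s n t) {d : ℕ} (hd : d ≤ 3) (hw : 1 ∈ W.F 0 d) :
    InW Z (ψ t 1) := ⟨(0, ⟨d, by omega⟩), h t ht _ _ _ hw⟩

theorem sft_mem {W : Fl K K} {d : ℕ} (hw : 1 ∈ W.F 0 d) : 1 ∈ W.sft.F 0 (d + 1 : ℕ) := by
  change 1 ∈ W.F 0 _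
  rwa [show ((d + 1 : ℕ) : ℤ) - 1 = d by push_cast; ring]

variable [CharZero K]

theorem solve1 {m : ℕ} {μ : K} (h1 : (m : K) - μ ≠ 0) {a : ℕ → K}
    (eH : ∀ b ≤ m, -(((m : K) - 2 * b + μ) * a b) = 0)
    (eE : ∀ b ≤ m, -((b : K) * a (b - 1)) = 0) : ∀ b ≤ m, a b = 0 := by
  intro b hb
  by_cases h : b = m
  · subst h
    refine (mul_eq_zero.1 ?_).resolve_left h1
    linear_combination eH b hb
  · have := eE (b + 1) (by omega)
    simpa [Nat.cast_add_one_ne_zero b] using this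

theorem zg_km {W : Fl K K} (G : LG W.l0 Unit) (hW : Sup W) {d : ℕ} (hd : d ≤ 1)
    (g1 : G.g () = 1) (g2 : G.cp () = 0) (g3 : G.dg () = d) (hw : 1 ∈ W.F 0 d) {m : ℕ} {μ : K}
    (h1 : (m : K) - μ ≠ 0) (h2 : (m : K) + μ + 2 ≠ 0) :
    ZG (WinM (infl (XK K))) (WinM (Lam (Tn (Ind (Km W μ)) m))) 0 := by
  have hr := ((iq_rs μ W 0).tn m).lam
  have hs : ∀ n, Spl (Lam (Tn (IQ W 0 n) m)) := fun n => ((iqG 0 n G).tn m).lam.spl
    fun i => (iqG_dg G (b := 1) (fun _ => g3.le.trans hd) i.1)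
  have key : ∀ n (φ : (Lam (Tn (IQ W 0 n) m)).X →ₗ[K] K),
      Hom (Lam (Tn (IQ W 0 n) m)) (infl (XK K)) φ →
      (∀ x, InW (Lam (Tn (IQ W 0 (n + 1)) m)) x → φ (q4map (cw (dI μ W 0 n)) x) = 0) →
      n % 2 = 0 → ∀ b ≤ m, coch m φ (j1 W 0 n true 1) b = 0 := by
    intro n φ hφ h0 hn
    have hp : pr (0 + 1) (n + 1) true := by
      simp [pr]
      omega
    refine solve1 h1 (fun b hb => ?_) fun b hb => ?_
    · rw [← (coch_cm hφ).dH μ]
      exact coch_zero h0 ((jH_fc W 0 (n + 1)).inw hp (by omega) (sft_mem hw)) hb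
    · rw [← (coch_cm hφ).dE μ]
      exact coch_zero h0 ((jE_fc W 0 (n + 1)).inw hp (by omega) (sft_mem hw)) hb
  refine zg_hom (hr.zgs hs fun n φ hφ h0 => ?_) (hr.homs (hs 0) fun φ hφ h0 => ?_)
  · have c := coch_cm hφ
    refine he_td (iqG 0 (n + 1) G) (iqG_cp G g2) ((iq_rs μ W 0).hd n) hφ fun hm => ?_
    by_cases hn : (n + 1) % 2 = 0
    · obtain ⟨ar, har⟩ : ∃ ar, ar = coch m φ (jR W 0 (n + 1) true 1) := ⟨_, rfl⟩
      have h3 := xl_hom hm hW 0 n 0 (fun b => -(ar (b + 1) / ((b : K) + 1)))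
        (fun b => if b = 0 then ar 0 / ((m : K) + μ + 2) else 0) 0
      have c' : Cm _ m _ := h3.comm
      refine ⟨_, h3, iqG_cases G (P := fun x => ∀ b ≤ m, coch m φ x b = xl m W 0 n _ _ _ _
        (dI μ W 0 n x) b) ?_ ?_ ?_ ?_⟩ <;> rintro (_ | _) i ht b hb <;> rw [g1]
      · rw [c.y (j1_ty _ _ _), c'.d1]
      · rw [key _ φ hφ h0 hn b hb, c'.d1]
      · rw [c.y (jH_ty _ _ _), c'.dH, c'.y (j1_ty _ _ _)]
        simp
      · simp [pr] at ht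
        omega
      · rw [c.y (jE_ty _ _ _), c'.dE, c'.y (j1_ty _ _ _)]
        simp
      · simp [pr] at ht
        omega
      · rw [c.y (jR_ty _ _ _), c'.dR, c'.y (jH_ty _ _ _), c'.y (jE_ty _ _ _)]
        simp
      · rw [c'.dR, xl, ilf_H, ilf_E, xv_true, xv_true, ← har]
        rcases b with _ | b
        · simp only [if_pos, Nat.cast_zero, zero_mul, neg_zero, mul_zero, sub_zero, zero_add]
          field_simp
        · have := Nat.cast_add_one_ne_zero (R := K) b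
          simp only [Nat.add_sub_cancel, Nat.succ_ne_zero, if_false, mul_zero, add_zero]
          push_cast
          field_simp
    · obtain ⟨ah, hah⟩ : ∃ ah, ah = coch m φ (jH W 0 (n + 1) true 1) := ⟨_, rfl⟩
      obtain ⟨ae, hae⟩ : ∃ ae, ae = coch m φ (jE W 0 (n + 1) true 1) := ⟨_, rfl⟩
      have e : ∀ b ≤ m, -((b : K) * ah (b - 1)) + ((m : K) - 2 * b + μ + 2) * ae b = 0 := by
        intro b hb
        rw [hah, hae, ← c.dR μ]
        exact coch_zero h0 ((jR_fc W 0 (n + 2)).inw (by simp [pr]; omega) (by omega)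
          (sft_mem (sft_mem hw))) hb
      have h3 := xl_hom hm hW 0 n (fun b => if b = m then ah m / ((m : K) - μ) else
        -(ae (b + 1) / ((b : K) + 1))) 0 0 0
      have c' : Cm _ m _ := h3.comm
      refine ⟨_, h3, iqG_cases G (P := fun x => ∀ b ≤ m, coch m φ x b = xl m W 0 n _ _ _ _
        (dI μ W 0 n x) b) ?_ ?_ ?_ ?_⟩ <;> rintro (_ | _) i ht b hb <;> rw [g1]
      · rw [c.y (j1_ty _ _ _), c'.d1]
      · simp [pr] at ht
        omega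
      · rw [c.y (jH_ty _ _ _), c'.dH, c'.y (j1_ty _ _ _)]
        simp
      · rw [c'.dH, xl, ilf_1, xv_true, ← hah]
        split_ifs with h
        · subst h
          field_simp
          ring
        · have e1 := e (b + 1) (by omega)
          have := Nat.cast_add_one_ne_zero (R := K) b
          rw [Nat.add_sub_cancel] at e1
          push_cast at e1
          field_simp
          linear_combination -e1
      · rw [c.y (jE_ty _ _ _), c'.dE, c'.y (j1_ty _ _ _)]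
        simp
      · rw [c'.dE, xl, ilf_1, xv_true, ← hae]
        rcases b with _ | b
        · have e1 := e 0 hb
          simp only [Nat.cast_zero, zero_mul, neg_zero, mul_zero, sub_zero, zero_add] at e1 ⊢
          exact (mul_eq_zero.1 e1).resolve_left h2
        · have := Nat.cast_add_one_ne_zero (R := K) b
          rw [Nat.add_sub_cancel, if_neg (by omega)]
          push_cast
          field_simp
      · rw [c.y (jR_ty _ _ _), c'.dR, c'.y (jH_ty _ _ _), c'.y (jE_ty _ _ _)]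
        simp
      · simp [pr] at ht
        omega
  · have c := coch_cm hφ
    refine hom_td (iqG 0 0 G) hφ (iqG_cases G (P := fun x => ∀ b ≤ m, coch m φ x b = 0)
      ?_ ?_ ?_ ?_) <;> rintro (_ | _) i ht b hb <;> rw [g1]
    · simp [pr] at ht
    · exact key 0 φ hφ h0 rfl b hb
    all_goals simp [pr] at ht

omit [CharZero K] in
theorem mem0 : (1 : K) ∈ (W0 K).F 0 (0 : ℕ) := ⟨trivial, fun h => absurd ⟨rfl, le_rfl⟩ h⟩

theorem zg_tn (m : ℕ) : ZG (WinM (infl (XK K))) (WinM (Lam (Tn (XK K) (m + 1)))) 0 := by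
  refine zg3' ((ses3 (W0 K)).tn (m + 1)).lam.se
    (zg_km (W := (W0 K).sft) G0.sft sup0.sft (d := 1) le_rfl rfl rfl rfl (sft_mem mem0) ?_ ?_)
    (zg_km G0 sup0 (d := 0) (by omega) rfl rfl rfl mem0 ?_ ?_)
  · exact_mod_cast (by omega : ((m + 1 : ℕ) : ℤ) - (-2) ≠ 0)
  · exact_mod_cast (by omega : ((m + 1 : ℕ) : ℤ) + (-2) + 2 ≠ 0)
  · exact_mod_cast (by omega : ((m + 1 : ℕ) : ℤ) - 0 ≠ 0)
  · exact_mod_cast (by omega : ((m + 1 : ℕ) : ℤ) + 0 + 2 ≠ 0)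

section T0

omit [CharZero K]

variable {n : ℕ} {χ : (TT (W0 K) n).X →ₗ[K] (MM K 0).X} (h : Cm (TT (W0 K) n) 0 χ) (t : Bool)

include h

theorem Cm.tl (x : (IQ (W0 K) 0 (n + 1)).X) : χ (dT (W0 K) n (x, 0)) =
    (χ ∘ₗ LinearMap.inl K _ _) (dI 0 (W0 K) 0 n x) := by
  rw [cdm_apply]
  simp

theorem Cm.tr (x : (IQ (W0 K).sft 1 (n + 1)).X) : χ (dT (W0 K) n (0, x)) 0 =
    (χ ∘ₗ LinearMap.inl K _ _) (PF (W0 K) n x) 0 -
      (χ ∘ₗ LinearMap.inr K _ _) (dI (-2) (W0 K).sft 1 n x) 0 := by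
  rw [cdm_apply, map_pair χ, map_zero, zero_add, map_neg, ← sub_eq_add_neg]
  rfl

theorem Cm.f0 (x : (IQ (W0 K) 0 n).X) :
    (χ ∘ₗ LinearMap.inl K _ _) ((IQ (W0 K) 0 n).op 6 x) 0 = 0 := by
  rw [h.comp inl_hom 6 (by omega), MM6]
  simp

theorem Cm.a1 : χ (dT (W0 K) n (j1 (W0 K) 0 (n + 1) t 1, 0)) 0 = 0 := by
  rw [h.tl, (h.comp inl_hom).d1]

theorem Cm.aH : χ (dT (W0 K) n (jH (W0 K) 0 (n + 1) t 1, 0)) 0 = 0 := by
  rw [h.tl, (h.comp inl_hom).dH]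
  simp

theorem Cm.aE : χ (dT (W0 K) n (jE (W0 K) 0 (n + 1) t 1, 0)) 0 = 0 := by
  rw [h.tl, (h.comp inl_hom).dE]
  simp

theorem Cm.aR : χ (dT (W0 K) n (jR (W0 K) 0 (n + 1) t 1, 0)) 0 =
    2 * χ (jE (W0 K) 0 n t 1, 0) 0 := by
  rw [h.tl, (h.comp inl_hom).dR]
  simp

theorem Cm.b1 : χ (dT (W0 K) n (0, j1 (W0 K).sft 1 (n + 1) t 1)) 0 = 0 := by
  rw [h.tr, (h.comp inr_hom).d1, PF_1, h.f0, sub_zero]

theorem Cm.bH : χ (dT (W0 K) n (0, jH (W0 K).sft 1 (n + 1) t 1)) 0 =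
    -2 * χ (0, j1 (W0 K).sft 1 n t 1) 0 := by
  rw [h.tr, (h.comp inr_hom).dH, PF_H, h.f0]
  simp

theorem Cm.bE : χ (dT (W0 K) n (0, jE (W0 K).sft 1 (n + 1) t 1)) 0 =
    χ (jH (W0 K) 0 n t 1, 0) 0 := by
  rw [h.tr, (h.comp inr_hom).dE, PF_E, map_add, Pi.add_apply, h.f0]
  simp

theorem Cm.bR : χ (dT (W0 K) n (0, jR (W0 K).sft 1 (n + 1) t 1)) 0 =
    kap K n t * χ (j1 (W0 K) 0 n t 1, 0) 0 := by
  rw [h.tr, (h.comp inr_hom).dR, PF_R, map_add, Pi.add_apply, h.f0, map_smul]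
  simp

theorem Cm.yl {g : Bool → K →ₗ[K] (IQ (W0 K) 0 n).X} (hg : TY _ g) : χ (g false 1, 0) 0 = 0 :=
  (h.comp inl_hom).y hg 1 0

theorem Cm.yr {g : Bool → K →ₗ[K] (IQ (W0 K).sft 1 n).X} (hg : TY _ g) : χ (0, g false 1) 0 = 0 :=
  (h.comp inr_hom).y hg 1 0

end T0

omit [CharZero K] in
noncomputable def ttG (n : ℕ) := (iqG 0 n (G0 (K := K))).prod (iqG (W := (W0 K).sft) 1 n G0.sft)

omit [CharZero K] in
theorem ttG_cases {n : ℕ} {P : (TT (W0 K) n).X → Prop}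
    (h1 : ∀ t, pr 0 n t → P (j1 (W0 K) 0 n t 1, 0))
    (hH : ∀ t, pr 1 n t → P (jH (W0 K) 0 n t 1, 0))
    (hE : ∀ t, pr 1 n t → P (jE (W0 K) 0 n t 1, 0))
    (hR : ∀ t, pr 2 n t → P (jR (W0 K) 0 n t 1, 0))
    (h1' : ∀ t, pr 1 n t → P (0, j1 (W0 K).sft 1 n t 1))
    (hH' : ∀ t, pr 2 n t → P (0, jH (W0 K).sft 1 n t 1))
    (hE' : ∀ t, pr 2 n t → P (0, jE (W0 K).sft 1 n t 1))
    (hR' : ∀ t, pr 3 n t → P (0, jR (W0 K).sft 1 n t 1)) :
    ∀ i, (ttG (K := K) n).pres i → P ((ttG n).g i) := by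
  rintro (i | i)
  · exact iqG_cases G0 (P := fun x => P (x, 0)) (fun t _ => h1 t) (fun t _ => hH t)
      (fun t _ => hE t) (fun t _ => hR t) i
  · exact iqG_cases (W := (W0 K).sft) G0.sft (P := fun x => P (0, x)) (fun t _ => h1' t)
      (fun t _ => hH' t) (fun t _ => hE' t) (fun t _ => hR' t) i

omit [CharZero K] in
theorem cop_l {A B C : Type u} [AddCommGroup A] [Module K A] [AddCommGroup B] [Module K B]
    [AddCommGroup C] [Module K C] (f : A →ₗ[K] C) (g : B →ₗ[K] C) (x : A) :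
    f.coprod g (x, 0) = f x := by simp

omit [CharZero K] in
theorem cop_r {A B C : Type u} [AddCommGroup A] [Module K A] [AddCommGroup B] [Module K B]
    [AddCommGroup C] [Module K C] (f : A →ₗ[K] C) (g : B →ₗ[K] C) (x : B) :
    f.coprod g (0, x) = g x := by simp

omit [CharZero K] in
theorem tt_ex (n : ℕ) (a1 ah ae b1 : K) : ∃ χ : (TT (W0 K) n).X →ₗ[K] (MM K 0).X,
    Hom (TT (W0 K) n) (MM K 0) χ ∧ χ (j1 (W0 K) 0 n true 1, 0) 0 = a1 ∧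
      χ (jH (W0 K) 0 n true 1, 0) 0 = ah ∧ χ (jE (W0 K) 0 n true 1, 0) 0 = ae ∧
      χ (0, j1 (W0 K).sft 1 n true 1) 0 = b1 := by
  refine ⟨_, (xl_hom Nat.cast_zero sup0 0 n (fun _ => a1) (fun _ => ah) (fun _ => ae) 0).coprod
    (xl_hom Nat.cast_zero sup0.sft 1 n (fun _ => b1) 0 0 0), ?_, ?_, ?_, ?_⟩
  · rw [cop_l, xl, ilf_1, xv_true]
  · rw [cop_l, xl, ilf_H, xv_true]
  · rw [cop_l, xl, ilf_E, xv_true]
  · rw [cop_r, xl, ilf_1, xv_true]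

theorem zg_t0 : ZG (WinM (infl (XK K))) (WinM (Lam (Tn (XK K) 0))) 1 := by
  have hr := ((tot_rs (W0 K)).tn 0).lam
  refine hr.zgs (fun n => ((ttG n).tn 0).lam.spl ?_) fun n φ hφ h0 => ?_
  · rintro ⟨i | i, a⟩
    · exact iqG_dg G0 (b := 1) (fun _ => Nat.zero_le 1) i
    · exact iqG_dg (W := (W0 K).sft) G0.sft (b := 1) (fun _ => le_rfl) i
  have c := coch_cm hφ
  have zl : ∀ {x}, InW (IQ (W0 K) 0 (n + 2)) x → coch 0 φ (dT (W0 K) (n + 1) (x, 0)) 0 = 0 :=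
    fun hx => coch_zero h0 (InW.map (inl_hom (Z := IQ (W0 K).sft 1 (n + 2))) hx) le_rfl
  have zr : ∀ {x}, InW (IQ (W0 K).sft 1 (n + 2)) x → coch 0 φ (dT (W0 K) (n + 1) (0, x)) 0 = 0 :=
    fun hx => coch_zero h0 (InW.map (inr_hom (Y := IQ (W0 K) 0 (n + 2))) hx) le_rfl
  have m1 := sft_mem (mem0 (K := K))
  have m2 := sft_mem m1
  have m3 := sft_mem m2
  refine he_td (ttG (n + 1)) ?_ ((tot_rs (W0 K)).hd n) hφ fun _ => ?_
  · rintro (i | i)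
    · exact iqG_cp G0 rfl i
    · exact iqG_cp (W := (W0 K).sft) G0.sft rfl i
  by_cases hn : (n + 1) % 2 = 0
  · obtain ⟨χ, h3, -, vH, vE, w1⟩ := tt_ex n 0 (coch 0 φ (0, jE (W0 K).sft 1 (n + 1) true 1) 0)
      (coch 0 φ (jR (W0 K) 0 (n + 1) true 1, 0) 0 / 2)
      (coch 0 φ (0, jH (W0 K).sft 1 (n + 1) true 1) 0 / (-2))
    have c' : Cm _ 0 _ := h3.comm
    have e1 := zr ((jR_fc (W0 K).sft 1 (n + 2)).inw (t := true) (by simp [pr]; omega) le_rfl m3)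
    rw [c.bR] at e1
    have e2 : kap K (n + 1) true ≠ 0 := Nat.cast_ne_zero.2 (by omega)
    refine ⟨_, h3, ttG_cases (P := fun x => ∀ b ≤ 0, coch 0 φ x b = χ
      (dT (W0 K) n x) b) ?_ ?_ ?_ ?_ ?_ ?_ ?_ ?_⟩ <;> rintro (_ | _) ht b hb <;>
      obtain rfl : b = 0 := by omega
    · rw [c.yl (j1_ty _ _ _), c'.a1]
    · rw [c'.a1]
      exact (mul_eq_zero.1 e1).resolve_left e2
    · rw [c.yl (jH_ty _ _ _), c'.aH]
    · simp [pr] at ht
      omega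
    · rw [c.yl (jE_ty _ _ _), c'.aE]
    · simp [pr] at ht
      omega
    · rw [c.yl (jR_ty _ _ _), c'.aR, c'.yl (jE_ty _ _ _), mul_zero]
    · rw [c'.aR, vE]
      field_simp
    · rw [c.yr (j1_ty _ _ _), c'.b1]
    · simp [pr] at ht
      omega
    · rw [c.yr (jH_ty _ _ _), c'.bH, c'.yr (j1_ty _ _ _), mul_zero]
    · rw [c'.bH, w1]
      field_simp
    · rw [c.yr (jE_ty _ _ _), c'.bE, c'.yl (jH_ty _ _ _)]
    · rw [c'.bE, vH]
    · rw [c.yr (jR_ty _ _ _), c'.bR, c'.yl (j1_ty _ _ _), mul_zero]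
    · simp [pr] at ht
      omega
  · obtain ⟨χ, h3, v1, -⟩ := tt_ex n
      (coch 0 φ (0, jR (W0 K).sft 1 (n + 1) true 1) 0 / kap K n true) 0 0 0
    have c' : Cm _ 0 _ := h3.comm
    have e1 := zl ((jR_fc (W0 K) 0 (n + 2)).inw (t := true) (by simp [pr]; omega) (by omega) m2)
    have e2 := zr ((jH_fc (W0 K).sft 1 (n + 2)).inw (t := true) (by simp [pr]; omega)
      (by omega) m2)
    have e3 := zr ((jE_fc (W0 K).sft 1 (n + 2)).inw (t := true) (by simp [pr]; omega)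
      (by omega) m2)
    rw [c.aR] at e1
    rw [c.bH] at e2
    rw [c.bE] at e3
    refine ⟨_, h3, ttG_cases (P := fun x => ∀ b ≤ 0, coch 0 φ x b = χ
      (dT (W0 K) n x) b) ?_ ?_ ?_ ?_ ?_ ?_ ?_ ?_⟩ <;> rintro (_ | _) ht b hb <;>
      obtain rfl : b = 0 := by omega
    · rw [c.yl (j1_ty _ _ _), c'.a1]
    · simp [pr] at ht
      omega
    · rw [c.yl (jH_ty _ _ _), c'.aH]
    · rw [c'.aH, e3]
    · rw [c.yl (jE_ty _ _ _), c'.aE]
    · rw [c'.aE]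
      exact (mul_eq_zero.1 e1).resolve_left two_ne_zero
    · rw [c.yl (jR_ty _ _ _), c'.aR, c'.yl (jE_ty _ _ _), mul_zero]
    · simp [pr] at ht
      omega
    · rw [c.yr (j1_ty _ _ _), c'.b1]
    · rw [c'.b1]
      exact (mul_eq_zero.1 e2).resolve_left (neg_ne_zero.2 two_ne_zero)
    · rw [c.yr (jH_ty _ _ _), c'.bH, c'.yr (j1_ty _ _ _), mul_zero]
    · simp [pr] at ht
      omega
    · rw [c.yr (jE_ty _ _ _), c'.bE, c'.yl (jH_ty _ _ _)]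
    · simp [pr] at ht
      omega
    · rw [c.yr (jR_ty _ _ _), c'.bR, c'.yl (j1_ty _ _ _), mul_zero]
    · have e4 : kap K n true ≠ 0 := Nat.cast_ne_zero.2 (by have := ht.1; omega)
      rw [c'.bR, v1]
      field_simp

omit [CharZero K] in
theorem ZG.hom {A : Type u} [Ring A] {S M : ModuleCat.{u} A} (h : ZG S M 0) (θ : M →ₗ[A] S) :
    θ = 0 := by
  have := (Ext.mk₀_eq_zero_iff (ModuleCat.ofHom θ : M ⟶ S)).1 (h 0 le_rfl _)
  exact congrArg ModuleCat.Hom.hom this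

theorem zg_xx : ZG (WinM (infl (XK K))) (WinM (infl (XK K))) 1 := by
  refine zg_iso (M2 := WinM (infl (Tn (XK K) 0))) _ (t0_bij _) ((kos_rs (XK K)).zg ?_
    fun n θ _ => ⟨0, ((zg_tn n).hom θ).trans (LinearMap.zero_comp _).symm⟩)
  rintro (_ | n)
  · exact zg_t0
  · exact (zg_tn n).mono (by omega)

end Vale.Agent.P195
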