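import Vale.Agent.P195.Res

/- The periodic resolution and the basic short exact sequences. -/

namespace Vale.Agent.P195

open Vale.Agent.P176 (PieceExact SE tri)

universe u

variable {K : Type u} [Field K]

section DD

variable (X : Type u) [AddCommGroup X] [Module K X]

noncomputable def DD (τ : K) : FX K X X →ₗ[K] FX K X X where
  toFun := fun x => ((x.1.2.1.1, 0, τ • pU K X x.1.1), (x.2.2, 0))
  map_add' := fun x y => by simp
  map_smul' := fun a x => by simp [smul_comm a τ]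

variable (K) in
noncomputable def AU : FX K X X →ₗ[K] (ℕ →₀ ℕ →₀ X) :=
  pU K X ∘ₗ LinearMap.fst K _ _ ∘ₗ LinearMap.fst K _ _

variable {X}

theorem DD_apply (τ : K) (x : FX K X X) :
    DD X τ x = ((x.1.2.1.1, 0, τ • pU K X x.1.1), (x.2.2, 0)) := rfl

theorem AU_apply (x : FX K X X) : AU K X x = pU K X x.1.1 := rfl

theorem DD_comm (τ : K) (i : ℕ) (hi : i < 6) (x : FX K X X) :
    DD X τ (fop K X X i x) = fop K X X i (DD X τ x) := by
  have hI : pU K X x.1.2.1.1 = 0 := x.1.2.1.2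
  interval_cases i
  · simp [DD_apply, fop0, pU]
  · simp [DD_apply, fop1, pU]
  · simp [DD_apply, fop2, Prod.ext_iff]
  · simp [DD_apply, fop3, Prod.ext_iff]
  · simp [DD_apply, fop4, Prod.ext_iff]
  · simp [DD_apply, fop5, Prod.ext_iff, pU_vv]

theorem AU_comm (i : ℕ) (hi : i < 6) (x : FX K X X) :
    AU K X (fop K X X i x) = hop (eh (sh K)) (sh K) i (AU K X x) := by
  interval_cases i
  · simp [AU_apply, fop0, pU, hop]
  · simp [AU_apply, fop1, pU, hop]
  · simp [AU_apply, fop2, hop]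
  · simp [AU_apply, fop3, hop]
  · simp [AU_apply, fop4, hop]
  · simp [AU_apply, fop5, hop, pU_vv]

theorem frF_bot {n : ℤ} {p : List Bool →₀ X} (hp : p ∈ frF (fun _ => (⊥ : Submodule K X)) n) :
    p = 0 := Finsupp.ext fun a => hp a

theorem ind_bot {n : ℤ} {p : ℕ →₀ ℕ →₀ X}
    (hp : p ∈ indF (indF fun _ => (⊥ : Submodule K X)) n) : p = 0 :=
  Finsupp.ext fun a => Finsupp.ext fun b => hp a b

theorem mid_x (F : ℤ → Submodule K X) (n : ℤ) (τ : K) {x : FX K X X}
    (hx : x ∈ fF F (fun _ => ⊥) n) (h : pU K X x.1.1 = 0) :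
    ∃ y ∈ fF (fun _ => ⊥) F n, DD X τ y = x := by
  refine ⟨((0, ⟨x.1.1, h⟩, 0), (0, x.2.1)), ⟨⟨Submodule.zero_mem _, hx.1.1, Submodule.zero_mem _⟩,
    Submodule.zero_mem _, hx.2.1⟩, ?_⟩
  have h1 : x.1.2.1 = 0 := Subtype.ext (frF_bot (n := n) hx.1.2.1)
  have h2 : x.1.2.2 = 0 := ind_bot hx.1.2.2
  have h3 : x.2.2 = 0 := frF_bot hx.2.2
  obtain ⟨⟨a, i, u⟩, b, c⟩ := x
  dsimp only at h1 h2 h3
  subst h1 h2 h3
  simp [DD_apply]

theorem DD_DD (σ τ : K) (x : FX K X X) : DD X σ (DD X τ x) = 0 := by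
  have hI : pU K X x.1.2.1.1 = 0 := x.1.2.1.2
  simp [DD_apply, hI, Prod.ext_iff]

theorem mid_xy (F : ℤ → Submodule K X) (n : ℤ) :
    Mid (fF (fun _ => ⊥) F n) (fF F (fun _ => ⊥) n) (DD X (1 : K)) (DD X (1 : K)) :=
  ⟨fun x _ => DD_DD 1 1 x, fun x hx h => mid_x F n 1 hx (by
    simpa [DD_apply] using congrArg (·.1.2.2) h)⟩

theorem mid_aug (F : ℤ → Submodule K X) (n : ℤ) :
    Mid (fF (fun _ => ⊥) F n) (fF F (fun _ => ⊥) n) (DD X (1 : K)) (AU K X) :=
  ⟨fun x _ => x.1.2.1.2, fun _ hx h => mid_x F n 1 hx h⟩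

theorem mid_yx (F : ℤ → Submodule K X) (n : ℤ) :
    Mid (fF F (fun _ => ⊥) n) (fF (fun _ => ⊥) F n) (DD X (1 : K)) (DD X (1 : K)) := by
  refine ⟨fun x _ => DD_DD 1 1 x, fun x hx h => ⟨((nfw K X x.1.2.2, 0, 0), 0),
    ⟨⟨nfw_mem hx.1.2.2, Submodule.zero_mem _⟩, Submodule.zero_mem _⟩, ?_⟩⟩
  have h1 : x.1.2.1 = 0 := Subtype.ext (congrArg (·.1.1) h)
  have h2 : x.1.1 = 0 := frF_bot hx.1.1
  have h3 : x.2.2 = 0 := congrArg (·.2.1) h
  have h4 : x.2.1 = 0 := frF_bot hx.2.1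
  obtain ⟨⟨a, i, u⟩, b, c⟩ := x
  dsimp only at h1 h2 h3 h4
  subst h1 h2 h3 h4
  simp [DD_apply, pU_nfw]

theorem onto_aug (F : ℤ → Submodule K X) (n : ℤ) :
    Onto (fF F (fun _ => ⊥) n) (indF (indF F) n) (AU K X) := fun u hu =>
  ⟨((nfw K X u, 0, 0), 0), ⟨⟨nfw_mem hu, Submodule.zero_mem _⟩, Submodule.zero_mem _⟩,
    pU_nfw K X u⟩

end DD

theorem fr_ext {W1 W0 : L0 K} {Z : Obj K 6} {φ ψ : FX K W1.X W0.X →ₗ[K] Z.X}
    (hφ : ∀ i < 6, ∀ x, φ (fop K W1.X W0.X i x) = Z.op i (φ x))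
    (hψ : ∀ i < 6, ∀ x, ψ (fop K W1.X W0.X i x) = Z.op i (ψ x))
    (h1 : ∀ w, φ (incx K W1.X W0.X w) = ψ (incx K W1.X W0.X w))
    (h0 : ∀ w, φ (incy K W1.X W0.X w) = ψ (incy K W1.X W0.X w)) (x : FX K W1.X W0.X) :
    φ x = ψ x :=
  fr_gen_top (S := LinearMap.eqLocus φ ψ) (fun i hi x hx => by
    change φ (fop K W1.X W0.X i x) = ψ (fop K W1.X W0.X i x)
    rw [hφ i hi, hψ i hi, show φ x = ψ x from hx]) h1 h0 x

theorem hom_of_comm {W1 W0 : L0 K} {Z : Obj K 6} {φ : FX K W1.X W0.X →ₗ[K] Z.X}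
    (hφ : ∀ i < 6, ∀ x, φ (fop K W1.X W0.X i x) = Z.op i (φ x))
    (f1 : ∀ c n, ∀ w ∈ W1.F c n, φ (incx K W1.X W0.X w) ∈ Z.F c n)
    (f0 : ∀ c n, ∀ w ∈ W0.F c n, φ (incy K W1.X W0.X w) ∈ Z.F c n) : Hom (Fr W1 W0) Z φ := by
  have h := flift_hom (W1 := W1) (W0 := W0) (Y := Z) (ψ1 := φ ∘ₗ incx K W1.X W0.X)
    (ψ0 := φ ∘ₗ incy K W1.X W0.X) (fun w => (hφ 4 (by omega) _).symm)
    (fun w => (hφ 4 (by omega) _).symm.trans (map_zero φ)) f1 f0
  refine ⟨hφ, fun c n x hx => ?_⟩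
  rw [fr_ext hφ h.comm (fun w => (flift_incx Z (φ ∘ₗ incx K W1.X W0.X) _ w).symm)
    (fun w => (flift_incy Z _ (φ ∘ₗ incy K W1.X W0.X) w).symm) x]
  exact h.filt c n x hx

def pr (s n : ℕ) (t : Bool) : Prop := s ≤ n ∧ (n + s) % 2 = if t then 0 else 1

variable (K) in
def tau (s n : ℕ) : K := if s ≤ n then 1 else 0

theorem tau_succ (s n : ℕ) : tau K (s + 1) (n + 1) = tau K s n := by simp [tau]

theorem pr_succ {s n : ℕ} {t : Bool} (h : pr (s + 1) (n + 1) t) : pr s n t := by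
  unfold pr at *
  cases t <;> simp at * <;> omega

theorem pr_succ2 {s n : ℕ} {t : Bool} (h : pr (s + 1 + 1) n t) : pr s n t := by
  unfold pr at *
  cases t <;> simp at * <;> omega

theorem pr_flip {s n : ℕ} {t : Bool} (h : pr (s + 1) n t) : pr s n (!t) := by
  unfold pr at *
  cases t <;> simp at * <;> omega

structure Fl (K : Type u) [Field K] (X : Type u) [AddCommGroup X] [Module K X] where
  F : C7 → ℤ → Submodule K X
  mono : ∀ c n, F c n ≤ F c (n + 1)

variable {X : Type u} [AddCommGroup X] [Module K X]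

@[reducible] def Fl.l0 (W : Fl K X) : L0 K where
  X := X
  F := W.F
  mono := W.mono

theorem Fl.mono' (W : Fl K X) {c : C7} {m n : ℤ} (h : m ≤ n) : W.F c m ≤ W.F c n :=
  mono_of_step (W.mono c) h

def Fl.sft (W : Fl K X) : Fl K X where
  F := fun c n => W.F c (n - 1)
  mono := fun _ _ => W.mono' (by omega)

/-- The terms of the periodic resolution. -/
noncomputable def Pw (W : Fl K X) (s n : ℕ) : Obj K 6 :=
  Fr (W.l0.cond (pr s n true)) (W.l0.cond (pr s n false))

noncomputable def pg (W : Fl K X) (s n : ℕ) (t : Bool) : X →ₗ[K] (Pw W s n).X :=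
  if t then incx K X X else incy K X X

def TY {j : ℕ} (Z : Obj K j)
    (ψ : Bool → X →ₗ[K] Z.X) : Prop :=
  (∀ w, Z.op 4 (ψ true w) = ψ true w) ∧ ∀ w, Z.op 4 (ψ false w) = 0

def FC {j : ℕ} (W : Fl K X) (Z : Obj K j) (s n : ℕ) (ψ : Bool → X →ₗ[K] Z.X) : Prop :=
  ∀ t, pr s n t → ∀ c k, ∀ w ∈ W.F c k, ψ t w ∈ Z.F c k

variable (W : Fl K X) (s n : ℕ)

theorem pg_ty : TY (Pw W s n) (pg W s n) := ⟨fun _ => rfl, fun _ => rfl⟩

theorem pg_fc : FC W (Pw W s n) s n (pg W s n) := by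
  rintro (_ | _) ht c k w hw
  · exact incy_mem (W1 := W.l0.cond (pr s n true)) (W0 := W.l0.cond (pr s n false))
      ⟨hw, fun h => absurd ht h⟩
  · exact incx_mem (W1 := W.l0.cond (pr s n true)) (W0 := W.l0.cond (pr s n false))
      ⟨hw, fun h => absurd ht h⟩

noncomputable def plf (Z : Obj K 6) (ψ : Bool → X →ₗ[K] Z.X) : (Pw W s n).X →ₗ[K] Z.X :=
  flift Z (ψ true) (ψ false)

@[simp] theorem plf_pg (Z : Obj K 6) (ψ : Bool → X →ₗ[K] Z.X) (t : Bool) (w : X) :
    plf W s n Z ψ (pg W s n t w) = ψ t w := by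
  cases t
  · exact flift_incy _ _ _ _
  · exact flift_incx _ _ _ _

variable {W s n}

theorem plf_hom {Z : Obj K 6} {ψ : Bool → X →ₗ[K] Z.X} (h1 : TY Z ψ) (h2 : FC W Z s n ψ) :
    Hom (Pw W s n) Z (plf W s n Z ψ) := by
  refine flift_hom h1.1 h1.2 (fun c k w hw => ?_) fun c k w hw => ?_
  · by_cases h : pr s n true
    · exact h2 _ h c k w hw.1
    · rw [hw.2 h, map_zero]
      exact Submodule.zero_mem _
  · by_cases h : pr s n false
    · exact h2 _ h c k w hw.1
    · rw [hw.2 h, map_zero]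
      exact Submodule.zero_mem _

theorem pw_ext {Z : Obj K 6} {φ ψ : (Pw W s n).X →ₗ[K] Z.X} (hφ : Hom (Pw W s n) Z φ)
    (hψ : Hom (Pw W s n) Z ψ) (h : ∀ t w, φ (pg W s n t w) = ψ (pg W s n t w))
    (x : (Pw W s n).X) : φ x = ψ x :=
  fr_ext (W1 := W.l0.cond (pr s n true)) (W0 := W.l0.cond (pr s n false)) hφ.comm hψ.comm (h true)
    (h false) x

theorem pw_hom {Z : Obj K 6} {φ : (Pw W s n).X →ₗ[K] Z.X}
    (hc : ∀ i < 6, ∀ x, φ ((Pw W s n).op i x) = Z.op i (φ x))
    (h2 : FC W Z s n fun t => φ ∘ₗ pg W s n t) : Hom (Pw W s n) Z φ := by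
  refine hom_of_comm (W1 := W.l0.cond (pr s n true)) (W0 := W.l0.cond (pr s n false)) hc
    (fun c k w hw => ?_) fun c k w hw => ?_
  · by_cases h : pr s n true
    · exact h2 _ h c k w hw.1
    · have : φ (pg W s n true w) = 0 := by rw [hw.2 h, map_zero, map_zero]
      exact (congrArg (· ∈ Z.F c k) this).mpr (Submodule.zero_mem _)
  · by_cases h : pr s n false
    · exact h2 _ h c k w hw.1
    · have : φ (pg W s n false w) = 0 := by rw [hw.2 h, map_zero, map_zero]
      exact (congrArg (· ∈ Z.F c k) this).mpr (Submodule.zero_mem _)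

variable (W s n)

noncomputable def dP : (Pw W s (n + 1)).X →ₗ[K] (Pw W s n).X := DD X (tau K s n)

@[simp] theorem dP_x (w : X) :
    dP W s n (pg W s (n + 1) true w) = tau K s n • (Pw W s n).op 3 (pg W s n false w) := by
  change DD X _ (incx K X X w) = tau K s n • fop K X X 3 (incy K X X w)
  simp [DD_apply, incx_apply, incy_apply, fop3, Prod.ext_iff]

@[simp] theorem dP_y (w : X) :
    dP W s n (pg W s (n + 1) false w) = (Pw W s n).op 2 (pg W s n true w) := by
  change DD X _ (incy K X X w) = fop K X X 2 (incx K X X w)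
  simp [DD_apply, incx_apply, incy_apply, fop2, Prod.ext_iff]

theorem dP_hom : Hom (Pw W s (n + 1)) (Pw W s n) (dP W s n) := by
  refine pw_hom (DD_comm _) ?_
  rintro (_ | _) h c k w hw
  · rw [LinearMap.comp_apply, dP_y]
    refine (Pw W s n).comp0 (by omega) (by omega) (by omega) (pg_fc W s n true ?_ c k w hw)
    unfold pr at *
    simp at *
    omega
  · rw [LinearMap.comp_apply, dP_x]
    by_cases h' : s ≤ n
    · refine Submodule.smul_mem _ _ ((Pw W s n).comp0 (by omega) (by omega) (by omega)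
        (pg_fc W s n false ?_ c k w hw))
      unfold pr at *
      simp at *
      omega
    · rw [tau, if_neg h', zero_smul]
      exact Submodule.zero_mem _

noncomputable def aP : (Pw W s s).X →ₗ[K] (ℕ →₀ ℕ →₀ X) := AU K X

@[simp] theorem aP_x (w : X) : aP W s (pg W s s true w) = uinc K X w := by
  change AU K X (incx K X X w) = _
  simp [AU_apply, incx_apply, pU]

@[simp] theorem aP_y (w : X) : aP W s (pg W s s false w) = 0 := by
  change AU K X (incy K X X w) = _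
  simp [AU_apply, incy_apply]

theorem Pw_F_x {s n : ℕ} (h : pr s n true) (c : C7) :
    (Pw W s n).F c = fF (W.F c) fun _ => ⊥ := by
  have h' : ¬ pr s n false := by
    unfold pr at *
    simp at *
    omega
  change fF (fun k => condF _ (W.F c k)) (fun k => condF _ (W.F c k)) = _
  simp only [condF_pos h, condF_neg h']

theorem Pw_F_y {s n : ℕ} (h : pr s n false) (c : C7) :
    (Pw W s n).F c = fF (fun _ => ⊥) (W.F c) := by
  have h' : ¬ pr s n true := by
    unfold pr at *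
    simp at *
    omega
  change fF (fun k => condF _ (W.F c k)) (fun k => condF _ (W.F c k)) = _
  simp only [condF_pos h, condF_neg h']

theorem pw_rs : Rs (Pw W s) (UU W.l0) s (dP W s) (aP W s) where
  hd := dP_hom W s
  ha := ⟨AU_comm, fun c k x hx => by
    rw [Pw_F_x W (by simp [pr]; omega)] at hx
    exact pU_mem (W.mono c) hx.1.1⟩
  mid := fun n hn c k => by
    unfold dP
    rw [tau, tau, if_pos hn, if_pos (by omega)]
    by_cases h : (n + s) % 2 = 0
    · rw [Pw_F_x W (n := n + 2) (by simp [pr]; omega),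
        Pw_F_y W (n := n + 1) (by simp [pr]; omega)]
      exact mid_yx _ _
    · rw [Pw_F_y W (n := n + 2) (by simp [pr]; omega),
        Pw_F_x W (n := n + 1) (by simp [pr]; omega)]
      exact mid_xy _ _
  mid0 := fun c k => by
    unfold dP
    rw [tau, if_pos le_rfl, Pw_F_y W (n := s + 1) (by simp [pr]; omega),
      Pw_F_x W (n := s) (by simp [pr]; omega)]
    exact mid_aug _ _
  onto := fun c k => by
    rw [Pw_F_x W (n := s) (by simp [pr]; omega)]
    exact onto_aug _ _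
  low := fun n hn c k x hx => by
    have h1 : ∀ t, ¬ pr s n t := fun t h => by
      have := h.1
      omega
    change x ∈ fF (fun k => condF _ (W.F c k)) (fun k => condF _ (W.F c k)) k at hx
    simp only [condF_neg (h1 _)] at hx
    exact Prod.ext (Prod.ext (frF_bot hx.1.1) (Prod.ext (Subtype.ext (frF_bot (n := k) hx.1.2.1))
      (ind_bot hx.1.2.2))) (Prod.ext (frF_bot hx.2.1) (frF_bot hx.2.2))

variable {W} in
noncomputable def pwG {I : Type} (G : LG W.l0 I) : Gens (Pw W s n) (I ⊕ I) :=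
  Gens.fr (G.cond _) (G.cond _)

theorem pw_de : DE (Pw W s n) := fr_de _ _

section SES

theorem smul_mem1 (μ : K) (c : C7) (n : ℤ) (x : X) (hx : x ∈ W.F c n) :
    (μ • LinearMap.id : Module.End K X) x ∈ W.F c (n + 1) :=
  Submodule.smul_mem _ _ (W.mono c n hx)

@[reducible] noncomputable def Em (μ : K) : Obj K 6 := Ee W.l0 (μ • LinearMap.id) (smul_mem1 W μ)

@[reducible] def Km (μ : K) : Obj K 6 :=
  hon (μ • LinearMap.id) 0 W.F W.mono (smul_mem1 W μ) (fun _ _ _ _ => Submodule.zero_mem _)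
    (fun x => by simp)

@[reducible] def Kt : Obj K 7 where
  X := X
  op := hop 0 0
  F := W.F
  mono := W.mono
  comp := fun i hi c n x hx => by
    rw [cs_lt hi, add_zero]
    unfold hop
    split_ifs
    · exact Submodule.zero_mem _
    · exact Submodule.zero_mem _
    · exact W.mono' (by have := dg_nonneg i; omega) hx
    · exact Submodule.zero_mem _
  relD := by constructor <;> intro x <;> simp [hop]
  relF := fun _ => RelF'.contract (by constructor <;> intro x <;> simp [hop])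
  relV := fun h => absurd h (by omega)

theorem eh_cw {X Y : Type u} [AddCommGroup X] [Module K X] [AddCommGroup Y] [Module K Y]
    {N : Module.End K X} {N' : Module.End K Y} {φ : X →ₗ[K] Y} (h : ∀ x, φ (N x) = N' (φ x))
    (p : ℕ →₀ X) : cw φ (eh N p) = eh N' (cw φ p) := by
  ext a
  simp [eh, h]

theorem cw_sh {X Y : Type u} [AddCommGroup X] [Module K X] [AddCommGroup Y] [Module K Y]
    (φ : X →ₗ[K] Y) (p : ℕ →₀ X) : cw φ (sh K p) = sh K (cw φ p) := by
  ext (_ | a) <;> simp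

theorem fg_mem {X : Type u} [AddCommGroup X] [Module K X] {N : Module.End K X}
    {F : ℤ → Submodule K X} (hN : ∀ n, ∀ x ∈ F n, N x ∈ F (n + 1)) {p : ℕ →₀ X} {n : ℤ}
    (h : p ∈ indF F n) : fg N p ∈ F n := plift_mem hN (fun _ _ h => h) h

theorem ses1 (μ : K) : OSES (UU W.sft.l0) (UU W.l0) (Em W μ) (cw (ff (μ • LinearMap.id)))
    (cw (fg (μ • LinearMap.id))) where
  hf := ⟨fun i _ => hon_hom (eh_cw fun x => by simp [ff, cw_sh]) (cw_sh _) i,
    fun c n p hp a => by
      rw [cw_apply]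
      exact ff_mem (smul_mem1 W μ c) (hp a)⟩
  hg := ⟨fun i _ => hon_hom (eh_cw fun x => plift_sh _ _ x) (cw_sh _) i,
    fun c n p hp a => by
      rw [cw_apply]
      exact fg_mem (smul_mem1 W μ c) (hp a)⟩
  ex := fun c => pieceExact_ind (fund (smul_mem1 W μ c))

theorem zero_mem1 (c : C7) (n : ℤ) (x : X) (_ : x ∈ W.F c n) :
    (0 : Module.End K X) x ∈ W.F c (n + 1) := Submodule.zero_mem _

theorem ff_zero {X : Type u} [AddCommGroup X] [Module K X] (p : ℕ →₀ X) :
    ff (0 : Module.End K X) p = sh K p := by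
  ext a
  simp [ff]

theorem fg_zero {X : Type u} [AddCommGroup X] [Module K X] (p : ℕ →₀ X) :
    fg (0 : Module.End K X) p = p 0 := by
  induction p using Finsupp.induction_linear with
  | zero => simp
  | add p q hp hq => simp [hp, hq]
  | single a y => rcases a with _ | a <;> simp [fg_single]

theorem ses2 (μ : K) : OSES (Em W.sft (μ + 2)) (Em W μ) (Km W μ) (ff 0) (fg 0) where
  hf := ⟨fun i _ => hon_hom (fun p => by
      rw [ff_zero, ff_zero, eh_sh, ← map_smul, ← map_add]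
      congr 1
      ext a
      simp [eh]
      module) (fun p => by rw [ff_zero, ff_zero]) i,
    fun c n p hp => ff_mem (zero_mem1 W c) hp⟩
  hg := ⟨fun i _ => hon_hom (fun p => by simp [fg_zero, eh]) (fun p => by simp [fg_zero]) i,
    fun c n p hp => fg_mem (zero_mem1 W c) hp⟩
  ex := fun c => fund (zero_mem1 W c)

theorem iop_Km (μ : K) (i : ℕ) (p : ℕ →₀ X) (b : ℕ) :
    iop (Km W μ) i p b = hop (K := K) (μ • LinearMap.id) 0 i (p b) + ((b : K) * cf K i) • p b +
      df K i • (((b : K) + 1) • hop (K := K) (μ • LinearMap.id) 0 (lw i) (p (b + 1)) +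
        (cf K (lw i) * tri (b + 1)) • p (b + 1)) := iop_apply (Km W μ) i p b

theorem iop_sh_Km (i : ℕ) (hi : i < 6) (p : ℕ →₀ X) :
    sh K (iop (Km W.sft (-2)) i p) = iop (Km W 0) i (sh K p) := by
  ext (_ | b)
  · rw [iop_Km]
    interval_cases i <;> simp [hop, cf, df, lw, tri]
  · rw [iop_Km, sh_apply_succ, iop_Km W.sft]
    interval_cases i <;>
    · simp [hop, cf, df, lw, tri, Finset.sum_range_succ]
      try module

theorem ses3 : OSES (Ind (Km W.sft (-2))) (Ind (Km W 0)) (Kt W) (ff 0) (fg 0) where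
  hf := ⟨fun i hi p => by
      rw [ff_zero, ff_zero]
      by_cases h : i = 6
      · subst h
        rfl
      · rw [Ind_op_lt _ (by omega), Ind_op_lt _ (by omega)]
        exact iop_sh_Km W i (by omega) p,
    fun c n p hp => ff_mem (zero_mem1 W c) hp⟩
  hg := lift_hom (Y := Km W 0) (Z := Kt W) (ψ := LinearMap.id)
    ⟨fun i _ => hon_hom (fun x => by simp) (fun x => by simp) i, fun _ _ _ h => h⟩
  ex := fun c => fund (zero_mem1 W c)

end SES

end Vale.Agent.P195
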