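import Vale.Agent.P195.LSide

/- Exactness of the complex of projective modules and its homotopy reductions. -/

set_option linter.unusedVariables false
set_option linter.unusedSimpArgs false
set_option linter.unusedSectionVars false
set_option linter.unnecessarySeqFocus false
set_option linter.unusedTactic false
set_option linter.unreachableTactic false

namespace Vale.Agent.P195

open MulOpposite Lam

variable {k : Type} [Field k] [CharP k 2]
variable {C : Type} [Ring C] [Algebra k C] [FiniteDimensional k C] (cd : CD k C) {H : k}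
  (hH : H ≠ 0)

abbrev dZ : (Ix → Lam cd H) →ₗ[k] (Ix → Lam cd H) := (ZZ cd hH).op.δ (regR k (Lam cd H))

theorem dZ0 (x : Ix → Lam cd H) (j : ℤ) (n : NN) : dZ cd hH x (0, j, n) =
    x (0, j, n + -vN 0) * mL cd H ((cd.F j).c 0 (n + -vN 0)) 0 +
    x (0, j, n + -vN 1) * mL cd H ((cd.F j).c 1 (n + -vN 1)) 0 +
    x (0, j + 1, n) * mL cd H 0 (cd.σ (j + 1) n) +
    x (1, j, n) * mP cd H ((cd.F j).e n) (H ^ j • (cd.F j).e n) := by
  rw [FC.δ_apply, Fin.sum_univ_four]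
  simp [FC.op, regR, ZZ, zc, zu, c3, sel, -vN0, -vN1]

theorem dZ1 (x : Ix → Lam cd H) (j : ℤ) (n : NN) : dZ cd hH x (1, j, n) =
    x (1, j, n + -vN 0) * mR cd H ((cd.F j).c 0 (n + -vN 0)) 0 +
    x (1, j, n + -vN 1) * mR cd H ((cd.F j).c 1 (n + -vN 1)) 0 +
    x (1, j + 1, n) * mR cd H 0 (cd.σ (j + 1) n) +
    x (2, j, n) * mT cd H (if j = 0 then cd.P.e n else 0) (if j = -1 then cd.Q.e n else 0) := by
  rw [FC.δ_apply, Fin.sum_univ_four]
  simp [FC.op, regR, ZZ, zc, zu, c3, sel, -vN0, -vN1]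

theorem dZ2 (x : Ix → Lam cd H) {t : ℤ} (h0 : t ≠ 0) (h1 : t ≠ 1) (h2 : t ≠ -1) (j : ℤ) (n : NN) :
    dZ cd hH x (t, j, n) =
    x (t, j, n + -vN 0) * mC cd H (cd.pc 0 (t, j, n + -vN 0)) +
    x (t, j, n + -vN 1) * mC cd H (cd.pc 1 (t, j, n + -vN 1)) +
    x (t, j + 1, n) * mC cd H (cd.pu (t, j + 1, n)) := by
  rw [FC.δ_apply, Fin.sum_univ_four]
  have : t + 1 ≠ 2 := by omega
  simp [FC.op, regR, ZZ, zc, zu, c3, sel, -vN0, -vN1, *]

theorem dZ3 (x : Ix → Lam cd H) {t : ℤ} (h0 : t ≠ 0) (h1 : t ≠ 1) (h2 : t ≠ 2) (j : ℤ) (n : NN) :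
    dZ cd hH x (t, j, n) = 0 := by
  rw [FC.δ_apply, Fin.sum_univ_four]
  have : t + 1 ≠ 2 := by omega
  simp [FC.op, regR, ZZ, zc, zu, c3, sel, CD.pc, CD.pu, -vN0, -vN1, *]

def Lab (x : Ix → Lam cd H) : Prop := ∀ i, x i * ze cd H i = x i

variable {cd}

theorem Lab.l0 {x : Ix → Lam cd H} (h : Lab cd x) (j : ℤ) (n : NN) :
    x (0, j, n) * mL cd H ((cd.F j).e n) 0 = x (0, j, n) := h (0, j, n)

theorem Lab.l1 {x : Ix → Lam cd H} (h : Lab cd x) (j : ℤ) (n : NN) :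
    x (1, j, n) * mR cd H ((cd.F j).e n) 0 = x (1, j, n) := h (1, j, n)

theorem Lab.l2 {x : Ix → Lam cd H} (h : Lab cd x) {t : ℤ} (h0 : t ≠ 0) (h1 : t ≠ 1) (j : ℤ)
    (n : NN) : x (t, j, n) * mC cd H (cd.pe (t, j, n)) = x (t, j, n) := by
  simpa [ze, sel, h0, h1] using h (t, j, n)

theorem Lab.l3 {x : Ix → Lam cd H} (h : Lab cd x) {t : ℤ} (h0 : t ≠ 0) (h1 : t ≠ 1) (h2 : t ≠ 2)
    (j : ℤ) (n : NN) : x (t, j, n) = 0 := by
  simpa [CD.pe, h2, eq_comm] using h.l2 h0 h1 j n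

variable (cd)

theorem top_exact (p : ℤ → Prop) (Aug : C → Prop)
    (S : ∀ a0 a1 : ℤ → NN → C, (∀ j n, a0 j n * (cd.F j).e n = a0 j n) →
      (∀ j n, a1 j n * (cd.F j).e n = a1 j n) →
      (∀ j n, p j → (cd.F j).fc.op.δ (regR k C) (a0 j) n = 0) →
      (∀ j n, p j → (cd.F j).fc.op.δ (regR k C) (a1 j) n + a0 (j + 1) n * cd.σ (j + 1) n = 0) →
      Aug (a0 0 0) → ∃ b0 b1 : ℤ → NN → C,
        (∀ j n, p j → (cd.F j).fc.op.δ (regR k C) (b0 j) n = a0 j n) ∧
        ∀ j n, p j → (cd.F j).fc.op.δ (regR k C) (b1 j) n + b0 (j + 1) n * cd.σ (j + 1) n = a1 j n)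
    (z : Ix → Lam cd H) (hl : Lab cd z)
    (ht : ∀ i, (z i).c = 0 ∧ (z i).t0 = 0 ∧ (z i).t1 = 0 ∧ (z i).κ0 = 0 ∧ (z i).κ1 = 0)
    (h0 : ∀ t j n, p j → dZ cd hH z (t, j, n) = 0) (a1 : Aug (z (0, 0, 0)).l0)
    (a2 : Aug ((z (0, 0, 0)).q0 + (z (0, 0, 0)).p0)) :
    ∃ y, ∀ t j n, p j → dZ cd hH y (t, j, n) = z (t, j, n) := by
  have eq0 := fun j n hj => (dZ0 cd hH z j n).symm.trans (h0 0 j n hj)
  have r0 : ∀ j n, (z (1, j, n)).r0 * (cd.F j).e n = (z (1, j, n)).r0 := fun j n => by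
    simpa using congrArg Lam.r0 (hl.l1 j n)
  have r1 : ∀ j n, (z (1, j, n)).r1 * (cd.F j).e n = (z (1, j, n)).r1 := fun j n => by
    simpa using congrArg Lam.r1 (hl.l1 j n)
  have p0 : ∀ j n, (z (0, j, n)).p0 * (cd.F j).e n = (z (0, j, n)).p0 := fun j n => by
    simpa using congrArg Lam.p0 (hl.l0 j n)
  have p1 : ∀ j n, (z (0, j, n)).p1 * (cd.F j).e n = (z (0, j, n)).p1 := fun j n => by
    simpa using congrArg Lam.p1 (hl.l0 j n)
  have hz : ∀ j : ℤ, H * H ^ j = H ^ (j + 1) := fun j => by rw [mul_comm, zpow_add_one₀ hH]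
  have ep0 := fun j n hj => congrArg Lam.p0 (eq0 j n hj)
  have ep1 := fun j n hj => congrArg Lam.p1 (eq0 j n hj)
  simp [-vN0, -vN1, -Prod.forall, r0, r1] at ep0 ep1
  obtain ⟨l0, l1, hl0, hl1⟩ := S (fun j n => (z (0, j, n)).l0) (fun j n => (z (0, j, n)).l1)
    (fun j n => by simpa using congrArg Lam.l0 (hl.l0 j n))
    (fun j n => by simpa using congrArg Lam.l1 (hl.l0 j n))
    (fun j n hj => by simpa [regR, HN.op_δ_apply, -vN0, -vN1] using congrArg Lam.l0 (eq0 j n hj))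
    (fun j n hj => by simpa [regR, HN.op_δ_apply, -vN0, -vN1] using congrArg Lam.l1 (eq0 j n hj))
    a1
  obtain ⟨q0, q1, hq0, hq1⟩ := S (fun j n => (z (0, j, n)).q0 + H ^ j • (z (0, j, n)).p0)
    (fun j n => (z (0, j, n)).q1 + H ^ (j + 1) • (z (0, j, n)).p1)
    (fun j n => by simpa [add_mul, p0] using congrArg Lam.q0 (hl.l0 j n))
    (fun j n => by simpa [add_mul, p1] using congrArg Lam.q1 (hl.l0 j n))
    (fun j n hj => by
      have := congrArg Lam.q0 (eq0 j n hj)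
      have h2 := addself k (H ^ j • (z (1, j, n)).r0)
      simp [regR, HN.op_δ_apply, -vN0, -vN1, add_mul, r0] at this ⊢
      linear_combination (norm := module) this + H ^ j • ep0 j n hj - h2)
    (fun j n hj => by
      have := congrArg Lam.q1 (eq0 j n hj)
      have h2 := addself k (H ^ (j + 1) • (z (1, j, n)).r1)
      simp [regR, HN.op_δ_apply, -vN0, -vN1, add_mul, r1, smul_smul, hz] at this ⊢
      linear_combination (norm := module) this + H ^ (j + 1) • ep1 j n hj - h2)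
    (by simpa using a2)
  simp only [regR, HN.op_δ_apply, LinearMap.mulRight_apply, unop_op] at hl0 hl1 hq0 hq1
  refine ⟨fun i => if i.1 = 0 then ⟨l0 i.2.1 i.2.2, l1 i.2.1 i.2.2, 0, 0, 0, 0, 0, q0 i.2.1 i.2.2,
    q1 i.2.1 i.2.2, 0, 0, 0, 0⟩ else if i.1 = 1 then
      mR cd H (z (0, i.2)).p0 (z (0, i.2)).p1 else 0, fun t j n hj => ?_⟩
  rcases tcs t with rfl | rfl | rfl | ⟨h0, h1, h2⟩
  · have := hl.l0 j n
    rw [dZ0]
    apply ext1 <;> simp [-vN0, -vN1, hl0, hl1, hq0, hq1, hj, ht, p0, p1, smul_smul, hz,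
      add_assoc _ (_ • _ : C), addself k] <;> (rw [← this]; simp)
  · have := hl.l1 j n
    rw [dZ1]
    apply ext1 <;> simp [-vN0, -vN1, ht, eq_of_add k (ep0 j n hj), eq_of_add k (ep1 j n hj)] <;>
      (rw [← this]; simp)
  · rw [dZ2 cd hH _ (by omega) (by omega) (by omega), ← hl.l2 (t := 2) (by omega) (by omega)]
    apply ext1 <;> simp [ht]
  · rw [dZ3 cd hH _ h0 h1 h2, hl.l3 h0 h1 h2]

variable (H) in
def g2 : (Ix → Lam cd H) →ₗ[k] (Ix → Lam cd H) where
  toFun := fun z i =>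
    if i.1 = 0 then mK cd H (if i.2.1 = 0 then 0 else (z (0, i.2.1 + -1, i.2.2)).κ1) 0
    else if i.1 = 1 then mT cd H (if i.2.1 = 0 then 0 else (z (1, i.2.1 + -1, i.2.2)).t1) 0
    else mC cd H (if i.2.1 = 0 then (z (1, 0, i.2.2)).t0 else (z (1, -1, i.2.2)).t1)
  map_add' := fun a b => by
    ext1 i
    simp only [Pi.add_apply]
    split_ifs <;> apply ext1 <;> simp
  map_smul' := fun a b => by
    ext1 i
    simp only [Pi.smul_apply, RingHom.id_apply]
    split_ifs <;> apply ext1 <;> simp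

theorem g2_apply (z : Ix → Lam cd H) (i : Ix) : g2 cd H z i =
    if i.1 = 0 then mK cd H (if i.2.1 = 0 then 0 else (z (0, i.2.1 + -1, i.2.2)).κ1) 0
    else if i.1 = 1 then mT cd H (if i.2.1 = 0 then 0 else (z (1, i.2.1 + -1, i.2.2)).t1) 0
    else mC cd H (if i.2.1 = 0 then (z (1, 0, i.2.2)).t0 else (z (1, -1, i.2.2)).t1) := rfl

variable (H) in
def iK (a b : NN → KT k C) : Ix → Lam cd H := fun i =>
  if i.1 = 0 then mK cd H (if i.2.1 = 0 then a i.2.2 else 0) (if i.2.1 = -1 then b i.2.2 else 0)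
  else 0

theorem d_iK (a b : NN → KT k C) : dZ cd hH (iK cd H a b) = iK cd H (cd.P.fc.op.δ (RK k C) a)
    fun n => cd.Q.fc.op.δ (RK k C) b n + rm (cd.u n) (a n) := by
  funext ⟨t, j, n⟩
  rcases tcs t with rfl | rfl | rfl | ⟨h0, h1, h2⟩
  · have : j + 1 = 0 ↔ j = -1 := by omega
    rw [dZ0]
    rcases jcs j with rfl | rfl | ⟨h0, h1⟩ <;> apply ext1 <;>
      simp [iK, HN.op_δ_apply, RK, -vN0, -vN1, *]
  · rw [dZ1]; simp [iK]
  · rw [dZ2 cd hH _ (by omega) (by omega) (by omega)]; simp [iK]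
  · rw [dZ3 cd hH _ h0 h1 h2]; simp [iK, h0]

theorem rA_d (z : Ix → Lam cd H) (n : NN) : (dZ cd hH z (0, 0, n)).κ0 =
    cd.P.fc.op.δ (RK k C) (fun m => (z (0, 0, m)).κ0) n := by
  rw [dZ0]
  simp [HN.op_δ_apply, RK, -vN0, -vN1, addself k]

theorem rB_d (z : Ix → Lam cd H) (n : NN) : (dZ cd hH z (0, -1, n)).κ1 =
    cd.Q.fc.op.δ (RK k C) (fun m => (z (0, -1, m)).κ1) n + rm (cd.u n) (z (0, 0, n)).κ0 := by
  rw [dZ0]
  simp [HN.op_δ_apply, RK, -vN0, -vN1, smul_smul, hH, addself k]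

theorem hom2 (z : Ix → Lam cd H) (hl : Lab cd z)
    (hb : ∀ i, (z i).l0 = 0 ∧ (z i).l1 = 0 ∧ (z i).r0 = 0 ∧ (z i).r1 = 0 ∧ (z i).p0 = 0 ∧
      (z i).p1 = 0 ∧ (z i).q0 = 0 ∧ (z i).q1 = 0) (h0 : dZ cd hH z = 0) :
    z = iK cd H (fun m => (z (0, 0, m)).κ0) (fun m => (z (0, -1, m)).κ1) +
      dZ cd hH (g2 cd H z) := by
  have eq0 := fun j n => congrArg Lam.κ1 ((dZ0 cd hH z j n).symm.trans (congrFun h0 (0, j, n)))
  have eq1 := fun j n => (dZ1 cd hH z j n).symm.trans (congrFun h0 (1, j, n))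
  have k0 := fun j n => congrArg Lam.κ0 (hl.l0 j n)
  have k1 := fun j n => congrArg Lam.κ1 (hl.l0 j n)
  have t0 := fun j n => congrArg Lam.t0 (hl.l1 j n)
  have t1 := fun j n => congrArg Lam.t1 (hl.l1 j n)
  simp [-vN0, -vN1, -Prod.forall] at eq0 k0 k1 t0 t1
  funext ⟨t, j, n⟩
  rw [Pi.add_apply]
  rcases tcs t with rfl | rfl | rfl | ⟨h0, h1, h2⟩
  · have z0 := hl.l0 j n
    have hz : H * H ^ (j + -1) = H ^ j := by
      rw [mul_comm, ← zpow_add_one₀ hH, neg_add_cancel_right]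
    rw [dZ0]
    apply ext1 <;> simp [iK, g2_apply, hb, -vN0, -vN1]
    · rw [← z0]; simp
    · rw [← z0]; simp
    · rw [← z0]; simp
    · by_cases hj : j = 0
      · simp [hj]
      · have := eq0 (j + -1) n
        simp only [neg_add_cancel_right, cd.F_pred hj, cd.σ_ne hj, k0, smul_smul, hz, map_smul]
          at this
        simp only [hj, if_false, zero_add]
        apply eq_of_add k
        rw [← this, map_smul]
        abel
    · by_cases hj : j = -1
      · simp [hj]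
      · have h1 : j + 1 ≠ 0 := by omega
        have := cd.F_pred h1
        rw [add_neg_cancel_right] at this
        simp [hj, h1, cd.σ_ne h1, ← this, k1]
  · have z0 := hl.l1 j n
    rw [dZ1]
    apply ext1 <;> simp [iK, g2_apply, hb, -vN0, -vN1]
    · rw [← z0]; simp
    · by_cases hj : j = 0
      · simpa [hj] using (t0 0 n).symm
      · have := congrArg Lam.t1 (eq1 (j + -1) n)
        have h1 : j + -1 ≠ -1 := by omega
        simp [-vN0, -vN1, cd.F_pred hj, cd.σ_ne hj, t0, h1] at this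
        simp only [hj, if_false, add_zero]
        exact (eq_of_add k this).symm
    · by_cases hj : j = -1
      · simpa [hj] using (t1 (-1) n).symm
      · have h1 : j + 1 ≠ 0 := by omega
        have := cd.F_pred h1
        rw [add_neg_cancel_right] at this
        simp [hj, h1, cd.σ_ne h1, ← this, t1]
    · rw [← z0]; simp
    · rw [← z0]; simp
  · have z0 := hl.l2 (t := 2) (by omega) (by omega) j n
    have c0 := congrArg Lam.c z0
    rw [dZ2 cd hH _ (by omega) (by omega) (by omega)]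
    apply ext1 <;> simp [iK, g2_apply, hb, -vN0, -vN1]
    · rcases jcs j with rfl | rfl | ⟨h0, h1⟩
      · have := congrArg Lam.t0 (eq1 0 n)
        simp [CD.pe, CD.pc, CD.pu, -vN0, -vN1] at c0 this ⊢
        rw [c0] at this
        exact (eq_of_add k this).symm
      · have := congrArg Lam.t1 (eq1 (-1) n)
        simp [CD.pe, CD.pc, CD.pu, -vN0, -vN1] at c0 this ⊢
        rw [c0] at this
        exact (eq_of_add k this).symm
      · have : j + 1 ≠ 0 := by omega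
        simpa [CD.pe, CD.pc, CD.pu, h0, h1, this] using c0.symm
    all_goals rw [← z0]; simp
  · rw [dZ3 cd hH _ h0 h1 h2, hl.l3 h0 h1 h2]; simp [iK, h0]

theorem ac_R (n : ℤ) : ((ZZ cd hH).op.L (regR k (Lam cd H))).Ac n := by
  refine FC.ac_of _ _ (fun z hz h0 => ?_) n
  have hl : ∀ r : Lam cd H, Lab cd fun i => r * z i := fun r i => by
    have : z i * ze cd H i = z i := (hz i).2
    simp only [mul_assoc, this]
  have hd : ∀ r : Lam cd H, dZ cd hH (fun i => r * z i) = 0 := fun r => by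
    have := (eqv_reg (k := k) (ZZ cd hH)).comm r z
    change dZ cd hH (fun i => r * z i) = fun i => r * dZ cd hH z i at this
    rw [this, h0]
    ext1 i
    exact mul_zero r
  obtain ⟨y, hy⟩ := top_exact cd hH (fun _ => True) (fun _ => True)
    (fun a0 a1 e0 e1 h0 h1 _ => by
      obtain ⟨b0, b1, h2, h3⟩ := telR cd (regR k C) cd.cRC a0 a1 e0 e1 (fun j n => h0 j n trivial)
        fun j n => h1 j n trivial
      exact ⟨b0, b1, fun j n _ => h2 j n, fun j n _ => h3 j n⟩)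
    _ (hl (mL cd H 1 0 + mR cd H 1 0)) (fun i => by simp)
    (fun t j n _ => congrFun (hd _) _) trivial trivial
  have h2 := hom2 cd hH _ (hl (mC cd H 1)) (fun i => by simp) (hd _)
  obtain ⟨a', b', h3, h4⟩ := cRK cd (fun m => (mC cd H 1 * z (0, 0, m)).κ0)
    (fun m => (mC cd H 1 * z (0, -1, m)).κ1)
    (fun m => by simpa [RK, FC.op, HN.fc] using congrArg Lam.κ0 ((hl (mC cd H 1)).l0 0 m))
    (fun m => by simpa [RK, FC.op, HN.fc] using congrArg Lam.κ1 ((hl (mC cd H 1)).l0 (-1) m))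
    (funext fun m => by rw [← rA_d cd hH fun i => mC cd H 1 * z i, hd]; rfl)
    (fun m => (rB_d cd hH (fun i => mC cd H 1 * z i) m).symm.trans (by rw [hd]; rfl))
  refine ⟨y + (iK cd H a' b' + g2 cd H fun i => mC cd H 1 * z i), fun _ => trivial, ?_⟩
  have h5 : (fun n => cd.Q.fc.op.δ (RK k C) b' n + rm (cd.u n) (a' n)) = _ := funext h4
  change dZ cd hH _ = _
  rw [map_add, map_add, d_iK, h3, h5, ← h2]
  funext ⟨t, j, n⟩
  rw [Pi.add_apply, hy t j n trivial, ← add_mul]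
  have : mL cd H 1 0 + mR cd H 1 0 + mC cd H 1 = 1 := by apply ext1 <;> simp
  rw [this, one_mul]

end Vale.Agent.P195
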