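import Vale.Agent.P176.Level

/- Elementary operators on sequences. -/

namespace Vale.Agent.P195

open Vale.Agent.P176 (recur finsupp_bound finsupp_choose PieceExact)

universe u

variable {K : Type u} [Field K] {X Y : Type u} [AddCommGroup X] [Module K X] [AddCommGroup Y]
  [Module K Y]

noncomputable def cw {ι : Type} (A : X →ₗ[K] Y) : (ι →₀ X) →ₗ[K] (ι →₀ Y) :=
  Finsupp.mapRange.linearMap A

noncomputable def wt (w : ℕ → K) : (ℕ →₀ X) →ₗ[K] (ℕ →₀ X) :=
  Finsupp.lsum K fun a => Finsupp.lsingle a ∘ₗ (w a • LinearMap.id)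

variable (K) in
noncomputable def sh : (ℕ →₀ X) →ₗ[K] (ℕ →₀ X) :=
  Finsupp.lsum K fun a => Finsupp.lsingle (a + 1)

variable (K) in
noncomputable def dn : (ℕ →₀ X) →ₗ[K] (ℕ →₀ X) :=
  Finsupp.lsum K fun a => Nat.casesOn a 0 fun b => Finsupp.lsingle b

@[simp] theorem cw_apply {ι : Type} (A : X →ₗ[K] Y) (p : ι →₀ X) (a : ι) : cw A p a = A (p a) := by
  simp [cw]

@[simp] theorem cw_single {ι : Type} (A : X →ₗ[K] Y) (a : ι) (y : X) :
    cw A (Finsupp.single a y) = Finsupp.single a (A y) := by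
  simp [cw]

@[simp] theorem wt_single (w : ℕ → K) (a : ℕ) (y : X) :
    wt w (Finsupp.single a y) = Finsupp.single a (w a • y) := by
  simp [wt]

@[simp] theorem sh_single (a : ℕ) (y : X) :
    sh K (Finsupp.single a y) = Finsupp.single (a + 1) y := by
  simp [sh]

@[simp] theorem dn_single_zero (y : X) : dn K (Finsupp.single 0 y) = 0 := by
  simp [dn]

@[simp] theorem dn_single_succ (a : ℕ) (y : X) :
    dn K (Finsupp.single (a + 1) y) = Finsupp.single a y := by
  simp [dn]

@[simp] theorem wt_apply (w : ℕ → K) (p : ℕ →₀ X) (b : ℕ) : wt w p b = w b • p b := by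
  induction p using Finsupp.induction_linear with
  | zero => simp
  | add p q hp hq => simp [hp, hq]
  | single a y =>
    rw [wt_single, Finsupp.single_apply, Finsupp.single_apply]
    split_ifs with h
    · rw [h]
    · simp

@[simp] theorem sh_apply_zero (p : ℕ →₀ X) : sh K p 0 = 0 := by
  induction p using Finsupp.induction_linear with
  | zero => simp
  | add p q hp hq => simp [hp, hq]
  | single a y => simp

@[simp] theorem sh_apply_succ (p : ℕ →₀ X) (b : ℕ) : sh K p (b + 1) = p b := by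
  induction p using Finsupp.induction_linear with
  | zero => simp
  | add p q hp hq => simp [hp, hq]
  | single a y => simp [Finsupp.single_apply]

@[simp] theorem dn_apply (p : ℕ →₀ X) (b : ℕ) : dn K p b = p (b + 1) := by
  induction p using Finsupp.induction_linear with
  | zero => simp
  | add p q hp hq => simp [hp, hq]
  | single a y =>
    rcases a with _ | a
    · simp
    · simp [Finsupp.single_apply]

variable (K) in
theorem ind_induction {P : (ℕ →₀ X) → Prop} (h0 : ∀ y, P (Finsupp.single 0 y))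
    (hs : ∀ p, P p → P (sh K p)) (hadd : ∀ p q, P p → P q → P (p + q)) (p : ℕ →₀ X) :
    P p := by
  induction p using Finsupp.induction_linear with
  | zero => simpa using h0 0
  | add p q hp hq => exact hadd p q hp hq
  | single a y =>
    induction a with
    | zero => exact h0 y
    | succ a ih => simpa using hs _ ih

def indF (F : ℤ → Submodule K X) (n : ℤ) : Submodule K (ℕ →₀ X) where
  carrier := {p | ∀ a : ℕ, p a ∈ F (n - a)}
  add_mem' := fun hp hq a => Submodule.add_mem _ (hp a) (hq a)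
  zero_mem' := fun _ => Submodule.zero_mem _
  smul_mem' := fun c _ hp a => Submodule.smul_mem _ c (hp a)

theorem mono_of_step {F : ℤ → Submodule K X} (h : ∀ n, F n ≤ F (n + 1)) {m n : ℤ}
    (hmn : m ≤ n) : F m ≤ F n := by
  obtain ⟨k, rfl⟩ := Int.le.dest hmn
  induction k with
  | zero => simp
  | succ k ih =>
    refine (ih (by omega)).trans ?_
    have := h (m + k)
    rwa [show m + k + 1 = m + ((k + 1 : ℕ) : ℤ) by push_cast; ring] at this

theorem sh_mem {F : ℤ → Submodule K X} {n : ℤ} {p : ℕ →₀ X} (hp : p ∈ indF F n) :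
    sh K p ∈ indF F (n + 1) := by
  rintro (_ | a)
  · rw [sh_apply_zero]
    exact Submodule.zero_mem _
  · rw [sh_apply_succ]
    have := hp a
    rwa [show n - a = n + 1 - ((a + 1 : ℕ) : ℤ) by push_cast; ring] at this

theorem single_mem {F : ℤ → Submodule K X} {n : ℤ} {a : ℕ} {y : X} (hy : y ∈ F (n - a)) :
    Finsupp.single a y ∈ indF F n := by
  intro b
  rw [Finsupp.single_apply]
  split_ifs with h
  · subst h
    exact hy
  · exact Submodule.zero_mem _

theorem single0_mem {F : ℤ → Submodule K X} {n : ℤ} {y : X} (hy : y ∈ F n) :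
    Finsupp.single 0 y ∈ indF F n := single_mem (a := 0) (by simpa using hy)

theorem finsupp_mem {ι : Type} {S : Submodule K (ι →₀ X)} {p : ι →₀ X}
    (h : ∀ a, Finsupp.single a (p a) ∈ S) : p ∈ S := by
  rw [← Finsupp.sum_single p]
  exact Submodule.sum_mem _ fun a _ => h a

noncomputable def plift (N : Module.End K Y) (ψ : X →ₗ[K] Y) : (ℕ →₀ X) →ₗ[K] Y :=
  Finsupp.lsum K fun a => (N ^ a) ∘ₗ ψ

theorem plift_single (N : Module.End K Y) (ψ : X →ₗ[K] Y) (a : ℕ) (y : X) :
    plift N ψ (Finsupp.single a y) = (N ^ a) (ψ y) := by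
  simp [plift]

@[simp] theorem plift_zero (N : Module.End K Y) (ψ : X →ₗ[K] Y) (y : X) :
    plift N ψ (Finsupp.single 0 y) = ψ y := by
  simp [plift_single]

@[simp] theorem plift_sh (N : Module.End K Y) (ψ : X →ₗ[K] Y) (p : ℕ →₀ X) :
    plift N ψ (sh K p) = N (plift N ψ p) := by
  induction p using Finsupp.induction_linear with
  | zero => simp
  | add p q hp hq => simp [hp, hq]
  | single a y => simp [plift_single, pow_succ']

theorem pow_mem {G : ℤ → Submodule K Y} {N : Module.End K Y}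
    (hN : ∀ n, ∀ x ∈ G n, N x ∈ G (n + 1)) (a : ℕ) {n : ℤ} {x : Y} (hx : x ∈ G (n - a)) :
    (N ^ a) x ∈ G n := by
  induction a generalizing n with
  | zero => simpa using hx
  | succ a ih =>
    have h1 : (N ^ a) x ∈ G (n - 1) := ih (by
      rwa [show n - 1 - a = n - ((a + 1 : ℕ) : ℤ) by push_cast; ring])
    have h2 := hN _ _ h1
    rw [pow_succ']
    rwa [sub_add_cancel] at h2

theorem plift_mem {F : ℤ → Submodule K X} {G : ℤ → Submodule K Y} {N : Module.End K Y}
    (hN : ∀ n, ∀ x ∈ G n, N x ∈ G (n + 1)) {ψ : X →ₗ[K] Y} (hψ : ∀ n, ∀ x ∈ F n, ψ x ∈ G n)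
    {n : ℤ} {p : ℕ →₀ X} (hp : p ∈ indF F n) : plift N ψ p ∈ G n := by
  change Finsupp.sum p _ ∈ _
  exact Submodule.sum_mem _ fun a _ => pow_mem hN a (hψ _ _ (hp a))

section Fund

variable (N : Module.End K X)

noncomputable def ff : (ℕ →₀ X) →ₗ[K] (ℕ →₀ X) := sh K - cw N

noncomputable def fg : (ℕ →₀ X) →ₗ[K] X := plift N LinearMap.id

theorem ff_single (a : ℕ) (y : X) :
    ff N (Finsupp.single a y) = Finsupp.single (a + 1) y - Finsupp.single a (N y) := by
  simp [ff]

theorem ff_apply_zero (p : ℕ →₀ X) : ff N p 0 = - N (p 0) := by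
  simp [ff]

theorem ff_apply_succ (p : ℕ →₀ X) (a : ℕ) : ff N p (a + 1) = p a - N (p (a + 1)) := by
  simp [ff]

theorem fg_single (a : ℕ) (y : X) : fg N (Finsupp.single a y) = (N ^ a) y :=
  plift_single N LinearMap.id a y

theorem fg_ff (p : ℕ →₀ X) : fg N (ff N p) = 0 := by
  induction p using Finsupp.induction_linear with
  | zero => simp
  | add p q hp hq => simp [hp, hq]
  | single a y => simp [ff_single, fg_single, pow_succ]

theorem ff_range (q : ℕ →₀ X) : ∃ p, ff N p = q - Finsupp.single 0 (fg N q) := by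
  induction q using Finsupp.induction_linear with
  | zero => exact ⟨0, by simp⟩
  | add p q hp hq =>
    obtain ⟨p', hp⟩ := hp
    obtain ⟨q', hq⟩ := hq
    exact ⟨p' + q', by rw [map_add, hp, hq, map_add, Finsupp.single_add]; abel⟩
  | single a y =>
    induction a generalizing y with
    | zero => exact ⟨0, by simp [fg_single]⟩
    | succ a ih =>
      obtain ⟨p, hp⟩ := ih (N y)
      refine ⟨p + Finsupp.single a y, ?_⟩
      rw [map_add, hp, ff_single, fg_single, fg_single, pow_succ, Module.End.mul_apply]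
      abel

theorem ff_inj (p : ℕ →₀ X) (h : ff N p = 0) : p = 0 := by
  obtain ⟨B, hB⟩ := finsupp_bound p
  ext a
  exact recur (fun _ => ⊥) (fun _ => N) (fun a v hv => by simp_all) p B hB
    (fun a => by rw [← ff_apply_succ, h]; rfl) a

variable {N} {F : ℤ → Submodule K X}

theorem ff_strict (hN : ∀ n, ∀ x ∈ F n, N x ∈ F (n + 1)) (p : ℕ →₀ X) (n : ℤ)
    (h : ff N p ∈ indF F n) : p ∈ indF (fun m => F (m - 1)) n := by
  obtain ⟨B, hB⟩ := finsupp_bound p
  intro a
  refine recur (fun a => F (n - a - 1)) (fun _ => N) (fun a v hv => ?_) p B hB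
    (fun a => ?_) a
  · have := hN _ _ hv
    rwa [show n - ((a + 1 : ℕ) : ℤ) - 1 + 1 = n - a - 1 by push_cast; ring] at this
  · rw [← ff_apply_succ]
    have := h (a + 1)
    rwa [show n - ((a + 1 : ℕ) : ℤ) = n - a - 1 by push_cast; ring] at this

theorem ff_mem (hN : ∀ n, ∀ x ∈ F n, N x ∈ F (n + 1)) {p : ℕ →₀ X} {n : ℤ}
    (h : p ∈ indF (fun m => F (m - 1)) n) : ff N p ∈ indF F n := by
  rintro (_ | a)
  · rw [ff_apply_zero]
    have := hN _ _ (h 0)
    rw [sub_add_cancel] at this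
    exact Submodule.neg_mem _ this
  · rw [ff_apply_succ]
    have h1 := hN _ _ (h (a + 1))
    rw [sub_add_cancel] at h1
    have h2 : p a ∈ F (n - a - 1) := h a
    rw [show n - a - 1 = n - ((a + 1 : ℕ) : ℤ) by push_cast; ring] at h2
    exact Submodule.sub_mem _ h2 h1

theorem fund (hN : ∀ n, ∀ x ∈ F n, N x ∈ F (n + 1)) (n : ℤ) :
    PieceExact (indF (fun m => F (m - 1)) n) (indF F n) (F n) (ff N) (fg N) where
  inj := fun p _ h => ff_inj N p h
  zero := fun p _ => fg_ff N p
  mid := fun q hq h0 => by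
    obtain ⟨p, hp⟩ := ff_range N q
    rw [h0, Finsupp.single_zero, sub_zero] at hp
    exact ⟨p, ff_strict hN p n (hp ▸ hq), hp⟩
  surj := fun y hy => ⟨Finsupp.single 0 y, single0_mem hy, by simp [fg_single]⟩

end Fund

/-- Exactness at the middle on given subspaces. -/
def Mid {X1 X2 X3 : Type u} [AddCommGroup X1] [Module K X1] [AddCommGroup X2]
    [Module K X2] [AddCommGroup X3] [Module K X3] (F1 : Submodule K X1) (F2 : Submodule K X2)
    (f : X1 →ₗ[K] X2) (g : X2 →ₗ[K] X3) : Prop :=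
  (∀ x ∈ F1, g (f x) = 0) ∧ ∀ y ∈ F2, g y = 0 → ∃ x ∈ F1, f x = y

def Onto {X1 X2 : Type u} [AddCommGroup X1] [Module K X1] [AddCommGroup X2]
    [Module K X2] (F1 : Submodule K X1) (F2 : Submodule K X2) (f : X1 →ₗ[K] X2) : Prop :=
  ∀ y ∈ F2, ∃ x ∈ F1, f x = y

section Coef

variable {X1 X2 X3 : Type u} [AddCommGroup X1] [Module K X1] [AddCommGroup X2]
  [Module K X2] [AddCommGroup X3] [Module K X3]

/-- The subspace of finitely supported families with prescribed coefficient spaces. -/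
def coefF {ι : Type} (G : ι → Submodule K X) : Submodule K (ι →₀ X) where
  carrier := {p | ∀ a, p a ∈ G a}
  add_mem' := fun hp hq a => Submodule.add_mem _ (hp a) (hq a)
  zero_mem' := fun _ => Submodule.zero_mem _
  smul_mem' := fun c _ hp a => Submodule.smul_mem _ c (hp a)

theorem Mid.coef {G1 : ℕ → Submodule K X1} {G2 : ℕ → Submodule K X2} {f : X1 →ₗ[K] X2}
    {g : X2 →ₗ[K] X3} (h : ∀ a, Mid (G1 a) (G2 a) f g) :
    Mid (coefF G1) (coefF G2) (cw f) (cw g) := by
  refine ⟨fun p hp => ?_, fun q hq h0 => ?_⟩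
  · ext a
    rw [cw_apply, cw_apply]
    exact (h a).1 _ (hp a)
  · obtain ⟨p, hp⟩ := finsupp_choose q (fun a v => v ∈ G1 a ∧ f v = q a)
      (fun a ha => ⟨Submodule.zero_mem _, by rw [map_zero, ha]⟩)
      (fun a => (h a).2 _ (hq a) (by rw [← cw_apply, h0]; rfl))
    exact ⟨p, fun a => (hp a).1, by ext a; rw [cw_apply, (hp a).2]⟩

theorem Onto.coef {G1 : ℕ → Submodule K X1} {G2 : ℕ → Submodule K X2} {f : X1 →ₗ[K] X2}
    (h : ∀ a, Onto (G1 a) (G2 a) f) : Onto (coefF G1) (coefF G2) (cw f) := by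
  intro q hq
  obtain ⟨p, hp⟩ := finsupp_choose q (fun a v => v ∈ G1 a ∧ f v = q a)
    (fun a ha => ⟨Submodule.zero_mem _, by rw [map_zero, ha]⟩)
    (fun a => h a _ (hq a))
  exact ⟨p, fun a => (hp a).1, by ext a; rw [cw_apply, (hp a).2]⟩

theorem inj_coef {G1 : ℕ → Submodule K X1} {f : X1 →ₗ[K] X2}
    (h : ∀ a, ∀ x ∈ G1 a, f x = 0 → x = 0) : ∀ p ∈ coefF G1, cw f p = 0 → p = 0 := by
  intro p hp h0
  ext a
  exact h a _ (hp a) (by rw [← cw_apply, h0]; rfl)

theorem pieceExact_ind {F1 : ℤ → Submodule K X1} {F2 : ℤ → Submodule K X2}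
    {F3 : ℤ → Submodule K X3} {f : X1 →ₗ[K] X2} {g : X2 →ₗ[K] X3}
    (h : ∀ n, PieceExact (F1 n) (F2 n) (F3 n) f g) (n : ℤ) :
    PieceExact (indF F1 n) (indF F2 n) (indF F3 n) (cw f) (cw g) where
  inj := inj_coef fun a => (h (n - a)).inj
  zero := (Mid.coef fun a : ℕ => ⟨(h (n - a)).zero, (h (n - a)).mid⟩).1
  mid := (Mid.coef fun a : ℕ => ⟨(h (n - a)).zero, (h (n - a)).mid⟩).2
  surj := Onto.coef fun a : ℕ => (h (n - a)).surj

end Coef

end Vale.Agent.P195
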