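import Vale.Agent.P195.Win

/- Resolutions on filtered pieces, mapping cones and functoriality. -/

namespace Vale.Agent.P195

open Vale.Agent.P176 (PieceExact SE)

universe u

variable {K : Type u} [Field K]

structure Rs {j : ℕ} (P : ℕ → Obj K j) (Y : Obj K j) (s : ℕ)
    (d : ∀ n, (P (n + 1)).X →ₗ[K] (P n).X) (α : (P s).X →ₗ[K] Y.X) : Prop where
  hd : ∀ n, Hom (P (n + 1)) (P n) (d n)
  ha : Hom (P s) Y α
  mid : ∀ n, s ≤ n → ∀ c k, Mid ((P (n + 2)).F c k) ((P (n + 1)).F c k) (d (n + 1)) (d n)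
  mid0 : ∀ c k, Mid ((P (s + 1)).F c k) ((P s).F c k) (d s) α
  onto : ∀ c k, Onto ((P s).F c k) (Y.F c k) α
  low : ∀ n < s, ∀ c k, ∀ x ∈ (P n).F c k, x = 0

def cdm {B' A' B A : Type u} [AddCommGroup B'] [Module K B'] [AddCommGroup A'] [Module K A']
    [AddCommGroup B] [Module K B] [AddCommGroup A] [Module K A] (dB : B' →ₗ[K] B)
    (φ : A' →ₗ[K] B) (dA : A' →ₗ[K] A) : B' × A' →ₗ[K] B × A :=
  (dB.coprod φ).prod (-(dA ∘ₗ LinearMap.snd K B' A'))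

theorem cdm_apply {B' A' B A : Type u} [AddCommGroup B'] [Module K B'] [AddCommGroup A']
    [Module K A'] [AddCommGroup B] [Module K B] [AddCommGroup A] [Module K A] (dB : B' →ₗ[K] B)
    (φ : A' →ₗ[K] B) (dA : A' →ₗ[K] A) (b : B') (a : A') :
    cdm dB φ dA (b, a) = (dB b + φ a, - dA a) := rfl

theorem Rs.cone {j : ℕ} {B A : ℕ → Obj K j} {Y' Y Y'' : Obj K j} {s : ℕ}
    {dB : ∀ n, (B (n + 1)).X →ₗ[K] (B n).X} {dA : ∀ n, (A (n + 1)).X →ₗ[K] (A n).X}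
    {αB : (B s).X →ₗ[K] Y.X} {αA : (A (s + 1)).X →ₗ[K] Y'.X} {f : Y'.X →ₗ[K] Y.X}
    {g : Y.X →ₗ[K] Y''.X} (hB : Rs B Y s dB αB) (hA : Rs A Y' (s + 1) dA αA)
    (hS : OSES Y' Y Y'' f g) {φ : ∀ n, (A (n + 1)).X →ₗ[K] (B n).X}
    (hφ : ∀ n, Hom (A (n + 1)) (B n) (φ n))
    (hc : ∀ n a, dB n (φ (n + 1) a) = φ n (dA (n + 1) a))
    (h0 : ∀ a, αB (φ s a) = f (αA a)) :
    Rs (fun n => prodO (B n) (A n)) Y'' s (fun n => cdm (dB n) (φ n) (dA n))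
      (g ∘ₗ αB ∘ₗ LinearMap.fst K _ _) where
  hd := fun n => ((hB.hd n).coprod (hφ n)).prod ((hA.hd n).comp snd_hom).neg
  ha := hS.hg.comp (hB.ha.comp fst_hom)
  mid := fun n hn c k => by
    have hAA : ∀ a ∈ (A (n + 2)).F c k, dA n (dA (n + 1) a) = 0 := fun a ha => by
      by_cases h : s + 1 ≤ n
      · exact (hA.mid n h c k).1 a ha
      · exact hA.low n (by omega) c k _ ((hA.hd n).filt c k _ ((hA.hd _).filt c k _ ha))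
    refine ⟨?_, ?_⟩
    · rintro ⟨b, a⟩ ⟨hb, ha⟩
      rw [cdm_apply, cdm_apply, map_add, (hB.mid n hn c k).1 b hb, hc, map_neg, map_neg, hAA a ha]
      simp
    · rintro ⟨b, a⟩ ⟨hb, ha⟩ h
      rw [cdm_apply] at h
      have h1 : dB n b + φ n a = 0 := congrArg Prod.fst h
      have h2 : - dA n a = 0 := congrArg Prod.snd h
      have h3 : ∃ a' ∈ (A (n + 2)).F c k, dA (n + 1) a' = a := by
        by_cases h : s + 1 ≤ n
        · exact (hA.mid n h c k).2 a ha (neg_eq_zero.1 h2)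
        · obtain rfl : n = s := by omega
          refine (hA.mid0 c k).2 a ha ((hS.ex c k).inj _ (hA.ha.filt c k _ ha) ?_)
          have := congrArg αB h1
          rwa [map_add, (hB.mid0 c k).1 b hb, zero_add, h0, map_zero] at this
      obtain ⟨a', ha', rfl⟩ := h3
      obtain ⟨b', hb', e⟩ := (hB.mid n hn c k).2 (b + φ (n + 1) a')
        (Submodule.add_mem _ hb ((hφ _).filt c k _ ha')) (by rw [map_add, hc, h1])
      refine ⟨(b', -a'), ⟨hb', Submodule.neg_mem _ ha'⟩, ?_⟩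
      rw [cdm_apply, e]
      simp
  mid0 := fun c k => by
    refine ⟨?_, ?_⟩
    · rintro ⟨b, a⟩ ⟨hb, ha⟩
      change g (αB (dB s b + φ s a)) = 0
      rw [map_add, (hB.mid0 c k).1 b hb, zero_add, h0]
      exact (hS.ex c k).zero _ (hA.ha.filt c k _ ha)
    · rintro ⟨b, a⟩ ⟨hb, ha⟩ h
      obtain rfl : a = 0 := hA.low s (by omega) c k a ha
      obtain ⟨y, hy, e1⟩ := (hS.ex c k).mid _ (hB.ha.filt c k _ hb) h
      obtain ⟨a', ha', rfl⟩ := hA.onto c k y hy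
      obtain ⟨b', hb', e⟩ := (hB.mid0 c k).2 (b - φ s a')
        (Submodule.sub_mem _ hb ((hφ _).filt c k _ ha')) (by rw [map_sub, h0, e1, sub_self])
      refine ⟨(b', a'), ⟨hb', ha'⟩, ?_⟩
      rw [cdm_apply, e, hA.low s (by omega) c k _ ((hA.hd s).filt c k _ ha')]
      simp
  onto := fun c k z hz => by
    obtain ⟨y, hy, rfl⟩ := (hS.ex c k).surj z hz
    obtain ⟨b, hb, rfl⟩ := hB.onto c k y hy
    exact ⟨(b, 0), ⟨hb, Submodule.zero_mem _⟩, rfl⟩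
  low := fun n hn c k x hx =>
    Prod.ext (hB.low n hn c k _ hx.1) (hA.low n (by omega) c k _ hx.2)

theorem Rs.ind {P : ℕ → Obj K 6} {Y : Obj K 6} {s : ℕ} {d : ∀ n, (P (n + 1)).X →ₗ[K] (P n).X}
    {α : (P s).X →ₗ[K] Y.X} (h : Rs P Y s d α) :
    Rs (fun n => Ind (P n)) (Ind Y) s (fun n => cw (d n)) (cw α) where
  hd := fun n => imap_hom (h.hd n)
  ha := imap_hom h.ha
  mid := fun n hn c k => Mid.coef fun a : ℕ => h.mid n hn c (k - a)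
  mid0 := fun c k => Mid.coef fun a : ℕ => h.mid0 c (k - a)
  onto := fun c k => Onto.coef fun a : ℕ => h.onto c (k - a)
  low := fun n hn c k p hp => Finsupp.ext fun a => h.low n hn c _ _ (hp a)

theorem Rs.tn {P : ℕ → Obj K 7} {Y : Obj K 7} {s : ℕ} {d : ∀ n, (P (n + 1)).X →ₗ[K] (P n).X}
    {α : (P s).X →ₗ[K] Y.X} (h : Rs P Y s d α) (m : ℕ) :
    Rs (fun n => Tn (P n) m) (Tn Y m) s (fun n => cw (d n)) (cw α) where
  hd := fun n => tmap_hom (h.hd n) m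
  ha := tmap_hom h.ha m
  mid := fun n hn c k => Mid.tn (fun c => h.mid n hn c k) m c
  mid0 := fun c k => Mid.tn (fun c => h.mid0 c k) m c
  onto := fun c k => Onto.tn (fun c => h.onto c k) m c
  low := fun n hn c k p hp => Finsupp.ext fun a => h.low n hn _ _ _ (((mem_tn _).1 hp).1 a)

theorem Rs.lam {P : ℕ → Obj K 7} {Y : Obj K 7} {s : ℕ} {d : ∀ n, (P (n + 1)).X →ₗ[K] (P n).X}
    {α : (P s).X →ₗ[K] Y.X} (h : Rs P Y s d α) :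
    Rs (fun n => Lam (P n)) (Lam Y) s (fun n => q4map (d n)) (q4map α) where
  hd := fun n => lmap_hom (h.hd n)
  ha := lmap_hom h.ha
  mid := fun n hn c k => Mid.lam (fun c => h.mid n hn c k) c
  mid0 := fun c k => Mid.lam (fun c => h.mid0 c k) c
  onto := fun c k => Onto.lam (fun c => h.onto c k) c
  low := fun n hn c k p hp => Prod.ext (h.low n hn _ _ _ hp.1) (Prod.ext (h.low n hn _ _ _ hp.2.1)
    (Prod.ext (h.low n hn _ _ _ hp.2.2.1) (h.low n hn _ _ _ hp.2.2.2)))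

theorem Rs.infl {P : ℕ → Obj K 7} {Y : Obj K 7} {s : ℕ} {d : ∀ n, (P (n + 1)).X →ₗ[K] (P n).X}
    {α : (P s).X →ₗ[K] Y.X} (h : Rs P Y s d α) :
    Rs (fun n => infl (P n)) (infl Y) s d α where
  hd := fun n => (h.hd n).infl
  ha := h.ha.infl
  mid := h.mid
  mid0 := h.mid0
  onto := h.onto
  low := h.low

theorem OSES.ind {Y1 Y2 Y3 : Obj K 6} {f : Y1.X →ₗ[K] Y2.X} {g : Y2.X →ₗ[K] Y3.X}
    (h : OSES Y1 Y2 Y3 f g) : OSES (Ind Y1) (Ind Y2) (Ind Y3) (cw f) (cw g) :=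
  ⟨imap_hom h.hf, imap_hom h.hg, fun c => pieceExact_ind (h.ex c)⟩

theorem OSES.infl {Y1 Y2 Y3 : Obj K 7} {f : Y1.X →ₗ[K] Y2.X} {g : Y2.X →ₗ[K] Y3.X}
    (h : OSES Y1 Y2 Y3 f g) : OSES (infl Y1) (infl Y2) (infl Y3) f g :=
  ⟨h.hf.infl, h.hg.infl, h.ex⟩

theorem OSES.tn {Y1 Y2 Y3 : Obj K 7} {f : Y1.X →ₗ[K] Y2.X} {g : Y2.X →ₗ[K] Y3.X}
    (h : OSES Y1 Y2 Y3 f g) (m : ℕ) : OSES (Tn Y1 m) (Tn Y2 m) (Tn Y3 m) (cw f) (cw g) := by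
  refine ⟨tmap_hom h.hf m, tmap_hom h.hg m, fun c n => ?_⟩
  have h1 := Mid.tn (fun c => ⟨(h.ex c n).zero, (h.ex c n).mid⟩) m c
  refine ⟨fun p hp h0 => ?_, h1.1, h1.2, Onto.tn (fun c => (h.ex c n).surj) m c⟩
  ext a
  exact (h.ex _ _).inj _ (((mem_tn _).1 hp).1 a) (by rw [← cw_apply, h0]; rfl)

theorem OSES.lam {Y1 Y2 Y3 : Obj K 7} {f : Y1.X →ₗ[K] Y2.X} {g : Y2.X →ₗ[K] Y3.X}
    (h : OSES Y1 Y2 Y3 f g) : OSES (Lam Y1) (Lam Y2) (Lam Y3) (q4map f) (q4map g) := by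
  refine ⟨lmap_hom h.hf, lmap_hom h.hg, fun c n => ?_⟩
  have h1 := Mid.lam (fun c => ⟨(h.ex c n).zero, (h.ex c n).mid⟩) c
  refine ⟨fun p hp h0 => ?_, h1.1, h1.2, Onto.lam (fun c => (h.ex c n).surj) c⟩
  exact Prod.ext ((h.ex _ _).inj _ hp.1 (congrArg (·.1) h0))
    (Prod.ext ((h.ex _ _).inj _ hp.2.1 (congrArg (·.2.1) h0))
    (Prod.ext ((h.ex _ _).inj _ hp.2.2.1 (congrArg (·.2.2.1) h0))
    ((h.ex _ _).inj _ hp.2.2.2 (congrArg (·.2.2.2) h0))))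

theorem Rs.zg {P : ℕ → Obj K 9} {Y : Obj K 9} {d : ∀ n, (P (n + 1)).X →ₗ[K] (P n).X}
    {α : (P 0).X →ₗ[K] Y.X} (h : Rs P Y 0 d α) {S : ModuleCat.{u} (AA K)}
    (hM : ∀ n, ZG S (WinM (P n)) 1)
    (he : ∀ n (θ : Win (P (n + 1)) →ₗ[AA K] S), θ ∘ₗ wmap (h.hd (n + 1)) = 0 →
      ∃ θ' : Win (P n) →ₗ[AA K] S, θ = θ' ∘ₗ wmap (h.hd n)) : ZG S (WinM Y) 1 :=
  ext_vanish (fun n => WinM (P n)) (fun n => wmap (h.hd n)) (wmap h.ha) (win_surj _ h.onto)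
    (win_exact _ _ h.mid0) (fun n => win_exact _ _ (h.mid n (Nat.zero_le n))) hM he

theorem Rs.hom0 {P : ℕ → Obj K 9} {Y : Obj K 9} {d : ∀ n, (P (n + 1)).X →ₗ[K] (P n).X}
    {α : (P 0).X →ₗ[K] Y.X} (h : Rs P Y 0 d α) {S : ModuleCat.{u} (AA K)}
    (he : ∀ θ : Win (P 0) →ₗ[AA K] S, θ ∘ₗ wmap (h.hd 0) = 0 → θ = 0)
    (θ : Win Y →ₗ[AA K] S) : θ = 0 := by
  have h1 := he (θ ∘ₗ wmap h.ha) (LinearMap.ext fun x => by
    have := (win_exact _ _ h.mid0).apply_apply_eq_zero x (f := wmap (h.hd 0)) (g := wmap h.ha)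
    exact (congrArg θ this).trans (map_zero θ))
  refine LinearMap.ext fun y => ?_
  obtain ⟨x, rfl⟩ := win_surj h.ha h.onto y
  exact LinearMap.congr_fun h1 x

theorem wmap_zero_inw {Y1 Y2 Z : Obj K 9} {f : Y1.X →ₗ[K] Y2.X} {φ : Y2.X →ₗ[K] Z.X}
    (hf : Hom Y1 Y2 f) (hφ : Hom Y2 Z φ) (h : wmap hφ ∘ₗ wmap hf = 0) {x : Y1.X}
    (hx : InW Y1 x) : φ (f x) = 0 := by
  obtain ⟨ψ, k, rfl⟩ := hx.pt
  exact LinearMap.congr_fun (congrArg Win.val (LinearMap.congr_fun h ψ)) (gen k)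

theorem Rs.zgs {P : ℕ → Obj K 9} {Y Z : Obj K 9} {d : ∀ n, (P (n + 1)).X →ₗ[K] (P n).X}
    {α : (P 0).X →ₗ[K] Y.X} (h : Rs P Y 0 d α) (hs : ∀ n, Spl (P n))
    (he : ∀ n (φ : (P (n + 1)).X →ₗ[K] Z.X), Hom (P (n + 1)) Z φ →
      (∀ x, InW (P (n + 2)) x → φ (d (n + 1) x) = 0) →
      ∃ φ' : (P n).X →ₗ[K] Z.X, Hom (P n) Z φ' ∧ ∀ x, InW (P (n + 1)) x → φ x = φ' (d n x)) :
    ZG (WinM Z) (WinM Y) 1 := by
  refine h.zg (fun n => ?_) fun n θ h0 => ?_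
  · have := (hs n).proj
    exact zg_proj
  · obtain ⟨φ, hφ, rfl⟩ := (hs (n + 1)).rep θ
    obtain ⟨φ', h1, h2⟩ := he n φ hφ fun x hx => wmap_zero_inw (h.hd (n + 1)) hφ h0 hx
    exact ⟨wmap h1, LinearMap.ext fun ψ => Win.ext' fun k => h2 _ (ψ.inw k)⟩

theorem Rs.homs {P : ℕ → Obj K 9} {Y Z : Obj K 9} {d : ∀ n, (P (n + 1)).X →ₗ[K] (P n).X}
    {α : (P 0).X →ₗ[K] Y.X} (h : Rs P Y 0 d α) (hs : Spl (P 0))
    (he : ∀ φ : (P 0).X →ₗ[K] Z.X, Hom (P 0) Z φ → (∀ x, InW (P 1) x → φ (d 0 x) = 0) →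
      ∀ x, InW (P 0) x → φ x = 0) (θ : Win Y →ₗ[AA K] Win Z) : θ = 0 := by
  refine h.hom0 (S := WinM Z) (fun θ h0 => ?_) θ
  obtain ⟨φ, hφ, rfl⟩ := hs.rep θ
  have := he φ hφ fun x hx => wmap_zero_inw (h.hd 0) hφ h0 hx
  exact LinearMap.ext fun ψ => Win.eq_zero fun k => this _ (ψ.inw k)

end Vale.Agent.P195
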