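import Vale.Agent.P195.RSide

/- The part of the Hom complex coming from the two upper vertices. -/

set_option linter.unusedVariables false
set_option linter.unusedSimpArgs false
set_option linter.unusedSectionVars false
set_option linter.unnecessarySeqFocus false
set_option linter.unusedTactic false
set_option linter.unreachableTactic false

namespace Vale.Agent.P195

open MulOpposite Lam

variable {k : Type} [Field k] [CharP k 2]
variable {C : Type} [Ring C] [Algebra k C] [FiniteDimensional k C] (cd : CD k C) {H : k}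
  (hH : H ≠ 0)

theorem ze_supp {t j : ℤ} {n : NN} (h : ze cd H (t, j, n) ≠ 0) : 0 ≤ t ∧ t ≤ 2 ∧
    ((0 ≤ j ∧ n.1 ≤ 0 ∧ n.2 ≤ 0) ∨ (j < 0 ∧ -2 ≤ n.1 ∧ -2 ≤ n.2)) := by
  have h1 : (cd.F j).e n ≠ 0 := fun h0 => h (by simp [ze, CD.pe, h0, sel_zero])
  have h2 : 0 ≤ t ∧ t ≤ 2 := by
    by_contra h3
    exact h (by simp [ze, sel, CD.pe, show t ≠ 0 by omega, show t ≠ 1 by omega,
      show t ≠ 2 by omega])
  refine ⟨h2.1, h2.2, ?_⟩
  by_cases hj : 0 ≤ j
  · rw [cd.F_nonneg hj] at h1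
    exact Or.inl ⟨hj, cd.suppP n h1⟩
  · rw [cd.F_neg (by omega)] at h1
    exact Or.inr ⟨by omega, cd.suppQ n h1⟩

theorem ZZ_fin (m : ℤ) : ∃ S : Finset Ix, ∀ i, -(ZZ cd hH).deg i = m → (ZZ cd hH).e i ≠ 0 →
    i ∈ S := by
  refine ⟨Finset.Icc 0 2 ×ˢ Finset.Icc (-(|m| + 6)) (|m| + 6) ×ˢ
    Finset.Icc (-(|m| + 6)) (|m| + 6) ×ˢ Finset.Icc (-(|m| + 6)) (|m| + 6), ?_⟩
  rintro ⟨t, j, n⟩ h1 h2
  have h3 := ze_supp cd h2
  have h4 : -(n.1 + n.2 - j - t) = m := h1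
  have h5 := le_abs_self m
  have h6 := neg_abs_le m
  simp only [Finset.mem_product, Finset.mem_Icc]
  omega

def ZB : FC (Lam cd H) Ix (Fin 4) :=
  (ZZ cd hH).res (fun i => 0 ≤ i.2.1) fun a b i _ h => h.trans (j_le b _)

theorem ZB_d (x : Ix → Lam cd H) (i : Ix) : (ZB cd hH).op.δ (regR k _) x i =
    if 0 ≤ i.2.1 then dZ cd hH x i else 0 := by
  simp only [FC.δ_apply]
  by_cases h : 0 ≤ i.2.1
  · rw [if_pos h]
    refine Finset.sum_congr rfl fun a _ => ?_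
    have h1 := j_le a (i + -vI a)
    rw [neg_add_cancel_right] at h1
    simp [ZB, FC.res, FC.op, ZZ, h, -Prod.snd_add, -Prod.fst_add, h.trans h1]
  · rw [if_neg h]
    refine Finset.sum_eq_zero fun a _ => ?_
    simp [ZB, FC.res, FC.op, ZZ, h, regR]

theorem mem_ZZ {x : Ix → Lam cd H} {m : ℤ} : x ∈ (ZZ cd hH).op.E (regR k _) m ↔
    Lab cd x ∧ ∀ i, -degI i ≠ m → x i = 0 :=
  ⟨fun h => ⟨fun i => (h i).2.1, fun i => (h i).2.2⟩, fun h i => ⟨trivial, h.1 i, h.2 i⟩⟩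

theorem mem_ZB {x : Ix → Lam cd H} {m : ℤ} : x ∈ (ZB cd hH).op.E (regR k _) m ↔
    x ∈ (ZZ cd hH).op.E (regR k _) m ∧ ∀ i : Ix, i.2.1 < 0 → x i = 0 := by
  have e : ∀ i, (regR k _).ρ ((ZB cd hH).op.e i) (x i) =
      x i * if 0 ≤ i.2.1 then ze cd H i else 0 := fun i => rfl
  constructor
  · intro h
    have h1 : ∀ i : Ix, i.2.1 < 0 → x i = 0 := fun i hi => by
      have := (h i).2.1
      rwa [e, if_neg (by omega), mul_zero, eq_comm] at this
    refine ⟨(mem_ZZ cd hH).2 ⟨fun i => ?_, fun i => (h i).2.2⟩, h1⟩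
    by_cases hi : 0 ≤ i.2.1
    · have := (h i).2.1
      rwa [e, if_pos hi] at this
    · rw [h1 i (by omega), zero_mul]
  · rintro ⟨h1, h2⟩ i
    refine ⟨trivial, ?_, (h1 i).2.2⟩
    rw [e]
    by_cases hi : 0 ≤ i.2.1
    · rw [if_pos hi]; exact (h1 i).2.1
    · rw [h2 i (by omega), zero_mul]

theorem low_zero {x : Ix → Lam cd H} {m : ℤ} (hm : 6 ≤ m) (h : x ∈ (ZZ cd hH).op.E (regR k _) m)
    (i : Ix) (hi : i.2.1 < 0) : x i = 0 := by
  obtain ⟨h1, h2⟩ := (mem_ZZ cd hH).1 h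
  obtain ⟨t, j, n⟩ := i
  by_contra h3
  have h4 := ze_supp cd (t := t) (j := j) (n := n) fun h0 => h3 (by rw [← h1, h0, mul_zero])
  exact h3 (h2 _ (by simp only [degI_apply] at hi ⊢; omega))

theorem neg_zero' {x : Ix → Lam cd H} (h : x ∈ (ZB cd hH).op.E (regR k _) (-1)) : x = 0 := by
  obtain ⟨h0, h5⟩ := (mem_ZB cd hH).1 h
  obtain ⟨h1, h2⟩ := (mem_ZZ cd hH).1 h0
  funext ⟨t, j, n⟩
  by_contra h3
  have h4 := ze_supp cd (t := t) (j := j) (n := n) fun h0 => h3 (by rw [← h1, h0, mul_zero]; rfl)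
  have h6 : ¬ j < 0 := fun hj => h3 (h5 _ hj)
  exact h3 (h2 _ (by simp only [degI_apply]; omega))

variable (H) in
def St : Rp k (Lam cd H) (k × k) where
  U := ⊤
  ρ := fun z =>
    { toFun := fun s => (cd.χ z.l0 * s.1, cd.χ z.r0 * s.2 + (cd.χ z.p0 + cd.χ z.q0) * s.1)
      map_add' := fun a b => by ext <;> simp <;> ring
      map_smul' := fun a b => by ext <;> simp <;> ring }
  mul := fun a b x => by ext <;> simp <;> ring
  zero := by ext <;> simp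
  stab := fun _ _ _ => trivial

theorem St_apply (z : Lam cd H) (s : k × k) : (St cd H).ρ z s =
    (cd.χ z.l0 * s.1, cd.χ z.r0 * s.2 + (cd.χ z.p0 + cd.χ z.q0) * s.1) := rfl

variable (H) in
def augK : (Ix → Lam cd H) →ₗ[k] k × k where
  toFun := fun x => (cd.χ (x (0, 0, 0)).l0, cd.χ ((x (0, 0, 0)).q0 + (x (0, 0, 0)).p0))
  map_add' := fun a b => by ext <;> simp <;> ring
  map_smul' := fun a b => by ext <;> simp <;> ring

theorem augK_apply (x : Ix → Lam cd H) : augK cd H x =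
    (cd.χ (x (0, 0, 0)).l0, cd.χ ((x (0, 0, 0)).q0 + (x (0, 0, 0)).p0)) := rfl

abbrev MZ : Rp k (Lam cd H) (Ix → Lam cd H) := (eqv_reg (k := k) (ZZ cd hH)).Z 7

theorem le_K : Le ((KF cd hH).L (MZ cd hH)) ((KF cd hH).L (St cd H)) 8 := by
  have h := shift (KF cd hH) (eqv_reg (k := k) (ZB cd hH)) (St cd H) (augK cd H) 0 (-1)
    (fun _ => trivial) (fun n x _ => ?_) (fun n r x _ _ => ?_) (fun n x hn hx => ?_)
    (fun i n z hz h0 h1 h2 => ?_) (fun s => ?_) (by omega) (fun x hx => neg_zero' cd hH hx)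
    (ac_G _ _ (ac_K cd hH)) 6
  · have e : (KF cd hH).L (MZ cd hH) =
        (KF cd hH).L ((eqv_reg (k := k) (ZB cd hH)).Z (0 + 1 + (6 : ℕ))) := by
      refine L_congr rfl rfl ?_ (fun _ => rfl) fun _ _ => rfl
      have e1 : ∀ x ∈ (ZZ cd hH).op.E (regR k _) 7, (ZB cd hH).op.δ (regR k _) x = dZ cd hH x := by
        intro x hx
        funext i
        rw [ZB_d]
        split_ifs with hi
        · rfl
        · exact (low_zero cd hH le_rfl (((ZZ cd hH).op.L (regR k _)).mem 6 x hx) i (by omega)).symm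
      ext x
      constructor
      · rintro ⟨h1, h2⟩
        exact ⟨(mem_ZB cd hH).2 ⟨h1, low_zero cd hH (by omega) h1⟩, (e1 x h1).trans h2⟩
      · rintro ⟨h1, h2⟩
        have h3 := ((mem_ZB cd hH).1 h1).1
        exact ⟨h3, (e1 x h3).symm.trans h2⟩
    rw [e]
    exact h
  · change augK cd H ((ZB cd hH).op.δ _ x) = 0
    rw [augK_apply, ZB_d, if_pos le_rfl, dZ0]
    ext <;> simp [cd.χcP, -vN0, -vN1, CharTwo.add_self_eq_zero]
  · rw [augK_apply, augK_apply, St_apply]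
    change (cd.χ (r * x (0, 0, 0)).l0, cd.χ ((r * x (0, 0, 0)).q0 + (r * x (0, 0, 0)).p0)) = _
    ext <;> simp <;> ring
  · rw [augK_apply, (hx (0, 0, 0)).2.2 (Ne.symm hn)]
    simp
  · obtain ⟨h3, h4⟩ := (mem_ZB cd hH).1 hz
    obtain ⟨y, hy⟩ := top_exact cd hH (fun j => 0 ≤ j) (fun c => cd.χ c = 0)
      (fun a0 a1 e0 e1 h0 h1 h2 => by
        obtain ⟨b0, h3, h4⟩ := telR' cd a0 a1 e0 e1 (fun n => h0 0 n le_rfl) h1 h2
        exact ⟨b0, fun _ => 0, h3, fun j n hj => by rw [map_zero, Pi.zero_apply, zero_add, h4 j n hj]⟩)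
      z ((mem_ZZ cd hH).1 h3).1 (fun l => by
        have : (KF cd hH).e i * z l = z l := congrFun h2 l
        obtain ⟨t, j, n⟩ := i
        rw [← this, KF_e]
        split_ifs <;> simp)
      (fun t j n hj => by
        have : (ZB cd hH).op.δ _ z (t, j, n) = 0 := congrFun h0 _
        rwa [ZB_d, if_pos hj] at this)
      (congrArg Prod.fst h1) (congrArg Prod.snd h1)
    refine (ZB cd hH).op.fix _ hz (w' := y) (fun _ => trivial) (funext fun ⟨t, j, n⟩ => ?_)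
    rw [ZB_d]
    split_ifs with hj
    · exact hy t j n hj
    · exact (h4 _ (not_le.1 hj)).symm
  · have hz : (Pi.single (0, 0, 0) (mL cd H (s.1 • cd.P.e 0) 0 + mP cd H (s.2 • cd.P.e 0) 0) :
        Ix → Lam cd H) ∈ (ZB cd hH).op.E (regR k _) 0 := by
      refine (mem_ZB cd hH).2 ⟨(mem_ZZ cd hH).2 ⟨fun i => ?_, fun i hi => ?_⟩, fun i hi => ?_⟩
      · by_cases h : i = (0, 0, 0)
        · subst h
          apply ext1 <;> simp [ze, sel, HN.idem]
        · simp [h]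
      · exact Pi.single_eq_of_ne (by rintro rfl; exact hi rfl) _
      · exact Pi.single_eq_of_ne (by rintro rfl; exact absurd hi (lt_irrefl _)) _
    refine ⟨_, hz, neg_zero' cd hH (((ZB cd hH).op.L (regR k _)).mem (-1) _ hz), ?_⟩
    ext <;> simp [augK_apply, cd.χP]

theorem χ_F (j : ℤ) (a : Fin 2) (n : NN) : cd.χ ((cd.F j).c a n) = 0 := by
  unfold CD.F
  split_ifs
  exacts [cd.χcP a n, cd.χcQ a n]

theorem St_bd (hH2 : ∀ j : ℤ, j ≠ 0 → 1 + H ^ j ≠ 0) {m : ℤ} {w : Ix → k × k}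
    (hw : w ∈ (KF cd hH).E (St cd H) m) (h0 : (KF cd hH).δ (St cd H) w = 0)
    (h1 : w (0, 0, 0) = 0) (h2 : w (1, 0, 0) = 0) :
    ∃ y ∈ (KF cd hH).E (St cd H) (m + 1), (KF cd hH).δ (St cd H) y = w := by
  refine (KF cd hH).fix _ hw (w' := fun i => if i.1 = 0 then ((1 + H ^ i.2.1)⁻¹ * (w (1, i.2)).2, 0)
    else 0) (fun _ => trivial) (funext fun ⟨t, j, n⟩ => ?_)
  have l0 := (hw (0, j, n)).2.1
  have l1 := (hw (1, j, n)).2.1
  have lt := (hw (t, j, n)).2.1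
  have e1 := congrArg Prod.snd (congrFun h0 (1, j, n))
  rw [KF_e] at l0 l1 lt
  rw [KF_δ] at e1 ⊢
  simp [St_apply, χ_F, Prod.ext_iff, -mul_eq_zero, -mul_eq_right₀] at l0 l1 e1
  have z : ∀ t, w (t, 0, 0) = 0 → cd.χ ((cd.F 0).e n) * (w (t, 0, n)).1 = 0 ∧
      cd.χ ((cd.F 0).e n) * (w (t, 0, n)).2 = 0 := fun t ht => by
    rw [cd.F_zero, cd.χP]
    split_ifs with hn
    · subst hn; simp [ht]
    · simp
  by_cases h0 : t = 0
  · subst h0
    ext <;> simp [St_apply, χ_F, ← l0.2]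
    by_cases hj : j = 0
    · subst hj
      rw [← l0.1, (z 0 h1).1]
    · refine (mul_left_cancel₀ (hH2 j hj) ?_).symm
      rw [mul_zero, ← e1, ← l0.1]
      have : cd.χ ((cd.F j).e n) * cd.χ ((cd.F j).e n) = cd.χ ((cd.F j).e n) := by
        rw [← map_mul, HN.idem]
      linear_combination (-(1 + H ^ j) * (w (0, j, n)).1) * this
  by_cases h1 : t = 1
  · subst h1
    ext <;> simp [St_apply, χ_F, ← l1.1]
    by_cases hj : j = 0
    · subst hj
      rw [← l1.2, (z 1 h2).2]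
      simp
    · have := mul_inv_cancel₀ (hH2 j hj)
      linear_combination l1.2 + cd.χ ((cd.F j).e n) * (w (1, j, n)).2 * this
  · simpa [h0, h1, (St cd H).zero] using lt

theorem St_ac (hH2 : ∀ j : ℤ, j ≠ 0 → 1 + H ^ j ≠ 0) {m : ℤ} (hm : m < -1) :
    ((KF cd hH).L (St cd H)).Ac m := fun w hw h0 =>
  St_bd cd hH hH2 hw h0 ((hw _).2.2 (by change (0 : ℤ) ≠ m; omega))
    ((hw _).2.2 (by change (-1 : ℤ) ≠ m; omega))

theorem pair (x y : k) : ∃ a b : k, (a ≠ 0 ∨ b ≠ 0) ∧ a * x + b * y = 0 := by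
  by_cases h : x = 0
  · exact ⟨1, 0, Or.inl one_ne_zero, by simp [h]⟩
  · exact ⟨-y, x, Or.inr h, by ring⟩

theorem St_dim (hH2 : ∀ j : ℤ, j ≠ 0 → 1 + H ^ j ≠ 0) :
    ((KF cd hH).L (St cd H)).Dim1 (-1) := by
  intro x hx y hy h1 h2
  obtain ⟨a, b, hab, e⟩ := pair (x (1, 0, 0)).2 (y (1, 0, 0)).2
  have hw := Submodule.add_mem _ (Submodule.smul_mem _ a hx) (Submodule.smul_mem _ b hy)
  refine ⟨a, b, hab, St_bd cd hH hH2 hw ?_ ((hw _).2.2 (by change (0 : ℤ) ≠ -1; omega)) ?_⟩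
  · change ((KF cd hH).L (St cd H)).d _ = 0
    simp [h1, h2]
  · have := (hw (1, 0, 0)).2.1
    rw [KF_e] at this
    rw [← this]
    ext <;> simp [St_apply, e]

end Vale.Agent.P195
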