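import Vale.Agent.P195.ShiftK

/- The part of the Hom complex coming from the lowest vertex. -/

set_option linter.unusedVariables false
set_option linter.unusedSimpArgs false
set_option linter.unusedSectionVars false
set_option linter.unnecessarySeqFocus false
set_option linter.unusedTactic false
set_option linter.unreachableTactic false

namespace Vale.Agent.P195

open MulOpposite Lam

variable {k : Type} [Field k] [CharP k 2]

section Gen

variable {R R' I A I' A' X X' : Type} [Ring R] [Ring R'] [AddCommGroup I] [Fintype A]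
  [AddCommGroup I'] [Fintype A'] [AddCommGroup X] [Module k X] [AddCommGroup X'] [Module k X']

structure Bi (Wl : Rp k R X) (Wr : Rp k R' X) : Prop where
  hl : ∀ x, x ∈ Wl.U
  hr : ∀ x, x ∈ Wr.U
  comm : ∀ a b x, Wr.ρ b (Wl.ρ a x) = Wl.ρ a (Wr.ρ b x)

variable {Wl : Rp k R X} {Wr : Rp k R' X} {Wl' : Rp k R X'} {Wr' : Rp k R' X'}

theorem Bi.eqv (h : Bi Wl Wr) (F : FC R' I A) : Eqv (Wl.pi I) (F.L Wr) where
  mem := fun n r x hx i => ⟨h.hr _, by
    change Wr.ρ _ (Wl.ρ r (x i)) = Wl.ρ r (x i)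
    rw [h.comm, (hx i).2.1], fun hi => by
    change Wl.ρ r (x i) = 0
    rw [(hx i).2.2 hi, map_zero]⟩
  comm := fun r x => by
    ext i
    change ∑ a, Wr.ρ _ (Wl.ρ r (x _)) = Wl.ρ r (∑ a, Wr.ρ _ (x _))
    simp only [map_sum, h.comm]

theorem Bi.pr_comm (h : Bi Wl Wr) (F : FC R' I A) (n : ℤ) (r : R) (x : I → X) :
    F.pr Wr n ((Wl.pi I).ρ r x) = (Wl.pi I).ρ r (F.pr Wr n x) := by
  ext i
  change (if _ then Wr.ρ _ (Wl.ρ r (x i)) else 0) = Wl.ρ r (if _ then Wr.ρ _ (x i) else 0)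
  split_ifs <;> simp [h.comm]

theorem Bi.ac_G (h : Bi Wl Wr) (F : FC R' I A) (F' : FC R I' A') (ac : ∀ a, (F'.L Wl).Ac a)
    (n a : ℤ) : (F'.L ((h.eqv F).G n)).Ac a :=
  F'.ac_retract (W := (h.eqv F).G n) (W' := Wl.pi I) (γ := LinearMap.id) (β := F.pr Wr n)
    ⟨fun _ _ _ _ => h.hl _, fun _ _ _ => rfl⟩
    ⟨fun x _ => F.pr_mem Wr n fun _ => h.hr _, fun r x _ => h.pr_comm F n r x⟩
    (fun _ x hx _ => (FC.pr_of_mem hx).symm) (F'.ac_pi _ _ (ac a))

theorem Bi.zmem (h : Bi Wl Wr) (h' : Bi Wl' Wr') (F : FC R' I A) {f : X →ₗ[k] X'}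
    (hr : ∀ r x, f (Wr.ρ r x) = Wr'.ρ r (f x)) (n : ℤ) (x : I → X) (hx : x ∈ ((h.eqv F).Z n).U) :
    f.compLeft I x ∈ ((h'.eqv F).Z n).U := by
  have c := RMap.cmap (W := Wr) (W' := Wr') (f := f) ⟨fun _ _ => h'.hr _, fun r x _ => hr r x⟩ F
  refine ⟨c.mem n x hx.1, ?_⟩
  have h0 : (F.L Wr).d x = 0 := hx.2
  change (F.L Wr').d _ = 0
  rw [← c.comm n x hx.1, h0, map_zero]

theorem Bi.zmap (h : Bi Wl Wr) (h' : Bi Wl' Wr') (F : FC R' I A) {f : X →ₗ[k] X'}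
    (hr : ∀ r x, f (Wr.ρ r x) = Wr'.ρ r (f x)) (hl : ∀ r x, f (Wl.ρ r x) = Wl'.ρ r (f x))
    (n : ℤ) : RMap ((h.eqv F).Z n) ((h'.eqv F).Z n) (f.compLeft I) :=
  ⟨h.zmem h' F hr n, fun r x _ => funext fun i => hl r (x i)⟩

end Gen

variable {C : Type} [Ring C] [Algebra k C] [FiniteDimensional k C] (cd : CD k C) {H : k}
  (hH : H ≠ 0)

theorem biK : Bi (LK k C) (RK k C) :=
  ⟨fun _ => trivial, fun _ => trivial, fun a b x => (lm_rm a b.unop x).symm⟩

theorem biE : Bi (LE k C) (RE k C) :=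
  ⟨fun _ => trivial, fun _ => trivial, fun a b x => mul_assoc _ _ _⟩

theorem biD : Bi (LD k C) (RD k C) :=
  ⟨fun _ => trivial, fun _ => trivial, fun a b x => by ext; simp [LD, RD, mul_assoc]⟩

theorem ac_T (n a : ℤ) : (cd.PC.L (cmp cd ((eqv_reg (k := k) (ZZ cd hH)).G n))).Ac a := by
  rw [← NF_eq cd hH]
  refine ac_G _ _ (fun a => ?_) n a
  rw [NF_eq]
  exact ac_N cd a

theorem u_low {n : NN} (h : n.1 + n.2 < -4) : cd.u n = 0 := by
  by_cases h1 : cd.Q.e n = 0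
  · rw [← cd.ue, h1, mul_zero]
  · have := cd.suppQ n h1
    omega

variable (H) in
def rA : (Ix → Lam cd H) →ₗ[k] (NN → KT k C) where
  toFun := fun z m => (z (0, 0, m)).κ0
  map_add' := fun _ _ => rfl
  map_smul' := fun _ _ => rfl

variable (H) in
def iA : (NN → KT k C) →ₗ[k] (Ix → Lam cd H) where
  toFun := fun a => iK cd H a 0
  map_add' := fun a b => by
    ext1 i
    simp only [iK, Pi.add_apply]
    split_ifs <;> apply ext1 <;> simp
  map_smul' := fun a b => by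
    ext1 i
    simp only [iK, Pi.smul_apply, RingHom.id_apply]
    split_ifs <;> apply ext1 <;> simp

theorem rA_mem {x : Ix → Lam cd H} (hx : x ∈ (MZ cd hH).U) :
    rA cd H x ∈ ((biK.eqv cd.P.fc.op).Z 7).U := by
  obtain ⟨h1, h2⟩ := (mem_ZZ cd hH).1 hx.1
  have h3 : dZ cd hH x = 0 := hx.2
  refine ⟨fun m => ⟨trivial, ?_, fun hm => ?_⟩, funext fun m => ?_⟩
  · simpa [RK, FC.op, HN.fc, rA] using congrArg Lam.κ0 (h1.l0 0 m)
  · change (x (0, 0, m)).κ0 = 0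
    rw [h2 _ (fun h => hm (by rw [← h, degI_apply]; simp [FC.op, HN.fc]))]
    rfl
  · refine (rA_d cd hH x m).symm.trans ?_
    rw [h3]
    rfl

theorem iA_mem {a : NN → KT k C} (ha : a ∈ ((biK.eqv cd.P.fc.op).Z 7).U) :
    iA cd H a ∈ (MZ cd hH).U := by
  have h1 : ∀ m : NN, -(m.1 + m.2) ≠ 7 → a m = 0 := fun m hm => (ha.1 m).2.2 hm
  refine ⟨(mem_ZZ cd hH).2 ⟨fun ⟨t, j, n⟩ => ?_, fun ⟨t, j, n⟩ hi => ?_⟩, ?_⟩
  · have : rm (cd.P.e n) (a n) = a n := (ha.1 n).2.1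
    by_cases ht : t = 0
    · by_cases hj : j = 0 <;> apply ext1 <;> simp [iA, iK, ze, sel, *]
    · simp [iA, iK, ht]
  · by_cases ht : t = 0
    · by_cases hj : j = 0
      · have := h1 n (by simpa [degI_apply, ht, hj] using hi)
        apply ext1 <;> simp [iA, iK, *]
      · apply ext1 <;> simp [iA, iK, *]
    · simp [iA, iK, ht]
  · have h2 : cd.P.fc.op.δ (RK k C) a = 0 := ha.2
    change dZ cd hH (iK cd H a 0) = 0
    rw [d_iK, h2, map_zero]
    funext ⟨t, j, n⟩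
    have : rm (cd.u n) (a n) = 0 := by
      by_cases h : -(n.1 + n.2) = 7
      · rw [u_low cd (by omega), rm_zero]
      · rw [h1 n h, map_zero]
    apply ext1 <;> simp [iK, this] <;> split_ifs <;> rfl

theorem le_N1 : Le (cd.PC.L (cmp cd (MZ cd hH))) (cd.PC.L ((biK.eqv cd.P.fc.op).Z 7)) 0 := by
  refine cd.PC.le_retract (W := cmp cd (MZ cd hH)) (W' := (biK.eqv cd.P.fc.op).Z 7)
    (T := cmp cd ((eqv_reg (k := k) (ZZ cd hH)).G 8)) (f := rA cd H) (f' := iA cd H)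
    (γ := (ZZ cd hH).op.pr (regR k _) 8 ∘ₗ g2 cd H) (β := dZ cd hH)
    ⟨fun x hx => rA_mem cd hH hx, fun r x _ => funext fun m => ?_⟩
    ⟨fun x hx => iA_mem cd hH hx, fun r x _ => funext fun i => ?_⟩
    ⟨fun x hx => (ZZ cd hH).op.pr_mem _ 8 fun _ => trivial, fun r x _ => funext fun i => ?_⟩
    ⟨fun x hx => ⟨((ZZ cd hH).op.L (regR k _)).mem 7 x hx, ((ZZ cd hH).op.L (regR k _)).dd x⟩,
      fun r x _ => (eqv_reg (k := k) (ZZ cd hH)).comm _ x⟩ (fun i x hx h => ?_) (ac_T cd hH 8)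
  · change (mC cd H r * x (0, 0, m)).κ0 = lm r (x (0, 0, m)).κ0
    simp
  · change iK cd H (fun m => lm r (x m)) 0 i = mC cd H r * iK cd H x 0 i
    simp only [iK]
    split_ifs <;> apply ext1 <;> simp
  · change (if _ then g2 cd H (fun l => mC cd H r * x l) i * _ else 0) =
      mC cd H r * (if _ then g2 cd H x i * _ else 0)
    have : g2 cd H (fun l => mC cd H r * x l) i = mC cd H r * g2 cd H x i := by
      simp only [g2_apply]
      split_ifs <;> apply ext1 <;> simp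
    rw [this]
    split_ifs <;> simp [mul_assoc]
  · have h1 := hom2 cd hH x ((mem_ZZ cd hH).1 hx.1).1 (fun l => by
      have : mC cd H _ * x l = x l := congrFun h l
      rw [← this]
      simp) hx.2
    have h2 : (fun m => (x (0, -1, m)).κ1) = 0 := funext fun m => by
      rw [low_zero cd hH (by omega) hx.1 _ (by simp)]
      rfl
    rw [h2] at h1
    change x = iA cd H (rA cd H x) + _ at h1
    change x = _ + (ZZ cd hH).op.δ _ ((ZZ cd hH).op.pr _ (7 + 1) _)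
    rw [FC.δ_pr, ← sub_eq_iff_eq_add'.2 h1,
      FC.pr_of_mem (Submodule.sub_mem _ hx.1 (iA_mem cd hH (rA_mem cd hH hx)).1), add_sub_cancel]

theorem ac_ZE (a : ℤ) : (cd.PC.L (((biE (k := k)).eqv cd.P.fc.op).Z 7)).Ac a := by
  refine cd.PC.ac_retract (W := (biE.eqv cd.P.fc.op).Z 7) (W' := (LE k C).pi NN) (γ := cd.g)
    (β := cd.P.fc.op.δ (RE k C) ∘ₗ cd.P.fc.op.pr (RE k C) (7 + 1))
    ⟨fun _ _ _ _ => trivial, fun r x _ => funext fun n => cd.gc _ x n⟩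
    ⟨fun x _ => ⟨(cd.P.fc.op.L (RE k C)).mem 7 _ (FC.pr_mem _ _ _ fun _ => trivial),
      (cd.P.fc.op.L (RE k C)).dd _⟩, fun r x _ => ?_⟩ (fun i x hx _ => ?_)
    (cd.PC.ac_pi _ _ (ac_PC cd (LE k C) (fun _ => trivial) cd.cLE a))
  · rw [LinearMap.comp_apply, biE.pr_comm]
    exact (biE.eqv cd.P.fc.op).comm r _
  · rw [LinearMap.comp_apply, FC.δ_pr, cd.bRE x (fun n => (hx.1 n).2.1) hx.2
      ((hx.1 _).2.2 (by change (4 : ℤ) ≠ 7; omega)), FC.pr_of_mem hx.1]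

theorem le_N2 : Le (cd.PC.L (((biK (k := k)).eqv cd.P.fc.op).Z 7))
    (cd.PC.L (((biD (k := k)).eqv cd.P.fc.op).Z 7)) 1 := by
  have e2 : ∀ (c : Cᵐᵒᵖ) (φ : EE k C), prK ((RE k C).ρ c φ) = (RK k C).ρ c (prK φ) := fun c φ =>
    KT.ext (by
      change φ * LL k C c.unop - sec (tau (φ * LL k C c.unop)) = (φ - sec (tau φ)) * LL k C c.unop
      rw [sub_mul, sec_mul, tau_mul])
  refine (cd.PC.ses (W' := (biK.eqv cd.P.fc.op).Z 7) (W := (biE.eqv cd.P.fc.op).Z 7)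
    (W'' := (biD.eqv cd.P.fc.op).Z 7) (f := val.compLeft NN) (g := tau.compLeft NN)
    (biK.zmap biE _ (fun _ _ => rfl) (fun _ _ => rfl) 7)
    (biE.zmap biD _ (fun r x => tau_mul x r.unop) (fun r x => tau_lmul x r) 7)
    (fun x _ h => funext fun m => KT.ext (congrFun h m)) (fun x _ => funext fun m => tau_val _)
    (fun y hy h => ⟨_, biE.zmem biK _ e2 7 y hy, funext fun m => ?_⟩)
    (fun _ z hz _ => ⟨_, biD.zmem biE _ (f := sec) (fun r x => (sec_mul x r.unop).symm) 7 z hz,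
      funext fun m => tau_sec _⟩)).le (ac_ZE cd)
  have : tau (y m) = 0 := congrFun h m
  change y m - sec (tau (y m)) = y m
  rw [this, map_zero, sub_zero]

def Sχ : Rp k C k :=
  ⟨⊤, fun c => LinearMap.mulLeft k (cd.χ c), fun a b x => by simp [mul_assoc], by ext; simp,
    fun _ _ _ => trivial⟩

def augD : (NN → DD k C) →ₗ[k] k where
  toFun := fun z => z (-2, -2) cd.w0
  map_add' := fun _ _ => rfl
  map_smul' := fun _ _ => rfl

theorem le_N3 : Le (cd.PC.L ((biD.eqv cd.P.fc.op).Z 7)) (cd.PC.L (Sχ cd)) 4 := by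
  refine shift cd.PC (biD.eqv cd.P.fc.op) (Sχ cd) (augD cd) 4 (-1) (fun _ => trivial)
    (fun n x _ => cd.dw0 x) (fun n r x hx h0 => cd.cw0 x (fun m => (hx m).2.1) h0 r)
    (fun n x hn hx => ?_) (fun i n z hz h0 h1 _ => ?_) (fun s => ?_) (by omega) (fun x hx => ?_)
    (biD.ac_G _ _ (ac_PC cd (LD k C) (fun _ => trivial) cd.cLD)) 2
  · change x (-2, -2) cd.w0 = 0
    rw [(hx (-2, -2)).2.2 (by change (4 : ℤ) ≠ n; omega)]
    rfl
  · obtain ⟨y, hy⟩ := cd.bRD z (fun m => (hz m).2.1) h0 h1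
    exact cd.P.fc.op.fix _ hz (fun _ => trivial) hy
  · refine ⟨s • Pi.single (-2, -2) cd.ψ0, Submodule.smul_mem _ _ fun m => ⟨trivial, ?_, fun h => ?_⟩,
      ?_, ?_⟩
    · by_cases h : m = (-2, -2)
      · subst h
        rw [Pi.single_eq_same]
        exact cd.ψe
      · rw [Pi.single_eq_of_ne h, map_zero]
    · exact Pi.single_eq_of_ne (by rintro rfl; exact h rfl) _
    · rw [map_smul]
      exact smul_eq_zero_of_right _ cd.ψd
    · simp [augD, cd.ψw]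
  · funext m
    by_cases h : cd.P.e m = 0
    · have : (RD k C).ρ (op (cd.P.e m)) (x m) = x m := (hx m).2.1
      rw [← this, h, op_zero, (RD k C).zero]
      rfl
    · have := cd.suppP m h
      exact (hx m).2.2 (by change -(m.1 + m.2) ≠ -1; omega)

theorem le_N : Le (cd.PC.L (cmp cd (MZ cd hH))) (cd.PC.L (Sχ cd)) 5 :=
  ((le_N1 cd hH).trans (le_N2 cd)).trans (le_N3 cd)

theorem Sχ_supp {m : ℤ} (hm : m ≠ -2) {w : Ix → k} (hw : w ∈ cd.PC.E (Sχ cd) m)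
    (h : w (2, -1, -2, -2) = 0) : w = 0 := by
  funext ⟨t, j, n⟩
  have h1 : cd.χ (cd.pe (t, j, n)) * w (t, j, n) = w (t, j, n) := (hw _).2.1
  by_contra h2
  have h3 : cd.χ (cd.pe (t, j, n)) ≠ 0 := fun h0 => h2 (by rw [← h1, h0, zero_mul]; rfl)
  simp only [CD.pe] at h3
  split_ifs at h3 with h4
  · obtain ⟨rfl, rfl | rfl⟩ := h4
    · rw [cd.F_zero, cd.χP] at h3
      obtain rfl : n = 0 := by simpa using h3
      exact h2 ((hw _).2.2 (Ne.symm hm))
    · rw [cd.F_m1, cd.χQ] at h3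
      obtain rfl : n = (-2, -2) := by simpa using h3
      exact h2 h
  · exact h3 (map_zero _)

theorem Sχ_ac {m : ℤ} (h1 : m ≠ -2) (h2 : m ≠ -5) : (cd.PC.L (Sχ cd)).Ac m := fun w hw _ =>
  ⟨0, Submodule.zero_mem _, by
    rw [map_zero, Sχ_supp cd h1 hw ((hw _).2.2 (Ne.symm h2))]⟩

theorem Sχ_dim : (cd.PC.L (Sχ cd)).Dim1 (-5) := by
  intro x hx y hy _ _
  obtain ⟨a, b, hab, e⟩ := pair (x (2, -1, -2, -2)) (y (2, -1, -2, -2))
  refine ⟨a, b, hab, 0, Submodule.zero_mem _, ?_⟩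
  rw [map_zero, Sχ_supp cd (by omega)
    (Submodule.add_mem _ (Submodule.smul_mem _ a hx) (Submodule.smul_mem _ b hy)) e]

end Vale.Agent.P195
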