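import Vale.Agent.P195.AR

/- Homotopy data for a pair of complexes with one-dimensional homology, and tensor products. -/

set_option linter.unusedVariables false
set_option linter.unusedSimpArgs false

namespace Vale.Agent.P195

structure Half (O : Type) [Ring O] where
  e : O
  d : O
  g : O
  p : O
  ee : e * e = e
  ed : e * d = d
  de : d * e = d
  eg : e * g = g
  ge : g * e = g
  ep : e * p = p
  pe : p * e = p
  dp : d * p = 0
  pd : p * d = 0
  h : d * g + g * d = e + p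

structure Split (O : Type) [Ring O] where
  S : Half O
  T : Half O
  u : O
  w : O
  ue : u * S.e = u
  eu : T.e * u = u
  ud : u * S.d = T.d * u
  wp : w * T.p = w
  pw : S.p * w = w
  wu : w * (u * S.p) = S.p
  uw : T.p * (u * w) = T.p

variable {O : Type} [Ring O]

theorem Half.bd (H : Half O) {V : Type} [AddCommGroup V] [Module O V] {a : V}
    (h1 : H.e • a = a) (h2 : H.d • a = 0) (h3 : H.p • a = 0) : H.d • H.g • a = a := by
  have := congrArg (· • a) H.h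
  simpa only [add_smul, mul_smul, h1, h2, h3, smul_zero, add_zero] using this

theorem Split.cone (s : Split O) {V : Type} [AddCommGroup V] [Module O V]
    (h2 : ∀ x : V, x + x = 0) {a b : V} (ha : s.S.e • a = a) (hb : s.T.e • b = b)
    (h1 : s.S.d • a = 0) (h3 : s.T.d • b + s.u • a = 0) :
    ∃ a' b' : V, s.S.d • a' = a ∧ s.T.d • b' + s.u • a' = b := by
  have eqa : ∀ {x y : V}, x + y = 0 → x = y := fun {x y} h => by
    have := h2 y
    rw [← h] at this
    exact (add_right_cancel this).symm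
  have e0 : s.T.d • b = s.u • a := eqa h3
  have e1 : s.S.d • s.S.g • a = a + s.S.p • a := by
    have := congrArg (· • a) s.S.h
    simpa only [add_smul, mul_smul, ha, h1, smul_zero, add_zero] using this
  have e2 : s.T.p • s.u • s.S.p • a = 0 := by
    have := congrArg (fun x => s.T.p • s.u • x) e1
    simp only [smul_add, ← e0] at this
    rw [← mul_smul s.u, s.ud, mul_smul, ← mul_smul s.T.p, ← mul_smul s.T.p s.T.d, s.T.pd,
      zero_smul, zero_smul, zero_add] at this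
    exact this.symm
  have e3 : s.S.p • a = 0 := by
    rw [← s.wu, ← s.wp, mul_smul, mul_smul, mul_smul, e2, smul_zero]
  rw [e3, add_zero] at e1
  set b1 := b + s.u • s.S.g • a with hb1
  have e4 : s.T.d • b1 = 0 := by
    rw [hb1, smul_add, ← mul_smul s.T.d, ← s.ud, mul_smul, e1, h3]
  have e5 : s.S.d • s.w • b1 = 0 := by
    rw [← s.pw, mul_smul, ← mul_smul s.S.d, s.S.dp, zero_smul]
  set b2 := b1 + s.u • s.w • b1 with hb2
  have e6 : s.T.d • s.T.g • b2 = b2 := by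
    refine s.T.bd ?_ ?_ ?_
    · simp only [hb2, hb1, smul_add, hb, ← mul_smul s.T.e, s.eu]
    · rw [hb2, smul_add, e4, ← mul_smul s.T.d, ← s.ud, mul_smul, e5, smul_zero, add_zero]
    · rw [hb2, smul_add, ← mul_smul s.u, ← mul_smul s.T.p, s.uw, h2]
  refine ⟨s.S.g • a + s.w • b1, s.T.g • b2, by rw [smul_add, e1, e5, add_zero], ?_⟩
  rw [e6, hb2, smul_add s.u (s.S.g • a), add_assoc, add_left_comm (s.u • s.w • b1), h2, add_zero,
    hb1, add_assoc, h2, add_zero]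

def Half.All (H : Half O) (P : O → Prop) : Prop := P H.e ∧ P H.d ∧ P H.g ∧ P H.p

def Half.tensor (H H' : Half O) (P P' : O → Prop) (h : H.All P) (h' : H'.All P')
    (key : ∀ a b a' b', P b → P' a' → a * a' * (b * b') = a * b * (a' * b'))
    (h2 : ∀ x : O, x + x = 0) : Half O where
  e := H.e * H'.e
  d := H.d * H'.e + H.e * H'.d
  g := H.g * H'.e + H.p * H'.g
  p := H.p * H'.p
  ee := by rw [key _ _ _ _ h.1 h'.1, H.ee, H'.ee]
  ed := by rw [mul_add, key _ _ _ _ h.2.1 h'.1, key _ _ _ _ h.1 h'.1, H.ed, H.ee, H'.ee, H'.ed]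
  de := by rw [add_mul, key _ _ _ _ h.1 h'.1, key _ _ _ _ h.1 h'.2.1, H.de, H.ee, H'.ee, H'.de]
  eg := by
    rw [mul_add, key _ _ _ _ h.2.2.1 h'.1, key _ _ _ _ h.2.2.2 h'.1, H.eg, H.ep, H'.ee, H'.eg]
  ge := by rw [add_mul, key _ _ _ _ h.1 h'.1, key _ _ _ _ h.1 h'.2.2.1, H.ge, H.pe, H'.ee, H'.ge]
  ep := by rw [key _ _ _ _ h.2.2.2 h'.1, H.ep, H'.ep]
  pe := by rw [key _ _ _ _ h.1 h'.2.2.2, H.pe, H'.pe]
  dp := by rw [add_mul, key _ _ _ _ h.2.2.2 h'.1, key _ _ _ _ h.2.2.2 h'.2.1, H.dp, H'.dp]; simp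
  pd := by rw [mul_add, key _ _ _ _ h.2.1 h'.2.2.2, key _ _ _ _ h.1 h'.2.2.2, H.pd, H'.pd]; simp
  h := by
    obtain ⟨a1, a2, a3, a4⟩ := h
    obtain ⟨b1, b2, b3, b4⟩ := h'
    simp only [mul_add, add_mul, key _ _ _ _ a1 b1, key _ _ _ _ a1 b3, key _ _ _ _ a2 b1,
      key _ _ _ _ a2 b3, key _ _ _ _ a3 b1, key _ _ _ _ a3 b2, key _ _ _ _ a4 b1,
      key _ _ _ _ a4 b2, H.ee, H.ed, H.de, H.eg, H.ge, H.ep, H.pe, H.dp, H.pd, H'.ee, H'.ed,
      H'.de, H'.eg, H'.ge, zero_mul, add_zero, zero_add]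
    have e1 : H.d * H.g * H'.e + H.g * H.d * H'.e = H.e * H'.e + H.p * H'.e := by
      rw [← add_mul, H.h, add_mul]
    have e2 : H.p * (H'.d * H'.g) + H.p * (H'.g * H'.d) = H.p * H'.e + H.p * H'.p := by
      rw [← mul_add, H'.h, mul_add]
    have e3 := h2 (H.g * H'.d)
    have e4 := h2 (H.p * H'.e)
    linear_combination (norm := abel) e1 + e2 + e3 + e4

def Split.All (s : Split O) (P : O → Prop) : Prop := s.S.All P ∧ s.T.All P ∧ P s.u ∧ P s.w

def Split.tensor (s s' : Split O) (P P' : O → Prop) (h : s.All P) (h' : s'.All P')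
    (key : ∀ a b a' b', P b → P' a' → a * a' * (b * b') = a * b * (a' * b'))
    (h2 : ∀ x : O, x + x = 0) : Split O where
  S := s.S.tensor s'.S P P' h.1 h'.1 key h2
  T := s.T.tensor s'.T P P' h.2.1 h'.2.1 key h2
  u := s.u * s'.u
  w := s.w * s'.w
  ue := by simp only [Half.tensor]; rw [key _ _ _ _ h.1.1 h'.2.2.1, s.ue, s'.ue]
  eu := by simp only [Half.tensor]; rw [key _ _ _ _ h.2.2.1 h'.2.1.1, s.eu, s'.eu]
  ud := by
    simp only [Half.tensor]
    rw [mul_add, add_mul, key _ _ _ _ h.1.2.1 h'.2.2.1, key _ _ _ _ h.1.1 h'.2.2.1,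
      key _ _ _ _ h.2.2.1 h'.2.1.1, key _ _ _ _ h.2.2.1 h'.2.1.2.1, s.ue, s'.ue, s.eu, s'.eu, s.ud,
      s'.ud]
  wp := by simp only [Half.tensor]; rw [key _ _ _ _ h.2.1.2.2.2 h'.2.2.2, s.wp, s'.wp]
  pw := by simp only [Half.tensor]; rw [key _ _ _ _ h.2.2.2 h'.1.2.2.2, s.pw, s'.pw]
  wu := by
    simp only [Half.tensor]
    rw [key _ _ _ _ h.1.2.2.2 h'.2.2.1, ← s.wu, ← s'.wu]
    rw [s.wu, s'.wu, mul_assoc s.u, ← mul_assoc (s.w * s'.w), ← mul_assoc s.S.p,
      ← mul_assoc (s.w * s'.w * s.u), ← mul_assoc (s.w * s'.w * s.u)]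
    have k1 := key s.w s.u s'.w 1 h.2.2.1 h'.2.2.2
    have k2 := key (s.w * s.u) s.S.p s'.w 1 h.1.2.2.2 h'.2.2.2
    simp only [mul_one] at k1 k2
    rw [k1, k2, mul_assoc s.w, s.wu, mul_assoc, mul_assoc, s'.wu]
  uw := by
    simp only [Half.tensor]
    rw [key _ _ _ _ h.2.2.2 h'.2.2.1, mul_assoc s.u, ← mul_assoc (s.T.p * s'.T.p),
      ← mul_assoc (s.T.p * s'.T.p * s.u)]
    have k1 := key s.T.p s.u s'.T.p 1 h.2.2.1 h'.2.1.2.2.2
    have k2 := key (s.T.p * s.u) s.w s'.T.p 1 h.2.2.2 h'.2.1.2.2.2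
    simp only [mul_one] at k1 k2
    rw [k1, k2, mul_assoc s.T.p, s.uw, mul_assoc, s'.uw]

structure HalfP (η : ℤ) (O : Type) [Ring O] where
  e : ℤ → O
  d : ℤ → O
  g : ℤ → O
  p : ℤ → O
  ee : ∀ n, e n * e n = e n
  ed : ∀ n, e n * d n = d n
  de : ∀ n, d n * e (n + η) = d n
  eg : ∀ n, e n * g n = g n
  ge : ∀ n, g n * e (n + -η) = g n
  ep : ∀ n, e n * p n = p n
  pe : ∀ n, p n * e n = p n
  dp : ∀ n, d n * p (n + η) = 0
  pd : ∀ n, p n * d n = 0
  h : ∀ n, d n * g (n + η) + g n * d (n + -η) = e n + p n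

structure PD (η : ℤ) (O : Type) [Ring O] where
  S : HalfP η O
  T : HalfP η O
  u : ℤ → O
  w : ℤ → O
  ue : ∀ n, u n * S.e n = u n
  eu : ∀ n, T.e n * u n = u n
  ud : ∀ n, u n * S.d n = T.d n * u (n + η)
  wp : ∀ n, w n * T.p n = w n
  pw : ∀ n, S.p n * w n = w n
  wu : ∀ n, w n * (u n * S.p n) = S.p n
  uw : ∀ n, T.p n * (u n * w n) = T.p n

open MulOpposite in
def HalfP.opp {η : ℤ} (H : HalfP η O) : HalfP (-η) Oᵐᵒᵖ where
  e := fun n => op (H.e n)
  d := fun n => op (H.d (n + -η))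
  g := fun n => op (H.g (n + η))
  p := fun n => op (H.p n)
  ee := fun n => by rw [← op_mul, H.ee]
  ed := fun n => by
    have := H.de (n + -η)
    rw [neg_add_cancel_right] at this
    rw [← op_mul, this]
  de := fun n => by rw [← op_mul, H.ed]
  eg := fun n => by
    have := H.ge (n + η)
    rw [add_neg_cancel_right] at this
    rw [← op_mul, this]
  ge := fun n => by rw [← op_mul, neg_neg, H.eg]
  ep := fun n => by rw [← op_mul, H.pe]
  pe := fun n => by rw [← op_mul, H.ep]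
  dp := fun n => by rw [← op_mul, H.pd, op_zero]
  pd := fun n => by
    have := H.dp (n + -η)
    rw [neg_add_cancel_right] at this
    rw [← op_mul, this, op_zero]
  h := fun n => by
    rw [← op_mul, ← op_mul, ← op_add, ← op_add, neg_neg, neg_add_cancel_right,
      add_neg_cancel_right, add_comm, H.h]

open MulOpposite in
def PD.opp {η : ℤ} (s : PD η O) : PD (-η) Oᵐᵒᵖ where
  S := s.T.opp
  T := s.S.opp
  u := fun n => op (s.u n)
  w := fun n => op (s.w n)
  ue := fun n => by simp only [HalfP.opp]; rw [← op_mul, s.eu]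
  eu := fun n => by simp only [HalfP.opp]; rw [← op_mul, s.ue]
  ud := fun n => by
    simp only [HalfP.opp]
    rw [← op_mul, ← op_mul, s.ud, neg_add_cancel_right]
  wp := fun n => by simp only [HalfP.opp]; rw [← op_mul, s.pw]
  pw := fun n => by simp only [HalfP.opp]; rw [← op_mul, s.wp]
  wu := fun n => by simp only [HalfP.opp]; rw [← op_mul, ← op_mul, mul_assoc, s.uw]
  uw := fun n => by simp only [HalfP.opp]; rw [← op_mul, ← op_mul, mul_assoc, s.wu]

variable {R W : Type} [Ring R] [AddCommGroup W] [Module R W]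

def sop (a : ℤ × ℤ → Module.End R W) (v : ℤ × ℤ) : Module.End R (ℤ × ℤ → W) where
  toFun := fun w n => a n (w (n + v))
  map_add' := fun w w' => by ext n; simp
  map_smul' := fun c w => by ext n; simp

theorem sop_apply (a : ℤ × ℤ → Module.End R W) (v : ℤ × ℤ) (w : ℤ × ℤ → W) (n : ℤ × ℤ) :
    sop a v w n = a n (w (n + v)) := rfl

theorem sop_mul (a b : ℤ × ℤ → Module.End R W) (v v' : ℤ × ℤ) :
    sop a v * sop b v' = sop (fun n => a n * b (n + v)) (v + v') := by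
  ext w n
  simp [sop_apply, add_assoc]

theorem sop_add (a b : ℤ × ℤ → Module.End R W) (v : ℤ × ℤ) :
    sop a v + sop b v = sop (fun n => a n + b n) v := by
  ext w n
  simp [sop_apply]

theorem sop_zero (v : ℤ × ℤ) : sop (fun _ => (0 : Module.End R W)) v = 0 := by
  ext w n
  simp [sop_apply]

section To

variable {η : ℤ} (φ : O →+* Module.End R W) (π : ℤ × ℤ →+ ℤ) (v : ℤ × ℤ)

def HalfP.to (H : HalfP η O) (hv : π v = η) : Half (Module.End R (ℤ × ℤ → W)) where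
  e := sop (fun n => φ (H.e (π n))) 0
  d := sop (fun n => φ (H.d (π n))) v
  g := sop (fun n => φ (H.g (π n))) (-v)
  p := sop (fun n => φ (H.p (π n))) 0
  ee := by simp [sop_mul, ← map_mul, H.ee]
  ed := by simp [sop_mul, ← map_mul, H.ed]
  de := by simp [sop_mul, ← map_mul, hv, H.de]
  eg := by simp [sop_mul, ← map_mul, H.eg]
  ge := by simp [sop_mul, ← map_mul, hv, H.ge]
  ep := by simp [sop_mul, ← map_mul, H.ep]
  pe := by simp [sop_mul, ← map_mul, H.pe]
  dp := by simp [sop_mul, ← map_mul, hv, H.dp, sop_zero]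
  pd := by simp [sop_mul, ← map_mul, H.pd, sop_zero]
  h := by
    simp only [sop_mul, ← map_mul, map_add, map_neg, hv, add_neg_cancel, neg_add_cancel, sop_add]
    simp only [← map_add, H.h]

def PD.to (s : PD η O) (hv : π v = η) : Split (Module.End R (ℤ × ℤ → W)) where
  S := s.S.to φ π v hv
  T := s.T.to φ π v hv
  u := sop (fun n => φ (s.u (π n))) 0
  w := sop (fun n => φ (s.w (π n))) 0
  ue := by simp [HalfP.to, sop_mul, ← map_mul, s.ue]
  eu := by simp [HalfP.to, sop_mul, ← map_mul, s.eu]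
  ud := by simp [HalfP.to, sop_mul, ← map_mul, s.ud, hv]
  wp := by simp [HalfP.to, sop_mul, ← map_mul, s.wp]
  pw := by simp [HalfP.to, sop_mul, ← map_mul, s.pw]
  wu := by simp [HalfP.to, sop_mul, ← map_mul, s.wu]
  uw := by simp [HalfP.to, sop_mul, ← map_mul, s.uw]

end To

def IsOp (φ : O →+* Module.End R W) (π π' : ℤ × ℤ →+ ℤ) (a : Module.End R (ℤ × ℤ → W)) : Prop :=
  ∃ f : ℤ → O, ∃ v, π' v = 0 ∧ a = sop (fun n => φ (f (π n))) v

theorem PD.to_all {η : ℤ} (s : PD η O) (φ : O →+* Module.End R W) (π π' : ℤ × ℤ →+ ℤ)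
    (v : ℤ × ℤ) (hv : π v = η) (hv' : π' v = 0) : (s.to φ π v hv).All (IsOp φ π π') :=
  ⟨⟨⟨_, _, map_zero _, rfl⟩, ⟨_, _, hv', rfl⟩, ⟨_, _, by simp [hv'], rfl⟩, ⟨_, _, map_zero _, rfl⟩⟩,
    ⟨⟨_, _, map_zero _, rfl⟩, ⟨_, _, hv', rfl⟩, ⟨_, _, by simp [hv'], rfl⟩,
      ⟨_, _, map_zero _, rfl⟩⟩, ⟨_, _, map_zero _, rfl⟩, ⟨_, _, map_zero _, rfl⟩⟩

def PD.two {η : ℤ} (s : PD η O) (φ ψ : O →+* Module.End R W)
    (hc : ∀ a b, φ a * ψ b = ψ b * φ a) (h2 : ∀ x : W, x + x = 0) :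
    Split (Module.End R (ℤ × ℤ → W)) :=
  (s.to φ (AddMonoidHom.fst ℤ ℤ) (η, 0) rfl).tensor (s.to ψ (AddMonoidHom.snd ℤ ℤ) (0, η) rfl)
    _ _ (s.to_all φ _ (AddMonoidHom.snd ℤ ℤ) _ rfl rfl)
    (s.to_all ψ _ (AddMonoidHom.fst ℤ ℤ) _ rfl rfl) (by
      rintro a _ _ b' ⟨f, v, hv, rfl⟩ ⟨f', v', hv', rfl⟩
      rw [mul_assoc, mul_assoc, ← mul_assoc (sop _ v'), ← mul_assoc (sop _ v), sop_mul, sop_mul,
        add_comm v v']
      simp only [map_add, hv, hv', add_zero, hc]) (fun x => by ext w n; exact h2 _)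

end Vale.Agent.P195
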