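import Vale.Agent.P195.Zc

/- Telescopes of cones, and exactness of the left evaluation on the regular module. -/

set_option linter.unusedVariables false
set_option linter.unusedSimpArgs false
set_option linter.unusedSectionVars false
set_option linter.unnecessarySeqFocus false
set_option linter.unusedTactic false
set_option linter.unreachableTactic false

namespace Vale.Agent.P195

open MulOpposite Lam

variable {k : Type} [Field k] [CharP k 2] {C : Type} [Ring C] [Algebra k C] [FiniteDimensional k C]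
variable {X : Type} [AddCommGroup X] [Module k X] (cd : CD k C)

theorem HN.δ_apply (F : HN C) (W : Rp k C X) (a : NN → X) (n : NN) : F.fc.δ W a n =
    W.ρ (F.c 0 n) (a (n + vN 0)) + W.ρ (F.c 1 n) (a (n + vN 1)) := by
  rw [FC.δ_apply, Fin.sum_univ_two]; rfl

theorem HN.op_δ_apply (F : HN C) (W : Rp k Cᵐᵒᵖ X) (a : NN → X) (n : NN) : F.fc.op.δ W a n =
    W.ρ (op (F.c 0 (n + -vN 0))) (a (n + -vN 0)) + W.ρ (op (F.c 1 (n + -vN 1))) (a (n + -vN 1)) := by
  rw [FC.δ_apply, Fin.sum_univ_two]; rfl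

theorem telL (W : Rp k C X) (hc : Cone cd.Q.fc cd.P.fc cd.u W) {l : k} (hl : l ≠ 0)
    (a0 a1 : ℤ → NN → X) (e0 : ∀ j n, W.ρ ((cd.F j).e n) (a0 j n) = a0 j n)
    (e1 : ∀ j n, W.ρ ((cd.F j).e n) (a1 j n) = a1 j n) (h0 : ∀ j n, (cd.F j).fc.δ W (a0 j) n = 0)
    (h1 : ∀ j n, (cd.F j).fc.δ W (a1 j) n + l • W.ρ (cd.σ j n) (a0 (j + -1) n) = 0) :
    ∃ b0 b1 : ℤ → NN → X, (∀ j n, (cd.F j).fc.δ W (b0 j) n = a0 j n) ∧
      ∀ j n, (cd.F j).fc.δ W (b1 j) n + l • W.ρ (cd.σ j n) (b0 (j + -1) n) = a1 j n := by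
  have key : ∀ j, ∃ a' b' : NN → X, (cd.F (j + -1)).fc.δ W a' = a0 (j + -1) ∧
      ∀ n, (cd.F j).fc.δ W b' n + l • W.ρ (cd.σ j n) (a' n) = a1 j n := by
    intro j
    by_cases hj : j = 0
    · subst hj
      have e0' := e0 (-1)
      have h0' := h0 (-1)
      have h1' := h1 0
      rw [cd.F_m1] at e0' h0'
      rw [zero_add] at h1' ⊢
      obtain ⟨a', b', h2, h3⟩ := hc (l • a0 (-1)) (a1 0) (fun n => by
        rw [Pi.smul_apply, map_smul]; exact congrArg _ (e0' n)) (e1 0)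
        (by rw [map_smul]; ext n; exact smul_eq_zero_of_right l (h0' n))
        (fun n => by rw [Pi.smul_apply, map_smul]; exact h1' n)
      refine ⟨l⁻¹ • a', b', ?_, fun n => ?_⟩
      · rw [cd.F_m1, map_smul, h2, smul_smul, inv_mul_cancel₀ hl, one_smul]
      · rw [Pi.smul_apply, map_smul, smul_smul, mul_inv_cancel₀ hl, one_smul]
        exact h3 n
    · refine ⟨l⁻¹ • a1 j, 0, ?_, fun n => ?_⟩
      · ext n
        have := e0 (j + -1) n
        rw [cd.F_pred hj] at this ⊢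
        rw [map_smul, Pi.smul_apply, eq_of_add k (h1 j n), cd.σ_ne hj, this, smul_smul,
          inv_mul_cancel₀ hl, one_smul]
      · rw [map_zero, Pi.zero_apply, zero_add, Pi.smul_apply, map_smul, smul_smul,
          mul_inv_cancel₀ hl, one_smul, cd.σ_ne hj, e1]
  choose a' b' h2 h3 using key
  refine ⟨fun j => a' (j + 1), b', fun j n => ?_, fun j n => ?_⟩
  · have := h2 (j + 1)
    rw [add_neg_cancel_right] at this
    rw [this]
  · simpa only [neg_add_cancel_right] using h3 j n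

theorem telR (W : Rp k Cᵐᵒᵖ X) (hc : Cone cd.P.fc.op cd.Q.fc.op (fun n => op (cd.u n)) W)
    (a0 a1 : ℤ → NN → X) (e0 : ∀ j n, W.ρ (op ((cd.F j).e n)) (a0 j n) = a0 j n)
    (e1 : ∀ j n, W.ρ (op ((cd.F j).e n)) (a1 j n) = a1 j n)
    (h0 : ∀ j n, (cd.F j).fc.op.δ W (a0 j) n = 0)
    (h1 : ∀ j n, (cd.F j).fc.op.δ W (a1 j) n + W.ρ (op (cd.σ (j + 1) n)) (a0 (j + 1) n) = 0) :
    ∃ b0 b1 : ℤ → NN → X, (∀ j n, (cd.F j).fc.op.δ W (b0 j) n = a0 j n) ∧
      ∀ j n, (cd.F j).fc.op.δ W (b1 j) n + W.ρ (op (cd.σ (j + 1) n)) (b0 (j + 1) n) = a1 j n := by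
  have key : ∀ j, ∃ a' b' : NN → X, (cd.F j).fc.op.δ W a' = a0 j ∧
      ∀ n, (cd.F (j + -1)).fc.op.δ W b' n + W.ρ (op (cd.σ j n)) (a' n) = a1 (j + -1) n := by
    intro j
    by_cases hj : j = 0
    · subst hj
      have e1' := e1 (-1)
      have h1' := h1 (-1)
      rw [neg_add_cancel] at h1'
      rw [zero_add]
      rw [cd.F_m1] at e1' h1' ⊢
      exact hc (a0 0) (a1 (-1)) (e0 0) e1' (funext (h0 0)) h1'
    · refine ⟨a1 (j + -1), 0, ?_, fun n => ?_⟩
      · ext n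
        have := eq_of_add k (h1 (j + -1) n)
        rwa [neg_add_cancel_right, cd.F_pred hj, cd.σ_ne hj, e0] at this
      · rw [map_zero, Pi.zero_apply, zero_add, cd.σ_ne hj, ← cd.F_pred hj, e1]
  choose a' b' h2 h3 using key
  refine ⟨a', fun j => b' (j + 1), fun j n => congrFun (h2 j) n, fun j n => ?_⟩
  simpa only [add_neg_cancel_right] using h3 (j + 1) n

theorem telR' (a0 a1 : ℤ → NN → C) (e0 : ∀ j n, a0 j n * (cd.F j).e n = a0 j n)
    (e1 : ∀ j n, a1 j n * (cd.F j).e n = a1 j n)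
    (h0 : ∀ n, cd.P.fc.op.δ (regR k C) (a0 0) n = 0)
    (h1 : ∀ j n, 0 ≤ j → (cd.F j).fc.op.δ (regR k C) (a1 j) n + a0 (j + 1) n * cd.σ (j + 1) n = 0)
    (h2 : cd.χ (a0 0 0) = 0) :
    ∃ b0 : ℤ → NN → C, (∀ j n, 0 ≤ j → (cd.F j).fc.op.δ (regR k C) (b0 j) n = a0 j n) ∧
      ∀ j n, 0 ≤ j → b0 (j + 1) n * cd.σ (j + 1) n = a1 j n := by
  obtain ⟨b, hb⟩ := cd.bRC (a0 0) (e0 0) (funext h0) h2
  refine ⟨fun j => if j = 0 then b else a1 (j + -1), fun j n hj => ?_, fun j n hj => ?_⟩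
  · by_cases h : j = 0
    · subst h
      exact congrFun hb n
    · have := eq_of_add k (h1 (j + -1) n (by omega))
      rw [neg_add_cancel_right, cd.F_pred h, cd.σ_ne h, e0] at this
      simpa only [h, if_false] using this
  · have h : j + 1 ≠ 0 := by omega
    have := cd.F_pred h
    rw [add_neg_cancel_right] at this
    simp only [h, if_false, add_neg_cancel_right, cd.σ_ne h, ← this, e1]

theorem PC_δ (W : Rp k C X) (w : Ix → X) (t j : ℤ) (n : NN) : cd.PC.δ W w (t, j, n) =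
    if t = 2 ∧ j = 0 then cd.P.fc.δ W (fun m => w (2, 0, m)) n + W.ρ (cd.u n) (w (2, -1, n))
    else if t = 2 ∧ j = -1 then cd.Q.fc.δ W (fun m => w (2, -1, m)) n else 0 := by
  rw [FC.δ_apply, Fin.sum_univ_four]
  by_cases ht : t = 2
  · rcases jcs j with rfl | rfl | ⟨h0, h1⟩ <;>
      simp [CD.PC, CD.pc, CD.pu, HN.δ_apply, W.zero, -vN0, -vN1, *]
  · simp [CD.PC, CD.pc, CD.pu, W.zero, ht]

theorem ac_PC (W : Rp k C X) (hU : ∀ x, x ∈ W.U) (hc : Cone cd.Q.fc cd.P.fc cd.u W) (n : ℤ) :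
    (cd.PC.L W).Ac n := by
  refine FC.ac_of _ _ (fun w hw h0 => ?_) n
  obtain ⟨a', b', h2, h3⟩ := hc (fun m => w (2, -1, m)) (fun m => w (2, 0, m))
    (fun m => by simpa [CD.PC, CD.pe, HN.fc] using (hw (2, -1, m)).2) (fun m => (hw (2, 0, m)).2)
    (funext fun m => by simpa [PC_δ] using congrFun h0 (2, -1, m))
    (fun m => by simpa [PC_δ] using congrFun h0 (2, 0, m))
  refine ⟨fun i => if i.2.1 = 0 then b' i.2.2 else a' i.2.2, fun _ => hU _, ?_⟩
  ext ⟨t, j, m⟩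
  rw [PC_δ]
  by_cases h4 : t = 2 ∧ j = 0
  · obtain ⟨rfl, rfl⟩ := h4
    simpa using h3 m
  by_cases h5 : t = 2 ∧ j = -1
  · obtain ⟨rfl, rfl⟩ := h5
    simpa using congrFun h2 m
  · have := (hw (t, j, m)).2
    simp only [CD.PC, CD.pe] at this
    rw [if_neg (by tauto), W.zero] at this
    rw [if_neg h4, if_neg h5]
    exact this

noncomputable def tau : EE k C →ₗ[k] DD k C where
  toFun := fun φ => LinearMap.trace k C ∘ₗ LinearMap.mulLeft k φ ∘ₗ (LL k C).toLinearMap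
  map_add' := fun a b => by ext; simp [add_mul]
  map_smul' := fun r a => by ext; simp

theorem tau_apply (φ : EE k C) (c : C) : tau φ c = LinearMap.trace k C (φ * LL k C c) := rfl

def sec : DD k C →ₗ[k] EE k C where
  toFun := fun ψ => ψ.smulRight 1
  map_add' := fun a b => by ext; simp [add_smul]
  map_smul' := fun r a => by ext; simp [smul_smul]

theorem sec_mul (ψ : DD k C) (c : C) : sec ψ * LL k C c = sec ((RD k C).ρ (op c) ψ) := by
  ext; simp [sec, RD, LL]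

theorem tau_sec (ψ : DD k C) : tau (sec ψ) = ψ := by
  ext c
  rw [tau_apply, sec_mul]
  simp [sec, RD, LinearMap.trace_smulRight]

theorem tau_mul (φ : EE k C) (c : C) : tau (φ * LL k C c) = (RD k C).ρ (op c) (tau φ) := by
  ext y
  simp [tau_apply, RD, mul_assoc]

theorem tau_lmul (φ : EE k C) (c : C) : tau (LL k C c * φ) = (LD k C).ρ c (tau φ) := by
  ext y
  simp only [tau_apply, LD, LinearMap.dualMap_apply, LinearMap.mulRight_apply, map_mul]
  rw [mul_assoc, LinearMap.trace_mul_comm, mul_assoc]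

theorem tau_val (κ : KT k C) : tau (val κ) = 0 := LinearMap.ext (val_tr κ)

theorem ex_val {φ : EE k C} (h : tau φ = 0) : ∃ κ : KT k C, val κ = φ :=
  ⟨KT.mk φ fun c => LinearMap.congr_fun h c, rfl⟩

theorem ac_LK (n : ℤ) : (cd.PC.L (LK k C)).Ac n :=
  ((cd.PC.ses (W' := LK k C) (W := LE k C) (W'' := LD k C) (f := val) (g := tau)
    ⟨fun _ _ => trivial, fun _ _ _ => rfl⟩ ⟨fun _ _ => trivial, fun r x _ => tau_lmul x r⟩
    (fun x _ h => KT.ext (by rw [h, map_zero])) (fun x _ => tau_val x)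
    (fun y _ h => (ex_val h).imp fun _ h => ⟨trivial, h⟩)
    (fun _ z _ _ => ⟨sec z, trivial, tau_sec z⟩)).le
      (ac_PC cd (LE k C) (fun _ => trivial) cd.cLE) n).1
      (ac_PC cd (LD k C) (fun _ => trivial) cd.cLD _)

noncomputable def prK : EE k C →ₗ[k] KT k C :=
  LinearMap.codRestrict (KK k C) (LinearMap.id - sec ∘ₗ tau) fun φ c => by
    rw [← tau_apply]
    simp [tau_sec]

theorem val_prK (φ : EE k C) : val (prK φ) = φ - sec (tau φ) := rfl

theorem cRK : Cone cd.P.fc.op cd.Q.fc.op (fun n => op (cd.u n)) (RK k C) := by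
  have e1 : ∀ (c : Cᵐᵒᵖ) (κ : KT k C), val ((RK k C).ρ c κ) = (RE k C).ρ c (val κ) :=
    fun _ _ => rfl
  have e2 : ∀ (c : Cᵐᵒᵖ) (φ : EE k C), prK ((RE k C).ρ c φ) = (RK k C).ρ c (prK φ) := fun c φ =>
    KT.ext (by
      change φ * LL k C c.unop - sec (tau (φ * LL k C c.unop)) = (φ - sec (tau φ)) * LL k C c.unop
      rw [sub_mul, sec_mul, tau_mul])
  have e3 : ∀ κ : KT k C, prK (val κ) = κ := fun κ => KT.ext (by simp [val_prK, tau_val])
  intro a b ha hb h1 h2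
  obtain ⟨a', b', h3, h4⟩ := cd.cRE (fun n => val (a n)) (fun n => val (b n))
    (fun n => by rw [← e1, ha]) (fun n => by rw [← e1, hb])
    (funext fun n => by simpa [FC.δ_apply, e1] using congrArg val (congrFun h1 n))
    (fun n => by simpa [FC.δ_apply, e1] using congrArg val (h2 n))
  refine ⟨fun n => prK (a' n), fun n => prK (b' n), funext fun n => ?_, fun n => ?_⟩
  · simpa [FC.δ_apply, e2, e3] using congrArg prK (congrFun h3 n)
  · simpa [FC.δ_apply, e2, e3] using congrArg prK (h4 n)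

end Vale.Agent.P195
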