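import Vale.Agent.P195.Cone

/- The total resolution of the trivial module. -/

namespace Vale.Agent.P195

open Vale.Agent.P176 (PieceExact SE tri)

universe u

variable {K : Type u} [Field K] {X : Type u} [AddCommGroup X] [Module K X]

variable (K) in
def kap (n : ℕ) (t : Bool) : K := if t then (((n + 1) / 2 : ℕ) : K) else ((n / 2 : ℕ) : K)

theorem kap_y (n : ℕ) : kap K (n + 1) false = kap K n true := rfl

theorem kap_x (n : ℕ) : kap K (n + 1) true = 1 + tau K (0 + 1 + 1) n * kap K n false := by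
  change (((n + 1 + 1) / 2 : ℕ) : K) = 1 + tau K (0 + 1 + 1) n * ((n / 2 : ℕ) : K)
  rw [show (n + 1 + 1) / 2 = n / 2 + 1 by omega, tau]
  split_ifs with h
  · push_cast
    ring
  · rw [show n / 2 = 0 by omega]
    simp

variable (W : Fl K X) (n : ℕ)

noncomputable def PF : (IQ W.sft 1 (n + 1)).X →ₗ[K] (IQ W 0 n).X :=
  ilf W.sft 1 (n + 1) (IQ W 0 n) (fun t => (IQ W 0 n).op 6 ∘ₗ j1 W 0 n t)
    (fun t => (IQ W 0 n).op 6 ∘ₗ jH W 0 n t) (fun t => (IQ W 0 n).op 6 ∘ₗ jE W 0 n t + jH W 0 n t)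
    (fun t => (IQ W 0 n).op 6 ∘ₗ jR W 0 n t + kap K n t • j1 W 0 n t)

theorem PF_1 (t : Bool) (w : X) :
    PF W n (j1 W.sft 1 (n + 1) t w) = (IQ W 0 n).op 6 (j1 W 0 n t w) := ilf_1 _ _ _ _ _ _ _ _ _ _

theorem PF_H (t : Bool) (w : X) :
    PF W n (jH W.sft 1 (n + 1) t w) = (IQ W 0 n).op 6 (jH W 0 n t w) := ilf_H _ _ _ _ _ _ _ _ _ _

theorem PF_E (t : Bool) (w : X) :
    PF W n (jE W.sft 1 (n + 1) t w) = (IQ W 0 n).op 6 (jE W 0 n t w) + jH W 0 n t w :=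
  ilf_E _ _ _ _ _ _ _ _ _ _

theorem PF_R (t : Bool) (w : X) :
    PF W n (jR W.sft 1 (n + 1) t w) = (IQ W 0 n).op 6 (jR W 0 n t w) + kap K n t • j1 W 0 n t w :=
  ilf_R _ _ _ _ _ _ _ _ _ _

theorem PF_hom : Hom (IQ W.sft 1 (n + 1)) (IQ W 0 n) (PF W n) := by
  have R := ((IQ W 0 n).relF le_rfl).expand
  have t1 := j1_ty W 0 n
  have tH := jH_ty W 0 n
  have tE := jE_ty W 0 n
  have tR := jR_ty W 0 n
  refine ilf_hom ⟨fun w => by simp [R.f4, t1.1], fun w => by simp [R.f4, t1.2]⟩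
    ⟨fun w => by simp [R.f4, tH.1], fun w => by simp [R.f4, tH.2]⟩
    ⟨fun w => by simp [R.f4, tH.1, tE.1], fun w => by simp [R.f4, tH.2, tE.2]⟩
    ⟨fun w => by simp [R.f4, tR.1, t1.1], fun w => by simp [R.f4, tR.2, t1.2]⟩
    (fun t ht c k w hw => ?_) (fun t ht c k w hw => ?_) (fun t ht c k w hw => ?_)
    (fun t ht c k w hw => ?_)
  · exact (IQ W 0 n).op1 (i := 6) (by omega) (by omega)
      (j1_fc W 0 n t (pr_succ (s := 0) ht) c (k - 1) w hw)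
  · exact (IQ W 0 n).op1 (i := 6) (by omega) (by omega)
      (jH_fc W 0 n t (pr_succ (s := 1) ht) c (k - 1) w hw)
  · exact Submodule.add_mem _ ((IQ W 0 n).op1 (i := 6) (by omega) (by omega)
      (jE_fc W 0 n t (pr_succ (s := 1) ht) c (k - 1) w hw))
      ((IQ W 0 n).up1 (jH_fc W 0 n t (pr_succ (s := 1) ht) c (k - 1) w hw))
  · exact Submodule.add_mem _ ((IQ W 0 n).op1 (i := 6) (by omega) (by omega)
      (jR_fc W 0 n t (pr_succ (s := 2) ht) c (k - 1) w hw)) (Submodule.smul_mem _ _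
      ((IQ W 0 n).up1 ((IQ W 0 n).up1 ((IQ W 0 n).up1
        (j1_fc W 0 n t (pr_succ2 (s := 0) (pr_succ (s := 2) ht)) c (k - 1 - 1 - 1) w hw)))))

theorem PF_chain (a : (IQ W.sft 1 (n + 2)).X) :
    dI 0 W 0 n (PF W (n + 1) a) = PF W n (dI (-2) W.sft 1 (n + 1) a) := by
  have R := ((IQ W 0 n).relF le_rfl).expand
  have h1 := (iq_rs 0 W 0).hd n
  have h2 := PF_hom W n
  have e1 : tau K 1 (n + 1) = tau K 0 n := tau_succ 0 n
  have e2 : tau K (1 + 1) (n + 1) = tau K (0 + 1) n := tau_succ 1 n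
  have e3 : tau K (1 + 1 + 1) (n + 1) = tau K (0 + 1 + 1) n := tau_succ 2 n
  have e4 : tau K 0 n = 1 := if_pos (Nat.zero_le n)
  have t1 := j1_ty W 0 n
  refine iq_ext (h1.comp (PF_hom W (n + 1))) (h2.comp ((iq_rs (-2) W.sft 1).hd (n + 1)))
    ?_ ?_ ?_ ?_ a <;>
  · rintro (_ | _) w <;>
    · simp only [LinearMap.comp_apply, PF_1, PF_H, PF_E, PF_R, dI_1, dI_H, dI_E, dI_R, DT_true,
        DT_false, map_add, map_sub, map_smul, h1.comm 6 (by omega), h2.comm 0 (by omega),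
        h2.comm 1 (by omega), h2.comm 2 (by omega), h2.comm 3 (by omega), h2.comm 5 (by omega),
        R.f0, R.f1, R.f2, R.f3, R.f5, e1, e2, e3, e4, kap_x, kap_y, Bool.not_true, Bool.not_false,
        t1.e, t1.r]
      try module

theorem PF_aug (a : (IQ W.sft 1 1).X) :
    aI 0 W 0 (PF W 0 a) = ff (0 : Module.End K X) (aI (-2) W.sft 1 a) := by
  have h1 := (iq_rs 0 W 0).ha.comm 6 (by omega)
  refine iq_ext ((iq_rs 0 W 0).ha.comp (PF_hom W 0)) ((ses3 W).hf.comp (iq_rs (-2) W.sft 1).ha)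
    ?_ ?_ ?_ ?_ a <;>
  · rintro (_ | _) w <;>
    · simp only [LinearMap.comp_apply, PF_1, PF_H, PF_E, PF_R, map_add, map_smul, h1, aI_1x,
        aI_1y, aI_H, aI_E, aI_R, map_zero, ff_zero]
      try simp [kap]

noncomputable abbrev TT : Obj K 7 := prodO (IQ W 0 n) (IQ W.sft 1 n)

noncomputable abbrev dT : (TT W (n + 1)).X →ₗ[K] (TT W n).X :=
  cdm (dI 0 W 0 n) (PF W n) (dI (-2) W.sft 1 n)

theorem tot_rs : Rs (TT W) (Kt W) 0 (dT W)
    (fg (0 : Module.End K X) ∘ₗ aI 0 W 0 ∘ₗ LinearMap.fst K _ _) :=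
  Rs.cone (iq_rs 0 W 0) (iq_rs (-2) W.sft 1) (ses3 W) (PF_hom W) (PF_chain W) (PF_aug W)

end Vale.Agent.P195
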