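import Vale.Agent.P195.ShiftN

/- The connecting map is nonzero: a trace computation. -/

set_option linter.unusedVariables false
set_option linter.unusedSimpArgs false
set_option linter.unusedSectionVars false
set_option linter.unnecessarySeqFocus false
set_option linter.unusedTactic false
set_option linter.unreachableTactic false

namespace Vale.Agent.P195

open MulOpposite Lam

variable {k : Type} [Field k] [CharP k 2]
variable {C : Type} [Ring C] [Algebra k C] [FiniteDimensional k C] (cd : CD k C) {H : k}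
  (hH : H ≠ 0)

theorem tr_zero (μ : NN → NN → EE k C)
    (h1 : ∀ n : NN, n.1 + n.2 = -7 → cd.P.fc.op.δ (RE k C) (cd.g (μ n)) = μ n)
    (h2 : ∀ n, LinearMap.trace k C (μ n n) = 0)
    (h3 : ∀ n : NN, n.1 + n.2 = -8 → cd.P.fc.op.δ (RE k C) (Pi.single n (LL k C (cd.P.e n))) =
      (fun m => LL k C (cd.P.c 0 n) * μ (n + vN 0) m) +
        fun m => LL k C (cd.P.c 1 n) * μ (n + vN 1) m) : False := by
  let A : Fin 2 → NN → k := fun a n =>
    LinearMap.trace k C (cd.g (μ (n + vN a)) n * LL k C (cd.P.c a n))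
  have e1 : ∀ n : NN, n.1 + n.2 = -7 → A 0 (n + -vN 0) + A 1 (n + -vN 1) = 0 := fun n hn => by
    have := h2 n
    rw [← h1 n hn, HN.op_δ_apply, map_add] at this
    simp only [A, neg_add_cancel_right]
    exact this
  have e2 : ∀ a n, cd.P.e (n + vN a) = 0 → A a n = 0 := fun a n h => by
    simp only [A]
    rw [← cd.P.right a n, h, mul_zero, map_zero, mul_zero, map_zero]
  have e3 : ∀ n : NN, 0 < n.1 ∨ 0 < n.2 → cd.P.e n = 0 := fun n h => by
    by_contra h0
    have := cd.suppP n h0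
    omega
  refine cd.tr ?_
  have e4 : ∀ n : NN, n.1 + n.2 = -8 → LinearMap.trace k C (cd.g (cd.P.fc.op.δ (RE k C)
      (Pi.single n (LL k C (cd.P.e n)))) n) = A 0 n + A 1 n := fun n hn => by
    rw [h3 n hn, map_add, Pi.add_apply, cd.gc, cd.gc, map_add, LinearMap.trace_mul_comm,
      LinearMap.trace_mul_comm k (LL k C (cd.P.c 1 n))]
  rw [Finset.sum_congr rfl fun i _ => e4 _ (by simp only; omega), Finset.sum_add_distrib,
    Finset.sum_range_succ' _ 8, Finset.sum_range_succ _ 8, e2 0 _ (e3 _ (by simp)),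
    e2 1 _ (e3 _ (by simp)), add_zero, add_zero, ← Finset.sum_add_distrib]
  refine Finset.sum_eq_zero fun i _ => ?_
  convert e1 (-(i : ℤ), (i : ℤ) - 7) (by simp only; omega) using 3 <;> simp <;> omega

noncomputable def eta (i : Ix) : Ix → Lam cd H :=
  if i.1 = 1 then dZ cd hH (Pi.single (0, i.2) (mP cd H ((cd.F i.2.1).e i.2.2) 0)) else 0

theorem dZ_mul (r : Lam cd H) (x : Ix → Lam cd H) :
    (MZ cd hH).ρ r (dZ cd hH x) = dZ cd hH (fun i => r * x i) :=
  ((eqv_reg (k := k) (ZZ cd hH)).comm r x).symm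

theorem mul_single (r s : Lam cd H) (i : Ix) :
    (fun l => r * (Pi.single i s : Ix → Lam cd H) l) = Pi.single i (r * s) := by
  funext l
  by_cases h : l = i
  · subst h; simp
  · simp [h]

theorem dZ_single (s : Lam cd H) (i : Ix) : dZ cd hH (Pi.single i s) =
    ∑ a, (Pi.single (i + vI a) (s * (ZZ cd hH).c a i) : Ix → Lam cd H) := by
  have h1 := mul_single cd s 1 i
  rw [mul_one] at h1
  rw [← h1, ← dZ_mul]
  change s • dM k (ZZ cd hH) _ = _
  rw [dM_single, Finset.smul_sum]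
  refine Finset.sum_congr rfl fun a _ => ?_
  rw [smul_smul]
  have h1 := mul_single cd (s * (ZZ cd hH).c a i) 1 (i + vI a)
  rw [mul_one] at h1
  exact h1

theorem eta_mem (i : Ix) (hi : degI i = -9) : eta cd hH i ∈ (MZ cd hH).U := by
  obtain ⟨t, j, n⟩ := i
  unfold eta
  split_ifs with h
  · refine ⟨((ZZ cd hH).op.L (regR k _)).mem 7 _ ((mem_ZZ cd hH).2 ⟨fun l => ?_, fun l hl => ?_⟩),
      ((ZZ cd hH).op.L (regR k _)).dd _⟩
    · by_cases h : l = (0, j, n)
      · subst h
        apply ext1 <;> simp [ze, sel, HN.idem]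
      · simp [h]
    · refine Pi.single_eq_of_ne ?_ _
      rintro rfl
      simp only [degI_apply] at hi hl h
      omega
  · exact Submodule.zero_mem _

theorem d_eta (t j : ℤ) (n : NN) : (ZZ cd hH).δ (MZ cd hH) (eta cd hH) (t, j, n) =
    if t = 2 then dZ cd hH (Pi.single (0, j, n) (c3 cd H (2, j, n) * mP cd H ((cd.F j).e n) 0))
    else 0 := by
  rw [FC.δ_apply, Fin.sum_univ_four]
  rcases tcs t with rfl | rfl | rfl | ⟨h0, h1, h2⟩
  · simp [eta, ZZ]
  · have := ((ZZ cd hH).op.L (regR k _)).dd (Pi.single (0, j, n) (mP cd H ((cd.F j).e n) 0))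
    change dZ cd hH (dZ cd hH _) = 0 at this
    rw [dZ_single, Fin.sum_univ_four] at this
    have e : ∀ a : Fin 2, zc cd H a (1, j, n) * mP cd H ((cd.F j).e (n + vN a)) 0 =
        mP cd H ((cd.F j).e n) 0 * zc cd H a (0, j, n) := fun a => by
      apply ext1 <;> simp [zc, sel, HN.left, HN.right]
    have e' : zu cd H (1, j, n) * mP cd H ((cd.F (j + -1)).e n) 0 =
        mP cd H ((cd.F j).e n) 0 * zu cd H (0, j, n) := by
      apply ext1 <;> simp [zu, sel, cd.e_σ, cd.σ_e]
    simp [eta, ZZ, c3, -vN0, -vN1] at this ⊢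
    simp only [dZ_mul, mul_single, e, e']
    exact this
  · simp [eta, ZZ, dZ_mul, mul_single]
  · have : t + -1 ≠ 1 := by omega
    simp [eta, ZZ, *]

noncomputable def eta0 : Ix → Ix → Lam cd H := (ZZ cd hH).pr (MZ cd hH) (-10 + 1) (eta cd hH)

theorem eta0_mem : eta0 cd hH ∈ (ZZ cd hH).E (MZ cd hH) (-10 + 1) := by
  intro i
  by_cases hi : (ZZ cd hH).deg i = -10 + 1
  · simp [eta0, FC.pr_apply, hi, (MZ cd hH).stab _ _ (eta_mem cd hH i hi), ← (MZ cd hH).mul,
      FC.idem]
  · simp only [eta0, FC.pr_apply, hi, if_false]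
    simp

theorem rho_mem : (ZZ cd hH).δ (MZ cd hH) (eta0 cd hH) ∈ cd.PC.E (cmp cd (MZ cd hH)) (-10) := by
  obtain ⟨x, hx, e⟩ := (ses_main cd hH (MZ cd hH)).mid (-10) _
    (((ZZ cd hH).L (MZ cd hH)).mem _ _ (eta0_mem cd hH)) (by
      funext ⟨t, j, n⟩
      change (if t ≤ 1 then (ZZ cd hH).δ _ ((ZZ cd hH).pr _ (-10 + 1) _) _ else 0) = 0
      rw [FC.δ_pr, FC.pr_apply, d_eta]
      split_ifs <;> first | omega | simp)
  exact e ▸ hx

theorem rho_ne (y : Ix → Ix → Lam cd H) (hy : y ∈ cd.PC.E (cmp cd (MZ cd hH)) (-10 + 1)) :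
    cd.PC.δ (cmp cd (MZ cd hH)) y ≠ (ZZ cd hH).δ (MZ cd hH) (eta0 cd hH) := by
  intro h
  refine tr_zero cd (fun n m => val (y (2, 0, n) (0, 0, m)).κ0) (fun n _ => ?_) (fun n => ?_)
    fun n hn => ?_
  · have := biK.zmem biE _ (f := val) (fun _ _ => rfl) 7 _ (rA_mem cd hH (hy (2, 0, n)).1)
    exact cd.bRE _ (fun m => (this.1 m).2.1) this.2
      ((this.1 _).2.2 (by change (4 : ℤ) ≠ 7; omega))
  · simpa using val_tr (y (2, 0, n) (0, 0, n)).κ0 1
  · have h1 := congrFun h (2, 0, n)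
    rw [eta0, FC.δ_pr, FC.pr_apply, FC.δ_lab, if_pos (by
      change degI _ = _
      simp only [degI_apply]
      omega), d_eta, if_pos rfl, PC_δ, if_pos ⟨rfl, rfl⟩, u_low cd (by omega), Rp.zero,
      LinearMap.zero_apply, add_zero, HN.δ_apply] at h1
    funext m
    have h2 := congrArg (fun z => val (z (0, 0, m)).κ0) h1
    simp only [rA_d] at h2
    have h3 : (fun m => ((Pi.single (0, 0, n) (c3 cd H (2, 0, n) * mP cd H ((cd.F 0).e n) 0) :
        Ix → Lam cd H) (0, 0, m)).κ0) = Pi.single n (emb cd (cd.P.e n)) := by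
      funext l
      by_cases hl : l = n
      · subst hl; simp [c3, HN.idem]
      · simp [hl]
    rw [h3] at h2
    have h4 : ∀ l, val ((Pi.single n (emb cd (cd.P.e n)) : NN → KT k C) l) =
        (Pi.single n (LL k C (cd.P.e n)) : NN → EE k C) l := fun l => by
      by_cases hl : l = n
      · subst hl; simp
      · simp [hl]
    rw [HN.op_δ_apply] at h2 ⊢
    simp only [RK, RE, map_add, val_rm, unop_op, LinearMap.mulRight_apply, h4] at h2 ⊢
    rw [← h2]
    change val (mC cd H _ * _ + mC cd H _ * _).κ0 = _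
    simp [-vN0, -vN1]

end Vale.Agent.P195
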