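import Vale.Agent.P195.Gen
import Vale.Agent.P195.ExtL

/- The finite-dimensional algebra and the exact functor to its modules. -/

namespace Vale.Agent.P195

open CategoryTheory
open Vale.Agent.P176 (PieceExact SE)

universe u

variable {K : Type u} [Field K]

noncomputable abbrev FP (W : L0 K) : Obj K 9 := Lam (Ind (Fr W W))

noncomputable def lin (Y : Obj K 6) : Y.X →ₗ[K] (Lam (Ind Y)).X :=
  linc (Ind Y) ∘ₗ Finsupp.lsingle 0

theorem lin_hom (Y : Obj K 6) : Hom Y (res (by omega) (Lam (Ind Y))) (lin Y) :=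
  ((linc_hom (Ind Y)).res (by omega : 6 ≤ 7)).comp (inc_hom Y)

noncomputable def ug (W : L0 K) : W.X →ₗ[K] (FP W).X :=
  lin (Fr W W) ∘ₗ (incx K W.X W.X + incy K W.X W.X)

theorem ug_mem (W : L0 K) {c : C7} {n : ℤ} {w : W.X} (hw : w ∈ W.F c n) :
    ug W w ∈ (FP W).F c n :=
  (lin_hom (Fr W W)).filt c n _ (Submodule.add_mem _ (incx_mem hw) (incy_mem hw))

theorem pi_ug (W : L0 K) (w : W.X) : (FP W).op 4 (ug W w) = lin (Fr W W) (incx K W.X W.X w) := by
  have := (lin_hom (Fr W W)).comm 4 (by omega) ((incx K W.X W.X + incy K W.X W.X) w)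
  refine this.symm.trans (congrArg _ ?_)
  change fop K W.X W.X 4 _ = _
  rw [LinearMap.add_apply, map_add, pi_incx, pi_incy, add_zero]

theorem FP_ex (W : L0 K) (Z : Obj K 9) (ψ : W.X →ₗ[K] Z.X)
    (h : ∀ c n, ∀ w ∈ W.F c n, ψ w ∈ Z.F c n) :
    ∃ φ, Hom (FP W) Z φ ∧ ∀ w, φ (ug W w) = ψ w := by
  have h1 : Hom (Fr W W) (res (by omega) (res (by omega : 7 ≤ 9) Z))
      (flift (res (by omega) (res (by omega : 7 ≤ 9) Z)) (Z.op 4 ∘ₗ ψ) (ψ - Z.op 4 ∘ₗ ψ)) :=
    flift_hom (fun w => Z.relD.pp _)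
      (fun w => by simp [Z.relD.pp]) (fun c n w hw => Z.comp0 (by omega) (by omega) (by omega)
        (h c n w hw)) (fun c n w hw => Submodule.sub_mem _ (h c n w hw)
          (Z.comp0 (by omega) (by omega) (by omega) (h c n w hw)))
  refine ⟨_, llift_hom (lift_hom h1), fun w => ?_⟩
  refine (llift_linc _ _ _).trans ((plift_zero _ _ _).trans ?_)
  rw [LinearMap.add_apply, map_add, flift_incx, flift_incy]
  simp

theorem FP_gen (W : L0 K) {S : Submodule K (FP W).X} (hS : Inv (FP W) S)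
    (h : ∀ c n, W.F c n ≤ S.comap (ug W)) (c : C7) (n : ℤ) : (FP W).F c n ≤ S := by
  have h1 : Inv (Ind (Fr W W)) (S.comap (linc (Ind (Fr W W)))) :=
    Inv.comap (linc_hom _) fun i hi => hS i (by omega)
  have h2 := Inv.comap (inc_hom (Fr W W)) (S := S.comap (linc (Ind (Fr W W))))
    fun i hi => h1 i (by omega)
  refine lam_gen hS (fun c => ind_gen h1 (fr_gen h2 (fun n w hw => ?_) fun n w hw => ?_)) c n
  · have := hS 4 (by omega) _ (h c n hw)
    rwa [pi_ug] at this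
  · have e1 := hS 4 (by omega) _ (h c n hw)
    rw [pi_ug] at e1
    have e2 := S.sub_mem (h c n hw) e1
    rw [ug, LinearMap.comp_apply, LinearMap.add_apply, map_add, add_sub_cancel_left] at e2
    exact e2

@[reducible] def topO {j : ℕ} (Y : Obj K j) : Obj K j where
  X := Y.X
  op := Y.op
  F := fun _ _ => ⊤
  mono := fun _ _ => le_rfl
  comp := fun _ _ _ _ _ _ => trivial
  relD := Y.relD
  relF := Y.relF
  relV := Y.relV

theorem lam_gen_top {Y : Obj K 7} {S : Submodule K (Q4 Y.X)} (hS : Inv (Lam Y) S)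
    (h : ∀ y, linc Y y ∈ S) (w : Q4 Y.X) : w ∈ S :=
  lam_gen (Y := topO Y) hS (fun _ _ y _ => h y) 0 0 ⟨trivial, trivial, trivial, trivial⟩

theorem ind_gen_top {Y : Obj K 6} {S : Submodule K (ℕ →₀ Y.X)} (hS : Inv (Ind Y) S)
    (h : ∀ y, Finsupp.single 0 y ∈ S) (w : ℕ →₀ Y.X) : w ∈ S :=
  ind_gen (Y := topO Y) (c := 0) hS (fun _ y _ => h y) 0 fun _ => trivial

theorem fr_gen_top {W1 W0 : L0 K} {S : Submodule K (FX K W1.X W0.X)} (hS : Inv (Fr W1 W0) S)
    (h1 : ∀ w, incx K W1.X W0.X w ∈ S) (h0 : ∀ w, incy K W1.X W0.X w ∈ S)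
    (x : FX K W1.X W0.X) : x ∈ S :=
  fr_gen (W1 := ⟨W1.X, fun _ _ => ⊤, fun _ _ => le_rfl⟩)
    (W0 := ⟨W0.X, fun _ _ => ⊤, fun _ _ => le_rfl⟩) (c := 0) hS (fun _ w _ => h1 w)
    (fun _ w _ => h0 w) 0 ⟨⟨fun _ => trivial, fun _ => trivial, fun _ _ => trivial⟩,
      fun _ => trivial, fun _ => trivial⟩

theorem FP_uniq {W : L0 K} {Z : Obj K 9} {φ : (FP W).X →ₗ[K] Z.X} (h : Hom (FP W) Z φ)
    (h0 : ∀ w, φ (ug W w) = 0) : φ = 0 := by
  have hS := (Inv.bot Z).comap h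
  have h1 : Inv (Ind (Fr W W)) ((Submodule.comap φ ⊥).comap (linc (Ind (Fr W W)))) :=
    Inv.comap (linc_hom _) fun i hi => hS i (by omega)
  have h2 := Inv.comap (inc_hom (Fr W W))
    (S := (Submodule.comap φ ⊥).comap (linc (Ind (Fr W W)))) fun i hi => h1 i (by omega)
  refine LinearMap.ext (lam_gen_top hS (ind_gen_top h1 (fr_gen_top h2 (fun w => ?_) fun w => ?_)))
  · have := hS 4 (by omega) _ (h0 w)
    rwa [pi_ug] at this
  · have e1 := hS 4 (by omega) _ (h0 w)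
    rw [pi_ug] at e1
    have e2 := Submodule.sub_mem (Submodule.comap φ ⊥) (h0 w) e1
    rw [ug, LinearMap.comp_apply, LinearMap.add_apply, map_add, add_sub_cancel_left] at e2
    exact e2

abbrev JJ := C7 × Fin 4

variable (K) in
@[reducible] def BB : L0 K := bas K JJ (fun _ => True) Prod.fst fun k => k.2

variable (K) in
noncomputable def PP : Obj K 9 := FP (BB K)

noncomputable def gen (k : JJ) : (PP K).X := ug (BB K) (Pi.single k 1)

theorem gen_mem (k : JJ) : gen k ∈ (PP K).F k.1 (k.2 : ℕ) :=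
  ug_mem (BB K) ((basG (K := K) JJ (fun _ => True) Prod.fst fun k => k.2).mem k trivial)

theorem PP_ex (Z : Obj K 9) (v : JJ → Z.X) (hv : ∀ k : JJ, v k ∈ Z.F k.1 (k.2 : ℕ)) :
    ∃ φ, Hom (PP K) Z φ ∧ ∀ k, φ (gen k) = v k := by
  obtain ⟨ψ, h1, h2⟩ := (basG (K := K) JJ (fun _ => True) Prod.fst fun k => k.2).ex Z.l0 v
    fun k _ => hv k
  obtain ⟨φ, h3, h4⟩ := FP_ex (BB K) Z ψ h1
  exact ⟨φ, h3, fun k => (h4 _).trans (h2 k trivial)⟩

theorem PP_uniq {Z : Obj K 9} {φ : (PP K).X →ₗ[K] Z.X} (h : Hom (PP K) Z φ)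
    (h0 : ∀ k, φ (gen k) = 0) : φ = 0 := by
  refine FP_uniq h fun y => ?_
  have : (φ ∘ₗ ug (BB K) : (JJ → K) →ₗ[K] Z.X) = 0 := by
    refine LinearMap.pi_ext' fun d => LinearMap.ext_ring ?_
    exact h0 d
  exact LinearMap.congr_fun this y

variable (K) in
noncomputable def EndA : Subalgebra K (Module.End K (PP K).X) where
  carrier := {f | Hom (PP K) (PP K) f}
  mul_mem' := fun hf hg => hf.comp hg
  add_mem' := fun hf hg => hf.add hg
  algebraMap_mem' := fun c => (HomS (PP K) (PP K)).smul_mem c (Hom.id _)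

variable (K) in
/-- The algebra. -/
abbrev AA : Type u := (EndA K)ᵐᵒᵖ

def Win (Z : Obj K 9) : Type u := HomS (PP K) Z

noncomputable instance (Z : Obj K 9) : AddCommGroup (Win Z) :=
  inferInstanceAs (AddCommGroup (HomS (PP K) Z))

noncomputable instance (Z : Obj K 9) : Module K (Win Z) :=
  inferInstanceAs (Module K (HomS (PP K) Z))

def Win.val {Z : Obj K 9} (φ : Win Z) : (PP K).X →ₗ[K] Z.X := Subtype.val φ

theorem Win.hom {Z : Obj K 9} (φ : Win Z) : Hom (PP K) Z φ.val := Subtype.property φ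

def Win.mk {Z : Obj K 9} (φ : (PP K).X →ₗ[K] Z.X) (h : Hom (PP K) Z φ) : Win Z := ⟨φ, h⟩

theorem Win.ext {Z : Obj K 9} {φ ψ : Win Z} (h : φ.val = ψ.val) : φ = ψ := Subtype.ext h

@[simp] theorem Win.val_mk {Z : Obj K 9} (φ : (PP K).X →ₗ[K] Z.X) (h : Hom (PP K) Z φ) :
    (Win.mk φ h).val = φ := rfl

@[simp] theorem Win.val_add {Z : Obj K 9} (φ ψ : Win Z) : (φ + ψ).val = φ.val + ψ.val := rfl

@[simp] theorem Win.val_sub {Z : Obj K 9} (φ ψ : Win Z) : (φ - ψ).val = φ.val - ψ.val := rfl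

@[simp] theorem Win.val_zero {Z : Obj K 9} : (0 : Win Z).val = 0 := rfl

@[simp] theorem Win.val_smul {Z : Obj K 9} (c : K) (φ : Win Z) : (c • φ).val = c • φ.val := rfl

theorem Win.val_sum {Z : Obj K 9} {I : Type} (s : Finset I) (φ : I → Win Z) :
    (∑ i ∈ s, φ i).val = ∑ i ∈ s, (φ i).val := by
  classical
  induction s using Finset.induction_on with
  | empty => simp
  | insert a s ha ih => rw [Finset.sum_insert ha, Finset.sum_insert ha, Win.val_add, ih]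

theorem Win.eq_zero {Z : Obj K 9} {φ : Win Z} (h : ∀ k, φ.val (gen k) = 0) : φ = 0 :=
  Win.ext (PP_uniq φ.hom h)

theorem Win.ext' {Z : Obj K 9} {φ ψ : Win Z} (h : ∀ k, φ.val (gen k) = ψ.val (gen k)) : φ = ψ := by
  rw [← sub_eq_zero]
  exact Win.eq_zero fun k => by simp [h k]

theorem Win.gen_mem {Z : Obj K 9} (φ : Win Z) (k : JJ) : φ.val (gen k) ∈ Z.F k.1 (k.2 : ℕ) :=
  φ.hom.filt _ _ _ (P195.gen_mem k)

theorem Win.ex (Z : Obj K 9) (v : JJ → Z.X) (hv : ∀ k : JJ, v k ∈ Z.F k.1 (k.2 : ℕ)) :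
    ∃ φ : Win Z, ∀ k, φ.val (gen k) = v k := by
  obtain ⟨φ, h1, h2⟩ := PP_ex Z v hv
  exact ⟨Win.mk φ h1, h2⟩

theorem Win.pt {Z : Obj K 9} (k : JJ) {y : Z.X} (hy : y ∈ Z.F k.1 (k.2 : ℕ)) :
    ∃ φ : Win Z, φ.val (gen k) = y := by
  obtain ⟨φ, h⟩ := Win.ex Z (fun l => if l = k then y else 0) fun l => by
    split_ifs with h
    · rw [h]
      exact hy
    · exact Submodule.zero_mem _
  exact ⟨φ, (h k).trans (if_pos rfl)⟩

noncomputable instance (Z : Obj K 9) : SMul (AA K) (Win Z) :=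
  ⟨fun a φ => Win.mk (φ.val ∘ₗ (a.unop : Module.End K (PP K).X)) (φ.hom.comp a.unop.2)⟩

theorem Win.val_asmul {Z : Obj K 9} (a : AA K) (φ : Win Z) :
    (a • φ).val = φ.val ∘ₗ (a.unop : Module.End K (PP K).X) := rfl

noncomputable instance (Z : Obj K 9) : Module (AA K) (Win Z) where
  one_smul := fun _ => rfl
  mul_smul := fun _ _ _ => rfl
  smul_zero := fun _ => rfl
  smul_add := fun _ _ _ => rfl
  add_smul := fun _ _ _ => Win.ext (LinearMap.comp_add _ _ _)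
  zero_smul := fun _ => Win.ext (LinearMap.comp_zero _)

instance (Z : Obj K 9) : IsScalarTower K (AA K) (Win Z) :=
  ⟨fun _ _ _ => Win.ext (LinearMap.comp_smul _ _ _)⟩

noncomputable abbrev WinM (Z : Obj K 9) : ModuleCat.{u} (AA K) := ModuleCat.of (AA K) (Win Z)

noncomputable def wmap {Y Z : Obj K 9} {f : Y.X →ₗ[K] Z.X} (h : Hom Y Z f) :
    Win Y →ₗ[AA K] Win Z where
  toFun := fun φ => Win.mk (f ∘ₗ φ.val) (h.comp φ.hom)
  map_add' := fun _ _ => Win.ext (LinearMap.comp_add _ _ _)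
  map_smul' := fun _ _ => rfl

theorem wmap_val {Y Z : Obj K 9} {f : Y.X →ₗ[K] Z.X} (h : Hom Y Z f) (φ : Win Y) :
    (wmap h φ).val = f ∘ₗ φ.val := rfl

theorem wmap_gen {Y Z : Obj K 9} {f : Y.X →ₗ[K] Z.X} (h : Hom Y Z f) (φ : Win Y) (k : JJ) :
    (wmap h φ).val (gen k) = f (φ.val (gen k)) := rfl

/-- Elements of the pieces seen by the functor. -/
def InW {j : ℕ} (Y : Obj K j) (x : Y.X) : Prop := ∃ k : JJ, x ∈ Y.F k.1 (k.2 : ℕ)

theorem InW.map {j : ℕ} {Y Z : Obj K j} {f : Y.X →ₗ[K] Z.X} (h : Hom Y Z f) {x : Y.X}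
    (hx : InW Y x) : InW Z (f x) := by
  obtain ⟨k, hk⟩ := hx
  exact ⟨k, h.filt _ _ _ hk⟩

theorem InW.v {Y : Obj K 9} {i : ℕ} (h : i = 7 ∨ i = 8) {x : Y.X} (hx : InW Y x) :
    InW Y (Y.op i x) := by
  obtain ⟨k, hk⟩ := hx
  exact ⟨(k.1 + 1, k.2), Y.compv (by omega) h hk⟩

theorem InW.pt {Y : Obj K 9} {x : Y.X} (hx : InW Y x) :
    ∃ (φ : Win Y) (k : JJ), φ.val (gen k) = x := by
  obtain ⟨k, hk⟩ := hx
  obtain ⟨φ, h⟩ := Win.pt k hk
  exact ⟨φ, k, h⟩

theorem Win.inw {Y : Obj K 9} (φ : Win Y) (k : JJ) : InW Y (φ.val (gen k)) := ⟨k, φ.gen_mem k⟩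

theorem Gens.inw {j : ℕ} {Y : Obj K j} {I : Type} (G : Gens Y I) {i : I} (hi : G.pres i)
    (hb : G.dg i ≤ 3) : InW Y (G.g i) := ⟨(G.cp i, ⟨G.dg i, by omega⟩), G.mem i hi⟩

section Exact

variable {Z1 Z2 Z3 : Obj K 9} {f : Z1.X →ₗ[K] Z2.X} {g : Z2.X →ₗ[K] Z3.X}

theorem win_exact (hf : Hom Z1 Z2 f) (hg : Hom Z2 Z3 g)
    (h : ∀ c n, Mid (Z1.F c n) (Z2.F c n) f g) : Function.Exact (wmap hf) (wmap hg) := by
  intro φ
  constructor
  · intro h0
    have h1 : ∀ k, g (φ.val (gen k)) = 0 := fun k =>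
      LinearMap.congr_fun (congrArg Win.val h0) (gen k)
    choose v hv hv' using fun k => (h _ _).2 _ (φ.gen_mem k) (h1 k)
    obtain ⟨ψ, h2⟩ := Win.ex Z1 v hv
    exact ⟨ψ, Win.ext' fun k => by rw [wmap_gen, h2, hv']⟩
  · rintro ⟨ψ, rfl⟩
    exact Win.eq_zero fun k => (h _ _).1 _ (ψ.gen_mem k)

theorem win_surj (hf : Hom Z1 Z2 f) (h : ∀ c n, Onto (Z1.F c n) (Z2.F c n) f) :
    Function.Surjective (wmap hf) := by
  intro φ
  choose v hv hv' using fun k => h _ _ _ (φ.gen_mem k)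
  obtain ⟨ψ, h2⟩ := Win.ex Z1 v hv
  exact ⟨ψ, Win.ext' fun k => by rw [wmap_gen, h2, hv']⟩

theorem win_inj (hf : Hom Z1 Z2 f) (h : ∀ c n, ∀ x ∈ Z1.F c n, f x = 0 → x = 0) :
    Function.Injective (wmap hf) := by
  rw [injective_iff_map_eq_zero]
  intro φ h0
  exact Win.eq_zero fun k => h _ _ _ (φ.gen_mem k)
    (LinearMap.congr_fun (congrArg Win.val h0) (gen k))

end Exact

structure OSES {j : ℕ} (Y1 Y2 Y3 : Obj K j) (f : Y1.X →ₗ[K] Y2.X) (g : Y2.X →ₗ[K] Y3.X) :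
    Prop where
  hf : Hom Y1 Y2 f
  hg : Hom Y2 Y3 g
  ex : ∀ c n, PieceExact (Y1.F c n) (Y2.F c n) (Y3.F c n) f g

theorem OSES.se {Z1 Z2 Z3 : Obj K 9} {f : Z1.X →ₗ[K] Z2.X} {g : Z2.X →ₗ[K] Z3.X}
    (h : OSES Z1 Z2 Z3 f g) : SE (WinM Z1) (WinM Z2) (WinM Z3) :=
  se_of (wmap h.hf) (wmap h.hg) (win_exact _ _ fun c n => ⟨(h.ex c n).zero, (h.ex c n).mid⟩)
    (win_inj _ fun c n => (h.ex c n).inj) (win_surj _ fun c n => (h.ex c n).surj)

theorem win_finite {Z : Obj K 9} (h : ∀ c n, FiniteDimensional K (Z.F c n)) :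
    FiniteDimensional K (Win Z) := by
  let e : Win Z →ₗ[K] (∀ k : JJ, Z.F k.1 (k.2 : ℕ)) :=
    { toFun := fun φ d => ⟨φ.val (gen d), φ.gen_mem d⟩
      map_add' := fun _ _ => rfl
      map_smul' := fun _ _ => rfl }
  refine FiniteDimensional.of_injective e ?_
  rw [injective_iff_map_eq_zero]
  intro φ h0
  exact Win.eq_zero fun d => congrArg Subtype.val (congrFun h0 d)

noncomputable def winPP : AA K ≃ₗ[AA K] Win (PP K) where
  toFun := fun a => Win.mk (a.unop : Module.End K (PP K).X) a.unop.2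
  invFun := fun φ => MulOpposite.op ⟨φ.val, φ.hom⟩
  map_add' := fun _ _ => rfl
  map_smul' := fun _ _ => rfl
  left_inv := fun _ => rfl
  right_inv := fun _ => rfl

theorem winPP_smul {Z : Obj K 9} (a : Win (PP K)) (φ : Win Z) :
    (winPP.symm a • φ).val = φ.val ∘ₗ a.val := rfl

/-- Finite direct sums of summands of the generator, on the pieces. -/
def Spl (Y : Obj K 9) : Prop :=
  ∃ (I : Type) (_ : Fintype I) (p : I → Win Y) (q : I → Y.X →ₗ[K] (PP K).X),
    (∀ i, Hom Y (PP K) (q i)) ∧ ∀ c n, ∀ y ∈ Y.F c n, ∑ i, (p i).val (q i y) = y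

theorem Spl.dec {Y : Obj K 9} {I : Type} [Fintype I] {p : I → Win Y}
    {q : I → Y.X →ₗ[K] (PP K).X} (hq : ∀ i, Hom Y (PP K) (q i))
    (h : ∀ c n, ∀ y ∈ Y.F c n, ∑ i, (p i).val (q i y) = y) (ψ : Win Y) :
    ∑ i, winPP.symm (wmap (hq i) ψ) • p i = ψ := by
  refine Win.ext' fun k => ?_
  rw [Win.val_sum, LinearMap.sum_apply]
  exact h _ _ _ (ψ.gen_mem k)

theorem Spl.proj {Y : Obj K 9} (h : Spl Y) : Module.Projective (AA K) (Win Y) := by
  obtain ⟨I, _, p, q, hq, h⟩ := h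
  refine Module.Projective.of_split (M := I → AA K)
    (LinearMap.pi fun i => winPP.symm.toLinearMap ∘ₗ wmap (hq i))
    (Fintype.linearCombination (AA K) p) (LinearMap.ext fun ψ => ?_)
  exact Spl.dec hq h ψ

theorem Spl.fin {Y : Obj K 9} (h : Spl Y) : Module.Finite (AA K) (Win Y) := by
  obtain ⟨I, _, p, q, hq, h⟩ := h
  exact Module.Finite.of_surjective (Fintype.linearCombination (AA K) p) fun ψ =>
    ⟨fun i => winPP.symm (wmap (hq i) ψ), Spl.dec hq h ψ⟩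

theorem Spl.rep {Y Z : Obj K 9} (h : Spl Y) (θ : Win Y →ₗ[AA K] Win Z) :
    ∃ (φ : Y.X →ₗ[K] Z.X) (hφ : Hom Y Z φ), θ = wmap hφ := by
  obtain ⟨I, _, p, q, hq, h⟩ := h
  have hφ : Hom Y Z (∑ i, (θ (p i)).val ∘ₗ q i) :=
    (HomS Y Z).sum_mem fun i _ => (θ (p i)).hom.comp (hq i)
  refine ⟨_, hφ, LinearMap.ext fun ψ => Win.ext' fun k => ?_⟩
  rw [wmap_gen, LinearMap.sum_apply]
  conv_lhs => rw [← Spl.dec hq h ψ, map_sum, Win.val_sum, LinearMap.sum_apply]
  refine Finset.sum_congr rfl fun i _ => ?_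
  rw [map_smul]
  rfl

theorem Gens.spl {Y : Obj K 9} {I : Type} [Fintype I] (G : Gens Y I) (hb : ∀ i, G.dg i ≤ 3) :
    Spl Y := by
  classical
  let k : I → JJ := fun i => (G.cp i, ⟨G.dg i, Nat.lt_succ_of_le (hb i)⟩)
  have h1 : ∀ i, ∃ p : Win Y, G.pres i → p.val (P195.gen (k i)) = G.g i := by
    intro i
    by_cases hi : G.pres i
    · obtain ⟨p, hp⟩ := Win.pt (k i) (G.mem i hi)
      exact ⟨p, fun _ => hp⟩
    · exact ⟨0, fun h => absurd h hi⟩
  choose p hp using h1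
  let t : I → (PP K).X := fun i =>
    if G.sg i then (PP K).op 4 (P195.gen (k i)) else P195.gen (k i) - (PP K).op 4 (P195.gen (k i))
  have ht : ∀ i, t i ∈ (PP K).F (G.cp i) (G.dg i) := fun i => by
    have e1 : P195.gen (k i) ∈ (PP K).F (G.cp i) (G.dg i) := gen_mem (k i)
    have e2 := (PP K).comp0 (i := 4) (by omega) (by omega) (by omega) e1
    dsimp only [t]
    split_ifs
    · exact e2
    · exact Submodule.sub_mem _ e1 e2
  have h2 : ∀ i, ∃ q : Y.X →ₗ[K] (PP K).X, Hom Y (PP K) q ∧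
      ∀ l, G.pres l → q (G.g l) = if l = i then t l else 0 := fun i =>
    G.ex (PP K) (fun l => if l = i then t l else 0) (fun l _ => by
      split_ifs
      · exact ht l
      · exact Submodule.zero_mem _) (fun l => by
      dsimp only [t]
      split_ifs <;> simp [(PP K).relD.pp])
  choose q hq hq' using h2
  refine ⟨I, inferInstance, p, q, hq, fun c n y hy => ?_⟩
  have h3 : Hom Y Y (∑ i, (p i).val ∘ₗ q i - LinearMap.id) :=
    Hom.sub ((HomS Y Y).sum_mem fun i _ => (p i).hom.comp (hq i)) (Hom.id Y)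
  have h4 := G.uniq h3 (fun l hl => by
    rw [LinearMap.sub_apply, LinearMap.sum_apply, Finset.sum_eq_single l]
    · rw [LinearMap.comp_apply, hq' l l hl, if_pos rfl, LinearMap.id_apply, sub_eq_zero]
      have e := (p l).hom.comm 4 (by omega) (P195.gen (k l))
      rw [hp l hl, G.typ] at e
      dsimp only [t]
      split_ifs with h
      · rw [e, if_pos h]
      · rw [map_sub, e, if_neg h, hp l hl, sub_zero]
    · intro i _ hi
      rw [LinearMap.comp_apply, hq' i l hl, if_neg (Ne.symm hi), map_zero]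
    · intro h
      exact absurd (Finset.mem_univ l) h) hy
  rw [LinearMap.sub_apply, LinearMap.sum_apply, LinearMap.id_apply, sub_eq_zero] at h4
  exact h4

section Fin

variable {X : Type u} [AddCommGroup X] [Module K X]

theorem coefF_fin {ι : Type} (G : ι → Submodule K X) (T : Set ι) (hT : T.Finite)
    (h1 : ∀ a, FiniteDimensional K (G a)) (h2 : ∀ a, a ∉ T → ∀ x ∈ G a, x = 0) :
    FiniteDimensional K (coefF G) := by
  have := hT.to_subtype
  let e : coefF G →ₗ[K] (∀ a : T, G a) :=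
    { toFun := fun p a => ⟨p.1 a, p.2 a⟩
      map_add' := fun _ _ => rfl
      map_smul' := fun _ _ => rfl }
  refine FiniteDimensional.of_injective e ?_
  rw [injective_iff_map_eq_zero]
  intro p h0
  ext a
  by_cases ha : a ∈ T
  · exact congrArg Subtype.val (congrFun h0 ⟨a, ha⟩)
  · exact h2 a ha _ (p.2 a)

def FDF (F : ℤ → Submodule K X) : Prop :=
  (∀ n, FiniteDimensional K (F n)) ∧ ∀ n < 0, ∀ x ∈ F n, x = 0

theorem FDF.ind {F : ℤ → Submodule K X} (h : FDF F) : FDF (indF F) := by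
  refine ⟨fun n => coefF_fin (fun a : ℕ => F (n - a)) _ (Set.finite_le_nat n.toNat)
    (fun a => h.1 _) fun a ha => h.2 _ ?_, fun n hn p hp => ?_⟩
  · simp only [Set.mem_ofPred_eq] at ha
    omega
  · ext a
    exact h.2 _ (by omega) _ (hp a)

theorem FDF.fr {F : ℤ → Submodule K X} (h : FDF F) : FDF (frF F) := by
  refine ⟨fun n => coefF_fin (fun a : List Bool => F (n - a.length)) _
    (List.finite_length_le Bool n.toNat) (fun a => h.1 _) fun a ha => h.2 _ ?_,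
    fun n hn p hp => ?_⟩
  · simp only [Set.mem_ofPred_eq] at ha
    omega
  · ext a
    exact h.2 _ (by omega) _ (hp a)

theorem prod_fin {Y : Type u} [AddCommGroup Y] [Module K Y] {S : Submodule K X}
    {T : Submodule K Y} (h1 : FiniteDimensional K S) (h2 : FiniteDimensional K T) :
    FiniteDimensional K (S.prod T) := by
  let e : S.prod T →ₗ[K] S × T :=
    { toFun := fun p => (⟨p.1.1, p.2.1⟩, ⟨p.1.2, p.2.2⟩)
      map_add' := fun _ _ => rfl
      map_smul' := fun _ _ => rfl }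
  refine FiniteDimensional.of_injective e fun p q h => ?_
  exact Subtype.ext (Prod.ext (congrArg (·.1.1) h) (congrArg (·.2.1) h))

theorem FDF.prod {Y : Type u} [AddCommGroup Y] [Module K Y] {F : ℤ → Submodule K X}
    {G : ℤ → Submodule K Y} (h1 : FDF F) (h2 : FDF G) : FDF fun n => (F n).prod (G n) :=
  ⟨fun n => prod_fin (h1.1 n) (h2.1 n),
    fun n hn _ hx => Prod.ext (h1.2 n hn _ hx.1) (h2.2 n hn _ hx.2)⟩

theorem FDF.sub {F : ℤ → Submodule K X} (h : FDF F) (S : Submodule K X) :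
    FDF fun n => (F n).comap S.subtype := by
  refine ⟨fun n => ?_, fun n hn x hx => Subtype.ext (h.2 n hn _ hx)⟩
  have := h.1 n
  let e : (F n).comap S.subtype →ₗ[K] F n :=
    { toFun := fun p => ⟨p.1.1, p.2⟩
      map_add' := fun _ _ => rfl
      map_smul' := fun _ _ => rfl }
  refine FiniteDimensional.of_injective e fun p q h => ?_
  exact Subtype.ext (Subtype.ext (congrArg (·.1) h))

end Fin

theorem fin_PP (c : C7) (n : ℤ) : FiniteDimensional K ((PP K).F c n) := by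
  have h0 : ∀ c, FDF ((BB K).F c) := fun c => ⟨fun n => inferInstance, fun n hn x hx =>
    funext fun j => hx j fun h => by omega⟩
  have h1 : ∀ c, FDF ((Ind (Fr (BB K) (BB K))).F c) := fun c =>
    FDF.ind (((h0 c).fr.prod (((h0 c).fr.sub _).prod (h0 c).ind.ind)).prod
      ((h0 c).fr.prod (h0 c).fr))
  exact prod_fin ((h1 _).1 n) (prod_fin ((h1 _).1 n) (prod_fin ((h1 _).1 n) ((h1 _).1 n)))

theorem fin_AA : FiniteDimensional K (AA K) := by
  have := win_finite (fin_PP (K := K))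
  exact LinearEquiv.finiteDimensional (winPP.symm.restrictScalars K)

end Vale.Agent.P195
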