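import Vale.Agent.P195.Lam

/- The totally acyclic formal complex over the triangular algebra. -/

set_option linter.unusedVariables false
set_option linter.unusedSimpArgs false
set_option linter.unusedSectionVars false
set_option linter.unnecessarySeqFocus false
set_option linter.unusedTactic false
set_option linter.unreachableTactic false

namespace Vale.Agent.P195

open MulOpposite Lam

variable {k : Type} [Field k] {C : Type} [Ring C] [Algebra k C] [FiniteDimensional k C]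

abbrev Ix := ℤ × ℤ × NN

def vI : Fin 4 → Ix := ![(0, 0, vN 0), (0, 0, vN 1), (0, -1, 0), (-1, 0, 0)]

@[simp] theorem vI0 : vI 0 = (0, 0, vN 0) := rfl
@[simp] theorem vI1 : vI 1 = (0, 0, vN 1) := rfl
@[simp] theorem vI2 : vI 2 = (0, -1, 0) := rfl
@[simp] theorem vI3 : vI 3 = (-1, 0, 0) := rfl

def degI : Ix →+ ℤ where
  toFun := fun i => i.2.2.1 + i.2.2.2 - i.2.1 - i.1
  map_zero' := rfl
  map_add' := fun a b => by simp only [Prod.fst_add, Prod.snd_add]; ring

theorem degI_apply (i : Ix) : degI i = i.2.2.1 + i.2.2.2 - i.2.1 - i.1 := rfl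

namespace CD

variable (cd : CD k C)

def F (j : ℤ) : HN C := if 0 ≤ j then cd.P else cd.Q

def σ (j : ℤ) (n : NN) : C := if j = 0 then cd.u n else (cd.F j).e n

theorem F_nonneg {j : ℤ} (h : 0 ≤ j) : cd.F j = cd.P := if_pos h
theorem F_neg {j : ℤ} (h : j < 0) : cd.F j = cd.Q := if_neg (by omega)
@[simp] theorem F_zero : cd.F 0 = cd.P := rfl
@[simp] theorem F_m1 : cd.F (-1) = cd.Q := rfl
@[simp] theorem σ_zero : cd.σ 0 = cd.u := rfl
theorem σ_ne {j : ℤ} (h : j ≠ 0) (n : NN) : cd.σ j n = (cd.F j).e n := if_neg h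

theorem F_pred {j : ℤ} (h : j ≠ 0) : cd.F (j + -1) = cd.F j := by
  unfold F
  split_ifs <;> first | omega | rfl

theorem e_σ (j : ℤ) (n : NN) : (cd.F j).e n * cd.σ j n = cd.σ j n := by
  by_cases h : j = 0
  · subst h; exact cd.eu n
  · rw [cd.σ_ne h, HN.idem]

theorem σ_e (j : ℤ) (n : NN) : cd.σ j n * (cd.F (j + -1)).e n = cd.σ j n := by
  by_cases h : j = 0
  · subst h; exact cd.ue n
  · rw [cd.σ_ne h, cd.F_pred h, HN.idem]

theorem c_σ (j : ℤ) (a : Fin 2) (n : NN) :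
    (cd.F j).c a n * cd.σ j (n + vN a) = cd.σ j n * (cd.F (j + -1)).c a n := by
  by_cases h : j = 0
  · subst h; exact cd.cu a n
  · rw [cd.σ_ne h, cd.σ_ne h, cd.F_pred h, HN.left, HN.right]

def pe (i : Ix) : C := if i.1 = 2 ∧ (i.2.1 = 0 ∨ i.2.1 = -1) then (cd.F i.2.1).e i.2.2 else 0
def pc (a : Fin 2) (i : Ix) : C :=
  if i.1 = 2 ∧ (i.2.1 = 0 ∨ i.2.1 = -1) then (cd.F i.2.1).c a i.2.2 else 0
def pu (i : Ix) : C := if i.1 = 2 ∧ i.2.1 = 0 then cd.u i.2.2 else 0

def PC : FC C Ix (Fin 4) where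
  v := vI
  deg := degI
  degv := fun a => by fin_cases a <;> rfl
  e := cd.pe
  c := ![cd.pc 0, cd.pc 1, cd.pu, 0]
  idem := fun i => by unfold pe; split_ifs <;> simp [HN.idem]
  left := fun a ⟨t, j, n⟩ => by
    fin_cases a <;> simp [pe, pc, pu] <;> split_ifs <;> simp_all [HN.left, cd.eu]
  right := fun a ⟨t, j, n⟩ => by
    have h0 := (cd.F j).right 0 n
    have h1 := (cd.F j).right 1 n
    fin_cases a <;> simp [pe, pc, pu] <;> split_ifs <;> simp_all [cd.ue]
  sq := fun a ⟨t, j, n⟩ => by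
    have h0 := (cd.F j).sq 0 n
    have h1 := (cd.F j).sq 1 n
    fin_cases a <;> simp [pe, pc, pu] <;> intros <;> simp_all
  comm := fun a b ⟨t, j, n⟩ => by
    have h0 := (cd.F j).comm 0 1 n
    have h1 := cd.cu 0 n
    have h2 := cd.cu 1 n
    fin_cases a <;> fin_cases b <;> simp [pe, pc, pu] <;> split_ifs <;> simp_all

end CD

variable (cd : CD k C) (H : k)

def sel (t : ℤ) (a b c : C) : Lam cd H :=
  if t = 0 then mL cd H a b else if t = 1 then mR cd H a b else mC cd H c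

theorem sel_mul (t : ℤ) (a b c a' b' c' : C) : sel cd H t a b c * sel cd H t a' b' c' =
    sel cd H t (a * a') (a * b' + b * a') (c * c') := by
  unfold sel
  split_ifs <;> apply ext1 <;> simp

theorem sel_zero (t : ℤ) : sel cd H t 0 0 0 = 0 := by
  unfold sel
  split_ifs <;> rfl

def c3 (i : Ix) : Lam cd H :=
  if i.1 = 1 then mP cd H ((cd.F i.2.1).e i.2.2) (H ^ i.2.1 • (cd.F i.2.1).e i.2.2)
  else if i.1 = 2 then mT cd H (if i.2.1 = 0 then cd.P.e i.2.2 else 0)
    (if i.2.1 = -1 then cd.Q.e i.2.2 else 0) else 0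

def ze (i : Ix) : Lam cd H := sel cd H i.1 ((cd.F i.2.1).e i.2.2) 0 (cd.pe i)
def zc (a : Fin 2) (i : Ix) : Lam cd H := sel cd H i.1 ((cd.F i.2.1).c a i.2.2) 0 (cd.pc a i)
def zu (i : Ix) : Lam cd H := sel cd H i.1 0 (cd.σ i.2.1 i.2.2) (cd.pu i)

theorem tcs (t : ℤ) : t = 0 ∨ t = 1 ∨ t = 2 ∨ (t ≠ 0 ∧ t ≠ 1 ∧ t ≠ 2) := by omega
theorem jcs (j : ℤ) : j = 0 ∨ j = -1 ∨ (j ≠ 0 ∧ j ≠ -1) := by omega

theorem ze_c3 (i : Ix) : ze cd H i * c3 cd H i = c3 cd H i := by
  obtain ⟨t, j, n⟩ := i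
  rcases tcs t with rfl | rfl | rfl | ⟨h0, h1, h2⟩
  · simp [c3]
  · apply ext1 <;> simp [c3, ze, sel, HN.idem]
  · rcases jcs j with rfl | rfl | ⟨h0, h1⟩ <;> apply ext1 <;> simp [c3, ze, sel, CD.pe, HN.idem, *]
  · simp [c3, *]

theorem c3_ze (i : Ix) : c3 cd H i * ze cd H (i + vI 3) = c3 cd H i := by
  obtain ⟨t, j, n⟩ := i
  rcases tcs t with rfl | rfl | rfl | ⟨h0, h1, h2⟩
  · simp [c3]
  · apply ext1 <;> simp [c3, ze, sel, HN.idem]
  · rcases jcs j with rfl | rfl | ⟨h0, h1⟩ <;> apply ext1 <;> simp [c3, ze, sel, CD.pe, HN.idem, *]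
  · simp [c3, *]

theorem zc_c3 (a : Fin 2) (i : Ix) : zc cd H a i * c3 cd H (i + (0, 0, vN a)) =
    c3 cd H i * zc cd H a (i + vI 3) := by
  obtain ⟨t, j, n⟩ := i
  rcases tcs t with rfl | rfl | rfl | ⟨h0, h1, h2⟩
  · simp [c3]
  · apply ext1 <;> simp [c3, zc, sel, HN.left, HN.right]
  · rcases jcs j with rfl | rfl | ⟨h0, h1⟩ <;> apply ext1 <;>
      simp [c3, zc, sel, CD.pc, HN.left, HN.right, *]
  · simp [c3, *]

variable {H} [CharP k 2] (hH : H ≠ 0)
include hH

theorem zu_c3 (i : Ix) : zu cd H i * c3 cd H (i + vI 2) = c3 cd H i * zu cd H (i + vI 3) := by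
  obtain ⟨t, j, n⟩ := i
  rcases tcs t with rfl | rfl | rfl | ⟨h0, h1, h2⟩
  · simp [c3]
  · have : H * H ^ (j + -1) = H ^ j := by
      rw [mul_comm, ← zpow_add_one₀ hH, neg_add_cancel_right]
    apply ext1 <;> simp [c3, zu, sel, cd.e_σ, cd.σ_e, smul_smul, this]
  · rcases jcs j with rfl | rfl | ⟨h0, h1⟩ <;> apply ext1 <;>
      simp [c3, zu, sel, CD.pu, cd.eu, cd.ue, *]
  · simp [c3, *]

theorem c3_c3 (i : Ix) : c3 cd H i * c3 cd H (i + vI 3) = 0 := by
  obtain ⟨t, j, n⟩ := i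
  rcases tcs t with rfl | rfl | rfl | ⟨h0, h1, h2⟩
  · simp [c3]
  · simp [c3]
  · rcases jcs j with rfl | rfl | ⟨h0, h1⟩ <;> apply ext1 <;>
      simp [c3, smul_smul, hH, addself k, *]
  · simp [c3, *]

def ZZ : FC (Lam cd H) Ix (Fin 4) where
  v := vI
  deg := degI
  degv := fun a => by fin_cases a <;> rfl
  e := ze cd H
  c := ![zc cd H 0, zc cd H 1, zu cd H, c3 cd H]
  idem := fun i => by
    have := cd.PC.idem i
    simp only [ze, sel_mul, HN.idem, mul_zero, zero_mul, add_zero]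
    exact congrArg _ this
  left := fun a i => by
    have := cd.PC.left a i
    fin_cases a
    iterate 3
      simp only [ze, zc, zu, sel_mul, HN.left, cd.e_σ, mul_zero, zero_mul, add_zero,
        Matrix.cons_val, Fin.reduceFinMk, Fin.zero_eta, Fin.mk_one]
      exact congrArg _ this
    exact ze_c3 cd H i
  right := fun a i => by
    have := cd.PC.right a i
    fin_cases a
    iterate 3
      simp only [ze, zc, zu, sel_mul, HN.right, cd.σ_e, mul_zero, zero_mul, add_zero, zero_add,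
        Matrix.cons_val, Fin.reduceFinMk, Fin.zero_eta, Fin.mk_one, vI0, vI1, vI2, Prod.fst_add,
        Prod.snd_add, Prod.fst_zero, Prod.snd_zero]
      exact congrArg _ this
    exact c3_ze cd H i
  sq := fun a i => by
    have := cd.PC.sq a i
    fin_cases a
    iterate 3
      simp only [ze, zc, zu, sel_mul, HN.sq, mul_zero, zero_mul, add_zero, zero_add,
        Matrix.cons_val, Fin.reduceFinMk, Fin.zero_eta, Fin.mk_one, vI0, vI1, vI2, Prod.fst_add,
        Prod.snd_add, Prod.fst_zero, Prod.snd_zero]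
      exact (congrArg _ this).trans (sel_zero cd H _)
    exact c3_c3 cd hH i
  comm := fun a b i => by
    have h01 : zc cd H 0 i * zc cd H 1 (i + vI 0) = zc cd H 1 i * zc cd H 0 (i + vI 1) := by
      have := cd.PC.comm 0 1 i
      simp only [zc, sel_mul, mul_zero, zero_mul, add_zero, vI0, vI1, Prod.fst_add,
        Prod.snd_add, (cd.F i.2.1).comm 0 1]
      exact congrArg _ this
    have h2 : ∀ a : Fin 2, cd.pc a i * cd.pu (i + (0, 0, vN a)) = cd.pu i * cd.pc a (i + vI 2) →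
        zc cd H a i * zu cd H (i + (0, 0, vN a)) = zu cd H i * zc cd H a (i + vI 2) := by
      intro a this
      simp only [zc, zu, sel_mul, mul_zero, zero_mul, add_zero, zero_add, vI2, Prod.fst_add,
        Prod.snd_add, cd.c_σ]
      exact congrArg _ this
    have h02 := h2 0 (cd.PC.comm 0 2 i)
    have h12 := h2 1 (cd.PC.comm 1 2 i)
    have h03 := zc_c3 cd H 0 i
    have h13 := zc_c3 cd H 1 i
    have h23 := zu_c3 cd hH i
    fin_cases a <;> fin_cases b <;> first | rfl | assumption | (symm; assumption)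

end Vale.Agent.P195
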